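import Crest.Agent.R113.Blocks

/-!
# Row 113: block averages
-/

open MeasureTheory Filter Topology
open scoped InnerProductSpace BigOperators ENNReal

set_option linter.unusedSectionVars false

namespace Crest.Agent.R113

noncomputable section

open Classical

namespace Sys
variable {X : Type*} [MeasurableSpace X] {S : Sys X}

namespace Cut
variable {Z : Set X} {N : ℕ}

theorem avg_sum_Icc (f : ℤ → ℝ) (a b : ℕ) :
    ∑ k ∈ Finset.Icc (-(a : ℤ)) b, f k =
      ∑ k ∈ Finset.range a, f (-((k : ℤ) + 1)) + ∑ k ∈ Finset.range (b + 1), f k := by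
  induction a with
  | zero =>
    rw [Finset.range_zero, Finset.sum_empty, zero_add]
    refine Finset.sum_nbij' (fun k => k.toNat) (fun k => (k : ℤ)) ?_ ?_ ?_ ?_ ?_
    · intro k hk
      simp only [Finset.mem_Icc, Finset.mem_range] at hk ⊢
      omega
    · intro k hk
      simp only [Finset.mem_Icc, Finset.mem_range] at hk ⊢
      omega
    · intro k hk
      simp only [Finset.mem_Icc] at hk ⊢
      omega
    · intro k _
      simp
    · intro k hk
      simp only [Finset.mem_Icc] at hk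
      congr 1
      omega
  | succ a ih =>
    have e : Finset.Icc (-((a + 1 : ℕ) : ℤ)) b =
        insert (-((a : ℤ) + 1)) (Finset.Icc (-(a : ℤ)) b) := by
      ext k
      simp only [Finset.mem_Icc, Finset.mem_insert]
      omega
    rw [e, Finset.sum_insert (by simp only [Finset.mem_Icc]; omega), ih,
      Finset.sum_range_succ _ a]
    ring

theorem avg_card (x : X) : (Finset.Icc (-(S.tm Z x : ℤ)) (S.tp Z x)).card = S.len Z x := by
  rw [Int.card_Icc]
  unfold len
  omega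

theorem avg_len_pos (x : X) : (0 : ℝ) < S.len Z x := by
  have : 0 < S.len Z x := Nat.succ_pos _
  exact_mod_cast this

theorem avg_len_eq (x : X) : (S.len Z x : ℝ) = S.tm Z x + S.tp Z x + 1 := by
  unfold len
  push_cast
  ring

theorem avg_bdd_len (c : S.Cut Z N) : Bdd fun x => (S.len Z x : ℝ) := by
  simp only [avg_len_eq]
  exact (c.bdd_tm.add c.bdd_tp).add (Bdd.const 1)

theorem avg_σ_one_neg (c : S.Cut Z N) (x : X) : S.σ 1 (S.σ (-1) x) = x := by
  rw [← S.add, add_neg_cancel, c.zero]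

theorem avg_BC_block (c : S.Cut Z N) {g : X → ℝ} (hg : S.BC Z g) {x : X} {k : ℤ}
    (hk : k ∈ Finset.Icc (-(S.tm Z x : ℤ)) (S.tp Z x)) : g (S.σ k x) = g x := by
  rw [Finset.mem_Icc] at hk
  rcases le_total 0 k with h | h
  · obtain ⟨j, rfl⟩ := Int.eq_ofNat_of_zero_le h
    exact c.BC_shift hg (by omega)
  · obtain ⟨j, hj⟩ := Int.eq_ofNat_of_zero_le (neg_nonneg.mpr h)
    have h1 : S.Same Z (S.σ k x, -k) := (c.same_flip x k).mpr hk
    have h2 : j ≤ S.tp Z (S.σ k x) := by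
      have := h1.2
      simp only at this
      omega
    have h3 := c.BC_shift hg h2
    rw [← hj, ← S.add, neg_add_cancel, c.zero] at h3
    exact h3.symm

theorem avg_abs_le_aux {h : X → ℝ} {C : ℝ} (hC : ∀ x, |h x| ≤ C) (x : X) :
    |S.avg Z h x| ≤ C := by
  unfold avg
  rw [abs_div, abs_of_pos (avg_len_pos x), div_le_iff₀ (avg_len_pos x)]
  refine (Finset.abs_sum_le_sum_abs _ _).trans
    ((Finset.sum_le_card_nsmul _ _ C fun k _ => hC _).trans (le_of_eq ?_))
  rw [avg_card, nsmul_eq_mul, mul_comm]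

/-- write the sum over `Icc (-tm) tp` as a sum over `Icc (-N) N` of `if`s -/
theorem bdd_avg (c : S.Cut Z N) {h : X → ℝ} (hh : Bdd h) : Bdd (S.avg Z h) := by
  obtain ⟨C, hC⟩ := hh.2
  refine Bdd.of_abs_le ?_ (avg_abs_le_aux (C := C) hC)
  have e : S.avg Z h = fun x => (∑ k ∈ Finset.Icc (-(N : ℤ)) N,
      if S.Same Z (x, k) then h (S.σ k x) else 0) / S.len Z x := by
    funext x
    unfold avg
    rw [← Finset.sum_filter]
    refine congrArg (· / (S.len Z x : ℝ)) (Finset.sum_congr ?_ fun _ _ => rfl)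
    ext k
    have h1 := c.tm_lt x
    have h2 := c.tp_lt x
    rw [Finset.mem_filter]
    simp only [Finset.mem_Icc, Same]
    omega
  rw [e]
  refine Measurable.div (Finset.measurable_sum _ fun k _ => Measurable.ite ?_
    (hh.1.comp (S.meas_σ k)) measurable_const) c.avg_bdd_len.1
  exact c.meas_same.preimage (measurable_prodMk_right (y := k))

theorem BC_avg (c : S.Cut Z N) (h : X → ℝ) : S.BC Z (S.avg Z h) := by
  intro x hx
  have h1 := c.tm_succ hx
  have h2 := c.tp_succ hx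
  have h3 : (S.len Z (S.σ 1 x) : ℝ) = S.len Z x := c.BC_len x hx
  unfold avg
  rw [h3]
  congr 1
  refine Finset.sum_nbij' (fun k => k + 1) (fun k => k - 1) ?_ ?_ ?_ ?_ ?_
  · intro k hk
    simp only [Finset.mem_Icc] at hk ⊢
    omega
  · intro k hk
    simp only [Finset.mem_Icc] at hk ⊢
    omega
  · intro k _
    simp
  · intro k _
    simp
  · intro k _
    rw [S.add]

theorem abs_avg_le (c : S.Cut Z N) {h : X → ℝ} {C : ℝ} (hC : ∀ x, |h x| ≤ C) (x : X) :
    |S.avg Z h x| ≤ C := by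
  exact avg_abs_le_aux hC x

theorem avg_sub (h h' : X → ℝ) (x : X) :
    S.avg Z (fun x => h x - h' x) x = S.avg Z h x - S.avg Z h' x := by
  unfold avg
  rw [Finset.sum_sub_distrib, sub_div]

theorem avg_const (t : ℝ) (x : X) : S.avg Z (fun _ => t) x = t := by
  unfold avg
  rw [Finset.sum_const, avg_card, nsmul_eq_mul, mul_div_cancel_left₀ _ (avg_len_pos x).ne']

/-- A function with zero block sums is the coboundary of its partial sums
`G x = - ∑_{k = -tm x}^{0} u (σ k x)`, which vanish on `Z`; as the block sum vanishes,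
`|G x| ≤ C min (tm x + 1) (tp x) ≤ 2 C Hh x / len x`. -/
theorem exists_primitive (c : S.Cut Z N) {u : X → ℝ} (hu : Bdd u) {C : ℝ} (hC : ∀ x, |u x| ≤ C)
    (h0 : ∀ x, S.avg Z u x = 0) :
    ∃ G : X → ℝ, Bdd G ∧ (∀ x ∈ Z, G x = 0) ∧ (∀ x, u x = G (S.σ (-1) x) - G x) ∧
      ∀ x, |G x| * S.len Z x ≤ 2 * C * S.Hh Z x := by
  have hsum : ∀ x, S.cum Z u x + u x +
      ∑ k ∈ Finset.range (S.tp Z x), u (S.σ ((k + 1 : ℕ) : ℤ) x) = 0 := fun x => by
    have h1 := h0 x
    unfold avg at h1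
    rw [div_eq_zero_iff, or_iff_left (avg_len_pos x).ne', avg_sum_Icc (fun k => u (S.σ k x)),
      Finset.sum_range_succ', Nat.cast_zero, c.zero] at h1
    unfold cum
    linarith
  have hZ : ∀ x ∈ Z, -(S.cum Z u x + u x) = 0 := fun x hx => by
    have := hsum x
    rw [c.tp_eq_zero hx, Finset.range_zero, Finset.sum_empty] at this
    linarith
  refine ⟨fun x => -(S.cum Z u x + u x), ((c.bdd_cum hu).add hu).neg, hZ, fun x => ?_, fun x => ?_⟩
  · by_cases hy : S.σ (-1) x ∈ Z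
    · have h1 := c.tm_succ_eq_zero hy
      rw [c.avg_σ_one_neg] at h1
      have h2 : S.cum Z u x = 0 := by
        unfold cum
        rw [h1, Finset.range_zero, Finset.sum_empty]
      have h3 := hZ _ hy
      simp only
      linarith
    · have h1 := c.cum_succ u hy
      rw [c.avg_σ_one_neg] at h1
      simp only
      linarith
  · have h1 : |S.cum Z u x| ≤ S.tm Z x * C := by
      refine (Finset.abs_sum_le_sum_abs _ _).trans
        ((Finset.sum_le_card_nsmul _ _ C fun k _ => hC _).trans (le_of_eq ?_))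
      rw [Finset.card_range, nsmul_eq_mul]
    have h2 : |-(S.cum Z u x + u x)| ≤ (S.tm Z x + 1) * C := by
      rw [abs_neg]
      have := abs_add_le (S.cum Z u x) (u x)
      have := hC x
      linarith
    have h3 : |-(S.cum Z u x + u x)| ≤ S.tp Z x * C := by
      rw [neg_eq_of_add_eq_zero_right (hsum x)]
      refine (Finset.abs_sum_le_sum_abs _ _).trans
        ((Finset.sum_le_card_nsmul _ _ C fun k _ => hC _).trans (le_of_eq ?_))
      rw [Finset.card_range, nsmul_eq_mul]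
    have h4 := mul_le_mul_of_nonneg_right h2 (Nat.cast_nonneg (α := ℝ) (S.tp Z x))
    have h5 := mul_le_mul_of_nonneg_right h3
      (by positivity : (0 : ℝ) ≤ (S.tm Z x : ℝ) + 1)
    simp only
    rw [avg_len_eq]
    unfold Hh
    linarith

theorem avg_BC_mul (c : S.Cut Z N) {g : X → ℝ} (hg : S.BC Z g) (h : X → ℝ) (x : X) :
    S.avg Z (fun x => g x * h x) x = g x * S.avg Z h x := by
  unfold avg
  rw [← mul_div_assoc, Finset.mul_sum]
  congr 1
  exact Finset.sum_congr rfl fun k hk => by simp only [c.avg_BC_block hg hk]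

theorem avg_sub_avg (c : S.Cut Z N) (h : X → ℝ) (x : X) :
    S.avg Z (fun x => h x - S.avg Z h x) x = 0 := by
  have h1 := c.avg_BC_mul (c.BC_avg h) (fun _ => 1) x
  simp only [mul_one, avg_const] at h1
  rw [avg_sub, h1, sub_self]

/-- `avg` is the conditional expectation onto block constant functions -/
theorem integral_BC_mul (c : S.Cut Z N) {g h : X → ℝ} (hg : Bdd g) (hBC : S.BC Z g)
    (hh : Bdd h) : ∫ x, g x * h x ∂S.μ = ∫ x, g x * S.avg Z h x ∂S.μ := by
  have hw := hh.sub (c.bdd_avg hh)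
  obtain ⟨C, hC⟩ := hw.2
  obtain ⟨G, hG, hG0, hG1, -⟩ := c.exists_primitive hw (C := C) hC (c.avg_sub_avg h)
  have h1 := c.integral_cob_BC hG hG0 hg hBC
  rw [← sub_eq_zero, ← integral_sub ((hg.mul hh).integrable _)
    ((hg.mul (c.bdd_avg hh)).integrable _), ← h1]
  refine integral_congr_ae (Eventually.of_forall fun x => ?_)
  simp only
  rw [← hG1 x]
  ring

theorem integral_sq_eq (c : S.Cut Z N) {h : X → ℝ} (hh : Bdd h) :
    ∫ x, h x ^ 2 ∂S.μ = ∫ x, S.avg Z h x ^ 2 ∂S.μ + ∫ x, (h x - S.avg Z h x) ^ 2 ∂S.μ := by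
  have ha := c.bdd_avg hh
  have h1 := c.integral_BC_mul ha (c.BC_avg h) hh
  have h2 : ∫ x, (h x - S.avg Z h x) ^ 2 ∂S.μ = ∫ x, h x ^ 2 ∂S.μ -
      2 * ∫ x, S.avg Z h x * h x ∂S.μ + ∫ x, S.avg Z h x ^ 2 ∂S.μ := by
    rw [← integral_const_mul, ← integral_sub ((hh.pow 2).integrable _)
      (((ha.mul hh).const_mul 2).integrable _), ← integral_add
      (((hh.pow 2).sub ((ha.mul hh).const_mul 2)).integrable _) ((ha.pow 2).integrable _)]
    refine integral_congr_ae (Eventually.of_forall fun x => ?_)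
    simp only
    ring
  simp only [← sq] at h1
  linarith

theorem integral_avg_sq_le (c : S.Cut Z N) {h : X → ℝ} (hh : Bdd h) :
    ∫ x, S.avg Z h x ^ 2 ∂S.μ ≤ ∫ x, h x ^ 2 ∂S.μ := by
  rw [c.integral_sq_eq hh]
  exact le_add_of_nonneg_right (integral_nonneg fun x => sq_nonneg _)

/-- A function which increases along the blocks (off an exceptional set `E`) is positively
correlated with `D = Hh ∘ σ (-1) - Hh` (`integral_cob`; `0 ≤ Hh ≤ N²`, `Hh = 0` on `Z`). -/
theorem integral_D_mul_ge (c : S.Cut Z N) {h : X → ℝ} (hh : Measurable h) (h0 : ∀ x, 0 ≤ h x)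
    (h1 : ∀ x, h x ≤ 1) {E : Set X} (hE : MeasurableSet E)
    (hmono : ∀ᵐ x ∂S.μ, x ∉ Z → x ∉ E → h x ≤ h (S.σ 1 x)) :
    -((N : ℝ) ^ 2 * S.μ.real E) ≤ ∫ x, S.D Z x * h x ∂S.μ := by
  have hb : Bdd h := Bdd.of_mem_Icc hh h0 h1
  simp only [c.D_eq]
  rw [c.integral_cob c.bdd_Hh hb, ← integral_indicator_one hE, ← integral_const_mul,
    ← integral_neg]
  refine integral_mono_ae
    ((((Bdd.const (1 : ℝ)).indicator hE).const_mul _).neg.integrable _)
    ((c.bdd_Hh.mul ((hb.comp (S.meas_σ 1)).sub hb)).integrable _) ?_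
  filter_upwards [hmono] with x hx
  have a1 := Hh_nonneg (S := S) (Z := Z) x
  have a2 := c.Hh_le x
  by_cases hxE : x ∈ E
  · rw [Set.indicator_of_mem hxE, Pi.one_apply]
    have := mul_le_mul_of_nonneg_left
      (show -1 ≤ h (S.σ 1 x) - h x by linarith [h0 (S.σ 1 x), h1 x]) a1
    linarith
  · rw [Set.indicator_of_notMem hxE, mul_zero, neg_zero]
    by_cases hxZ : x ∈ Z
    · rw [c.Hh_eq_zero hxZ, zero_mul]
    · exact mul_nonneg a1 (sub_nonneg.mpr (hx hxZ hxE))

/-- If moreover that correlation is small, the function is nearly constant on blocks.  Apply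
`exists_primitive` to `u = (h - avg h) 1[ℓ ≤ len]` (`|u| ≤ 1`, `BC_len`, `avg_BC_mul`):
`∫ u (h - avg h) = ∫ u h = ∫ G (h ∘ σ 1 - h) ≤ (2 / ℓ) ∫ Hh |h ∘ σ 1 - h|` (on blocks shorter than
`ℓ` the primitive vanishes; alternatively replace `G` by `G 1[ℓ ≤ len]`), and off `Z`
`|h ∘ σ 1 - h| ≤ (h ∘ σ 1 - h) + 2 · 1_E`.  Short blocks lie in `{tp < ℓ}`. -/
theorem integral_sub_avg_sq_le (c : S.Cut Z N) {h : X → ℝ} (hh : Measurable h) (h0 : ∀ x, 0 ≤ h x)
    (h1 : ∀ x, h x ≤ 1) {E : Set X} (hE : MeasurableSet E)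
    (hmono : ∀ᵐ x ∂S.μ, x ∉ Z → x ∉ E → h x ≤ h (S.σ 1 x)) {ℓ : ℕ} (hℓ : 1 ≤ ℓ) :
    ∫ x, (h x - S.avg Z h x) ^ 2 ∂S.μ ≤
      2 / ℓ * (∫ x, S.D Z x * h x ∂S.μ + 2 * ((N : ℝ) ^ 2 * S.μ.real E)) +
        S.μ.real {x | S.tp Z x < ℓ} := by
  have hb : Bdd h := Bdd.of_mem_Icc hh h0 h1
  have ha := c.bdd_avg hb
  have hw := hb.sub ha
  have hℓ0 : (0 : ℝ) < ℓ := by exact_mod_cast hℓ
  have hw1 : ∀ x, |h x - S.avg Z h x| ≤ 1 := fun x => by
    have a1 := c.abs_avg_le (h := fun x => h x - 1 / 2) (C := 1 / 2)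
      (fun y => abs_le.mpr ⟨by linarith [h0 y], by linarith [h1 y]⟩) x
    rw [avg_sub h fun _ => 1 / 2, avg_const, abs_le] at a1
    exact abs_le.mpr ⟨by linarith [h0 x, a1.2], by linarith [h1 x, a1.1]⟩
  obtain ⟨G₀, hG₀, hG0, hG1, hG2⟩ := c.exists_primitive hw hw1 (c.avg_sub_avg h)
  have hm : MeasurableSet {x | (ℓ : ℝ) ≤ S.len Z x} :=
    measurableSet_le measurable_const c.avg_bdd_len.1
  set G : X → ℝ := fun x => if (ℓ : ℝ) ≤ S.len Z x then G₀ x else 0 with hG
  have hGb : Bdd G := Bdd.ite hm hG₀ (Bdd.const 0)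
  have hGZ : ∀ x ∈ Z, G x = 0 := fun x hx => by simp only [hG, hG0 x hx, ite_self]
  have hGc : ∀ x, G (S.σ (-1) x) - G x =
      if (ℓ : ℝ) ≤ S.len Z x then h x - S.avg Z h x else 0 := fun x => by
    rw [hG1 x]
    by_cases hy : S.σ (-1) x ∈ Z
    · rw [hGZ _ hy, hG0 _ hy]
      simp only [hG]
      split_ifs <;> simp
    · have a1 : (S.len Z (S.σ 1 (S.σ (-1) x)) : ℝ) = S.len Z (S.σ (-1) x) := c.BC_len _ hy
      rw [c.avg_σ_one_neg] at a1
      simp only [hG, ← a1]
      split_ifs <;> simp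
  have hGle : ∀ x, |G x| ≤ 2 / ℓ * S.Hh Z x := fun x => by
    have a1 := Hh_nonneg (S := S) (Z := Z) x
    simp only [hG]
    split_ifs with hx
    · rw [div_mul_eq_mul_div, le_div_iff₀ hℓ0]
      have := mul_le_mul_of_nonneg_left hx (abs_nonneg (G₀ x))
      have := hG2 x
      linarith
    · rw [abs_zero]; positivity
  have hcob : Bdd fun x => G (S.σ (-1) x) - G x := (hGb.comp (S.meas_σ _)).sub hGb
  have hΔ : Bdd fun x => h (S.σ 1 x) - h x := (hb.comp (S.meas_σ 1)).sub hb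
  have hT : MeasurableSet {x | S.tp Z x < ℓ} := measurableSet_lt c.meas_tp measurable_const
  have s1 : ∫ x, (h x - S.avg Z h x) ^ 2 ∂S.μ ≤
      ∫ x, (G (S.σ (-1) x) - G x) * (h x - S.avg Z h x) ∂S.μ + S.μ.real {x | S.tp Z x < ℓ} := by
    have i2 : Bdd ({x | S.tp Z x < ℓ}.indicator (1 : X → ℝ)) := (Bdd.const (1 : ℝ)).indicator hT
    rw [← integral_indicator_one hT, ← integral_add ((hcob.mul hw).integrable _) (i2.integrable _)]
    refine integral_mono ((hw.pow 2).integrable _) (((hcob.mul hw).add i2).integrable _)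
      fun x => ?_
    simp only [hGc]
    split_ifs with hx
    · have : 0 ≤ {x | S.tp Z x < ℓ}.indicator (1 : X → ℝ) x :=
        Set.indicator_nonneg (fun _ _ => zero_le_one) x
      linarith [sq (h x - S.avg Z h x)]
    · have a1 : x ∈ {x | S.tp Z x < ℓ} := by
        have a2 : (S.len Z x : ℝ) < ℓ := not_le.mp hx
        have a3 : S.len Z x < ℓ := by exact_mod_cast a2
        unfold len at a3
        show S.tp Z x < ℓ
        omega
      rw [Set.indicator_of_mem a1, Pi.one_apply, zero_mul, zero_add]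
      exact (sq_le_one_iff_abs_le_one _).mpr (hw1 x)
  have s2 : ∫ x, (G (S.σ (-1) x) - G x) * (h x - S.avg Z h x) ∂S.μ =
      ∫ x, G x * (h (S.σ 1 x) - h x) ∂S.μ := by
    simp only [mul_sub (G (S.σ (-1) _) - G _)]
    rw [integral_sub ((hcob.mul hb).integrable _) ((hcob.mul ha).integrable _),
      c.integral_cob_BC hGb hGZ ha (c.BC_avg h), sub_zero, c.integral_cob hGb hb]
  have s3 : ∫ x, G x * (h (S.σ 1 x) - h x) ∂S.μ ≤
      2 / ℓ * (∫ x, S.D Z x * h x ∂S.μ + 2 * ((N : ℝ) ^ 2 * S.μ.real E)) := by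
    have i2 : Bdd (E.indicator (1 : X → ℝ)) := (Bdd.const (1 : ℝ)).indicator hE
    have i3 := (i2.const_mul ((N : ℝ) ^ 2)).const_mul 2
    simp only [c.D_eq]
    rw [c.integral_cob c.bdd_Hh hb, ← integral_indicator_one hE, ← integral_const_mul,
      ← integral_const_mul, ← integral_add ((c.bdd_Hh.mul hΔ).integrable _) (i3.integrable _),
      ← integral_const_mul]
    refine integral_mono_ae ((hGb.mul hΔ).integrable _)
      ((((c.bdd_Hh.mul hΔ).add i3).const_mul _).integrable _) ?_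
    filter_upwards [hmono] with x hx
    have a1 := Hh_nonneg (S := S) (Z := Z) x
    have a2 := c.Hh_le x
    have a3 : G x * (h (S.σ 1 x) - h x) ≤ 2 / ℓ * (S.Hh Z x * |h (S.σ 1 x) - h x|) := by
      rw [← mul_assoc]
      refine (le_abs_self _).trans ?_
      rw [abs_mul]
      exact mul_le_mul_of_nonneg_right (hGle x) (abs_nonneg _)
    refine a3.trans (mul_le_mul_of_nonneg_left ?_ (by positivity))
    by_cases hxE : x ∈ E
    · rw [Set.indicator_of_mem hxE, Pi.one_apply]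
      have a4 : |h (S.σ 1 x) - h x| ≤ h (S.σ 1 x) - h x + 2 :=
        abs_le.mpr ⟨by linarith [h0 (S.σ 1 x), h1 x], by linarith⟩
      have := mul_le_mul_of_nonneg_left a4 a1
      linarith
    · rw [Set.indicator_of_notMem hxE, mul_zero, mul_zero, add_zero]
      by_cases hxZ : x ∈ Z
      · rw [c.Hh_eq_zero hxZ, zero_mul, zero_mul]
      · rw [abs_of_nonneg (sub_nonneg.mpr (hx hxZ hxE))]
  linarith

end Cut

end Sys

end

end Crest.Agent.R113
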