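import Crest.Agent.R113.Level

/-!
# Row 113: the positions in the nested blocks form a Bessel family
-/

open MeasureTheory Filter Topology
open scoped InnerProductSpace BigOperators ENNReal

set_option linter.unusedSectionVars false

namespace Crest.Agent.R113

noncomputable section

open Classical

theorem bessel_geo (s : Finset ℕ) (φ : ℕ → ℕ) (hφ : Set.InjOn φ s) :
    ∑ j ∈ s, (1 / 2 : ℝ) ^ φ j ≤ 2 := by
  rw [← Finset.sum_image (f := fun k => (1 / 2 : ℝ) ^ k) hφ]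
  exact (summable_geometric_two.sum_le_tsum _ fun _ _ => by positivity).trans
    tsum_geometric_two.le

theorem bessel_row (s : Finset ℕ) (i : ℕ) :
    ∑ j ∈ s, (1 / 2 : ℝ) ^ ((i - j) + (j - i)) ≤ 4 := by
  rw [← Finset.sum_filter_add_sum_filter_not s fun j => j ≤ i]
  have h1 := bessel_geo (s.filter fun j => j ≤ i) (fun j => (i - j) + (j - i)) (by
    intro x hx y hy hxy
    simp only [Finset.coe_filter, Set.mem_ofPred_eq] at hx hy hxy
    omega)
  have h2 := bessel_geo (s.filter fun j => ¬ j ≤ i) (fun j => (i - j) + (j - i)) (by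
    intro x hx y hy hxy
    simp only [Finset.coe_filter, Set.mem_ofPred_eq] at hx hy hxy
    omega)
  linarith

theorem bessel_schur (s : Finset ℕ) (a : ℕ → ℝ) :
    ∑ i ∈ s, ∑ j ∈ s, a i * a j * (1 / 2 : ℝ) ^ ((i - j) + (j - i)) ≤ 4 * ∑ i ∈ s, a i ^ 2 := by
  have h1 : ∑ i ∈ s, ∑ j ∈ s, a i ^ 2 * (1 / 2 : ℝ) ^ ((i - j) + (j - i)) ≤
      4 * ∑ i ∈ s, a i ^ 2 := by
    rw [Finset.mul_sum]
    refine Finset.sum_le_sum fun i _ => ?_
    rw [← Finset.mul_sum, mul_comm]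
    exact mul_le_mul_of_nonneg_right (bessel_row s i) (sq_nonneg _)
  have h2 : ∑ i ∈ s, ∑ j ∈ s, a j ^ 2 * (1 / 2 : ℝ) ^ ((i - j) + (j - i)) ≤
      4 * ∑ i ∈ s, a i ^ 2 := by
    rw [Finset.sum_comm]
    simpa only [add_comm] using h1
  have h3 : ∑ i ∈ s, ∑ j ∈ s, a i * a j * (1 / 2 : ℝ) ^ ((i - j) + (j - i)) ≤
      (∑ i ∈ s, ∑ j ∈ s, a i ^ 2 * (1 / 2 : ℝ) ^ ((i - j) + (j - i)) +
        ∑ i ∈ s, ∑ j ∈ s, a j ^ 2 * (1 / 2 : ℝ) ^ ((i - j) + (j - i))) / 2 := by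
    rw [← Finset.sum_add_distrib, Finset.sum_div]
    refine Finset.sum_le_sum fun i _ => ?_
    rw [← Finset.sum_add_distrib, Finset.sum_div]
    refine Finset.sum_le_sum fun j _ => ?_
    have : (0 : ℝ) ≤ (1 / 2 : ℝ) ^ ((i - j) + (j - i)) := by positivity
    nlinarith [mul_nonneg this (sq_nonneg (a i - a j))]
  linarith

theorem bessel_cs {X : Type*} [MeasurableSpace X] (μ : Measure X) [IsFiniteMeasure μ]
    {G u : X → ℝ} (hG : Bdd G) (hu : Bdd u) {A e : ℝ} (hA : 0 ≤ A) (he : 0 ≤ e)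
    (h₁ : ∫ x, G x ^ 2 ∂μ ≤ A ^ 2) (h₂ : ∫ x, u x ^ 2 ∂μ ≤ e ^ 2) :
    ∫ x, G x * u x ∂μ ≤ A * e := by
  have key : ∀ s : ℝ, 0 ≤ A ^ 2 * (s * s) + (-2 * ∫ x, G x * u x ∂μ) * s + e ^ 2 := by
    intro s
    have h0 : 0 ≤ ∫ x, (s * G x - u x) ^ 2 ∂μ := integral_nonneg fun _ => sq_nonneg _
    have h3 : ∫ x, (s * G x - u x) ^ 2 ∂μ =
        s ^ 2 * ∫ x, G x ^ 2 ∂μ - 2 * s * ∫ x, G x * u x ∂μ + ∫ x, u x ^ 2 ∂μ := by
      rw [← integral_const_mul, ← integral_const_mul,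
        ← integral_sub (((hG.pow 2).const_mul _).integrable μ)
          (((hG.mul hu).const_mul _).integrable μ),
        ← integral_add ((((hG.pow 2).const_mul _).sub ((hG.mul hu).const_mul _)).integrable μ)
          ((hu.pow 2).integrable μ)]
      exact integral_congr_ae (Eventually.of_forall fun x => by ring)
    nlinarith [mul_le_mul_of_nonneg_left h₁ (sq_nonneg s)]
  have hd := discrim_le_zero key
  rw [discrim] at hd
  exact (abs_le_of_sq_le_sq' (by nlinarith) (mul_nonneg hA he)).2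

theorem bessel_le_sqrt {s : Finset ℕ} {a : ℕ → ℝ} {K : ℝ} (hK : ∑ i ∈ s, a i ^ 2 ≤ K) {i : ℕ}
    (hi : i ∈ s) : a i ≤ Real.sqrt K :=
  Real.le_sqrt_of_sq_le
    ((Finset.single_le_sum (f := fun i => a i ^ 2) (fun _ _ => sq_nonneg _) hi).trans hK)

theorem bessel_sum_geo {m M : ℕ} {a : ℕ → ℝ} {K : ℝ} (hK : ∑ i ∈ Finset.Ico m M, a i ^ 2 ≤ K) :
    ∑ i ∈ Finset.Ico m M, a i * (1 / 2 : ℝ) ^ (i - m) ≤ 2 * Real.sqrt K := by
  have h1 := bessel_geo (Finset.Ico m M) (fun i => i - m) (by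
    intro x hx y hy hxy
    simp only [Finset.coe_Ico, Set.mem_Ico] at hx hy hxy
    omega)
  calc ∑ i ∈ Finset.Ico m M, a i * (1 / 2 : ℝ) ^ (i - m)
      ≤ ∑ i ∈ Finset.Ico m M, Real.sqrt K * (1 / 2 : ℝ) ^ (i - m) :=
        Finset.sum_le_sum fun i hi =>
          mul_le_mul_of_nonneg_right (bessel_le_sqrt hK hi) (by positivity)
    _ ≤ 2 * Real.sqrt K := by
        rw [← Finset.mul_sum, mul_comm]
        exact mul_le_mul_of_nonneg_right h1 (Real.sqrt_nonneg _)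

namespace Lev
variable {X : Type*} [MeasurableSpace X] {S : Sys X} (Λ : Lev S)

theorem BC_D_sub {i j : ℕ} (h : i ≤ j) :
    S.BC (Λ.Z i) fun x => S.D (Λ.Z j) x - S.D (Λ.Z i) x := by
  intro x hx
  have hx' : x ∉ Λ.Z j := fun h' => hx (Λ.Z_anti h h')
  simp only [(Λ.cut i).D_succ hx, (Λ.cut j).D_succ hx']
  ring

/-- `∫ D_i D_j = ∫ D_i² ≤ 9 (B i)²` for `i ≤ j` -/
theorem integral_D_mul_D {i j : ℕ} (h : i ≤ j) :
    ∫ x, S.D (Λ.Z i) x * S.D (Λ.Z j) x ∂S.μ ≤ 9 * (Λ.B i : ℝ) ^ 2 := by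
  have hi := (Λ.cut i).bdd_D
  have hj := (Λ.cut j).bdd_D
  have h0 := (Λ.cut i).integral_D_BC (hj.sub hi) (Λ.BC_D_sub h)
  have h1 : ∫ x, S.D (Λ.Z i) x * S.D (Λ.Z j) x ∂S.μ =
      ∫ x, S.D (Λ.Z i) x * (S.D (Λ.Z j) x - S.D (Λ.Z i) x) ∂S.μ +
        ∫ x, S.D (Λ.Z i) x ^ 2 ∂S.μ := by
    rw [← integral_add ((hi.mul (hj.sub hi)).integrable _) ((hi.pow 2).integrable _)]
    exact integral_congr_ae (Eventually.of_forall fun x => by ring)
  rw [h1, h0, zero_add]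
  calc ∫ x, S.D (Λ.Z i) x ^ 2 ∂S.μ ≤ ∫ _, 9 * (Λ.B i : ℝ) ^ 2 ∂S.μ := by
        refine integral_mono ((hi.pow 2).integrable _) (integrable_const _) fun x => ?_
        have := (Λ.cut i).abs_D_le x
        push_cast at this
        have h2 := sq_le_sq' (abs_le.1 this).1 (abs_le.1 this).2
        simp only
        linarith
    _ = _ := by simp

theorem bessel_B_pos (i : ℕ) : (0 : ℝ) < Λ.B i := by
  have := Λ.B_pos i
  exact_mod_cast this

theorem bessel_ratio {i j : ℕ} (h : i ≤ j) : (Λ.B i : ℝ) / Λ.B j ≤ (1 / 2 : ℝ) ^ (j - i) := by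
  have h1 := Λ.B_pow_le h
  rw [one_div, inv_pow, div_le_iff₀ (Λ.bessel_B_pos j), ← div_eq_inv_mul,
    le_div_iff₀ (by positivity)]
  linarith

theorem bessel_gram (i j : ℕ) :
    (∫ x, S.D (Λ.Z i) x * S.D (Λ.Z j) x ∂S.μ) / (Λ.B i * Λ.B j) ≤
      9 * (1 / 2 : ℝ) ^ ((i - j) + (j - i)) := by
  wlog h : i ≤ j generalizing i j
  · have := this j i (le_of_not_ge h)
    simpa only [mul_comm, add_comm] using this
  have hi := Λ.bessel_B_pos i
  have hj := Λ.bessel_B_pos j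
  rw [Nat.sub_eq_zero_of_le h, zero_add]
  calc _ ≤ 9 * (Λ.B i : ℝ) ^ 2 / (Λ.B i * Λ.B j) :=
        div_le_div_of_nonneg_right (Λ.integral_D_mul_D h) (by positivity)
    _ = 9 * ((Λ.B i : ℝ) / Λ.B j) := by field_simp
    _ ≤ _ := by linarith [Λ.bessel_ratio h]

/-- `F = ∑ a i D_i / B i` has `∫ F² ≤ 9 ∑ a i a j 2^{-|i-j|} ≤ 27 K`.  Write `F = G + κ D_m`, `G` block
constant of mean zero and orthogonal to `D_m`, `κ = ∑ a i / B i ≤ 2 √K / B m`.  Then
`∫ G h = ∫ G (avg h - t) ≤ ‖F‖₂ e`. -/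
theorem bessel {h : X → ℝ} (hh : Bdd h) {m M : ℕ} {a : ℕ → ℝ} (ha : ∀ i, 0 ≤ a i) {K : ℝ}
    (hK : ∑ i ∈ Finset.Ico m M, a i ^ 2 ≤ K) {t e : ℝ} (he : 0 ≤ e)
    (h₁ : ∫ x, (S.avg (Λ.Z m) h x - t) ^ 2 ∂S.μ ≤ e ^ 2)
    (h₂ : ∫ x, S.D (Λ.Z m) x * h x ∂S.μ ≤ e * Λ.B m) :
    ∑ i ∈ Finset.Ico m M, a i * ((∫ x, S.D (Λ.Z i) x * h x ∂S.μ) / Λ.B i) ≤
      10 * Real.sqrt K * e := by
  set s := Finset.Ico m M with hs
  have hK0 : 0 ≤ K := (Finset.sum_nonneg fun _ _ => sq_nonneg _).trans hK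
  have hD : ∀ i, Bdd (S.D (Λ.Z i)) := fun i => (Λ.cut i).bdd_D
  set F : X → ℝ := fun x => ∑ i ∈ s, a i / Λ.B i * S.D (Λ.Z i) x with hF
  set G : X → ℝ := fun x => ∑ i ∈ s, a i / Λ.B i * (S.D (Λ.Z i) x - S.D (Λ.Z m) x) with hG
  set κ : ℝ := ∑ i ∈ s, a i / Λ.B i with hκ
  have hFb : Bdd F := Bdd.sum s fun i _ => (hD i).const_mul _
  have hGb : Bdd G := Bdd.sum s fun i _ => ((hD i).sub (hD m)).const_mul _
  have hFG : ∀ x, F x = G x + κ * S.D (Λ.Z m) x := by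
    intro x
    simp only [hF, hG, hκ, Finset.sum_mul, ← Finset.sum_add_distrib]
    exact Finset.sum_congr rfl fun _ _ => by ring
  have hGBC : S.BC (Λ.Z m) G := by
    intro x hx
    refine Finset.sum_congr rfl fun i hi => ?_
    have := Λ.BC_D_sub (Finset.mem_Ico.1 hi).1 x hx
    simp only at this
    rw [this]
  have hD0 : ∀ i, ∫ x, S.D (Λ.Z i) x ∂S.μ = 0 := by
    intro i
    have := (Λ.cut i).integral_D_BC (Bdd.const (1 : ℝ)) fun _ _ => rfl
    simpa using this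
  have hG0 : ∫ x, G x ∂S.μ = 0 := by
    simp only [hG]
    rw [integral_finsetSum _ fun i _ => (((hD i).sub (hD m)).const_mul _).integrable _]
    refine Finset.sum_eq_zero fun i _ => ?_
    rw [integral_const_mul, integral_sub ((hD i).integrable _) ((hD m).integrable _), hD0, hD0]
    simp
  have hF2 : ∫ x, F x ^ 2 ∂S.μ ≤ 36 * K := by
    have e1 : ∀ x, F x ^ 2 = ∑ i ∈ s, ∑ j ∈ s,
        a i / Λ.B i * (a j / Λ.B j) * (S.D (Λ.Z i) x * S.D (Λ.Z j) x) := by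
      intro x
      simp only [hF, sq, Finset.sum_mul_sum]
      exact Finset.sum_congr rfl fun _ _ => Finset.sum_congr rfl fun _ _ => by ring
    simp only [e1]
    rw [integral_finsetSum _ fun i _ =>
      (Bdd.sum s fun j _ => ((hD i).mul (hD j)).const_mul _).integrable _]
    calc _ ≤ ∑ i ∈ s, ∑ j ∈ s, 9 * (a i * a j * (1 / 2 : ℝ) ^ ((i - j) + (j - i))) := by
          refine Finset.sum_le_sum fun i _ => ?_
          rw [integral_finsetSum _ fun j _ => (((hD i).mul (hD j)).const_mul _).integrable _]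
          refine Finset.sum_le_sum fun j _ => ?_
          rw [integral_const_mul]
          have h3 := mul_le_mul_of_nonneg_left (Λ.bessel_gram i j) (mul_nonneg (ha i) (ha j))
          calc _ = a i * a j * ((∫ x, S.D (Λ.Z i) x * S.D (Λ.Z j) x ∂S.μ) / (Λ.B i * Λ.B j)) := by
                ring
            _ ≤ _ := h3
            _ = _ := by ring
      _ ≤ 36 * K := by
          simp only [← Finset.mul_sum]
          linarith [bessel_schur s a]
  have hG2 : ∫ x, G x ^ 2 ∂S.μ ≤ (6 * Real.sqrt K) ^ 2 := by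
    have e0 := (Λ.cut m).integral_D_BC hGb hGBC
    have e1 : ∫ x, F x ^ 2 ∂S.μ = ∫ x, G x ^ 2 ∂S.μ + 2 * κ * ∫ x, S.D (Λ.Z m) x * G x ∂S.μ +
        ∫ x, (κ * S.D (Λ.Z m) x) ^ 2 ∂S.μ := by
      rw [← integral_const_mul,
        ← integral_add ((hGb.pow 2).integrable _) ((((hD m).mul hGb).const_mul _).integrable _),
        ← integral_add (((hGb.pow 2).add (((hD m).mul hGb).const_mul _)).integrable _)
          ((((hD m).const_mul _).pow 2).integrable _)]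
      exact integral_congr_ae (Eventually.of_forall fun x => by simp only [hFG]; ring)
    have e2 : 0 ≤ ∫ x, (κ * S.D (Λ.Z m) x) ^ 2 ∂S.μ := integral_nonneg fun _ => sq_nonneg _
    rw [mul_pow, Real.sq_sqrt hK0]
    rw [e0] at e1
    linarith
  have hav := (Λ.cut m).bdd_avg hh
  have hGh : ∫ x, G x * h x ∂S.μ ≤ 6 * Real.sqrt K * e := by
    have e1 : ∫ x, G x * (S.avg (Λ.Z m) h x - t) ∂S.μ =
        ∫ x, G x * S.avg (Λ.Z m) h x ∂S.μ - t * ∫ x, G x ∂S.μ := by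
      rw [← integral_const_mul,
        ← integral_sub ((hGb.mul hav).integrable _) ((hGb.const_mul _).integrable _)]
      exact integral_congr_ae (Eventually.of_forall fun x => by ring)
    have e2 := bessel_cs S.μ hGb (hav.sub (Bdd.const t)) (by positivity) he hG2 h₁
    rw [(Λ.cut m).integral_BC_mul hGb hGBC hh]
    rw [e1, hG0] at e2
    linarith
  have hκ0 : 0 ≤ κ := Finset.sum_nonneg fun i _ => div_nonneg (ha i) (Λ.bessel_B_pos i).le
  have hκ1 : κ * Λ.B m ≤ 2 * Real.sqrt K := by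
    refine le_trans ?_ (bessel_sum_geo hK)
    rw [hκ, Finset.sum_mul]
    refine Finset.sum_le_sum fun i hi => ?_
    have h3 := mul_le_mul_of_nonneg_left (Λ.bessel_ratio (Finset.mem_Ico.1 hi).1) (ha i)
    calc _ = a i * ((Λ.B m : ℝ) / Λ.B i) := by ring
      _ ≤ _ := h3
  have hL : ∑ i ∈ s, a i * ((∫ x, S.D (Λ.Z i) x * h x ∂S.μ) / Λ.B i) =
      ∫ x, G x * h x ∂S.μ + κ * ∫ x, S.D (Λ.Z m) x * h x ∂S.μ := by
    rw [← integral_const_mul,
      ← integral_add ((hGb.mul hh).integrable _) ((((hD m).mul hh).const_mul _).integrable _)]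
    have e1 : ∀ x, G x * h x + κ * (S.D (Λ.Z m) x * h x) =
        ∑ i ∈ s, a i / Λ.B i * (S.D (Λ.Z i) x * h x) := by
      intro x
      have := hFG x
      calc _ = F x * h x := by rw [this]; ring
        _ = _ := by
          simp only [hF, Finset.sum_mul]
          exact Finset.sum_congr rfl fun _ _ => by ring
    simp only [e1]
    rw [integral_finsetSum _ fun i _ => (((hD i).mul hh).const_mul _).integrable _]
    refine Finset.sum_congr rfl fun i _ => ?_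
    rw [integral_const_mul]
    ring
  rw [hL]
  have h4 := mul_le_mul_of_nonneg_left h₂ hκ0
  have h5 := mul_le_mul_of_nonneg_right hκ1 he
  have h6 : 0 ≤ Real.sqrt K * e := by positivity
  nlinarith

theorem sum_err_le {m M : ℕ} {a : ℕ → ℝ} (ha : ∀ i, 0 ≤ a i) {K : ℝ}
    (hK : ∑ i ∈ Finset.Ico m M, a i ^ 2 ≤ K) :
    ∑ i ∈ Finset.Ico m M, a i * (27 / 2 ^ i) ≤ 54 * Real.sqrt K / 2 ^ m := by
  have h1 := bessel_sum_geo hK
  have h2 : ∑ i ∈ Finset.Ico m M, a i * (27 / 2 ^ i) =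
      27 / 2 ^ m * ∑ i ∈ Finset.Ico m M, a i * (1 / 2 : ℝ) ^ (i - m) := by
    rw [Finset.mul_sum]
    refine Finset.sum_congr rfl fun i hi => ?_
    obtain ⟨k, rfl⟩ := Nat.exists_eq_add_of_le (Finset.mem_Ico.1 hi).1
    rw [Nat.add_sub_cancel_left, pow_add, one_div, inv_pow]
    field_simp
  rw [h2]
  calc _ ≤ 27 / 2 ^ m * (2 * Real.sqrt K) := mul_le_mul_of_nonneg_left h1 (by positivity)
    _ = _ := by ring

end Lev

end

end Crest.Agent.R113
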