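import Crest.Agent.R113.Ops

/-!
# Row 113: calculus on blocks

Throughout, `σ 0 = id`, `Z` is measurable and every orbit meets `Z` within `N` steps.  The block of
`x` consists of the sites `-tm x, …, tp x`; the cut is between `tp x` and `tp x + 1`.
-/

open MeasureTheory Filter Topology
open scoped InnerProductSpace BigOperators ENNReal

set_option linter.unusedSectionVars false

namespace Crest.Agent.R113

noncomputable section

open Classical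

namespace Sys
variable {X : Type*} [MeasurableSpace X] {S : Sys X}

/-- the standing hypotheses -/
structure Cut (S : Sys X) (Z : Set X) (N : ℕ) : Prop where
  zero : ∀ x, S.σ 0 x = x
  meas : MeasurableSet Z
  synd : S.Synd Z N

namespace Cut
variable {Z Z' : Set X} {N N' : ℕ}

theorem σ_σ {k l m : ℤ} (h : k + l = m) (x : X) : S.σ k (S.σ l x) = S.σ m x := by
  rw [← h, S.add]

theorem σ_σ_zero (c : S.Cut Z N) {k l : ℤ} (h : k + l = 0) (x : X) : S.σ k (S.σ l x) = x := by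
  rw [σ_σ h, c.zero]

theorem exists_tm (c : S.Cut Z N) (x : X) : ∃ k : ℕ, k < N ∧ S.σ (-((k : ℤ) + 1)) x ∈ Z := by
  obtain ⟨k, hk, h⟩ := c.synd (S.σ (-(N : ℤ)) x)
  refine ⟨N - 1 - k, by omega, ?_⟩
  rwa [σ_σ (m := -(((N - 1 - k : ℕ) : ℤ) + 1)) (by omega)] at h

theorem tm_mem (c : S.Cut Z N) (x : X) : S.σ (-((S.tm Z x : ℤ) + 1)) x ∈ Z := by
  obtain ⟨k, -, hk⟩ := c.exists_tm x
  exact Nat.sInf_mem (s := {n : ℕ | S.σ (-((n : ℤ) + 1)) x ∈ Z}) ⟨k, hk⟩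

theorem not_mem_of_lt_tm {x : X} {k : ℕ} (hk : k < S.tm Z x) : S.σ (-((k : ℤ) + 1)) x ∉ Z :=
  Nat.notMem_of_lt_sInf (s := {n : ℕ | S.σ (-((n : ℤ) + 1)) x ∈ Z}) hk

theorem tp_le {x : X} {k : ℕ} (hk : S.σ k x ∈ Z) : S.tp Z x ≤ k :=
  Nat.sInf_le (s := {n : ℕ | S.σ n x ∈ Z}) hk

theorem tm_le {x : X} {k : ℕ} (hk : S.σ (-((k : ℤ) + 1)) x ∈ Z) : S.tm Z x ≤ k :=
  Nat.sInf_le (s := {n : ℕ | S.σ (-((n : ℤ) + 1)) x ∈ Z}) hk

theorem tp_mem (c : S.Cut Z N) (x : X) : S.σ (S.tp Z x) x ∈ Z := by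
  obtain ⟨k, -, hk⟩ := c.synd x
  exact Nat.sInf_mem (s := {n : ℕ | S.σ n x ∈ Z}) ⟨k, hk⟩

theorem not_mem_of_lt_tp {x : X} {k : ℕ} (hk : k < S.tp Z x) : S.σ k x ∉ Z := by
  exact Nat.notMem_of_lt_sInf (s := {n : ℕ | S.σ n x ∈ Z}) hk

theorem tp_lt (c : S.Cut Z N) (x : X) : S.tp Z x < N := by
  obtain ⟨k, hk, h⟩ := c.synd x
  exact (tp_le h).trans_lt hk

theorem tp_lt_iff (c : S.Cut Z N) (x : X) (n : ℕ) :
    S.tp Z x < n ↔ ∃ k : ℕ, k < n ∧ S.σ k x ∈ Z := by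
  exact ⟨fun h => ⟨_, h, c.tp_mem x⟩, fun ⟨k, hk, h⟩ => (tp_le h).trans_lt hk⟩

theorem tm_lt_iff (c : S.Cut Z N) (x : X) (n : ℕ) :
    S.tm Z x < n ↔ ∃ k : ℕ, k < n ∧ S.σ (-((k : ℤ) + 1)) x ∈ Z := by
  exact ⟨fun h => ⟨_, h, c.tm_mem x⟩, fun ⟨k, hk, h⟩ => (tm_le h).trans_lt hk⟩

theorem tm_lt (c : S.Cut Z N) (x : X) : S.tm Z x < N := by
  exact (c.tm_lt_iff x N).2 (c.exists_tm x)

theorem tm_lt_iff_tp (c : S.Cut Z N) (x : X) (n : ℕ) :
    S.tm Z x < n ↔ S.tp Z (S.σ (-(n : ℤ)) x) < n := by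
  rw [c.tm_lt_iff, c.tp_lt_iff]
  constructor
  · rintro ⟨k, hk, h⟩
    refine ⟨n - 1 - k, by omega, ?_⟩
    rwa [σ_σ (m := -((k : ℤ) + 1)) (by omega)]
  · rintro ⟨k, hk, h⟩
    refine ⟨n - 1 - k, by omega, ?_⟩
    rwa [σ_σ (m := -(((n - 1 - k : ℕ) : ℤ) + 1)) (by omega)] at h

theorem meas_tp (c : S.Cut Z N) : Measurable (S.tp Z) := by
  refine measurable_of_Iio fun n => ?_
  have : S.tp Z ⁻¹' Set.Iio n = ⋃ k : ℕ, ⋃ _ : k < n, S.σ k ⁻¹' Z := by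
    ext x; simp [c.tp_lt_iff]
  rw [this]
  exact MeasurableSet.iUnion fun k => MeasurableSet.iUnion fun _ => S.meas_σ k c.meas

theorem meas_tm (c : S.Cut Z N) : Measurable (S.tm Z) := by
  refine measurable_of_Iio fun n => ?_
  have : S.tm Z ⁻¹' Set.Iio n = ⋃ k : ℕ, ⋃ _ : k < n, S.σ (-((k : ℤ) + 1)) ⁻¹' Z := by
    ext x
    simp only [Set.mem_preimage, Set.mem_Iio, c.tm_lt_iff, Set.mem_iUnion, exists_prop]
  rw [this]
  exact MeasurableSet.iUnion fun k => MeasurableSet.iUnion fun _ => S.meas_σ _ c.meas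

theorem tp_eq_zero (c : S.Cut Z N) {x : X} (hx : x ∈ Z) : S.tp Z x = 0 := by
  refine Nat.le_zero.1 (tp_le ?_)
  rwa [Nat.cast_zero, c.zero]

theorem tm_succ_eq_zero (c : S.Cut Z N) {x : X} (hx : x ∈ Z) : S.tm Z (S.σ 1 x) = 0 := by
  refine Nat.le_zero.1 (tm_le ?_)
  rwa [c.σ_σ_zero (by simp)]

theorem tp_succ (c : S.Cut Z N) {x : X} (hx : x ∉ Z) : S.tp Z (S.σ 1 x) + 1 = S.tp Z x := by
  have h0 : S.tp Z x ≠ 0 := fun h => hx (by
    have := c.tp_mem x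
    rwa [h, Nat.cast_zero, c.zero] at this)
  obtain ⟨m, hm⟩ := Nat.exists_eq_succ_of_ne_zero h0
  refine le_antisymm ?_ (tp_le ?_)
  · rw [hm]
    refine Nat.succ_le_succ (tp_le ?_)
    have := c.tp_mem x
    rw [hm] at this
    rwa [σ_σ (m := ((m + 1 : ℕ) : ℤ)) (by omega)]
  · have := c.tp_mem (S.σ 1 x)
    rwa [σ_σ (m := ((S.tp Z (S.σ 1 x) + 1 : ℕ) : ℤ)) (by omega)] at this

theorem tm_succ (c : S.Cut Z N) {x : X} (hx : x ∉ Z) : S.tm Z (S.σ 1 x) = S.tm Z x + 1 := by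
  have h0 : S.tm Z (S.σ 1 x) ≠ 0 := fun h => hx (by
    have := c.tm_mem (S.σ 1 x)
    rwa [h, c.σ_σ_zero (by simp)] at this)
  obtain ⟨m, hm⟩ := Nat.exists_eq_succ_of_ne_zero h0
  refine le_antisymm (tm_le ?_) ?_
  · rw [σ_σ (m := -((S.tm Z x : ℤ) + 1)) (by omega)]
    exact c.tm_mem x
  · rw [hm]
    refine Nat.succ_le_succ (tm_le ?_)
    have := c.tm_mem (S.σ 1 x)
    rw [hm] at this
    rwa [σ_σ (m := -((m : ℤ) + 1)) (by omega)] at this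

theorem tp_shift (c : S.Cut Z N) {x : X} {j : ℕ} (hj : j ≤ S.tp Z x) :
    S.tp Z (S.σ j x) + j = S.tp Z x := by
  induction j with
  | zero => rw [Nat.cast_zero, c.zero, add_zero]
  | succ j ih =>
    have h1 := c.tp_succ (not_mem_of_lt_tp (Nat.lt_of_succ_le hj))
    rw [σ_σ (m := ((j + 1 : ℕ) : ℤ)) (by omega)] at h1
    have h2 := ih (Nat.le_of_succ_le hj)
    omega

theorem tm_shift (c : S.Cut Z N) {x : X} {j : ℕ} (hj : j ≤ S.tp Z x) :
    S.tm Z (S.σ j x) = S.tm Z x + j := by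
  induction j with
  | zero => rw [Nat.cast_zero, c.zero, add_zero]
  | succ j ih =>
    have h1 := c.tm_succ (not_mem_of_lt_tp (Nat.lt_of_succ_le hj))
    rw [σ_σ (m := ((j + 1 : ℕ) : ℤ)) (by omega)] at h1
    have h2 := ih (Nat.le_of_succ_le hj)
    omega

theorem tp_mono (c' : S.Cut Z' N') (h : Z' ⊆ Z) (x : X) : S.tp Z x ≤ S.tp Z' x := by
  exact tp_le (h (c'.tp_mem x))

theorem BC_shift (c : S.Cut Z N) {g : X → ℝ} (hg : S.BC Z g) {x : X} {j : ℕ}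
    (hj : j ≤ S.tp Z x) : g (S.σ j x) = g x := by
  induction j with
  | zero => rw [Nat.cast_zero, c.zero]
  | succ j ih =>
    have h1 := hg _ (not_mem_of_lt_tp (Nat.lt_of_succ_le hj))
    rw [σ_σ (m := ((j + 1 : ℕ) : ℤ)) (by omega)] at h1
    rw [h1, ih (Nat.le_of_succ_le hj)]

theorem same_flip (c : S.Cut Z N) (x : X) (a : ℤ) :
    S.Same Z (S.σ a x, -a) ↔ S.Same Z (x, a) := by
  have key : ∀ (x : X) (a : ℤ), S.Same Z (x, a) → S.Same Z (S.σ a x, -a) := by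
    intro x a h
    simp only [Same] at h ⊢
    obtain ⟨j, rfl | rfl⟩ := a.eq_nat_or_neg
    · have := c.tm_shift (x := x) (j := j) (by omega)
      omega
    · have := c.tm_lt_iff_tp x j
      omega
  refine ⟨fun h => ?_, key x a⟩
  have := key _ _ h
  rwa [c.σ_σ_zero (by simp), neg_neg] at this

theorem meas_same (c : S.Cut Z N) : MeasurableSet {p : X × ℤ | S.Same Z p} := by
  have h1 : Measurable fun p : X × ℤ => (S.tm Z p.1 : ℤ) :=
    (measurable_of_countable (fun n : ℕ => (n : ℤ))).comp (c.meas_tm.comp measurable_fst)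
  have h2 : Measurable fun p : X × ℤ => (S.tp Z p.1 : ℤ) :=
    (measurable_of_countable (fun n : ℕ => (n : ℤ))).comp (c.meas_tp.comp measurable_fst)
  exact (measurableSet_le h1.neg measurable_snd).inter (measurableSet_le measurable_snd h2)

theorem bdd_tp (c : S.Cut Z N) : Bdd fun x => (S.tp Z x : ℝ) := by
  exact Bdd.of_mem_Icc ((measurable_of_countable (fun n : ℕ => (n : ℝ))).comp c.meas_tp)
    (a := 0) (b := N) (fun x => Nat.cast_nonneg _) fun x => Nat.cast_le.2 (c.tp_lt x).le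

theorem bdd_tm (c : S.Cut Z N) : Bdd fun x => (S.tm Z x : ℝ) := by
  exact Bdd.of_mem_Icc ((measurable_of_countable (fun n : ℕ => (n : ℝ))).comp c.meas_tm)
    (a := 0) (b := N) (fun x => Nat.cast_nonneg _) fun x => Nat.cast_le.2 (c.tm_lt x).le

theorem bdd_D (c : S.Cut Z N) : Bdd (S.D Z) := by
  exact c.bdd_tm.sub c.bdd_tp

theorem abs_D_le (c : S.Cut Z N) (x : X) : |S.D Z x| ≤ N := by
  have h1 : (S.tp Z x : ℝ) ≤ N := Nat.cast_le.2 (c.tp_lt x).le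
  have h2 : (S.tm Z x : ℝ) ≤ N := Nat.cast_le.2 (c.tm_lt x).le
  have h3 : (0 : ℝ) ≤ S.tp Z x := Nat.cast_nonneg _
  have h4 : (0 : ℝ) ≤ S.tm Z x := Nat.cast_nonneg _
  rw [D, abs_le]
  constructor <;> linarith

theorem D_succ (c : S.Cut Z N) {x : X} (hx : x ∉ Z) : S.D Z (S.σ 1 x) = S.D Z x + 2 := by
  rw [D, D, c.tm_succ hx, ← c.tp_succ hx]
  push_cast; ring

theorem D_shift (c : S.Cut Z N) {x : X} {j : ℕ} (hj : j ≤ S.tp Z x) :
    S.D Z (S.σ j x) = S.D Z x + 2 * j := by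
  rw [D, D, c.tm_shift hj]
  rw [← c.tp_shift hj]
  push_cast; ring

theorem bdd_Hh (c : S.Cut Z N) : Bdd (S.Hh Z) := by
  exact (c.bdd_tm.add (Bdd.const 1)).mul c.bdd_tp

theorem Hh_nonneg (x : X) : 0 ≤ S.Hh Z x := by
  unfold Hh; positivity

theorem Hh_le (c : S.Cut Z N) (x : X) : S.Hh Z x ≤ (N : ℝ) ^ 2 := by
  have h1 : (S.tp Z x : ℝ) ≤ N := Nat.cast_le.2 (c.tp_lt x).le
  have h2 : (S.tm Z x : ℝ) + 1 ≤ N := by exact_mod_cast c.tm_lt x
  rw [Hh, sq]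
  exact mul_le_mul h2 h1 (Nat.cast_nonneg _) (Nat.cast_nonneg _)

theorem Hh_eq_zero (c : S.Cut Z N) {x : X} (hx : x ∈ Z) : S.Hh Z x = 0 := by
  rw [Hh, c.tp_eq_zero hx, Nat.cast_zero, mul_zero]

theorem D_eq (c : S.Cut Z N) (x : X) : S.D Z x = S.Hh Z (S.σ (-1) x) - S.Hh Z x := by
  obtain ⟨y, rfl⟩ : ∃ y, x = S.σ 1 y := ⟨S.σ (-1) x, (c.σ_σ_zero (by simp) x).symm⟩
  rw [c.σ_σ_zero (by simp)]
  by_cases hy : y ∈ Z
  · rw [c.Hh_eq_zero hy, D, Hh, c.tm_succ_eq_zero hy]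
    simp
  · rw [D, Hh, Hh, c.tm_succ hy, ← c.tp_succ hy]
    push_cast; ring

theorem BC_len (c : S.Cut Z N) : S.BC Z fun x => (S.len Z x : ℝ) := by
  intro x hx
  have h1 := c.tm_succ hx
  have h2 := c.tp_succ hx
  have : S.len Z (S.σ 1 x) = S.len Z x := by unfold len; omega
  simp only [this]

/-- summation by parts -/
theorem integral_cob (c : S.Cut Z N) {G h : X → ℝ} (hG : Bdd G) (hh : Bdd h) :
    ∫ x, (G (S.σ (-1) x) - G x) * h x ∂S.μ = ∫ x, G x * (h (S.σ 1 x) - h x) ∂S.μ := by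
  have hG' : Bdd fun x => G (S.σ (-1) x) := hG.comp (S.meas_σ _)
  have hh' : Bdd fun x => h (S.σ 1 x) := hh.comp (S.meas_σ _)
  simp only [sub_mul, mul_sub]
  rw [integral_sub ((hG'.mul hh).integrable _) ((hG.mul hh).integrable _),
    integral_sub ((hG.mul hh').integrable _) ((hG.mul hh).integrable _),
    ← S.integral_σ 1 (hG'.mul hh).meas]
  simp only [c.σ_σ_zero (show (-1 : ℤ) + 1 = 0 by simp)]

/-- a coboundary of a function vanishing on the cuts is orthogonal to block constant functions -/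
theorem integral_cob_BC (c : S.Cut Z N) {G g : X → ℝ} (hG : Bdd G) (hG0 : ∀ x ∈ Z, G x = 0)
    (hg : Bdd g) (hBC : S.BC Z g) : ∫ x, (G (S.σ (-1) x) - G x) * g x ∂S.μ = 0 := by
  rw [c.integral_cob hG hg]
  have : ∀ x, G x * (g (S.σ 1 x) - g x) = 0 := fun x => by
    by_cases hx : x ∈ Z
    · rw [hG0 x hx, zero_mul]
    · rw [hBC x hx, sub_self, mul_zero]
  simp only [this, integral_zero]

theorem integral_D_BC (c : S.Cut Z N) {g : X → ℝ} (hg : Bdd g) (hBC : S.BC Z g) :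
    ∫ x, S.D Z x * g x ∂S.μ = 0 := by
  simp only [c.D_eq]
  exact c.integral_cob_BC c.bdd_Hh (fun x hx => c.Hh_eq_zero hx) hg hBC

theorem bdd_cum (c : S.Cut Z N) {h : X → ℝ} (hh : Bdd h) : Bdd (S.cum Z h) := by
  have : S.cum Z h = fun x => ∑ k ∈ Finset.range N,
      if k < S.tm Z x then h (S.σ (-((k : ℤ) + 1)) x) else 0 := by
    funext x
    rw [cum, ← Finset.sum_filter]
    congr 1
    ext k
    have := c.tm_lt x
    simp only [Finset.mem_range, Finset.mem_filter]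
    omega
  rw [this]
  refine Bdd.sum _ fun k _ => Bdd.ite ?_ (hh.comp (S.meas_σ _)) (Bdd.const 0)
  exact c.meas_tm (MeasurableSet.of_discrete (s := Set.Ioi k))

theorem cum_succ (c : S.Cut Z N) (h : X → ℝ) {x : X} (hx : x ∉ Z) :
    S.cum Z h (S.σ 1 x) = S.cum Z h x + h x := by
  rw [cum, cum, c.tm_succ hx, Finset.sum_range_succ', c.σ_σ_zero (by simp)]
  congr 1
  refine Finset.sum_congr rfl fun k _ => ?_
  rw [σ_σ (m := -((k : ℤ) + 1)) (by omega)]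

theorem cum_nonneg {h : X → ℝ} (h0 : ∀ x, 0 ≤ h x) (x : X) : 0 ≤ S.cum Z h x :=
  Finset.sum_nonneg fun _ _ => h0 _

theorem cum_le (c : S.Cut Z N) {h : X → ℝ} {s : ℝ} (hs : 0 ≤ s) (h1 : ∀ x, h x ≤ s) (x : X) :
    S.cum Z h x ≤ N * s := by
  calc S.cum Z h x ≤ ∑ _k ∈ Finset.range (S.tm Z x), s := Finset.sum_le_sum fun _ _ => h1 _
    _ = S.tm Z x * s := by simp
    _ ≤ N * s := mul_le_mul_of_nonneg_right (Nat.cast_le.2 (c.tm_lt x).le) hs

end Cut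

end Sys

end

end Crest.Agent.R113
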