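import Crest.Agent.R113.Ops

/-!
# Row 113: functional calculus of multiplication operators

Recipe: `u ↦ Lc (u ∘ h)` is a continuous star algebra homomorphism `φ : C(K, ℂ) →⋆ₐ[ℂ] Op`; use
`StarAlgHom.map_cfc` for the inclusion `ι : C(K, ℂ)` (whose spectrum is its range) together with
`cfc g ι = g ∘ ι` in `C(K, ℂ)` (evaluate at a point, again by `StarAlgHom.map_cfc`, and `cfc` on `ℂ`),
or Stone–Weierstrass (`ContinuousMap.induction_on_of_compact`).  The real case follows from
`cfcR_eq`.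
-/

open MeasureTheory Filter Topology
open scoped InnerProductSpace BigOperators ENNReal

set_option linter.unusedSectionVars false

namespace Crest.Agent.R113

noncomputable section

open Classical

/-- the real functional calculus on a generic Hilbert space (the instances for `Lp` are not found
directly) -/
def cfcR {H : Type*} [NormedAddCommGroup H] [InnerProductSpace ℂ H] [CompleteSpace H]
    (g : ℝ → ℝ) (A : H →L[ℂ] H) : H →L[ℂ] H := cfc g A

theorem cfcR_eq {H : Type*} [NormedAddCommGroup H] [InnerProductSpace ℂ H] [CompleteSpace H]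
    (g : ℝ → ℝ) {A : H →L[ℂ] H} (hA : IsSelfAdjoint A) :
    cfcR g A = cfc (fun z : ℂ => (g z.re : ℂ)) A :=
  cfc_real_eq_complex g hA

theorem cfc_hom_id {A : Type*} [CStarAlgebra A] {K : Set ℂ} [CompactSpace K]
    (φ : C(K, ℂ) →⋆ₐ[ℂ] A) (hφ : Continuous φ) {g : ℂ → ℂ} (hg : ContinuousOn g K) :
    cfc g (φ (.restrict K (.id ℂ))) = φ ⟨_, hg.domRestrict⟩ := by
  have hn : IsStarNormal (φ (.restrict K (.id ℂ))) :=
    ⟨by rw [← map_star, Commute, SemiconjBy, ← map_mul, ← map_mul, mul_comm]⟩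
  have hs : spectrum ℂ (φ (.restrict K (.id ℂ))) ⊆ K := by
    refine (AlgHom.spectrum_apply_subset φ _).trans ?_
    rw [ContinuousMap.spectrum_eq_range]
    rintro _ ⟨z, rfl⟩
    exact z.2
  have e : φ = cfcHomSuperset hn hs :=
    ContinuousMap.UniqueHom.eq_of_continuous_of_map_id K _ _ hφ (cfcHomSuperset_continuous hn hs)
      (cfcHomSuperset_id hn hs).symm
  rw [cfc_apply g _ hn (hg.mono hs)]
  conv_rhs => rw [e]
  rfl

namespace Sys
variable {X : Type*} [MeasurableSpace X] (S : Sys X)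

theorem cfc_bdd {h : X → ℂ} (hm : Measurable h) {K : Set ℂ} [CompactSpace K]
    (hh : ∀ x, h x ∈ K) (u : C(K, ℂ)) : Bdd fun x => u ⟨h x, hh x⟩ :=
  ⟨u.continuous.measurable.comp (hm.subtype_mk), ‖u‖, fun _ => u.norm_coe_le_norm _⟩

/-- `u ↦ Lc (u ∘ h)` -/
def cfcLc {h : X → ℂ} (hm : Measurable h) {K : Set ℂ} [CompactSpace K] (hh : ∀ x, h x ∈ K) :
    C(K, ℂ) →⋆ₐ[ℂ] S.Op where
  toFun u := S.Lc fun x => u ⟨h x, hh x⟩
  map_one' := (S.Lc_const 1).trans (one_smul _ _)
  map_mul' u v := S.Lc_mul (cfc_bdd hm hh u) (cfc_bdd hm hh v)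
  map_zero' := (S.Lc_const 0).trans (zero_smul _ _)
  map_add' u v := S.Lc_add (cfc_bdd hm hh u) (cfc_bdd hm hh v)
  commutes' c := (S.Lc_const c).trans (Algebra.algebraMap_eq_smul_one c).symm
  map_star' u := (S.star_Lc (cfc_bdd hm hh u)).symm

theorem continuous_cfcLc {h : X → ℂ} (hm : Measurable h) {K : Set ℂ} [CompactSpace K]
    (hh : ∀ x, h x ∈ K) : Continuous (S.cfcLc hm hh) :=
  AddMonoidHomClass.continuous_of_bound (S.cfcLc hm hh) 1 fun u => by
    rw [one_mul]
    exact S.norm_Lc_le (cfc_bdd hm hh u) (norm_nonneg _)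
      (Eventually.of_forall fun _ => u.norm_coe_le_norm _)

theorem cfc_Lc {h : X → ℂ} (hm : Measurable h) {K : Set ℂ} (hK : IsCompact K)
    (hh : ∀ x, h x ∈ K) {g : ℂ → ℂ} (hg : ContinuousOn g K) :
    cfc g (S.Lc h) = S.Lc fun x => g (h x) := by
  have : CompactSpace K := isCompact_iff_compactSpace.1 hK
  exact cfc_hom_id (S.cfcLc hm hh) (S.continuous_cfcLc hm hh) hg

theorem cfc_L {h : X → ℝ} (hm : Measurable h) {a b : ℝ} (hh : ∀ x, h x ∈ Set.Icc a b)
    {g : ℝ → ℝ} (hg : ContinuousOn g (Set.Icc a b)) :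
    cfcR g (S.L h) = S.L fun x => g (h x) := by
  have hb : Bdd h := Bdd.of_mem_Icc hm (fun y => (hh y).1) fun y => (hh y).2
  rw [cfcR_eq g (S.star_L hb)]
  have hK : IsCompact ((fun t : ℝ => (t : ℂ)) '' Set.Icc a b) :=
    isCompact_Icc.image Complex.continuous_ofReal
  have := S.cfc_Lc (h := fun x => (h x : ℂ)) (Complex.measurable_ofReal.comp hm) hK
    (fun x => ⟨h x, hh x, rfl⟩) (g := fun z : ℂ => (g z.re : ℂ)) (by
      refine Complex.continuous_ofReal.comp_continuousOn
        (hg.comp Complex.continuous_re.continuousOn ?_)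
      rintro _ ⟨t, ht, rfl⟩
      simpa using ht)
  exact this

end Sys

end

end Crest.Agent.R113
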