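import Crest.Agent.R113.Ops

/-!
# Row 113: the trace on the crossed product

Recipe.  The vectors `Sh k (ρ h Ω)` are the functions `(x, a) ↦ h (σ k x) 1[a = k]`; a vector
orthogonal to all of them vanishes (`eq_zero_of_orth`; the slice `x ↦ ξ (x, k)` is in `L² (μ)`, and
`h ∘ σ (-k) ∘ σ k = h` a.e.).  For `A ∈ alg`,
`⟪A* Ω, Sh k (ρ h Ω)⟫ = ⟪Ω, Sh k (ρ h (A Ω))⟫ = ∫ h (σ k x) (AΩ) (σ k x, -k)`, which identifies
`A* Ω` as `(x, a) ↦ conj ((AΩ) (flip (x, a)))` (`star_apply_Ω`).  As `flip` preserves `ν`,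
`τ (A B) = ⟪A* Ω, B Ω⟫ = ⟪B* Ω, A Ω⟫ = τ (B A)`.
-/

open MeasureTheory Filter Topology
open scoped InnerProductSpace BigOperators ENNReal

set_option linter.unusedSectionVars false

namespace Crest.Agent.R113

noncomputable section

open Classical

namespace Sys
variable {X : Type*} [MeasurableSpace X] (S : Sys X)

/-- reversal of a link -/
def flip (p : X × ℤ) : X × ℤ := (S.σ p.2 p.1, -p.2)

theorem meas_flip : Measurable S.flip :=
  S.meas_pt.prodMk (measurable_snd.neg)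

theorem pres_flip : MeasurePreserving S.flip S.ν S.ν := by
  refine ⟨S.meas_flip, Measure.ext fun s hs => ?_⟩
  rw [Measure.map_apply S.meas_flip hs]
  unfold ν
  rw [Measure.prod_apply_symm hs, Measure.prod_apply_symm (S.meas_flip hs), lintegral_count,
    lintegral_count, ← (Equiv.neg ℤ).tsum_eq fun a => S.μ ((fun x => (x, a)) ⁻¹' s)]
  refine tsum_congr fun a => ?_
  exact (S.pres a).measure_preimage (s := (fun x => (x, -a)) ⁻¹' s)
    (measurable_prodMk_right hs).nullMeasurableSet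

theorem trace_pres_slice (k : ℤ) :
    MeasurePreserving (fun x : X => (x, k)) S.μ (S.ν.restrict (Set.univ ×ˢ {k})) := by
  refine ⟨measurable_prodMk_right, ?_⟩
  unfold ν
  rw [← Measure.prod_restrict, Measure.restrict_univ, Measure.restrict_singleton,
    Measure.count_singleton, one_smul, Measure.prod_dirac]

theorem trace_memLp_slice (ξ : S.H) (k : ℤ) :
    MemLp (fun x => (ξ : X × ℤ → ℂ) (x, k)) 2 S.μ :=
  ((Lp.memLp ξ).restrict _).comp_measurePreserving (S.trace_pres_slice k)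

/-- inner product with a vector carried by one slice -/
theorem trace_inner_slice (ξ η : S.H) (k : ℤ) (g : X → ℂ)
    (hη : (η : X × ℤ → ℂ) =ᵐ[S.ν] fun p => if p.2 = k then g p.1 else 0) :
    ⟪ξ, η⟫_ℂ = ∫ x, (starRingEnd ℂ) ((ξ : X × ℤ → ℂ) (x, k)) * g x ∂S.μ := by
  have hi := L2.integrable_inner (𝕜 := ℂ) ξ η
  have e : (fun p => ⟪(ξ : X × ℤ → ℂ) p, (η : X × ℤ → ℂ) p⟫_ℂ) =ᵐ[S.ν] fun p =>
      ({k} : Set ℤ).indicator
        (fun _ => (starRingEnd ℂ) ((ξ : X × ℤ → ℂ) (p.1, k)) * g p.1) p.2 := by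
    filter_upwards [hη] with p hp
    rw [hp, RCLike.inner_apply']
    by_cases h : p.2 = k
    · rw [if_pos h, Set.indicator_of_mem (by simpa using h), ← h]
    · rw [if_neg h, Set.indicator_of_notMem (by simpa using h), mul_zero]
  rw [L2.inner_def, integral_congr_ae e]
  have hi' := hi.congr e
  unfold ν at hi' ⊢
  rw [integral_prod _ hi']
  refine integral_congr_ae (Eventually.of_forall fun x => ?_)
  dsimp only
  rw [integral_indicator_const _ (measurableSet_singleton k), Measure.real, Measure.count_singleton]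
  simp

theorem trace_inner_Ω (ξ : S.H) : ⟪S.Ω, ξ⟫_ℂ = ∫ x, (ξ : X × ℤ → ℂ) (x, 0) ∂S.μ := by
  rw [← inner_conj_symm, S.trace_inner_slice ξ S.Ω 0 (fun _ => 1) S.Ω_apply, ← integral_conj]
  simp

theorem trace_Sh_ρ_apply (k : ℤ) {g : X → ℂ} (hg : Bdd g) (ξ : S.H) :
    (S.Sh k (S.ρ g ξ) : X × ℤ → ℂ) =ᵐ[S.ν]
      fun p => g (S.σ k p.1) * (ξ : X × ℤ → ℂ) (S.σ k p.1, p.2 - k) :=
  (S.Sh_apply k _).trans ((S.pres_Sh k).quasiMeasurePreserving.ae_eq_comp (S.ρ_apply hg ξ))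

theorem trace_Sh_ρ_Ω (k : ℤ) {g : X → ℂ} (hg : Bdd g) :
    (S.Sh k (S.ρ g S.Ω) : X × ℤ → ℂ) =ᵐ[S.ν]
      fun p => if p.2 = k then g (S.σ k p.1) else 0 := by
  filter_upwards [S.trace_Sh_ρ_apply k hg S.Ω,
    (S.pres_Sh k).quasiMeasurePreserving.ae_eq_comp S.Ω_apply] with p h1 h2
  simp only [Function.comp_apply] at h2
  rw [h1, h2]
  simp [sub_eq_zero]

theorem trace_comm {A : S.Op} (hA : A ∈ S.alg) (k : ℤ) {g : X → ℂ} (hg : Bdd g) (ξ : S.H) :
    A (S.Sh k (S.ρ g ξ)) = S.Sh k (S.ρ g (A ξ)) := by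
  obtain ⟨h1, h2⟩ := S.mem_alg.1 hA
  have e : A * S.Sh k * S.ρ g = S.Sh k * S.ρ g * A := by
    rw [← h2, mul_assoc, ← h1 g hg, mul_assoc]
  exact congrArg (fun T : S.Op => T ξ) e

theorem trace_inner_star (A : S.Op) (ξ η : S.H) : ⟪star A ξ, η⟫_ℂ = ⟪ξ, A η⟫_ℂ := by
  rw [ContinuousLinearMap.star_eq_adjoint, ContinuousLinearMap.adjoint_inner_left]

theorem trace_flip_flip : ∀ᵐ p ∂S.ν, S.flip (S.flip p) = p := by
  rw [S.ae_ν_iff]
  intro a
  filter_upwards [S.zero] with x hx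
  simp only [flip, neg_neg, ← S.add, neg_add_cancel, hx]

theorem eq_zero_of_orth {ξ : S.H}
    (h : ∀ (k : ℤ) (g : X → ℂ), Bdd g → ⟪ξ, S.Sh k (S.ρ g S.Ω)⟫_ℂ = 0) : ξ = 0 := by
  refine Lp.eq_zero_iff_ae_eq_zero.2 (S.ae_ν_iff.2 fun k => ?_)
  have hi : Integrable (fun x => (ξ : X × ℤ → ℂ) (x, k)) S.μ :=
    (S.trace_memLp_slice ξ k).integrable one_le_two
  refine hi.ae_eq_zero_of_forall_setIntegral_eq_zero fun s hs _ => ?_
  have hg : Bdd fun x => s.indicator (fun _ => (1 : ℂ)) (S.σ (-k) x) :=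
    ((Bdd.const (1 : ℂ)).indicator hs).comp (S.meas_σ (-k))
  have h1 := h k _ hg
  rw [S.trace_inner_slice _ _ k (fun x => s.indicator (fun _ => (1 : ℂ)) (S.σ (-k) (S.σ k x)))
    (S.trace_Sh_ρ_Ω k hg)] at h1
  have h2 := congrArg (starRingEnd ℂ) h1
  rw [← integral_conj, map_zero] at h2
  rw [← integral_indicator hs, ← h2]
  refine integral_congr_ae ?_
  filter_upwards [S.zero] with x hx
  rw [← S.add, neg_add_cancel, hx]
  by_cases hxs : x ∈ s <;> simp [hxs]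

theorem star_apply_Ω {A : S.Op} (hA : A ∈ S.alg) :
    (star A S.Ω : X × ℤ → ℂ) =ᵐ[S.ν]
      fun p => (starRingEnd ℂ) ((A S.Ω : X × ℤ → ℂ) (S.flip p)) := by
  have hm : MemLp (fun p => (starRingEnd ℂ) ((A S.Ω : X × ℤ → ℂ) (S.flip p))) 2 S.ν :=
    ((Lp.memLp (A S.Ω)).comp_measurePreserving S.pres_flip).star
  have e : star A S.Ω = hm.toLp _ := by
    refine sub_eq_zero.1 (S.eq_zero_of_orth fun k g hg => ?_)
    rw [inner_sub_left, sub_eq_zero, S.trace_inner_star, S.trace_comm hA k hg, S.trace_inner_Ω,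
      S.trace_inner_slice _ _ k (fun x => g (S.σ k x)) (S.trace_Sh_ρ_Ω k hg)]
    refine integral_congr_ae ?_
    filter_upwards [S.ae_ν_iff.1 (S.trace_Sh_ρ_apply k hg (A S.Ω)) 0,
      S.ae_ν_iff.1 hm.coeFn_toLp k] with x h1 h2
    rw [h1, h2]
    simp [flip, mul_comm]
  rw [e]
  exact hm.coeFn_toLp

theorem trace_τ_mul {A : S.Op} (hA : A ∈ S.alg) (B : S.Op) :
    S.τ (A * B) = ∫ p, (A S.Ω : X × ℤ → ℂ) (S.flip p) * (B S.Ω : X × ℤ → ℂ) p ∂S.ν := by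
  rw [τ, mul_apply_eq_comp, ← S.trace_inner_star, L2.inner_def]
  refine integral_congr_ae ?_
  filter_upwards [S.star_apply_Ω hA] with p hp
  rw [RCLike.inner_apply', hp]
  simp

theorem trace_τ_mul_comm {A B : S.Op} (hA : A ∈ S.alg) (hB : B ∈ S.alg) :
    S.τ (A * B) = S.τ (B * A) := by
  rw [S.trace_τ_mul hA, S.trace_τ_mul hB]
  have hm : AEStronglyMeasurable
      (fun p => (B S.Ω : X × ℤ → ℂ) (S.flip p) * (A S.Ω : X × ℤ → ℂ) p) (S.ν.map S.flip) := by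
    rw [S.pres_flip.map_eq]
    exact ((Lp.aestronglyMeasurable (B S.Ω)).comp_measurePreserving S.pres_flip).mul
      (Lp.aestronglyMeasurable (A S.Ω))
  have h := integral_map S.meas_flip.aemeasurable hm
  rw [S.pres_flip.map_eq] at h
  rw [h]
  refine integral_congr_ae ?_
  filter_upwards [S.trace_flip_flip] with p hp
  rw [hp, mul_comm]

theorem trace_τ_star_mul_self (A : S.Op) : S.τ (star A * A) = ((‖A S.Ω‖ ^ 2 : ℝ) : ℂ) := by
  rw [τ, mul_apply_eq_comp, ← S.trace_inner_star, star_star, inner_self_eq_norm_sq_to_K]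
  simp

theorem norm_star_Ω {A : S.Op} (hA : A ∈ S.alg) : ‖star A S.Ω‖ = ‖A S.Ω‖ := by
  have h := S.trace_τ_mul_comm (star_mem hA) hA
  have h2 := S.trace_τ_star_mul_self (star A)
  rw [star_star, ← h, S.trace_τ_star_mul_self] at h2
  exact (pow_left_inj₀ (norm_nonneg _) (norm_nonneg _) two_ne_zero).1
    (Complex.ofReal_injective h2).symm

theorem τ_mul_comm {A B : S.Op} (hA : A ∈ S.alg) (hB : B ∈ S.alg) : S.τ (A * B) = S.τ (B * A) := by
  exact S.trace_τ_mul_comm hA hB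

/-- faithfulness -/
theorem eq_zero_of_Ω {A : S.Op} (hA : A ∈ S.alg) (h : A S.Ω = 0) : A = 0 := by
  refine star_eq_zero.1 (ContinuousLinearMap.ext fun η => S.eq_zero_of_orth fun k g hg => ?_)
  rw [S.trace_inner_star, S.trace_comm hA k hg, h, map_zero, map_zero, inner_zero_right]

theorem τ_add (A B : S.Op) : S.τ (A + B) = S.τ A + S.τ B := by
  simp [τ, inner_add_right]

theorem τ_sub (A B : S.Op) : S.τ (A - B) = S.τ A - S.τ B := by
  simp [τ, inner_sub_right]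

theorem τ_smul (c : ℂ) (A : S.Op) : S.τ (c • A) = c * S.τ A := by
  simp [τ, inner_smul_right]

theorem τ_one : S.τ 1 = 1 := by
  simp [τ, inner_self_eq_norm_sq_to_K, S.norm_Ω]

theorem τ_star (A : S.Op) : S.τ (star A) = (starRingEnd ℂ) (S.τ A) := by
  rw [τ, τ, inner_conj_symm, ← inner_conj_symm, S.trace_inner_star, inner_conj_symm]

theorem τ_star_mul_self (A : S.Op) : S.τ (star A * A) = ((‖A S.Ω‖ ^ 2 : ℝ) : ℂ) := by
  exact S.trace_τ_star_mul_self A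

theorem tr_star_mul_self (A : S.Op) : S.tr (star A * A) = ‖A S.Ω‖ ^ 2 := by
  rw [tr, τ_star_mul_self, Complex.ofReal_re]

theorem tr_mul_comm {A B : S.Op} (hA : A ∈ S.alg) (hB : B ∈ S.alg) :
    S.tr (A * B) = S.tr (B * A) := by
  rw [tr, tr, S.τ_mul_comm hA hB]

theorem tr_add (A B : S.Op) : S.tr (A + B) = S.tr A + S.tr B := by simp [tr, τ_add]

theorem tr_sub (A B : S.Op) : S.tr (A - B) = S.tr A - S.tr B := by simp [tr, τ_sub]

theorem tr_one : S.tr 1 = 1 := by simp [tr, τ_one]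

/-- `‖A B‖₂ ≤ ‖B‖ ‖A‖₂` -/
theorem norm_mul_Ω_le {A B : S.Op} (hA : A ∈ S.alg) (hB : B ∈ S.alg) :
    ‖(A * B) S.Ω‖ ≤ ‖B‖ * ‖A S.Ω‖ := by
  rw [← S.norm_star_Ω (mul_mem hA hB), star_mul, mul_apply_eq_comp, ← S.norm_star_Ω hA,
    ← norm_star B]
  exact (star B).le_opNorm _

theorem τ_eq_integral (A : S.Op) : S.τ A = ∫ x, (A S.Ω : X × ℤ → ℂ) (x, 0) ∂S.μ := by
  exact S.trace_inner_Ω _

theorem τ_Lc_mul {h : X → ℂ} (hh : Bdd h) (A : S.Op) :
    S.τ (S.Lc h * A) = ∫ x, h x * (A S.Ω : X × ℤ → ℂ) (x, 0) ∂S.μ := by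
  rw [τ_eq_integral, mul_apply_eq_comp]
  refine integral_congr_ae ?_
  filter_upwards [S.ae_ν_iff.1 (S.Lc_apply hh (A S.Ω)) 0, S.zero] with x h1 h2
  rw [h1, h2]

theorem τ_Lc {h : X → ℂ} (hh : Bdd h) : S.τ (S.Lc h) = ∫ x, h x ∂S.μ := by
  rw [← mul_one (S.Lc h), S.τ_Lc_mul hh]
  refine integral_congr_ae ?_
  filter_upwards [S.ae_ν_iff.1 S.Ω_apply 0] with x h1
  rw [one_apply_eq_self, h1]
  simp

theorem tr_L {h : X → ℝ} (hh : Bdd h) : S.tr (S.L h) = ∫ x, h x ∂S.μ := by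
  rw [tr, L, S.τ_Lc hh.ofReal, integral_complex_ofReal, Complex.ofReal_re]

theorem norm_L_Ω_sq {h : X → ℝ} (hh : Bdd h) : ‖S.L h S.Ω‖ ^ 2 = ∫ x, h x ^ 2 ∂S.μ := by
  rw [← S.tr_star_mul_self, S.star_L hh, ← S.L_mul hh hh, S.tr_L (hh.mul hh)]
  simp only [sq]

theorem τ_U_mul_L {k : ℤ} (hk : k ≠ 0) {h : X → ℝ} (hh : Bdd h) : S.τ (S.U k * S.L h) = 0 := by
  rw [τ_eq_integral, mul_apply_eq_comp]
  refine (integral_congr_ae ?_).trans (integral_zero _ _)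
  filter_upwards [S.ae_ν_iff.1 (S.U_apply k (S.L h S.Ω)) 0,
    S.ae_ν_iff.1 (S.L_apply hh S.Ω) (0 - k), S.ae_ν_iff.1 S.Ω_apply (0 - k)] with x h1 h2 h3
  rw [h1, h2, h3]
  simp [hk]

variable {S}

theorem IsP.star_eq {q : S.Op} (hq : S.IsP q) : star q = q := hq.2.isSelfAdjoint

theorem IsP.mul_self {q : S.Op} (hq : S.IsP q) : q * q = q := hq.2.isIdempotentElem

theorem IsP.one_sub {q : S.Op} (hq : S.IsP q) : S.IsP (1 - q) :=
  ⟨sub_mem (one_mem _) hq.1, hq.2.one_sub⟩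

theorem IsP.norm_le {q : S.Op} (hq : S.IsP q) : ‖q‖ ≤ 1 := hq.2.norm_le

theorem IsP.tr_eq {q : S.Op} (hq : S.IsP q) : S.tr q = ‖q S.Ω‖ ^ 2 := by
  rw [← S.tr_star_mul_self, hq.star_eq, hq.mul_self]

theorem IsP.tr_nonneg {q : S.Op} (hq : S.IsP q) : 0 ≤ S.tr q := by
  rw [hq.tr_eq]; positivity

theorem IsP.tr_le_one {q : S.Op} (hq : S.IsP q) : S.tr q ≤ 1 := by
  have := hq.one_sub.tr_nonneg
  rw [S.tr_sub, S.tr_one] at this
  linarith

theorem IsP.eq_zero {q : S.Op} (hq : S.IsP q) (h : S.tr q = 0) : q = 0 := by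
  rw [hq.tr_eq] at h
  exact S.eq_zero_of_Ω hq.1 (by simpa using h)

theorem IsP.eq_one {q : S.Op} (hq : S.IsP q) (h : S.tr q = 1) : q = 1 := by
  have := hq.one_sub.eq_zero (by rw [S.tr_sub, S.tr_one, h, sub_self])
  exact (sub_eq_zero.1 this).symm

end Sys

end

end Crest.Agent.R113
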