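import Crest.Agent.R113.Rot
import Crest.Agent.R113.Trace
import Crest.Agent.R113.Cfc
import Crest.Prelude.Def_RotationRep

/-!
# Row 113: the rotation algebra on `ℓ²(ℤ × ℤ)` is the crossed product over the circle
-/

open MeasureTheory Filter Topology
open scoped InnerProductSpace BigOperators ENNReal

set_option linter.unusedSectionVars false

namespace Crest.Agent.R113

noncomputable section

open Classical

open Crest.AnalysisR.RotationRep

section Slice
variable {X : Type*} [MeasurableSpace X] (S : Sys X)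

theorem Sys.restrict_slice (a : ℤ) :
    S.ν.restrict (Set.univ ×ˢ {a}) = S.μ.map fun x => (x, a) := by
  rw [Sys.ν, ← Measure.prod_restrict, Measure.restrict_univ, Measure.restrict_singleton,
    Measure.count_singleton, one_smul, Measure.prod_dirac]

theorem Sys.memLp_slice (ξ : S.H) (a : ℤ) :
    MemLp (fun x => (ξ : X × ℤ → ℂ) (x, a)) 2 S.μ := by
  have h := (Lp.memLp ξ).restrict (Set.univ ×ˢ {a})
  rw [S.restrict_slice a] at h
  exact (measurableEmbedding_prod_mk_right a).memLp_map_measure_iff.1 h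

/-- the vector `(x, k) ↦ 1[k = a] h x` -/
def Sys.sl (a : ℤ) (h : X → ℂ) : S.H := S.U a (S.ρ h S.Ω)

theorem Sys.sl_apply (a : ℤ) {h : X → ℂ} (hh : Bdd h) :
    (S.sl a h : X × ℤ → ℂ) =ᵐ[S.ν] fun p => if p.2 = a then h p.1 else 0 := by
  have h1 : (S.ρ h S.Ω : X × ℤ → ℂ) =ᵐ[S.ν] fun p => if p.2 = 0 then h p.1 else 0 := by
    filter_upwards [S.ρ_apply hh S.Ω, S.Ω_apply] with p hp hΩ
    rw [hp, hΩ]
    split_ifs <;> simp
  have h2 := (S.pres_U a).quasiMeasurePreserving.ae h1
  filter_upwards [S.U_apply a (S.ρ h S.Ω), h2] with p hp hq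
  rw [Sys.sl, hp, hq]
  simp only [sub_eq_zero]

theorem Sys.inner_sl (a : ℤ) {h : X → ℂ} (hh : Bdd h) (ξ : S.H) :
    ⟪S.sl a h, ξ⟫_ℂ = ∫ x, (starRingEnd ℂ) (h x) * (ξ : X × ℤ → ℂ) (x, a) ∂S.μ := by
  have hs : MeasurableSet (Set.univ ×ˢ {a} : Set (X × ℤ)) :=
    MeasurableSet.univ.prod (measurableSet_singleton a)
  rw [L2.inner_def]
  have e : (fun p => ⟪(S.sl a h : X × ℤ → ℂ) p, (ξ : X × ℤ → ℂ) p⟫_ℂ) =ᵐ[S.ν]
      (Set.univ ×ˢ {a} : Set (X × ℤ)).indicator
        fun p => (starRingEnd ℂ) (h p.1) * (ξ : X × ℤ → ℂ) p := by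
    filter_upwards [S.sl_apply a hh] with p hp
    rw [hp]
    by_cases hpa : p.2 = a
    · rw [if_pos hpa, Set.indicator_of_mem (by simp [Set.mem_prod, hpa])]
      simp [mul_comm]
    · rw [if_neg hpa, Set.indicator_of_notMem (by simp [Set.mem_prod, hpa])]
      simp
  rw [integral_congr_ae e, integral_indicator hs, S.restrict_slice a,
    (measurableEmbedding_prod_mk_right a).integral_map]

theorem Sys.U_sl (k a : ℤ) (h : X → ℂ) : S.U k (S.sl a h) = S.sl (k + a) h := by
  rw [Sys.sl, Sys.sl, S.U_add]; rfl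

end Slice

theorem bdd_fourier (b : ℤ) : Bdd fun x : UnitAddCircle => fourier b x :=
  ⟨(fourier b).continuous.measurable, 1, fun x => by
    dsimp only
    rw [fourier_apply]; exact (Circle.norm_coe _).le⟩

/-- the basis vectors -/
def bvec (θ : ℝ) (i : ℤ × ℤ) : (rot θ).H := (rot θ).sl i.1 fun x => fourier i.2 x

theorem integral_fourier_conj (b b' : ℤ) :
    ∫ x : UnitAddCircle, (starRingEnd ℂ) (fourier b x) * fourier b' x =
      if b = b' then 1 else 0 := by
  have h := orthonormal_iff_ite.1 (orthonormal_fourier (T := 1)) b b'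
  rw [fourierLp, fourierLp, ContinuousMap.inner_toLp] at h
  rw [volume_eq_haar, ← h]
  congr 1
  funext x
  exact mul_comm _ _

theorem orthonormal_bvec (θ : ℝ) : Orthonormal ℂ (bvec θ) := by
  rw [orthonormal_iff_ite]
  rintro ⟨a, b⟩ ⟨a', b'⟩
  rw [bvec, (rot θ).inner_sl _ (bdd_fourier _)]
  have h := (rot θ).ae_ν_iff.1 ((rot θ).sl_apply a' (bdd_fourier b')) a
  have e : (fun x : UnitAddCircle => (starRingEnd ℂ) (fourier b x) *
      (bvec θ (a', b') : UnitAddCircle × ℤ → ℂ) (x, a)) =ᵐ[(rot θ).μ]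
      fun x => if a = a' then (starRingEnd ℂ) (fourier b x) * fourier b' x else 0 := by
    filter_upwards [h] with x hx
    rw [bvec, hx]
    split_ifs <;> simp
  rw [integral_congr_ae e]
  by_cases ha : a = a'
  · simp only [ha, if_true, Prod.mk.injEq, true_and]
    rw [rot_μ, integral_fourier_conj]
  · simp [ha]

theorem orth_bvec (θ : ℝ) : (Submodule.span ℂ (Set.range (bvec θ)))ᗮ = ⊥ := by
  rw [Submodule.eq_bot_iff]
  intro ξ hξ
  have h0 : ∀ i, ⟪bvec θ i, ξ⟫_ℂ = 0 := fun i =>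
    (Submodule.mem_orthogonal _ _).1 hξ _ (Submodule.subset_span ⟨i, rfl⟩)
  refine Lp.ext ?_
  refine EventuallyEq.trans ?_ (Lp.coeFn_zero ℂ 2 (rot θ).ν).symm
  refine (rot θ).ae_ν_iff.2 fun a => ?_
  have hm : MemLp (fun x => (ξ : UnitAddCircle × ℤ → ℂ) (x, a)) 2
      (AddCircle.haarAddCircle : Measure UnitAddCircle) := by
    have := (rot θ).memLp_slice ξ a
    rwa [rot_μ, volume_eq_haar] at this
  have hz : hm.toLp _ = 0 := by
    apply (fourierBasis (T := 1)).repr.injective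
    rw [map_zero]
    ext b
    rw [fourierBasis_repr, fourierCoeff_congr_ae hm.coeFn_toLp, fourierCoeff]
    have h1 := h0 (a, b)
    rw [bvec, (rot θ).inner_sl _ (bdd_fourier _), rot_μ, volume_eq_haar] at h1
    simp only [fourier_neg, smul_eq_mul]
    exact h1
  have h2 := hm.coeFn_toLp
  rw [hz] at h2
  rw [rot_μ, volume_eq_haar]
  filter_upwards [h2, Lp.coeFn_zero ℂ 2 (AddCircle.haarAddCircle : Measure UnitAddCircle)]
    with x hx hx0
  rw [← hx, hx0]
  rfl

theorem U_bvec (θ : ℝ) (a b : ℤ) : (rot θ).U 1 (bvec θ (a, b)) = bvec θ (a + 1, b) := by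
  rw [bvec, bvec, Sys.U_sl, add_comm]

theorem Lc_bvec (θ : ℝ) (a b : ℤ) :
    (rot θ).Lc (fun x => fourier 1 x) (bvec θ (a, b)) =
      Complex.exp (2 * Real.pi * Complex.I * θ * a) • bvec θ (a, b + 1) := by
  refine Lp.ext ?_
  filter_upwards [(rot θ).Lc_apply (bdd_fourier 1) (bvec θ (a, b)),
    (rot θ).sl_apply a (bdd_fourier b), (rot θ).sl_apply a (bdd_fourier (b + 1)),
    Lp.coeFn_smul (Complex.exp (2 * Real.pi * Complex.I * θ * a)) (bvec θ (a, b + 1))]
    with p h1 h2 h3 h4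
  rw [h1, h4, Pi.smul_apply, bvec, bvec, h2, h3]
  by_cases hp : p.2 = a
  · simp only [hp, if_true, smul_eq_mul, rot_σ]
    have e1 : (fourier 1 (a • (θ : UnitAddCircle) + p.1) : ℂ) =
        fourier 1 (a • (θ : UnitAddCircle)) * fourier 1 p.1 := by
      simp only [fourier_apply, smul_add, AddCircle.toCircle_add, Circle.coe_mul]
    have e2 : (fourier 1 (a • (θ : UnitAddCircle)) : ℂ) =
        Complex.exp (2 * Real.pi * Complex.I * θ * a) := by
      rw [← AddCircle.coe_zsmul, fourier_coe_apply]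
      congr 1
      simp only [zsmul_eq_mul]
      push_cast
      ring
    rw [e1, e2, fourier_add]
    ring
  · simp [hp]

theorem conj_cfc {H K : Type*} [NormedAddCommGroup H] [InnerProductSpace ℂ H] [CompleteSpace H]
    [NormedAddCommGroup K] [InnerProductSpace ℂ K] [CompleteSpace K] (W : H ≃ₗᵢ[ℂ] K)
    {g : ℂ → ℂ} (hg : Continuous g) {V : H →L[ℂ] H}
    (hV : IsStarNormal (W.conjStarAlgEquiv V)) :
    W.conjStarAlgEquiv (cfc g V) = cfc g (W.conjStarAlgEquiv V) := by
  have hV' : IsStarNormal V := by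
    have := hV.map W.conjStarAlgEquiv.symm
    rwa [StarAlgEquiv.symm_apply_apply] at this
  have hc : Continuous W.conjStarAlgEquiv := by
    have : Continuous fun x : H →L[ℂ] H =>
        (W : H →L[ℂ] K) ∘L x ∘L (W.symm : K →L[ℂ] H) :=
      continuous_const.clm_comp (continuous_id.clm_comp continuous_const)
    exact this
  exact StarAlgHomClass.map_cfc W.conjStarAlgEquiv g V hg.continuousOn hc hV' hV


/-- The vectors `e (a, b) = U a (ρ (fourier b) Ω)`, i.e. `(x, k) ↦ 1[k = a] fourier b x`, form a Hilbert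
basis (`HilbertBasis.mkOfOrthogonalEqBot`; a vector orthogonal to all of them has slices with
vanishing Fourier coefficients, `fourierBasis`, `volume_eq_haar`, `ae_ν_iff`), and
`U 1 (e (a, b)) = e (a + 1, b)`, `Lc (fourier 1) (e (a, b)) = exp (2 π i θ a) • e (a, b + 1)`. -/
theorem exists_bridge (θ : ℝ) :
    ∃ W : lp (fun _ : ℤ × ℤ => ℂ) 2 ≃ₗᵢ[ℂ] (rot θ).H,
      ∀ U V : lp (fun _ : ℤ × ℤ => ℂ) 2 →L[ℂ] lp (fun _ : ℤ × ℤ => ℂ) 2, IsRotationPair θ U V →
        W.conjStarAlgEquiv U = (rot θ).U 1 ∧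
        W.conjStarAlgEquiv V = (rot θ).Lc fun x => fourier 1 x := by
  let e := HilbertBasis.mkOfOrthogonalEqBot (orthonormal_bvec θ) (orth_bvec θ)
  have he : ∀ i, e i = bvec θ i := fun i => by
    simp only [e, HilbertBasis.coe_mkOfOrthogonalEqBot]
  have hW : ∀ i : ℤ × ℤ, e.repr.symm (lp.single 2 i (1 : ℂ)) = bvec θ i := fun i => by
    rw [e.repr_symm_single, he]
  have hW' : ∀ i : ℤ × ℤ, e.repr (bvec θ i) = lp.single 2 i (1 : ℂ) := fun i => by
    rw [← hW, LinearIsometryEquiv.apply_symm_apply]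
  have hd : Dense (Submodule.span ℂ (Set.range (bvec θ)) : Set (rot θ).H) := by
    rw [Submodule.dense_iff_topologicalClosure_eq_top, Submodule.topologicalClosure_eq_top_iff]
    exact orth_bvec θ
  refine ⟨e.repr.symm, fun U V hUV => ⟨?_, ?_⟩⟩
  · refine ContinuousLinearMap.ext_on hd ?_
    rintro _ ⟨⟨a, b⟩, rfl⟩
    rw [LinearIsometryEquiv.conjStarAlgEquiv_apply_apply, LinearIsometryEquiv.symm_symm, hW',
      hUV.1, hW, U_bvec]
  · refine ContinuousLinearMap.ext_on hd ?_
    rintro _ ⟨⟨a, b⟩, rfl⟩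
    rw [LinearIsometryEquiv.conjStarAlgEquiv_apply_apply, LinearIsometryEquiv.symm_symm, hW',
      hUV.2, map_smul, hW, Lc_bvec]

/-- The pull back of a generator of the right action commutes with `U, V, U*, V*` (`U_mem`,
`Lc_mem`, `mem_alg`), hence with `p`.  For the functional calculus use `StarAlgEquiv`/`map_cfc` and
`cfc_Lc` with `K` the unit sphere. -/
theorem transfer {θ : ℝ} {f : ℂ → ℝ} (hf : Continuous f)
    {U V : lp (fun _ : ℤ × ℤ => ℂ) 2 →L[ℂ] lp (fun _ : ℤ × ℤ => ℂ) 2} (hUV : IsRotationPair θ U V)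
    {p : lp (fun _ : ℤ × ℤ => ℂ) 2 →L[ℂ] lp (fun _ : ℤ × ℤ => ℂ) 2}
    (hp : p ∈ vonNeumannGenerated {U, V}) (hp' : IsStarProjection p)
    (hinv : (1 - p) * (U * cfc (fun z : ℂ => (f z : ℂ)) V) * p = 0)
    (h : ∀ q : (rot θ).Op, (rot θ).IsP q →
      (1 - q) * ((rot θ).U 1 * (rot θ).L fun x => f (fourier 1 x)) * q = 0 → q = 0 ∨ q = 1) :
    p = 0 ∨ p = 1 := by
  obtain ⟨W, hW⟩ := exists_bridge θ
  obtain ⟨hU, hV⟩ := hW U V hUV
  set φ := W.conjStarAlgEquiv with hφ
  have hUm : φ U ∈ (rot θ).alg := hU ▸ (rot θ).U_mem 1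
  have hVm : φ V ∈ (rot θ).alg := hV ▸ (rot θ).Lc_mem (bdd_fourier 1)
  -- every operator commuting with `alg` commutes with `φ p`
  have key : ∀ A : (rot θ).Op, (∀ B ∈ (rot θ).alg, A * B = B * A) → A * φ p = φ p * A := by
    intro A hA
    have hc : φ.symm A ∈ Set.centralizer ({U, V} ∪ star '' {U, V}) := by
      intro B hB
      have hB' : φ B ∈ (rot θ).alg := by
        rcases hB with hB | ⟨C, hC, rfl⟩
        · rcases hB with rfl | rfl
          · exact hUm
          · exact hVm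
        · rw [map_star]
          rcases hC with rfl | rfl
          · exact star_mem hUm
          · exact star_mem hVm
      apply EquivLike.injective φ
      rw [map_mul, map_mul, StarAlgEquiv.apply_symm_apply, hA _ hB']
    have := congrArg φ (hp _ hc)
    rwa [map_mul, map_mul, StarAlgEquiv.apply_symm_apply] at this
  have hq : (rot θ).IsP (φ p) := by
    refine ⟨(rot θ).mem_alg.2 ⟨fun g hg => key _ fun B hB => ((rot θ).mem_alg.1 hB).1 g hg,
      fun k => key _ fun B hB => ((rot θ).mem_alg.1 hB).2 k⟩, ?_⟩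
    exact hp'.map φ
  have hnormal : IsStarNormal (φ V) := by
    rw [hV]
    refine ⟨?_⟩
    rw [(rot θ).star_Lc (bdd_fourier 1), commute_iff_eq,
      ← (rot θ).Lc_mul (bdd_fourier 1).conj (bdd_fourier 1),
      ← (rot θ).Lc_mul (bdd_fourier 1) (bdd_fourier 1).conj]
    congr 1
    funext x
    exact mul_comm _ _
  have hg : Continuous fun z : ℂ => (f z : ℂ) := Complex.continuous_ofReal.comp hf
  have hcfc : φ (cfc (fun z : ℂ => (f z : ℂ)) V) = (rot θ).L fun x => f (fourier 1 x) := by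
    rw [hφ, conj_cfc W hg hnormal, ← hφ, hV,
      (rot θ).cfc_Lc (bdd_fourier 1).1 (isCompact_sphere (0 : ℂ) 1) (fun x => by
        rw [mem_sphere_zero_iff_norm, fourier_apply]; exact Circle.norm_coe _) hg.continuousOn]
    rfl
  have hinv' := congrArg φ hinv
  rw [map_mul, map_mul, map_mul, map_sub, map_one, map_zero, hU, hcfc] at hinv'
  rcases h _ hq hinv' with h0 | h1
  · left
    apply EquivLike.injective φ
    rw [h0, map_zero]
  · right
    apply EquivLike.injective φ
    rw [h1, map_one]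

/-- Tietze extension (`ContinuousMap.exists_extension'`) along the closed embedding
`x ↦ fourier 1 x`, which is onto the unit circle; `fourier 1 (t / (2π)) = exp (t i)` and a change of
variables (`AddCircle.lintegral_preimage` / `UnitAddCircle.lintegral_preimage`) for the integral. -/
theorem exists_extend {F : UnitAddCircle → ℝ} (hF : Continuous F) (h01 : ∀ x, 0 ≤ F x ∧ F x ≤ 1)
    (h0 : ∀ x, F x = 0 ↔ x = 0)
    (hint : ∫⁻ x, ENNReal.ofReal (-Real.log (F x)) ∂(volume : Measure UnitAddCircle) = ⊤) :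
    ∃ f : ℂ → ℝ, Continuous f ∧ (∀ x : UnitAddCircle, f (fourier 1 x) = F x) ∧
      (∀ z : ℂ, ‖z‖ = 1 → 0 ≤ f z ∧ f z ≤ 1) ∧ (∀ z : ℂ, ‖z‖ = 1 → (f z = 0 ↔ z = 1)) ∧
      (∫⁻ t in Set.Ioc (0 : ℝ) (2 * Real.pi),
          ENNReal.ofReal (- Real.log (f (Complex.exp ((t : ℂ) * Complex.I)))) = ⊤) := by
  have hinj : Function.Injective fun x : UnitAddCircle => (fourier 1 x : ℂ) := by
    intro x y hxy
    simp only [fourier_one] at hxy
    exact AddCircle.injective_toCircle one_ne_zero (Circle.ext hxy)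
  have hemb : IsClosedEmbedding fun x : UnitAddCircle => (fourier 1 x : ℂ) :=
    (fourier 1).continuous.isClosedEmbedding hinj
  obtain ⟨g, hg⟩ := ContinuousMap.exists_extension' hemb ⟨F, hF⟩
  have hgF : ∀ x : UnitAddCircle, g (fourier 1 x) = F x := fun x => congrFun hg x
  have hexp : ∀ t : ℝ, (fourier 1 ((t / (2 * Real.pi) : ℝ) : UnitAddCircle) : ℂ) =
      Complex.exp ((t : ℂ) * Complex.I) := by
    intro t
    rw [fourier_coe_apply]
    congr 1
    have : (Real.pi : ℂ) ≠ 0 := by exact_mod_cast Real.pi_ne_zero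
    push_cast
    field_simp
  have hsurj : ∀ z : ℂ, ‖z‖ = 1 → ∃ x : UnitAddCircle, (fourier 1 x : ℂ) = z := by
    intro z hz
    refine ⟨((z.arg / (2 * Real.pi) : ℝ) : UnitAddCircle), ?_⟩
    rw [hexp]
    have := Complex.norm_mul_exp_arg_mul_I z
    rwa [hz, Complex.ofReal_one, one_mul] at this
  refine ⟨g, g.continuous, hgF, fun z hz => ?_, fun z hz => ?_, ?_⟩
  · obtain ⟨x, rfl⟩ := hsurj z hz
    rw [hgF]; exact h01 x
  · obtain ⟨x, rfl⟩ := hsurj z hz
    rw [hgF, h0]
    constructor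
    · rintro rfl; exact fourier_eval_zero 1
    · intro hx
      apply hinj
      simp only [hx, fourier_eval_zero]
  · simp only [← hexp, hgF]
    set G : UnitAddCircle → ℝ≥0∞ := fun x => ENNReal.ofReal (-Real.log (F x)) with hG
    have hGm : Measurable G :=
      ENNReal.measurable_ofReal.comp (Real.measurable_log.comp hF.measurable).neg
    have h1 := UnitAddCircle.lintegral_preimage 0 G
    rw [hint, zero_add] at h1
    have hpi : (0 : ℝ) < 2 * Real.pi := by positivity
    have hmk : Measurable fun t : ℝ => G (t : UnitAddCircle) :=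
      hGm.comp AddCircle.measurable_mk'
    -- change of variables `t = 2π s`
    have hmap : Measure.map (fun t : ℝ => t * (2 * Real.pi)⁻¹) volume =
        ENNReal.ofReal (2 * Real.pi) • (volume : Measure ℝ) := by
      rw [Real.map_volume_mul_right (inv_ne_zero hpi.ne'), inv_inv, abs_of_pos hpi]
    have hpre : (fun t : ℝ => t * (2 * Real.pi)⁻¹) ⁻¹' Set.Ioc (0 : ℝ) 1 =
        Set.Ioc (0 : ℝ) (2 * Real.pi) := by
      ext t
      simp only [Set.mem_preimage, Set.mem_Ioc, ← div_eq_mul_inv]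
      rw [div_pos_iff_of_pos_right hpi, div_le_one hpi]
    have h2 := setLIntegral_map (μ := (volume : Measure ℝ)) (s := Set.Ioc (0 : ℝ) 1)
      measurableSet_Ioc hmk (measurable_mul_const (2 * Real.pi)⁻¹)
    rw [hmap, hpre, Measure.restrict_smul, lintegral_smul_measure, h1] at h2
    have h3 : ENNReal.ofReal (2 * Real.pi) • (⊤ : ℝ≥0∞) = ⊤ := by
      rw [smul_eq_mul, ENNReal.mul_top]
      exact (ENNReal.ofReal_pos.2 hpi).ne'
    rw [h3] at h2
    simpa only [div_eq_mul_inv] using h2.symm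

end

end Crest.Agent.R113
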