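import Crest.Agent.R113.Scales

/-!
# Row 113: the times to the next cut separate the points of an orbit
-/

open MeasureTheory Filter Topology
open scoped InnerProductSpace BigOperators ENNReal

set_option linter.unusedSectionVars false

namespace Crest.Agent.R113

noncomputable section

open Classical

/-- what is known about the times `t i`, `t' i` to the next cut of level `≥ i` from two points of an
orbit at distance `j` -/
structure Adm (B : ℕ → ℕ) (θ : ℕ → ℝ) (j : ℕ) (t t' : ℕ → ℕ) : Prop where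
  lt : ∀ i, t i < 3 * B i
  lt' : ∀ i, t' i < 3 * B i
  mono : Monotone t
  mono' : Monotone t'
  same : ∀ i, j ≤ t i → t' i + j = t i
  near : ∀ i, t i < t (i + 1) → t' i < t' (i + 1) →
    dZ (((j : ℝ) + t' i - t i) * θ i) ≤ 1 / 2 ^ i

/-- Detection by a window of `k` levels.  If more than `k / 4` levels have `t (i+1) < 6 B i` the
second sum exceeds `1`.  Otherwise at least `k / 4` levels have `6 B i ≤ t (i+1)` and
`λ ≤ dZ (j θ i)`; at such a level either `t' i < t' (i+1)` and `δ i ≥ |t i - t' i| θ i ≥ λ / 2`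
(`near`, `dZ_add_le`), or `t' (i+1) = t' i < 3 B i` and `δ (i+1) ≥ 3 / L`. -/
theorem window_detect {B : ℕ → ℕ} {θ : ℕ → ℝ} {j : ℕ} {t t' : ℕ → ℕ} (h : Adm B θ j t t')
    {b k L : ℕ} {l : ℝ} (hk : 1 ≤ k) (hL : 1 ≤ L) (hl0 : 0 < l) (hl : l ≤ 1 / L)
    (hb : 1 / 2 ^ b ≤ l / 2) (hB : ∀ i, 1 ≤ B i)
    (hsucc : ∀ i ∈ Finset.Ico b (b + k), B (i + 1) = L * B i)
    (hθ : ∀ i, 0 < θ i ∧ θ i < 1 / (B i : ℝ))
    (hcard : k ≤ 2 * ((Finset.Ico b (b + k)).filter fun i => l ≤ dZ (j * θ i)).card) :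
    1 ≤ ∑ i ∈ Finset.Ico b (b + k), 8 / (l * k) *
          (|(t i : ℝ) - t' i| / B i + |(t (i + 1) : ℝ) - t' (i + 1)| / B (i + 1)) +
        ∑ i ∈ Finset.Ico b (b + k), if t (i + 1) < 6 * B i then 4 / (k : ℝ) else 0 := by
  have hkR : (0 : ℝ) < k := by exact_mod_cast hk
  have hLR : (0 : ℝ) < L := by exact_mod_cast hL
  have hBR : ∀ i, (0 : ℝ) < B i := fun i => by exact_mod_cast hB i
  rw [← Finset.sum_add_distrib]
  set G := (Finset.Ico b (b + k)).filter fun i => l ≤ dZ (j * θ i) with hG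
  have hc : 0 < 8 / (l * k) := by positivity
  have key : ∀ i ∈ G, 2 / (k : ℝ) ≤ 8 / (l * k) *
          (|(t i : ℝ) - t' i| / B i + |(t (i + 1) : ℝ) - t' (i + 1)| / B (i + 1)) +
        if t (i + 1) < 6 * B i then 4 / (k : ℝ) else 0 := by
    intro i hi
    obtain ⟨hi, hdz⟩ := Finset.mem_filter.1 hi
    have d0 : 0 ≤ |(t i : ℝ) - t' i| / B i := div_nonneg (abs_nonneg _) (hBR i).le
    have d1 : 0 ≤ |(t (i + 1) : ℝ) - t' (i + 1)| / B (i + 1) :=
      div_nonneg (abs_nonneg _) (hBR _).le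
    have h24 : 2 / (k : ℝ) ≤ 4 / k := by gcongr; norm_num
    split_ifs with h6
    · have := mul_nonneg hc.le (add_nonneg d0 d1)
      linarith
    · push Not at h6
      have hlt := h.lt i
      have hlt' := h.lt' i
      suffices hs : l / 4 ≤
          |(t i : ℝ) - t' i| / B i + |(t (i + 1) : ℝ) - t' (i + 1)| / B (i + 1) by
        have h1 := mul_le_mul_of_nonneg_left hs hc.le
        have h2 : 8 / (l * k) * (l / 4) = 2 / k := by field_simp; norm_num
        linarith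
      by_cases h' : t' i < t' (i + 1)
      · have hn := h.near i (by have := hB i; omega) h'
        have hib : b ≤ i := (Finset.mem_Ico.1 hi).1
        have hp : (1 : ℝ) / 2 ^ i ≤ 1 / 2 ^ b :=
          one_div_le_one_div_of_le (by positivity) (pow_le_pow_right₀ (by norm_num) hib)
        have h3 := dZ_add_le (((j : ℝ) + t' i - t i) * θ i) (((t i : ℝ) - t' i) * θ i)
        have e : ((j : ℝ) + t' i - t i) * θ i + ((t i : ℝ) - t' i) * θ i = j * θ i := by ring
        rw [e, abs_mul, abs_of_pos (hθ i).1] at h3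
        have h4 : |(t i : ℝ) - t' i| * θ i ≤ |(t i : ℝ) - t' i| / B i := by
          rw [div_eq_mul_one_div]
          exact mul_le_mul_of_nonneg_left (hθ i).2.le (abs_nonneg _)
        linarith
      · push Not at h'
        have h5 : (3 * B i : ℝ) ≤ |(t (i + 1) : ℝ) - t' (i + 1)| := by
          refine le_trans ?_ (le_abs_self _)
          have : 3 * B i + t' (i + 1) ≤ t (i + 1) := by omega
          have : ((3 * B i + t' (i + 1) : ℕ) : ℝ) ≤ t (i + 1) := by exact_mod_cast this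
          push_cast at this
          linarith
        have h7 : 3 / (L : ℝ) ≤ |(t (i + 1) : ℝ) - t' (i + 1)| / B (i + 1) := by
          rw [hsucc i hi, div_le_div_iff₀ hLR (by push_cast; have := hBR i; positivity)]
          push_cast
          nlinarith
        have h8 : 3 / (L : ℝ) = 3 * (1 / L) := by ring
        linarith
  calc (1 : ℝ) ≤ G.card * (2 / (k : ℝ)) := by
        have : (k : ℝ) ≤ 2 * G.card := by exact_mod_cast hcard
        rw [mul_div_assoc', le_div_iff₀ hkR]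
        linarith
    _ = ∑ _i ∈ G, 2 / (k : ℝ) := by rw [Finset.sum_const, nsmul_eq_mul]
    _ ≤ _ := Finset.sum_le_sum key
    _ ≤ _ := by
        refine Finset.sum_le_sum_of_subset_of_nonneg (Finset.filter_subset _ _) fun i _ _ => ?_
        have d0 : 0 ≤ |(t i : ℝ) - t' i| / B i := div_nonneg (abs_nonneg _) (hBR i).le
        have d1 : 0 ≤ |(t (i + 1) : ℝ) - t' (i + 1)| / B (i + 1) :=
          div_nonneg (abs_nonneg _) (hBR _).le
        have := mul_nonneg hc.le (add_nonneg d0 d1)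
        split_ifs
        · positivity
        · positivity

/-- Detection of short distances: take the least `i ≥ m` with `j ≤ B i / 2^n`. -/
theorem initial_detect {B : ℕ → ℕ} {θ : ℕ → ℝ} {j : ℕ} {t t' : ℕ → ℕ} (h : Adm B θ j t t')
    {m M n L : ℕ} (hB : ∀ i, 1 ≤ B i) (hmM : m ≤ M) (hj : j ≤ B M / 2 ^ n) (hm : t m < j)
    (hsucc : ∀ i, m ≤ i → i < M → B (i + 1) ≤ L * B i) :
    1 ≤ ∑ i ∈ Finset.Icc m M, (2 ^ n * L : ℝ) * (|(t i : ℝ) - t' i| / B i) +
        ∑ i ∈ Finset.Icc m M, if t i < B i / 2 ^ n then (1 : ℝ) else 0 := by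
  have hBR : ∀ i, (0 : ℝ) < B i := fun i => by exact_mod_cast hB i
  have hex : ∃ i, m ≤ i ∧ j ≤ B i / 2 ^ n := ⟨M, hmM, hj⟩
  have hi := Nat.find_spec hex
  have hiM : Nat.find hex ≤ M := Nat.find_min' hex ⟨hmM, hj⟩
  have hmin : ∀ i' < Nat.find hex, ¬ (m ≤ i' ∧ j ≤ B i' / 2 ^ n) := fun i' hi' =>
    Nat.find_min hex hi'
  set i := Nat.find hex with hidef
  rw [← Finset.sum_add_distrib]
  have hnn : ∀ i, (0 : ℝ) ≤ (2 ^ n * L : ℝ) * (|(t i : ℝ) - t' i| / B i) := fun i => by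
    have := hBR i
    positivity
  refine le_trans ?_ (Finset.single_le_sum (f := fun i =>
    (2 ^ n * L : ℝ) * (|(t i : ℝ) - t' i| / B i) + if t i < B i / 2 ^ n then (1 : ℝ) else 0)
    (fun i _ => add_nonneg (hnn i) (by split_ifs <;> norm_num)) (Finset.mem_Icc.2 ⟨hi.1, hiM⟩))
  split_ifs with hc
  · have := hnn i
    linarith
  · push Not at hc
    have hjt : j ≤ t i := hi.2.trans hc
    have hsame := h.same i hjt
    have hne : i ≠ m := by
      intro e
      rw [e] at hjt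
      omega
    obtain ⟨i', hi'⟩ : ∃ i', i = i' + 1 := ⟨i - 1, by have := hi.1; omega⟩
    have hmi' : m ≤ i' := by have := hi.1; omega
    have h1 : B i' / 2 ^ n < j := by
      have := hmin i' (by omega)
      push Not at this
      exact this hmi'
    have h2 : B i' < j * 2 ^ n := (Nat.div_lt_iff_lt_mul (by positivity)).1 h1
    have h3 : B i ≤ L * B i' := by
      rw [hi']
      exact hsucc i' hmi' (by omega)
    have h4 : B i ≤ 2 ^ n * L * j := by
      calc B i ≤ L * B i' := h3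
        _ ≤ L * (j * 2 ^ n) := Nat.mul_le_mul_left _ h2.le
        _ = 2 ^ n * L * j := by ring
    have h5 : |(t i : ℝ) - t' i| = j := by
      rw [← hsame]
      push_cast
      rw [add_sub_cancel_left, abs_of_nonneg (by positivity)]
    rw [h5, add_zero, mul_div_assoc', le_div_iff₀ (hBR i), one_mul]
    exact_mod_cast h4

/-- the window containing level `i` -/
def win (i : ℕ) : ℕ := (exists_window i).choose

theorem win_spec (i : ℕ) : bb (win i) ≤ i ∧ i < bb (win i + 1) := (exists_window i).choose_spec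

theorem win_eq {s i : ℕ} (h₁ : bb s ≤ i) (h₂ : i < bb (s + 1)) : win i = s := by
  obtain ⟨h₃, h₄⟩ := win_spec i
  have a : win i < s + 1 := bb_strictMono.lt_iff_lt.1 (h₃.trans_lt h₂)
  have b : s < win i + 1 := bb_strictMono.lt_iff_lt.1 (h₁.trans_lt h₄)
  omega

theorem sum_win_le (S U : Finset ℕ) {g : ℕ → ℝ} (hg : ∀ s, 0 ≤ g s) :
    ∑ i ∈ S, (if win i ∈ U then g (win i) else 0) ≤ ∑ s ∈ U, 2 ^ rr s * g s := by
  rw [← Finset.sum_filter,
    ← Finset.sum_fiberwise_of_maps_to (s := S.filter fun i => win i ∈ U) (t := U) (g := win)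
      (fun i hi => (Finset.mem_filter.1 hi).2)]
  refine Finset.sum_le_sum fun s _ => ?_
  have e : ∑ i ∈ (S.filter fun i => win i ∈ U).filter (fun i => win i = s), g (win i) =
      ∑ _i ∈ (S.filter fun i => win i ∈ U).filter (fun i => win i = s), g s :=
    Finset.sum_congr rfl fun i hi => by rw [(Finset.mem_filter.1 hi).2]
  rw [e, Finset.sum_const, nsmul_eq_mul]
  refine mul_le_mul_of_nonneg_right ?_ (hg s)
  have hsub : (S.filter fun i => win i ∈ U).filter (fun i => win i = s) ⊆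
      Finset.Ico (bb s) (bb s + 2 ^ rr s) := by
    intro i hi
    have h1 := (Finset.mem_filter.1 hi).2
    have h2 := win_spec i
    rw [h1] at h2
    exact Finset.mem_Ico.2 h2
  have := Finset.card_le_card hsub
  rw [Nat.card_Ico, Nat.add_sub_cancel_left] at this
  exact_mod_cast this

theorem sum_range_two_mul' (F : ℕ → ℝ) (M : ℕ) :
    ∑ u ∈ Finset.range (2 * M), F u = ∑ i ∈ Finset.range M, (F (2 * i) + F (2 * i + 1)) := by
  induction M with
  | zero => simp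
  | succ M ih =>
    rw [show 2 * (M + 1) = 2 * M + 1 + 1 by ring, Finset.sum_range_succ, Finset.sum_range_succ, ih,
      Finset.sum_range_succ]
    ring

theorem LL_pos (r : ℕ) : 1 ≤ LL r := Nat.one_le_pow _ _ (by omega)

theorem lam_pos {L : ℕ} (hL : 1 ≤ L) : 0 < lam L := by
  have : (0 : ℝ) < L := by exact_mod_cast hL
  unfold lam
  positivity

theorem lam_LL (r : ℕ) : lam (LL (r + 1)) = 1 / (64 ^ 4 * ((r : ℝ) + 5) ^ 24) := by
  unfold lam LL
  push_cast
  congr 1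
  ring

theorem lam_LL_le (r : ℕ) : lam (LL (r + 1)) ≤ 1 / (LL r : ℝ) := by
  rw [lam_LL]
  unfold LL
  push_cast
  refine one_div_le_one_div_of_le (by positivity) ?_
  have h0 : (0 : ℝ) ≤ r := by positivity
  have h1 : (1 : ℝ) ≤ (r : ℝ) + 5 := by linarith
  calc ((r : ℝ) + 4) ^ 2 ≤ ((r : ℝ) + 5) ^ 2 := by gcongr; norm_num
    _ ≤ ((r : ℝ) + 5) ^ 24 := pow_le_pow_right₀ h1 (by norm_num)
    _ ≤ 64 ^ 4 * ((r : ℝ) + 5) ^ 24 := le_mul_of_one_le_left (by positivity) (by norm_num)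

theorem exists_lam_big : ∃ s₁ : ℕ, ∀ s, s₁ ≤ s → 1 / 2 ^ bb s ≤ lam (LL (rr s + 1)) / 2 := by
  have h := tendsto_pow_const_div_const_pow_of_one_lt 24 (r := (2 : ℝ)) (by norm_num)
  have h2 := (h.comp (tendsto_add_atTop_nat 5)).eventually
    (eventually_le_nhds (show (0 : ℝ) < 1 / (64 ^ 4 * 64) by positivity))
  obtain ⟨s₁, hs₁⟩ := eventually_atTop.1 h2
  refine ⟨s₁, fun s hs => ?_⟩
  have h3 := hs₁ s hs
  simp only [Function.comp_apply] at h3
  rw [lam_LL, div_div, one_div_le_one_div (by positivity) (by positivity)]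
  rw [div_le_div_iff₀ (by positivity) (by positivity)] at h3
  have h4 : (rr s : ℝ) ≤ s := by exact_mod_cast Nat.sub_le _ _
  have h5 : ((rr s : ℝ) + 5) ^ 24 ≤ ((s : ℝ) + 5) ^ 24 := by gcongr
  have h6 : (2 : ℝ) ^ s ≤ 2 ^ bb s := pow_le_pow_right₀ (by norm_num) (le_bb s)
  push_cast at h3
  rw [pow_add] at h3
  nlinarith

theorem summable_alpha :
    Summable fun r : ℕ => (2 : ℝ) ^ r * (8 / (lam (LL (r + 1)) * ((2 ^ r : ℕ) : ℝ))) ^ 2 := by
  have h := summable_pow_mul_geometric_of_norm_lt_one (R := ℝ) 48 (r := 1 / 2) (by norm_num)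
  have h2 := ((summable_nat_add_iff 5).2 h).mul_left (64 * 64 ^ 8 * 32)
  refine h2.congr fun r => ?_
  rw [lam_LL]
  push_cast
  have : (0 : ℝ) < (r : ℝ) + 5 := by positivity
  rw [pow_add, one_div_pow, one_div_pow]
  field_simp
  norm_num

theorem sum_inv_LL_le (r₀ N : ℕ) :
    ∑ r ∈ Finset.Ico r₀ N, 1 / (LL r : ℝ) ≤ 1 / ((r₀ : ℝ) + 3) := by
  have key : ∀ N, r₀ ≤ N →
      ∑ r ∈ Finset.Ico r₀ N, 1 / (LL r : ℝ) ≤ 1 / ((r₀ : ℝ) + 3) - 1 / ((N : ℝ) + 3) := by
    intro N hN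
    induction N, hN using Nat.le_induction with
    | base => simp
    | succ N hN ih =>
      rw [Finset.sum_Ico_succ_top hN]
      have h0 : (0 : ℝ) ≤ N := by positivity
      have : 1 / (LL N : ℝ) ≤ 1 / ((N : ℝ) + 3) - 1 / (((N + 1 : ℕ) : ℝ) + 3) := by
        unfold LL
        push_cast
        rw [div_sub_div _ _ (by positivity) (by positivity),
          div_le_div_iff₀ (by positivity) (by positivity)]
        nlinarith
      linarith
  rcases le_total r₀ N with hN | hN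
  · have := key N hN
    have : 0 ≤ 1 / ((N : ℝ) + 3) := by positivity
    linarith
  · rw [Finset.Ico_eq_empty_of_le hN, Finset.sum_empty]
    positivity

theorem exists_n (k₀ : ℕ) {μ : ℝ} (hμ : 0 < μ) :
    ∃ n : ℕ, ((k₀ : ℝ) + n + 1) * (4 / 2 ^ n) ≤ μ := by
  have h0 := tendsto_pow_const_div_const_pow_of_one_lt 0 (r := (2 : ℝ)) (by norm_num)
  have h1 := tendsto_pow_const_div_const_pow_of_one_lt 1 (r := (2 : ℝ)) (by norm_num)
  have h2 := (h0.const_mul (4 * ((k₀ : ℝ) + 1))).add (h1.const_mul 4)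
  simp only [mul_zero, add_zero] at h2
  obtain ⟨n, hn⟩ := (h2.eventually (eventually_le_nhds hμ)).exists
  refine ⟨n, le_trans (le_of_eq ?_) hn⟩
  ring

theorem two_families (M : ℕ) (lev₀ thr₀ lev₁ thr₁ : ℕ → ℕ) (ω₀ ω₁ : ℕ → ℝ)
    (h₀ : ∀ i, 0 ≤ ω₀ i) (h₁ : ∀ i, 0 ≤ ω₁ i) :
    ∃ (T : Finset ℕ) (lev thr : ℕ → ℕ) (ω : ℕ → ℝ), (∀ u, 0 ≤ ω u) ∧
      ∀ F : ℕ → ℕ → ℝ → ℝ, ∑ u ∈ T, F (lev u) (thr u) (ω u) =
        ∑ i ∈ Finset.range M, F (lev₀ i) (thr₀ i) (ω₀ i) +
          ∑ i ∈ Finset.range M, F (lev₁ i) (thr₁ i) (ω₁ i) := by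
  refine ⟨Finset.range (2 * M), fun u => if u % 2 = 0 then lev₀ (u / 2) else lev₁ (u / 2),
    fun u => if u % 2 = 0 then thr₀ (u / 2) else thr₁ (u / 2),
    fun u => if u % 2 = 0 then ω₀ (u / 2) else ω₁ (u / 2), fun u => ?_, fun F => ?_⟩
  · dsimp only
    split_ifs
    · exact h₀ _
    · exact h₁ _
  · rw [sum_range_two_mul', ← Finset.sum_add_distrib]
    refine Finset.sum_congr rfl fun i _ => ?_
    have e1 : 2 * i % 2 = 0 := by omega
    have e2 : 2 * i / 2 = i := by omega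
    have e3 : ¬ (2 * i + 1) % 2 = 0 := by omega
    have e4 : (2 * i + 1) / 2 = i := by omega
    simp only [e1, e2, e3, e4, if_true, if_false]

theorem sum_ite_Icc_le (S : Finset ℕ) (m M : ℕ) {c : ℝ} (hc : 0 ≤ c) :
    ∑ i ∈ S, (if i ∈ Finset.Icc m M then c else 0) ≤ ((M + 1 - m : ℕ) : ℝ) * c := by
  rw [← Finset.sum_filter, Finset.sum_const, nsmul_eq_mul]
  refine mul_le_mul_of_nonneg_right ?_ hc
  have : (S.filter fun i => i ∈ Finset.Icc m M).card ≤ (Finset.Icc m M).card :=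
    Finset.card_le_card fun i hi => (Finset.mem_filter.1 hi).2
  rw [Nat.card_Icc] at this
  exact_mod_cast this

theorem Scale.B_pos {Dn : Set ℝ} {B : ℕ → ℕ} {θ : ℕ → ℝ} (h : Scale Dn B θ) (i : ℕ) : 1 ≤ B i :=
  le_trans (Nat.one_le_pow _ _ (by norm_num)) (h.pow_le i)

theorem Scale.two_pow_mul_le {Dn : Set ℝ} {B : ℕ → ℕ} {θ : ℕ → ℝ} (h : Scale Dn B θ) (i n : ℕ) :
    B i * 2 ^ n ≤ B (i + n) := by
  induction n with
  | zero => simp
  | succ n ih =>
    have := h.grow (i + n)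
    rw [pow_succ, ← mul_assoc, ← add_assoc]
    omega

/-- Given `μ₀`, take `r₀ ≥ 2` with `144 / (r₀ + 3) ≤ μ₀ / 4`, `k₀ = 2^r₀`, `n` with
`(k₀ + n + 1) 2 / 2^n ≤ μ₀ / 4`, and `s₀ = e² + r₀`, `m = bb s₀` with `e ≥ r₀` large.  Distances
`j < B (bb (s₀+1))` are handled by `initial_detect` with `M = m + k₀ + n`, `L = LL (r₀ + n + 1)`
(`ratio_le`); the others by `exists_used`, `Scale.dio`, `window_detect` with
`l = lam (LL (rr s + 1))` (for `s ≥ s₀` large `1 / 2^(bb s) ≤ l / 2` as `rr s ≤ s ≤ bb s`).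
`a` is the sum of the initial weights, the window weights `α s = 8 / (l k)` and their shift by one;
`∑ a² ≤ 3 (…)`, with `∑_{used} k α² ≤ 3 ∑_r 64 / (lam (LL (r+1))² 2^r) < ∞` (`sum_used_le`).
Exceptional events are indexed by `u = 2 i` (initial) and `u = 2 i + 1` (windows). -/
theorem Scale.cover {Dn : Set ℝ} {B : ℕ → ℕ} {θ : ℕ → ℝ} (h : Scale Dn B θ) {μ₀ : ℝ}
    (hμ : 0 < μ₀) :
    ∃ K : ℝ, ∀ m₀ : ℕ, ∃ m, m₀ ≤ m ∧ ∀ J : ℕ,
      ∃ (M : ℕ) (a : ℕ → ℝ) (T : Finset ℕ) (lev thr : ℕ → ℕ) (ω : ℕ → ℝ),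
        (∀ i, 0 ≤ a i) ∧ ∑ i ∈ Finset.Ico m M, a i ^ 2 ≤ K ∧ (∀ u, 0 ≤ ω u) ∧
        ∑ u ∈ T, ω u * (2 * (thr u : ℝ) / B (lev u) + 2 / 2 ^ lev u) ≤ μ₀ ∧
        ∀ (j : ℕ) (t t' : ℕ → ℕ), 1 ≤ j → j ≤ J → t m < j → Adm B θ j t t' →
          1 ≤ ∑ i ∈ Finset.Ico m M, a i * |(t i : ℝ) - t' i| / B i +
            ∑ u ∈ T, if t (lev u) < thr u then ω u else 0 := by
  obtain ⟨r₁, hr₁⟩ := exists_nat_ge (312 / μ₀)
  obtain ⟨r₀, hr₀⟩ : ∃ r₀, r₀ = r₁ + 2 := ⟨_, rfl⟩
  have hr₀μ : 156 * (1 / ((r₀ : ℝ) + 3)) ≤ μ₀ / 2 := by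
    rw [div_le_iff₀ hμ] at hr₁
    rw [mul_one_div, div_le_div_iff₀ (by positivity) (by positivity), hr₀]
    push_cast
    nlinarith
  obtain ⟨n, hn⟩ := exists_n (2 ^ r₀) (half_pos hμ)
  obtain ⟨s₁, hs₁⟩ := exists_lam_big
  obtain ⟨α, hα⟩ : ∃ α : ℕ → ℝ, ∀ r, α r = 8 / (lam (LL (r + 1)) * ((2 ^ r : ℕ) : ℝ)) :=
    ⟨_, fun _ => rfl⟩
  have hα0 : ∀ r, 0 ≤ α r := fun r => by
    rw [hα]
    have := lam_pos (LL_pos (r + 1))
    positivity
  have hαs : Summable fun r : ℕ => (2 : ℝ) ^ r * α r ^ 2 := by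
    simp only [hα]
    exact summable_alpha
  obtain ⟨c₀, hc₀⟩ : ∃ c₀ : ℝ, c₀ = 2 ^ n * (LL (r₀ + n + 1) : ℝ) := ⟨_, rfl⟩
  have hc₀0 : 0 ≤ c₀ := by rw [hc₀]; positivity
  have hB := h.B_pos
  have hBR : ∀ i, (0 : ℝ) < B i := fun i => by exact_mod_cast hB i
  refine ⟨3 * (((2 ^ r₀ + n + 1 : ℕ) : ℝ) * c₀ ^ 2 + 2 * (3 * ∑' r, (2 : ℝ) ^ r * α r ^ 2)),
    fun m₀ => ?_⟩
  obtain ⟨e, he⟩ : ∃ e, e = r₀ + n + s₁ + m₀ := ⟨_, rfl⟩
  obtain ⟨s₀, hs₀⟩ : ∃ s₀, s₀ = e ^ 2 + r₀ := ⟨_, rfl⟩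
  obtain ⟨hsq, hrr⟩ : Nat.sqrt s₀ = e ∧ rr s₀ = r₀ := by
    rw [hs₀]
    exact sqrt_sq_add (by omega)
  have hes : e ≤ s₀ := by
    have : e ≤ e ^ 2 := Nat.le_self_pow (by norm_num) e
    omega
  have hrs : rr s₀ ≤ Nat.sqrt s₀ := by omega
  obtain ⟨m, hm⟩ : ∃ m, m = bb s₀ := ⟨_, rfl⟩
  have hsm : s₀ ≤ m := hm ▸ le_bb s₀
  refine ⟨m, by omega, fun J => ?_⟩
  obtain ⟨U, hU⟩ : ∃ U, U = (Finset.range J).filter (Used s₀) := ⟨_, rfl⟩
  have hUmem : ∀ s ∈ U, s < J ∧ Used s₀ s := fun s hs => by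
    rw [hU] at hs
    exact ⟨Finset.mem_range.1 (Finset.mem_filter.1 hs).1, (Finset.mem_filter.1 hs).2⟩
  obtain ⟨M₀, hM₀⟩ : ∃ M₀, M₀ = m + 2 ^ r₀ + n := ⟨_, rfl⟩
  have hcard : M₀ + 1 - m = 2 ^ r₀ + n + 1 := by
    rw [hM₀]
    generalize 2 ^ r₀ = k
    omega
  have hmM₀ : m ≤ M₀ := hM₀ ▸ (Nat.le_add_right _ _).trans (Nat.le_add_right _ _)
  obtain ⟨M, hM⟩ : ∃ M, M = M₀ + 1 + bb J + 1 := ⟨_, rfl⟩
  obtain ⟨A, hA⟩ : ∃ A : ℕ → ℝ, ∀ i, A i = if win i ∈ U then α (rr (win i)) else 0 :=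
    ⟨_, fun _ => rfl⟩
  have hA0 : ∀ i, 0 ≤ A i := fun i => by
    rw [hA]
    split_ifs
    · exact hα0 _
    · exact le_rfl
  obtain ⟨a₀, ha₀⟩ : ∃ a₀ : ℕ → ℝ, ∀ i, a₀ i = if i ∈ Finset.Icc m M₀ then c₀ else 0 :=
    ⟨_, fun _ => rfl⟩
  have ha₀0 : ∀ i, 0 ≤ a₀ i := fun i => by
    rw [ha₀]
    split_ifs
    · exact hc₀0
    · exact le_rfl
  obtain ⟨ω₀, hω₀⟩ : ∃ ω₀ : ℕ → ℝ, ∀ i, ω₀ i = if i ∈ Finset.Icc m M₀ then 1 else 0 :=
    ⟨_, fun _ => rfl⟩
  have hω₀0 : ∀ i, 0 ≤ ω₀ i := fun i => by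
    rw [hω₀]
    split_ifs <;> norm_num
  obtain ⟨ω₁, hω₁⟩ : ∃ ω₁ : ℕ → ℝ,
      ∀ i, ω₁ i = if win i ∈ U then 4 / ((2 ^ rr (win i) : ℕ) : ℝ) else 0 := ⟨_, fun _ => rfl⟩
  have hω₁0 : ∀ i, 0 ≤ ω₁ i := fun i => by
    rw [hω₁]
    split_ifs
    · positivity
    · exact le_rfl
  obtain ⟨T, lev, thr, ω, hω0, hT⟩ := two_families M (fun i => i) (fun i => B i / 2 ^ n)
    (fun i => i + 1) (fun i => 6 * B i) ω₀ ω₁ hω₀0 hω₁0
  have hAsq : ∀ S : Finset ℕ, ∑ i ∈ S, A i ^ 2 ≤ 3 * ∑' r, (2 : ℝ) ^ r * α r ^ 2 := by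
    intro S
    have e1 : ∀ i, A i ^ 2 = if win i ∈ U then α (rr (win i)) ^ 2 else 0 := fun i => by
      rw [hA]
      split_ifs <;> simp
    simp only [e1]
    refine (sum_win_le S U (g := fun s => α (rr s) ^ 2) fun s => by positivity).trans ?_
    rw [hU]
    refine (sum_used_le hrs J (g := fun r => (2 : ℝ) ^ r * α r ^ 2) fun r => by positivity).trans ?_
    exact mul_le_mul_of_nonneg_left (hαs.sum_le_tsum _ fun r _ => by positivity) (by norm_num)
  refine ⟨M, fun i => a₀ i + A i + A (i - 1), T, lev, thr, ω,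
    fun i => add_nonneg (add_nonneg (ha₀0 i) (hA0 i)) (hA0 _), ?_, hω0, ?_, ?_⟩
  · have h1 : ∑ i ∈ Finset.Ico m M, a₀ i ^ 2 ≤ ((2 ^ r₀ + n + 1 : ℕ) : ℝ) * c₀ ^ 2 := by
      have e1 : ∀ i, a₀ i ^ 2 = if i ∈ Finset.Icc m M₀ then c₀ ^ 2 else 0 := fun i => by
        rw [ha₀]
        split_ifs <;> simp
      simp only [e1]
      rw [← hcard]
      exact sum_ite_Icc_le _ _ _ (by positivity)
    have h2 := hAsq (Finset.Ico m M)
    have h3 : ∑ i ∈ Finset.Ico m M, A (i - 1) ^ 2 ≤ 3 * ∑' r, (2 : ℝ) ^ r * α r ^ 2 := by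
      refine le_trans (le_of_eq ?_) (hAsq ((Finset.Ico m M).image fun i => i - 1))
      rw [Finset.sum_image]
      intro x hx y hy hxy
      have hx' := (Finset.mem_Ico.1 (Finset.mem_coe.1 hx)).1
      have hy' := (Finset.mem_Ico.1 (Finset.mem_coe.1 hy)).1
      dsimp only at hxy
      omega
    calc ∑ i ∈ Finset.Ico m M, (a₀ i + A i + A (i - 1)) ^ 2
        ≤ ∑ i ∈ Finset.Ico m M, 3 * (a₀ i ^ 2 + A i ^ 2 + A (i - 1) ^ 2) :=
          Finset.sum_le_sum fun i _ => by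
            nlinarith [sq_nonneg (a₀ i - A i), sq_nonneg (a₀ i - A (i - 1)),
              sq_nonneg (A i - A (i - 1))]
      _ ≤ _ := by
          rw [← Finset.mul_sum, Finset.sum_add_distrib, Finset.sum_add_distrib]
          linarith
  · rw [hT fun l th w => w * (2 * (th : ℝ) / B l + 2 / 2 ^ l)]
    have h1 : ∑ i ∈ Finset.range M, ω₀ i * (2 * ((B i / 2 ^ n : ℕ) : ℝ) / B i + 2 / 2 ^ i) ≤
        μ₀ / 2 := by
      refine le_trans (Finset.sum_le_sum (g := fun i =>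
        if i ∈ Finset.Icc m M₀ then (4 / 2 ^ n : ℝ) else 0) fun i _ => ?_) ?_
      · rw [hω₀]
        split_ifs with hi
        · have hni : n ≤ i := by have := (Finset.mem_Icc.1 hi).1; omega
          have b1 : (2 : ℝ) / 2 ^ i ≤ 2 / 2 ^ n :=
            div_le_div_of_nonneg_left (by norm_num) (by positivity)
              (pow_le_pow_right₀ (by norm_num) hni)
          have b2 : ((B i / 2 ^ n : ℕ) : ℝ) ≤ B i / 2 ^ n := by
            have := Nat.cast_div_le (α := ℝ) (m := B i) (n := 2 ^ n)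
            push_cast at this
            exact this
          have b3 : 2 * ((B i / 2 ^ n : ℕ) : ℝ) / B i ≤ 2 / 2 ^ n := by
            rw [div_le_iff₀ (hBR i)]
            calc 2 * ((B i / 2 ^ n : ℕ) : ℝ) ≤ 2 * (B i / 2 ^ n) := by linarith
              _ = 2 / 2 ^ n * B i := by ring
          have b4 : (4 : ℝ) / 2 ^ n = 2 / 2 ^ n + 2 / 2 ^ n := by ring
          linarith
        · simp
      · refine (sum_ite_Icc_le _ _ _ (by positivity)).trans ?_
        rw [hcard]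
        push_cast at hn ⊢
        exact hn
    have h2 : ∑ i ∈ Finset.range M,
        ω₁ i * (2 * ((6 * B i : ℕ) : ℝ) / B (i + 1) + 2 / 2 ^ (i + 1)) ≤ μ₀ / 2 := by
      refine le_trans (Finset.sum_le_sum (g := fun i => if win i ∈ U then
        4 / ((2 ^ rr (win i) : ℕ) : ℝ) * (13 * (1 / (LL (rr (win i)) : ℝ))) else 0)
        fun i _ => ?_) ?_
      · rw [hω₁]
        split_ifs with hi
        · refine mul_le_mul_of_nonneg_left ?_ (by positivity)
          obtain ⟨w1, w2⟩ := win_spec i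
          have hL : (0 : ℝ) < LL (rr (win i)) := by exact_mod_cast LL_pos _
          have b1 : 2 * ((6 * B i : ℕ) : ℝ) / B (i + 1) = 12 * (1 / (LL (rr (win i)) : ℝ)) := by
            rw [h.succ _ i w1 w2]
            push_cast
            have := hBR i
            field_simp
            norm_num
          have b2 := hs₁ (win i) (by have := (hUmem _ hi).2.1; omega)
          have b3 := lam_LL_le (rr (win i))
          have b4 : (1 : ℝ) / 2 ^ i ≤ 1 / 2 ^ bb (win i) :=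
            one_div_le_one_div_of_le (by positivity) (pow_le_pow_right₀ (by norm_num) w1)
          have b5 : (2 : ℝ) / 2 ^ (i + 1) = 1 / 2 ^ i := by
            rw [pow_succ]
            field_simp
          have b6 : 0 ≤ 1 / (LL (rr (win i)) : ℝ) := by positivity
          linarith
        · simp
      · refine (sum_win_le _ U (g := fun s =>
          4 / ((2 ^ rr s : ℕ) : ℝ) * (13 * (1 / (LL (rr s) : ℝ)))) fun s => by positivity).trans ?_
        have e1 : ∀ s, (2 : ℝ) ^ rr s * (4 / ((2 ^ rr s : ℕ) : ℝ) * (13 * (1 / (LL (rr s) : ℝ)))) =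
            52 * (1 / (LL (rr s) : ℝ)) := fun s => by
          push_cast
          field_simp
          norm_num
        simp only [e1]
        rw [hU]
        refine (sum_used_le hrs J (g := fun r => 52 * (1 / (LL r : ℝ)))
          fun r => by positivity).trans ?_
        rw [← Finset.mul_sum, hrr]
        have := sum_inv_LL_le r₀ J
        linarith
    linarith
  · intro j t t' _ hjJ htm hadm
    rw [hT fun l th w => if t l < th then w else 0]
    have hδ : ∀ i, 0 ≤ |(t i : ℝ) - t' i| / B i := fun i => div_nonneg (abs_nonneg _) (hBR i).le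
    have e0 : ∑ i ∈ Finset.Ico m M, (a₀ i + A i + A (i - 1)) * |(t i : ℝ) - t' i| / B i =
        ∑ i ∈ Finset.Ico m M, a₀ i * (|(t i : ℝ) - t' i| / B i) +
          ∑ i ∈ Finset.Ico m M, A i * (|(t i : ℝ) - t' i| / B i) +
          ∑ i ∈ Finset.Ico m M, A (i - 1) * (|(t i : ℝ) - t' i| / B i) := by
      rw [← Finset.sum_add_distrib, ← Finset.sum_add_distrib]
      exact Finset.sum_congr rfl fun i _ => by ring
    rw [e0]
    have n1 : 0 ≤ ∑ i ∈ Finset.Ico m M, a₀ i * (|(t i : ℝ) - t' i| / B i) :=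
      Finset.sum_nonneg fun i _ => mul_nonneg (ha₀0 i) (hδ i)
    have n2 : 0 ≤ ∑ i ∈ Finset.Ico m M, A i * (|(t i : ℝ) - t' i| / B i) :=
      Finset.sum_nonneg fun i _ => mul_nonneg (hA0 i) (hδ i)
    have n3 : 0 ≤ ∑ i ∈ Finset.Ico m M, A (i - 1) * (|(t i : ℝ) - t' i| / B i) :=
      Finset.sum_nonneg fun i _ => mul_nonneg (hA0 _) (hδ i)
    have p4 : ∀ i, 0 ≤ if t i < B i / 2 ^ n then ω₀ i else 0 := fun i => by
      split_ifs
      · exact hω₀0 i
      · exact le_rfl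
    have p5 : ∀ i, 0 ≤ if t (i + 1) < 6 * B i then ω₁ i else 0 := fun i => by
      split_ifs
      · exact hω₁0 i
      · exact le_rfl
    have n4 : 0 ≤ ∑ i ∈ Finset.range M, if t i < B i / 2 ^ n then ω₀ i else 0 :=
      Finset.sum_nonneg fun i _ => p4 i
    have n5 : 0 ≤ ∑ i ∈ Finset.range M, if t (i + 1) < 6 * B i then ω₁ i else 0 :=
      Finset.sum_nonneg fun i _ => p5 i
    have hbb : bb (s₀ + 1) = m + 2 ^ r₀ := by rw [hm, ← hrr]; rfl
    by_cases hj : j < B (bb (s₀ + 1))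
    · have hd := initial_detect hadm (m := m) (M := M₀) (n := n) (L := LL (r₀ + n + 1)) hB hmM₀
        (by
          rw [Nat.le_div_iff_mul_le (by positivity), hM₀, ← hbb]
          exact (Nat.mul_le_mul_right _ hj.le).trans (h.two_pow_mul_le _ _))
        htm
        (fun i h1 h2 => by
          rw [← hrr]
          exact h.ratio_le (hm ▸ h1) (by omega))
      have q1 : ∑ i ∈ Finset.Icc m M₀, (2 ^ n * (LL (r₀ + n + 1) : ℝ)) *
            (|(t i : ℝ) - t' i| / B i) ≤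
          ∑ i ∈ Finset.Ico m M, a₀ i * (|(t i : ℝ) - t' i| / B i) := by
        refine le_trans (le_of_eq (Finset.sum_congr rfl fun i hi => ?_))
          (Finset.sum_le_sum_of_subset_of_nonneg (s := Finset.Icc m M₀) (fun i hi => ?_)
            fun i _ _ => mul_nonneg (ha₀0 i) (hδ i))
        · rw [ha₀, if_pos hi, hc₀]
        · have := Finset.mem_Icc.1 hi
          exact Finset.mem_Ico.2 ⟨this.1, by omega⟩
      have q2 : ∑ i ∈ Finset.Icc m M₀, (if t i < B i / 2 ^ n then (1 : ℝ) else 0) ≤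
          ∑ i ∈ Finset.range M, if t i < B i / 2 ^ n then ω₀ i else 0 := by
        refine le_trans (le_of_eq (Finset.sum_congr rfl fun i hi => ?_))
          (Finset.sum_le_sum_of_subset_of_nonneg (s := Finset.Icc m M₀) (fun i hi => ?_)
            fun i _ _ => p4 i)
        · rw [hω₀, if_pos hi]
        · have := Finset.mem_Icc.1 hi
          exact Finset.mem_range.2 (by omega)
      linarith
    · push Not at hj
      obtain ⟨s, hs, hj1, hj2⟩ := h.exists_used hj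
      have hsJ : s + 1 ≤ J :=
        (le_bb _).trans (h.strictMono.le_apply.trans (hj1.trans hjJ))
      have hsU : s ∈ U := by
        rw [hU]
        exact Finset.mem_filter.2 ⟨Finset.mem_range.2 (by omega), hs⟩
      have hr2 : 2 ≤ rr s := by
        have := hs.le_rr hrs
        omega
      have hms : m ≤ bb s := hm ▸ bb_strictMono.monotone hs.1
      have hsM : bb s + 2 ^ rr s ≤ bb J := bb_strictMono.monotone hsJ
      have hwin : ∀ i ∈ Finset.Ico (bb s) (bb s + 2 ^ rr s), win i = s := fun i hi =>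
        win_eq (Finset.mem_Ico.1 hi).1 (Finset.mem_Ico.1 hi).2
      have hd := window_detect hadm (b := bb s) (k := 2 ^ rr s) (L := LL (rr s))
        (l := lam (LL (rr s + 1))) (Nat.one_le_pow _ _ (by norm_num)) (LL_pos _)
        (lam_pos (LL_pos _)) (lam_LL_le _) (hs₁ s (by have := hs.1; omega)) hB
        (fun i hi => h.succ s i (Finset.mem_Ico.1 hi).1 (Finset.mem_Ico.1 hi).2)
        (fun i => ⟨lt_trans (by have := hBR i; positivity) (h.lower i), h.upper i⟩)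
        (h.dio s hr2 j hj1 hj2)
      rw [← hα] at hd
      simp only [mul_add, Finset.sum_add_distrib] at hd
      have q1 : ∑ i ∈ Finset.Ico (bb s) (bb s + 2 ^ rr s),
            α (rr s) * (|(t i : ℝ) - t' i| / B i) ≤
          ∑ i ∈ Finset.Ico m M, A i * (|(t i : ℝ) - t' i| / B i) := by
        refine le_trans (le_of_eq (Finset.sum_congr rfl fun i hi => ?_))
          (Finset.sum_le_sum_of_subset_of_nonneg (s := Finset.Ico (bb s) (bb s + 2 ^ rr s))
            (fun i hi => ?_) fun i _ _ => mul_nonneg (hA0 i) (hδ i))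
        · rw [hA, hwin i hi, if_pos hsU]
        · have := Finset.mem_Ico.1 hi
          exact Finset.mem_Ico.2 ⟨by omega, by omega⟩
      have q2 : ∑ i ∈ Finset.Ico (bb s) (bb s + 2 ^ rr s),
            α (rr s) * (|(t (i + 1) : ℝ) - t' (i + 1)| / B (i + 1)) ≤
          ∑ i ∈ Finset.Ico m M, A (i - 1) * (|(t i : ℝ) - t' i| / B i) := by
        refine le_trans (le_of_eq ?_)
          (Finset.sum_le_sum_of_subset_of_nonneg
            (s := (Finset.Ico (bb s) (bb s + 2 ^ rr s)).image fun i => i + 1)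
            (fun i hi => ?_) fun i _ _ => mul_nonneg (hA0 _) (hδ i))
        · rw [Finset.sum_image fun x _ y _ hxy => Nat.add_right_cancel hxy]
          refine Finset.sum_congr rfl fun i hi => ?_
          rw [Nat.add_sub_cancel, hA, hwin i hi, if_pos hsU]
        · obtain ⟨i', hi', rfl⟩ := Finset.mem_image.1 hi
          have := Finset.mem_Ico.1 hi'
          exact Finset.mem_Ico.2 ⟨by omega, by omega⟩
      have q3 : ∑ i ∈ Finset.Ico (bb s) (bb s + 2 ^ rr s),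
            (if t (i + 1) < 6 * B i then 4 / ((2 ^ rr s : ℕ) : ℝ) else 0) ≤
          ∑ i ∈ Finset.range M, if t (i + 1) < 6 * B i then ω₁ i else 0 := by
        refine le_trans (le_of_eq (Finset.sum_congr rfl fun i hi => ?_))
          (Finset.sum_le_sum_of_subset_of_nonneg (s := Finset.Ico (bb s) (bb s + 2 ^ rr s))
            (fun i hi => ?_) fun i _ _ => p5 i)
        · rw [hω₁, hwin i hi, if_pos hsU]
        · have := Finset.mem_Ico.1 hi
          exact Finset.mem_range.2 (by omega)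
      linarith

end

end Crest.Agent.R113
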