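import Crest.Agent.R113.Rot
import Crest.Agent.R113.Cover
import Crest.Agent.R113.Blocks

/-!
# Row 113: the weight on the circle
-/

open MeasureTheory Filter Topology
open scoped InnerProductSpace BigOperators ENNReal

set_option linter.unusedSectionVars false

namespace Crest.Agent.R113

noncomputable section

open Classical

/-- `μ (Z i) ≥ 1 / (3 B i)` by `synd`, and `-log f ≥ c i ≥ 100 (i + 1) B i` on `Z i ∩ {f > 0}` -/
theorem Lev.lintegral_neg_log {X : Type*} [MeasurableSpace X] {S : Sys X} (Λ : Lev S)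
    (hpos : ∀ᵐ x ∂S.μ, 0 < Λ.f x) : ∫⁻ x, ENNReal.ofReal (-Real.log (Λ.f x)) ∂S.μ = ⊤ := by
  refine top_unique (ENNReal.iSup_natCast.symm.trans_le (iSup_le fun i => ?_))
  have h1 : 1 ≤ ((3 * Λ.B i : ℕ) : ℝ≥0∞) * S.μ (Λ.Z i) := by
    have hu : (Set.univ : Set X) ⊆ ⋃ k ∈ Finset.range (3 * Λ.B i), S.σ k ⁻¹' Λ.Z i := fun x _ => by
      obtain ⟨k, hk, h⟩ := Λ.synd i x
      exact Set.mem_biUnion (Finset.mem_coe.2 (Finset.mem_range.2 hk)) h
    have := (measure_mono (μ := S.μ) hu).trans (measure_biUnion_finset_le _ _)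
    simpa only [measure_univ, (S.pres _).measure_preimage (Λ.Z_meas i).nullMeasurableSet,
      Finset.sum_const, Finset.card_range, nsmul_eq_mul] using this
  have h2 : ((i * (3 * Λ.B i) : ℕ) : ℝ) ≤ Λ.c i := by
    refine le_trans ?_ (Λ.c_big i)
    have e1 : (1 : ℝ) ≤ Λ.s i + Λ.B i + 1 := by linarith [Λ.s_nonneg i, (Λ.B i).cast_nonneg (α := ℝ)]
    refine le_trans ?_ (le_mul_of_one_le_right (by positivity) e1)
    push_cast
    nlinarith [mul_nonneg (i.cast_nonneg (α := ℝ)) ((Λ.B i).cast_nonneg (α := ℝ)),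
      (Λ.B i).cast_nonneg (α := ℝ)]
  calc (i : ℝ≥0∞) ≤ i * (((3 * Λ.B i : ℕ) : ℝ≥0∞) * S.μ (Λ.Z i)) := le_mul_of_one_le_right' h1
    _ = ENNReal.ofReal ((i * (3 * Λ.B i) : ℕ) : ℝ) * S.μ (Λ.Z i) := by
      rw [ENNReal.ofReal_natCast, Nat.cast_mul i, mul_assoc]
    _ = ∫⁻ x, (Λ.Z i).indicator (fun _ => ENNReal.ofReal ((i * (3 * Λ.B i) : ℕ) : ℝ)) x ∂S.μ :=
      (lintegral_indicator_const (Λ.Z_meas i) _).symm
    _ ≤ _ := by
      refine lintegral_mono_ae (hpos.mono fun x hx => Set.indicator_le (fun y hy => ?_) x |>.trans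
        (le_refl ((Λ.Z i).indicator (fun _ => ENNReal.ofReal (Λ.c i)) x)) |>.trans ?_)
      · rw [Set.indicator_of_mem hy]
        exact ENNReal.ofReal_le_ofReal h2
      · by_cases hZ : x ∈ Λ.Z i
        · rw [Set.indicator_of_mem hZ]
          refine ENNReal.ofReal_le_ofReal ?_
          rw [le_neg]
          exact (Real.log_le_iff_le_exp hx).2 (Λ.f_Z i x hZ)
        · rw [Set.indicator_of_notMem hZ]
          exact zero_le

theorem build_union {X : Type*} [MeasurableSpace X] {μ : Measure X} [IsFiniteMeasure μ]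
    (A : ℕ → Set X) (i : ℕ) {a : ℝ} (h : ∀ k, μ.real (A (i + k)) ≤ a / 2 ^ k) :
    μ.real (⋃ j, ⋃ (_ : i ≤ j), A j) ≤ 2 * a := by
  have h0 : 0 ≤ a := by simpa using measureReal_nonneg.trans (h 0)
  have e : ∀ k : ℕ, a / 2 ^ k = 2 * a / 2 / 2 ^ k := fun k => by ring
  refine ENNReal.toReal_le_of_le_ofReal (by positivity) ?_
  calc μ (⋃ j, ⋃ (_ : i ≤ j), A j) ≤ μ (⋃ k, A (i + k)) := by
        refine measure_mono (Set.iUnion₂_subset fun j hj => ?_)
        obtain ⟨k, rfl⟩ := Nat.exists_eq_add_of_le hj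
        exact Set.subset_iUnion (fun k => A (i + k)) k
    _ ≤ ∑' k, ENNReal.ofReal (2 * a / 2 / 2 ^ k) := (measure_iUnion_le _).trans
        (ENNReal.tsum_le_tsum fun k => by
          rw [← e, ← ofReal_measureReal]
          exact ENNReal.ofReal_le_ofReal (h k))
    _ = _ := by
      rw [← ENNReal.ofReal_tsum_of_nonneg (fun k => by positivity) (summable_geometric_two' _),
        tsum_geometric_two']

/-- Take `B, d` from `exists_scale (Dn_dense hθ)`, `m i` with `d i = m i • θ`, `r, R` from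
`exists_radii`, `w i = 1 / 2^i`, `η i = 1 / (10 · 2^i · B i)`, `C 0 = 0`,
`C (i+1) = C i + c i`, `s i = C i - log (η i)`, `c i = 100 (i+1) B i (s i + B i + 1)`, `f = wgt c r w η m`,
`Z i = ⋃ j ≥ i, core (r j) (w j) (m j)`, and `E i` the union of `{‖x‖ < η i}` and the annuli
`{r j < ‖x‖ < r j + η j}`, `{w j / 2 < ‖m j • x‖ < w j / 2 + η j}`, `j ≥ i` (measure
`≤ 2 η i + ∑ 4 η j ≤ 10 η i`).  `short`: `Cut.tp_lt_iff`, `measure_hit_core`, sum over `j ≥ i`.
`cover`: `Scale.cover` with `β x = ∑_{u ∈ T} if tp (Z (lev u)) x < thr u then ω u else 0`,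
`t i = tp (Z i) x`, `t' i = tp (Z i) (σ j x)`; `Adm.near` by `dZ_le_of_mem_core`, since
`t i < t (i+1)` forces `σ (t i) x ∈ Z i \\ Z (i+1) ⊆ core (r i) (w i) (m i)`. -/
theorem exists_lev {θ : ℝ} (hθ : Irrational θ) :
    ∃ Λ : Lev (rot θ), Continuous Λ.f ∧ ∀ x, Λ.f x = 0 ↔ x = 0 := by
  obtain ⟨B, d, hS⟩ := exists_scale (Dn_dense hθ)
  choose m hm0 hm using hS.mem
  obtain ⟨r, R, hr0, hr, hRB, hR⟩ := exists_radii hθ hS.pow_le
  have hB1 : ∀ i, 1 ≤ B i := fun i => (Nat.one_le_pow _ _ (by norm_num)).trans (hS.pow_le i)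
  have hB0 : ∀ i, (0 : ℝ) < B i := fun i => by exact_mod_cast hB1 i
  have hBm : ∀ {i j}, i ≤ j → (B i : ℝ) ≤ B j := fun h => by exact_mod_cast hS.strictMono.monotone h
  have hBk : ∀ i k, (2 : ℝ) ^ k * B i ≤ B (i + k) := fun i k => by
    induction k with
    | zero => simp
    | succ k ih =>
      have : (16 : ℝ) * B (i + k) ≤ B (i + (k + 1)) := by exact_mod_cast hS.grow (i + k)
      rw [pow_succ]
      linarith [hB0 (i + k)]
  have hd0 : ∀ i, 0 < d i := fun i => lt_trans (by have := hB0 i; positivity) (hS.lower i)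
  let w : ℕ → ℝ := fun i => 1 / 2 ^ i
  let η : ℕ → ℝ := fun i => 1 / (10 * (2 ^ i * B i))
  have hη0 : ∀ i, 0 < η i := fun i => by have := hB0 i; positivity
  have hηk : ∀ i k, η (i + k) ≤ η i / 2 ^ k := fun i k => by
    have := hB0 i
    simp only [η, div_div]
    refine one_div_le_one_div_of_le (by positivity) ?_
    rw [pow_add, mul_assoc 10, mul_right_comm]
    gcongr
    exact hS.strictMono.monotone (Nat.le_add_right i k)
  have hηa : Antitone η := antitone_nat_of_succ_le fun i =>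
    (hηk i 1).trans (div_le_self (hη0 i).le (by norm_num))
  have hη1 : ∀ i, Real.log (η i) ≤ 0 := fun i => Real.log_nonpos (hη0 i).le ((hηa i.zero_le).trans (by
    simp [η, hS.zero]; norm_num))
  have hηt : Tendsto η atTop (𝓝 0) := by
    refine squeeze_zero (fun i => (hη0 i).le) (fun i => by simpa only [zero_add] using hηk 0 i) ?_
    exact (tendsto_pow_atTop_atTop_of_one_lt one_lt_two).const_div_atTop _
  let C : ℕ → ℝ := fun i => Nat.rec 0
    (fun i x => x + 100 * ((i : ℝ) + 1) * B i * (x - Real.log (η i) + B i + 1)) i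
  let s : ℕ → ℝ := fun i => C i - Real.log (η i)
  let c : ℕ → ℝ := fun i => 100 * ((i : ℝ) + 1) * B i * (s i + B i + 1)
  have hC : ∀ i, C (i + 1) = C i + c i := fun i => rfl
  have hC0 : ∀ i, 0 ≤ C i := fun i => by
    induction i with
    | zero => exact le_rfl
    | succ i ih =>
      have : 0 ≤ s i := sub_nonneg.2 ((hη1 i).trans ih)
      rw [hC]
      positivity
  have hs0 : ∀ i, 0 ≤ s i := fun i => sub_nonneg.2 ((hη1 i).trans (hC0 i))
  have hc0 : ∀ i, 0 ≤ c i := fun i => by have := hs0 i; positivity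
  have hCs : ∀ i, ∑ j ∈ Finset.range i, c j = C i := fun i => by
    induction i with
    | zero => rfl
    | succ i ih => rw [Finset.sum_range_succ, ih, hC]
  have hsm : Monotone s := monotone_nat_of_le_succ fun i => sub_le_sub (by rw [hC]; linarith [hc0 i])
    (Real.log_le_log (hη0 _) (hηa i.le_succ))
  have hcm : Monotone c := fun i j h => by
    have := hs0 i
    have := hsm h
    have := hBm h
    simp only [c]
    gcongr
  obtain ⟨f1, f2, f3, f4, f5⟩ := wgt_spec (w := w) m hc0 hη0 hr hηt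
  let A : ℕ → Set UnitAddCircle := fun j => core (r j) (w j) (m j)
  let Z : ℕ → Set UnitAddCircle := fun i => ⋃ j, ⋃ (_ : i ≤ j), A j
  let N : ℕ → Set UnitAddCircle := fun j =>
    {x | r j < ‖(1 : ℤ) • x‖ ∧ ‖(1 : ℤ) • x‖ < r j + η j} ∪
      {x | w j / 2 < ‖m j • x‖ ∧ ‖m j • x‖ < w j / 2 + η j}
  have hann : ∀ (n : ℤ) (a b : ℝ), MeasurableSet {x : UnitAddCircle | a < ‖n • x‖ ∧ ‖n • x‖ < b} :=
    fun n a b => (measurableSet_Ioo (a := a) (b := b)).preimage
      (show Measurable fun x : UnitAddCircle => ‖n • x‖ by fun_prop)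
  have hZm : ∀ i, MeasurableSet (Z i) := fun i =>
    .iUnion fun j => .iUnion fun _ => measurableSet_core _ _ _
  have hZa : Antitone Z := fun i j h => Set.iUnion_mono fun k =>
    Set.iUnion_subset fun hk => Set.subset_iUnion (fun _ : i ≤ k => A k) (h.trans hk)
  have hsy : ∀ i, (rot θ).Synd (Z i) (3 * B i) := fun i x => by
    obtain ⟨k, hk, h⟩ := synd_core (w := w i) (hm i) (hS.lower i) (hRB i).2 (by
      have e1 : (R i : ℝ) * 2 ^ i ≤ B i := by exact_mod_cast (hRB i).1
      refine (mul_le_mul_of_nonneg_left (hS.upper i).le (R i).cast_nonneg).trans ?_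
      rw [mul_one_div, div_le_div_iff₀ (hB0 i) (by positivity), one_mul]
      exact e1) (hR i) x
    exact ⟨k, hk, Set.mem_iUnion₂.2 ⟨i, le_rfl, h⟩⟩
  have cut : ∀ i, (rot θ).Cut (Z i) (3 * B i) := fun i => ⟨rot_zero θ, hZm i, hsy i⟩
  have hshort : ∀ i (n : ℕ), (rot θ).μ.real {x | (rot θ).tp (Z i) x < n} ≤
      2 * n / B i + 2 / 2 ^ i := fun i n => by
    refine (measureReal_mono (fun x hx => ?_) (measure_ne_top _ _)).trans ((build_union (μ := (rot θ).μ)
      (fun j => {x | ∃ k : ℕ, k < n ∧ (rot θ).σ k x ∈ A j}) i (a := n / B i + 1 / 2 ^ i)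
      fun k => ?_).trans (le_of_eq (by ring)))
    · obtain ⟨k, hk, h⟩ := ((cut i).tp_lt_iff x n).1 hx
      obtain ⟨j, hj, h⟩ := Set.mem_iUnion₂.1 h
      exact Set.mem_iUnion₂.2 ⟨j, hj, k, hk, h⟩
    · refine (measure_hit_core (hm0 _) (hm _) (hd0 _).le (by positivity) n).trans ?_
      have e1 : d (i + k) ≤ 1 / (B i * 2 ^ k) := (hS.upper _).le.trans
        (one_div_le_one_div_of_le (by have := hB0 i; positivity) (by rw [mul_comm]; exact hBk i k))
      have e2 := mul_le_mul_of_nonneg_left e1 n.cast_nonneg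
      rw [add_div, div_div, div_div, ← pow_add, ← mul_one_div (n : ℝ)]
      linarith
  have hcore : ∀ i x, (rot θ).tp (Z i) x < (rot θ).tp (Z (i + 1)) x →
      (rot θ).σ ((rot θ).tp (Z i) x) x ∈ A i := fun i x h => by
    obtain ⟨j, hj, hA⟩ := Set.mem_iUnion₂.1 ((cut i).tp_mem x)
    rcases hj.eq_or_lt with rfl | hj
    · exact hA
    · exact absurd (Set.mem_iUnion₂.2 ⟨j, hj, hA⟩) (Sys.Cut.not_mem_of_lt_tp h)
  refine ⟨{
    f := wgt c r w η m
    Z := Z
    E := fun i => {x | ‖(1 : ℤ) • x - 0‖ ≤ η i} ∪ ⋃ j, ⋃ (_ : i ≤ j), N j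
    B := B
    s := s
    c := c
    zero := rot_zero θ
    erg := rot_erg hθ
    f_meas := f1.measurable
    f_nonneg := fun x => (f2 x).1
    f_le_one := fun x => (f2 x).2
    Z_meas := hZm
    E_meas := fun i => .union (measurableSet_le (by fun_prop) measurable_const)
      (.iUnion fun j => .iUnion fun _ => .union (hann _ _ _) (hann _ _ _))
    Z_anti := hZa
    B_pos := hB1
    B_grow := fun i => by have := hS.grow i; omega
    synd := hsy
    s_nonneg := hs0
    s_mono := hsm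
    f_Z := fun i x hx => ?_
    f_off := fun i x hZ hE => ?_
    c_big := fun i => le_rfl
    E_small := fun i => ?_
    short := hshort
    cover := fun μ₀ hμ => ?_ }, f1, f3⟩
  · obtain ⟨j, hj, h⟩ := Set.mem_iUnion₂.1 hx
    exact (f4 j x h).trans (Real.exp_le_exp.2 (neg_le_neg (hcm hj)))
  · simp only [Set.mem_union, Set.mem_iUnion, Set.mem_ofPred_eq, not_or, not_exists, N, Z, A, core,
      one_smul, sub_zero, not_and, not_le, not_lt] at hZ hE
    refine le_trans ?_ (f5 i x fun j hj => ?_)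
    · rw [hCs, neg_sub, sub_eq_add_neg, Real.exp_add, Real.exp_log (hη0 i)]
      exact mul_le_mul_of_nonneg_right hE.1.le (Real.exp_pos _).le
    · rcases le_or_gt ‖x‖ (r j) with h | h
      · exact Or.inr ((hE.2 j hj).2 (hZ j hj h))
      · exact Or.inl ((hE.2 j hj).1 h)
  · have e1 := measure_arc one_ne_zero 0 (hη0 i).le
    have e2 := build_union (μ := (rot θ).μ) N i (a := 4 * η i) fun k => by
      refine (measureReal_union_le _ _).trans ?_
      have a1 := measure_annulus one_ne_zero (hr0 (i + k)).le (hη0 (i + k)).le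
      have a2 := measure_annulus (hm0 (i + k)) (ρ := w (i + k) / 2) (by positivity) (hη0 (i + k)).le
      rw [mul_div_assoc]
      exact (add_le_add a1 a2).trans (by linarith [hηk i k])
    refine ((measureReal_union_le _ _).trans (add_le_add e1 e2)).trans (le_of_eq ?_)
    have := hB0 i
    simp only [η]
    field_simp
    norm_num
  · obtain ⟨K, hK⟩ := hS.cover hμ
    refine ⟨K, fun m₀ => ?_⟩
    obtain ⟨m₁, h1, hK⟩ := hK m₀
    refine ⟨m₁, h1, fun J => ?_⟩
    obtain ⟨M, a, T, lev, thr, ω, a0, aK, ω0, hω, hcov⟩ := hK J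
    have hms : ∀ u, MeasurableSet {x | (rot θ).tp (Z (lev u)) x < thr u} := fun u =>
      measurableSet_lt (cut _).meas_tp measurable_const
    have hb : ∀ u, Bdd fun x => if (rot θ).tp (Z (lev u)) x < thr u then ω u else 0 := fun u =>
      Bdd.ite (hms u) (Bdd.const _) (Bdd.const _)
    refine ⟨M, a, fun x => ∑ u ∈ T, if (rot θ).tp (Z (lev u)) x < thr u then ω u else 0, a0, aK,
      Bdd.sum T fun u _ => hb u, fun x => Finset.sum_nonneg fun u _ => ?_, ?_,
      fun x j j1 jJ hj => hcov j (fun i => (rot θ).tp (Z i) x)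
        (fun i => (rot θ).tp (Z i) ((rot θ).σ j x)) j1 jJ hj
        ⟨fun i => (cut i).tp_lt _, fun i => (cut i).tp_lt _,
          fun i i' h => (cut i').tp_mono (hZa h) _, fun i i' h => (cut i').tp_mono (hZa h) _,
          fun i h => (cut i).tp_shift h, fun i h h' => ?_⟩⟩
    · split_ifs
      exacts [ω0 u, le_rfl]
    · rw [integral_finsetSum _ fun u _ => (hb u).integrable _]
      refine le_trans (Finset.sum_le_sum fun u _ => ?_) hω
      refine le_trans (le_of_eq ?_) (mul_le_mul_of_nonneg_left (hshort _ _) (ω0 u))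
      rw [mul_comm, ← smul_eq_mul, ← integral_indicator_const _ (hms u)]
      simp only [Set.indicator_apply, Set.mem_ofPred_eq]
    · have e := hcore i _ h'
      rw [← (rot θ).add] at e
      have := dZ_le_of_mem_core (hm i) (hcore i x h) e
      push_cast at this
      rwa [add_comm (j : ℝ)]

end

end Crest.Agent.R113
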