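import Crest.Agent.R113.Tilt

/-!
# Row 113: the comparison lemma and monotonicity of tilting
-/

open MeasureTheory Filter Topology
open scoped InnerProductSpace BigOperators ENNReal

set_option linter.unusedSectionVars false

namespace Crest.Agent.R113

noncomputable section

open Classical

namespace Sys
variable {X : Type*} [MeasurableSpace X] {S : Sys X}

theorem Rel.contr_le {w h : X → ℝ} (hw : Bdd w) (hw0 : ∀ x, 0 ≤ w x) (hw1 : ∀ x, w x ≤ 1)
    (hh : Bdd h) (hh0 : ∀ x, 0 ≤ h x) {q r : S.Op} (hq : S.IsP q) (hr : S.IsP r)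
    (hrel : S.Rel w q r) :
    ∫ x, h x * w x ^ 2 * S.P q x ∂S.μ ≤ ∫ x, h x * S.P r x ∂S.μ :=
  (le_add_of_nonneg_right (S.lk_nonneg q fun p => mul_nonneg
    (sub_nonneg.2 (pow_le_one₀ (hw0 _) (hw1 _))) (mul_nonneg (sq_nonneg _) (hh0 _)))).trans
    (hrel.contr hw hw0 hw1 hh hh0 hq hr)

theorem IsP.core_compl {q : S.Op} (hq : S.IsP q) {h : X → ℝ} (hh : Bdd h) :
    ∫ x, h x * S.P (1 - q) x ∂S.μ = ∫ x, h x ∂S.μ - ∫ x, h x * S.P q x ∂S.μ := by
  rw [← integral_sub (hh.integrable _) ((hh.mul (S.bdd_P q)).integrable _)]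
  refine integral_congr_ae ?_
  filter_upwards [hq.P_one_sub] with x hx
  rw [hx]; ring

theorem IsP.core_split {q : S.Op} (hq : S.IsP q) {A : Set X} (hA : MeasurableSet A) :
    ∫ x, (if x ∈ A then (1 : ℝ) else 0) * S.P q x ∂S.μ +
      ∫ x, (if x ∈ A then (0 : ℝ) else 1) * S.P q x ∂S.μ = S.tr q := by
  have bI : Bdd fun x => if x ∈ A then (1 : ℝ) else 0 := Bdd.ite hA (Bdd.const 1) (Bdd.const 0)
  have bJ : Bdd fun x => if x ∈ A then (0 : ℝ) else 1 := Bdd.ite hA (Bdd.const 0) (Bdd.const 1)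
  rw [← integral_add ((bI.mul (S.bdd_P _)).integrable _) ((bJ.mul (S.bdd_P _)).integrable _),
    ← hq.integral_P]
  refine integral_congr_ae (Eventually.of_forall fun x => ?_)
  by_cases h : x ∈ A <;> simp [h]

theorem core_cnt {n N : ℕ} {M y : ℝ} (hn : 0 < n) (h0 : -M ≤ y) (h1 : n * (y + M) ≤ N) :
    n * (y + M) - 1 ≤ ∑ k ∈ Finset.range N, (if ((k : ℝ) + 1) / n - M ≤ y then (1 : ℝ) else 0) ∧
      ∑ k ∈ Finset.range N, (if ((k : ℝ) + 1) / n - M ≤ y then (1 : ℝ) else 0) ≤ n * (y + M) := by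
  have hnr : (0 : ℝ) < n := by exact_mod_cast hn
  have hu : 0 ≤ n * (y + M) := mul_nonneg hnr.le (by linarith)
  have e : (Finset.range N).filter (fun k : ℕ => ((k : ℝ) + 1) / n - M ≤ y) =
      Finset.range ⌊n * (y + M)⌋₊ := by
    ext k
    rw [Finset.mem_filter, Finset.mem_range, Finset.mem_range, sub_le_iff_le_add, div_le_iff₀ hnr,
      mul_comm, Nat.lt_iff_add_one_le (n := ⌊n * (y + M)⌋₊), Nat.le_floor_iff hu]
    push_cast
    refine ⟨fun h => h.2, fun h => ⟨?_, h⟩⟩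
    have : ((k + 1 : ℕ) : ℝ) ≤ N := by push_cast; linarith
    exact_mod_cast this
  rw [Finset.sum_boole, e, Finset.card_range]
  exact ⟨by linarith [Nat.lt_floor_add_one (n * (y + M))], Nat.floor_le hu⟩

/-- The comparison lemma.  Let `a₁ = d` on `A`, `1` off `A`; `a₂ = max (R / ρ) 1` off `A`, `1` on `A`;
`w = R / (ρ a₁ a₂) ∈ [0,1]`, equal to `1` off `A ∪ B`.  Let `q₁` be the tilt of `q` by `-log a₁` and
`q₂` the tilt of `q₁` by `-log a₂` (`exists_tilt`).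
* `Rel.contr` for `Rel a₁ q q₁` and `h = 1_{Aᶜ}`: `∫_{Aᶜ} P q + lk ≤ ∫_{Aᶜ} P q₁`;
* `Rel.contr` for `Rel a₂⁻¹ (1 - q₁) (1 - q₂)` (`Rel.compl`) and `h = 1_A`: `∫_A P q₂ ≤ ∫_A P q₁`;
* `Rel w q₂ r` (`Rel.trans` of `Rel a₂⁻¹ q₂ q₁`, `Rel a₁⁻¹ q₁ q`, `Rel R q r`, `Rel.const_mul`) and
  `h = 1_{Aᶜ}`: `∫_{Aᶜ} P q₂ - μ B ≤ ∫_{Aᶜ} P r`.
All four projections have `∫ P = tr q`. -/
theorem Rel.core {R d : X → ℝ} (hR : Bdd R) (hR0 : ∀ x, 0 ≤ R x) (hd : Measurable d) {δ ρ : ℝ}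
    (hδ : 0 < δ) (hρ : 0 < ρ) (hd0 : ∀ x, δ ≤ d x) (hd1 : ∀ x, d x ≤ 1) {A B : Set X}
    (hA : MeasurableSet A) (hB : MeasurableSet B) (hin : ∀ x ∈ A, R x ≤ ρ * d x)
    (hout : ∀ x, x ∉ A → x ∉ B → ρ ≤ R x) {q r : S.Op} (hq : S.IsP q) (hr : S.IsP r)
    (ht : S.tr r = S.tr q) (hrel : S.Rel R q r) :
    S.lk q (fun p => if S.σ p.2 p.1 ∈ A ∧ p.1 ∉ A then 1 - d (S.σ p.2 p.1) ^ 2 else 0) ≤
      ∫ x, A.indicator (fun x => S.P q x - S.P r x) x ∂S.μ + S.μ.real B := by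
  have hd0' : ∀ x, 0 < d x := fun x => hδ.trans_le (hd0 x)
  have hm0 : ∀ x, 0 < max (R x / ρ) 1 := fun x => lt_max_of_lt_right one_pos
  have bd : Bdd d := Bdd.of_mem_Icc hd hd0 hd1
  obtain ⟨C, hC⟩ := ((hR.div_const ρ).max (Bdd.const 1)).2
  have b1 : Bdd fun x => if x ∈ A then -Real.log (d x) else 0 :=
    Bdd.ite hA (Bdd.of_mem_Icc (a := 0) (b := -Real.log δ) hd.log.neg
      (fun x => neg_nonneg.2 (Real.log_nonpos (hd0' x).le (hd1 x)))
      (fun x => neg_le_neg (Real.log_le_log hδ (hd0 x)))) (Bdd.const 0)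
  have b2 : Bdd fun x => if x ∈ A then 0 else -Real.log (max (R x / ρ) 1) :=
    Bdd.ite hA (Bdd.const 0) (Bdd.of_mem_Icc (a := -Real.log C) (b := 0)
      ((hR.1.div_const ρ).max measurable_const).log.neg
      (fun x => neg_le_neg (Real.log_le_log (hm0 x) ((le_abs_self _).trans (hC x))))
      (fun x => neg_nonpos.2 (Real.log_nonneg (le_max_right _ _))))
  obtain ⟨q₁, hq₁, ht₁, r₁, r₁'⟩ := exists_tilt b1 hq
  obtain ⟨q₂, hq₂, ht₂, -, r₂'⟩ := exists_tilt b2 hq₁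
  have e1 : (fun x => Real.exp (-(if x ∈ A then -Real.log (d x) else 0))) =
      fun x => if x ∈ A then d x else 1 := by
    funext x; split_ifs <;> simp [Real.exp_log (hd0' x)]
  have e1' : (fun x => Real.exp (if x ∈ A then -Real.log (d x) else 0)) =
      fun x => if x ∈ A then (d x)⁻¹ else 1 := by
    funext x; split_ifs <;> simp [Real.exp_neg, Real.exp_log (hd0' x)]
  have e2' : (fun x => Real.exp (if x ∈ A then 0 else -Real.log (max (R x / ρ) 1))) =
      fun x => if x ∈ A then 1 else (max (R x / ρ) 1)⁻¹ := by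
    funext x; split_ifs <;> simp [Real.exp_neg, Real.exp_log (hm0 x)]
  have c1 := b1.neg.exp
  have c1' := b1.exp
  have c2' := b2.exp
  rw [e1] at r₁ c1
  rw [e1'] at r₁' c1'
  rw [e2'] at r₂' c2'
  have bI : Bdd fun x => if x ∈ A then (1 : ℝ) else 0 := Bdd.ite hA (Bdd.const 1) (Bdd.const 0)
  have bJ : Bdd fun x => if x ∈ A then (0 : ℝ) else 1 := Bdd.ite hA (Bdd.const 0) (Bdd.const 1)
  have I0 : ∀ x, 0 ≤ if x ∈ A then (1 : ℝ) else 0 := fun x => by split_ifs <;> norm_num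
  have J0 : ∀ x, 0 ≤ if x ∈ A then (0 : ℝ) else 1 := fun x => by split_ifs <;> norm_num
  -- step 1
  have s1 := r₁.contr c1 (fun x => by split_ifs; exacts [(hd0' x).le, zero_le_one])
    (fun x => by split_ifs; exacts [hd1 x, le_rfl]) bJ J0 hq hq₁
  have s1a : (fun x => (if x ∈ A then (0 : ℝ) else 1) * (if x ∈ A then d x else 1) ^ 2 * S.P q x) =
      fun x => (if x ∈ A then (0 : ℝ) else 1) * S.P q x := by
    funext x; split_ifs <;> simp
  have s1b : (fun p : X × ℤ => (1 - (if S.σ p.2 p.1 ∈ A then d (S.σ p.2 p.1) else 1) ^ 2) *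
      ((if p.1 ∈ A then d p.1 else 1) ^ 2 * if p.1 ∈ A then (0 : ℝ) else 1)) =
      fun p => if S.σ p.2 p.1 ∈ A ∧ p.1 ∉ A then 1 - d (S.σ p.2 p.1) ^ 2 else 0 := by
    funext p
    by_cases h1 : S.σ p.2 p.1 ∈ A <;> by_cases h2 : p.1 ∈ A <;> simp [h1, h2]
  rw [s1a, s1b] at s1
  -- step 2
  have w0 : ∀ x, 0 ≤ if x ∈ A then 1 else (max (R x / ρ) 1)⁻¹ := fun x => by
    split_ifs; exacts [zero_le_one, (inv_pos.2 (hm0 x)).le]
  have w1 : ∀ x, (if x ∈ A then 1 else (max (R x / ρ) 1)⁻¹) ≤ 1 := fun x => by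
    split_ifs; exacts [le_rfl, inv_le_one_of_one_le₀ (le_max_right _ _)]
  have s2 := (r₂'.compl c2' hq₂ hq₁).contr_le c2' w0 w1 bI I0 hq₁.one_sub hq₂.one_sub
  have s2a : (fun x => (if x ∈ A then (1 : ℝ) else 0) *
      (if x ∈ A then 1 else (max (R x / ρ) 1)⁻¹) ^ 2 * S.P (1 - q₁) x) =
      fun x => (if x ∈ A then (1 : ℝ) else 0) * S.P (1 - q₁) x := by
    funext x; split_ifs <;> simp
  rw [s2a, hq₁.core_compl bI, hq₂.core_compl bI] at s2
  -- step 3
  have r3 := ((r₂'.trans c2' c1' r₁').trans (c1'.mul c2') hR hrel).const_mul (hR.mul (c1'.mul c2')) ρ⁻¹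
  have c3 := (hR.mul (c1'.mul c2')).const_mul ρ⁻¹
  have e3 : ∀ x, ρ⁻¹ * (R x * ((if x ∈ A then (d x)⁻¹ else 1) *
      if x ∈ A then 1 else (max (R x / ρ) 1)⁻¹)) =
      if x ∈ A then R x / (ρ * d x) else R x / ρ / max (R x / ρ) 1 := fun x => by
    split_ifs <;> ring
  simp only [e3] at r3 c3
  have s3 := r3.contr_le c3
    (fun x => by
      have := hR0 x; have := hd0' x; have := hm0 x
      split_ifs <;> positivity)
    (fun x => by
      split_ifs with h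
      · exact (div_le_one (mul_pos hρ (hd0' x))).2 (hin x h)
      · exact (div_le_one (hm0 x)).2 (le_max_left _ _)) bJ J0 hq₂ hr
  have s3a : ∫ x, (if x ∈ A then (0 : ℝ) else 1) * S.P q₂ x ∂S.μ - S.μ.real B ≤
      ∫ x, (if x ∈ A then (0 : ℝ) else 1) *
        (if x ∈ A then R x / (ρ * d x) else R x / ρ / max (R x / ρ) 1) ^ 2 * S.P q₂ x ∂S.μ := by
    have bB : Bdd (B.indicator (1 : X → ℝ)) := (Bdd.const (1 : ℝ)).indicator hB
    rw [← integral_indicator_one hB, ← integral_sub ((bJ.mul (S.bdd_P _)).integrable _)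
      (bB.integrable _)]
    refine integral_mono (((bJ.mul (S.bdd_P _)).sub bB).integrable _)
      (((bJ.mul (c3.pow 2)).mul (S.bdd_P _)).integrable _) fun x => ?_
    have p0 := S.P_nonneg q₂ x
    have p1 := S.P_le_one q₂ x
    by_cases h1 : x ∈ A
    · simp [h1, Set.indicator_apply_nonneg]
    by_cases h2 : x ∈ B
    · simp only [h1, h2, if_false, Set.indicator_of_mem, one_mul, Pi.one_apply]
      have : 0 ≤ (R x / ρ / max (R x / ρ) 1) ^ 2 * S.P q₂ x := by positivity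
      linarith
    · have h3 : 1 ≤ R x / ρ := (one_le_div hρ).2 (hout x h1 h2)
      simp only [h1, h2, if_false, Set.indicator_of_notMem, not_false_eq_true, one_mul, sub_zero,
        max_eq_left h3]
      rw [div_self (by linarith), one_pow, one_mul]
  have t0 := hq.core_split hA
  have t1 := hq₁.core_split hA
  have t2 := hq₂.core_split hA
  have t3 := hr.core_split hA
  have e4 : ∫ x, A.indicator (fun x => S.P q x - S.P r x) x ∂S.μ =
      ∫ x, (if x ∈ A then (1 : ℝ) else 0) * S.P q x ∂S.μ -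
        ∫ x, (if x ∈ A then (1 : ℝ) else 0) * S.P r x ∂S.μ := by
    rw [← integral_sub ((bI.mul (S.bdd_P _)).integrable _) ((bI.mul (S.bdd_P _)).integrable _)]
    refine integral_congr_ae (Eventually.of_forall fun x => ?_)
    by_cases h : x ∈ A <;> simp [h]
  linarith

/-- `Rel.core` with `d = exp (-1)`; both directions of a link by `IsP.lk_flip` (note
`σ (-a) (σ a x) = x` only for a.e. `x`), and `2 / (1 - exp (-2)) ≤ 3`. -/
theorem Rel.core_sep {R : X → ℝ} (hR : Bdd R) (hR0 : ∀ x, 0 ≤ R x) {ρ : ℝ} (hρ : 0 < ρ)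
    {A B : Set X} (hA : MeasurableSet A) (hB : MeasurableSet B)
    (hin : ∀ x ∈ A, R x ≤ ρ * Real.exp (-1)) (hout : ∀ x, x ∉ A → x ∉ B → ρ ≤ R x)
    {q r : S.Op} (hq : S.IsP q) (hr : S.IsP r) (ht : S.tr r = S.tr q) (hrel : S.Rel R q r) :
    S.lk q (fun p => if (S.σ p.2 p.1 ∈ A ↔ p.1 ∈ A) then 0 else 1) ≤
      3 * (∫ x, A.indicator (fun x => S.P q x - S.P r x) x ∂S.μ + S.μ.real B) := by
  have h1 := hrel.core hR hR0 (d := fun _ => Real.exp (-1)) measurable_const (Real.exp_pos (-1)) hρ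
    (fun _ => le_rfl) (fun _ => Real.exp_le_one_iff.2 (by norm_num)) hA hB hin hout hq hr ht
  obtain ⟨c, hc⟩ : ∃ c, c = 1 - Real.exp (-1) ^ 2 := ⟨_, rfl⟩
  have hc' : 2 / 3 ≤ c := by
    have a1 : Real.exp (-1) ^ 2 = (Real.exp 2)⁻¹ := by
      rw [← Real.exp_neg, sq, ← Real.exp_add]; norm_num
    have a2 : (Real.exp 2)⁻¹ ≤ 3⁻¹ :=
      inv_anti₀ (by norm_num) (by linarith [Real.add_one_le_exp 2])
    rw [hc, a1]; linarith
  simp only [← hc] at h1
  have b1 : Bdd fun p : X × ℤ => if S.σ p.2 p.1 ∈ A ∧ p.1 ∉ A then c else 0 :=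
    Bdd.ite (p := fun p : X × ℤ => S.σ p.2 p.1 ∈ A ∧ p.1 ∉ A)
      ((S.meas_pt hA).inter (measurable_fst hA.compl)) (Bdd.const c) (Bdd.const 0)
  have b2 : Bdd fun p : X × ℤ => if p.1 ∈ A ∧ S.σ p.2 p.1 ∉ A then c else 0 :=
    Bdd.ite (p := fun p : X × ℤ => p.1 ∈ A ∧ S.σ p.2 p.1 ∉ A)
      ((measurable_fst hA).inter (S.meas_pt hA.compl)) (Bdd.const c) (Bdd.const 0)
  have h2 : S.lk q (fun p => if p.1 ∈ A ∧ S.σ p.2 p.1 ∉ A then c else 0) =
      S.lk q (fun p => if S.σ p.2 p.1 ∈ A ∧ p.1 ∉ A then c else 0) := by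
    rw [← hq.lk_flip b1]
    refine integral_congr_ae (S.ae_ν_iff.2 fun a => ?_)
    filter_upwards [S.zero] with x hx
    simp only [flip, ← S.add, neg_add_cancel, hx]
  have h3 : c * S.lk q (fun p => if (S.σ p.2 p.1 ∈ A ↔ p.1 ∈ A) then 0 else 1) =
      S.lk q (fun p => if S.σ p.2 p.1 ∈ A ∧ p.1 ∉ A then c else 0) +
        S.lk q (fun p => if p.1 ∈ A ∧ S.σ p.2 p.1 ∉ A then c else 0) := by
    rw [← S.lk_const_mul, ← S.lk_add q b1 b2]
    congr 1
    funext p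
    by_cases h1 : S.σ p.2 p.1 ∈ A <;> by_cases h2 : p.1 ∈ A <;> simp [h1, h2]
  have h4 := S.lk_nonneg q (K := fun p => if (S.σ p.2 p.1 ∈ A ↔ p.1 ∈ A) then 0 else 1)
    (fun p => by split_ifs <;> norm_num)
  have h5 := mul_le_mul_of_nonneg_right hc' h4
  linarith

/-- Layer cake.  For `n ≥ 10` and each integer `z` with `|z| ≤ n M` apply `Rel.core` with
`A = {z / n ≤ χ}`, `B = ∅`, `ρ = exp (-z / n)`, `d = exp (-1/2)` on `{z / n + 1/2 ≤ χ}` and `1`
elsewhere; sum over `z` and divide by `n`.  A link with `χ x + 1 ≤ χ x'` is seen by at least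
`n / 2 - 1` values of `z`, with weight `1 - exp (-1)`; `(1/n) ∑_z 1_A` differs from `χ + const` by at
most `1 / n`, and `∫ (P q - P q') = 0`.  Let `n → ∞`. -/
theorem Rel.mono_links {χ : X → ℝ} (hχ : Bdd χ) {q q' : S.Op} (hq : S.IsP q) (hq' : S.IsP q')
    (ht : S.tr q' = S.tr q) (hrel : S.Rel (fun x => Real.exp (-χ x)) q q') :
    S.lk q (fun p => if χ p.1 + 1 ≤ χ (S.σ p.2 p.1) then 1 else 0) ≤
      4 * ∫ x, χ x * (S.P q x - S.P q' x) ∂S.μ := by
  obtain ⟨M₀, hM₀⟩ := hχ.2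
  obtain ⟨M, hM'⟩ := exists_nat_ge M₀
  have hM : ∀ x, -(M : ℝ) ≤ χ x ∧ χ x ≤ M := fun x => abs_le.1 ((hM₀ x).trans hM')
  obtain ⟨c, hc⟩ : ∃ c, c = 1 - Real.exp (-(1 / 2)) ^ 2 := ⟨_, rfl⟩
  have hc' : 1 / 2 ≤ c := by
    have a1 : Real.exp (-(1 / 2)) ^ 2 = (Real.exp 1)⁻¹ := by
      rw [← Real.exp_neg, sq, ← Real.exp_add]; norm_num
    have a2 : (Real.exp 1)⁻¹ ≤ 2⁻¹ :=
      inv_anti₀ (by norm_num) (by linarith [Real.add_one_le_exp 1])
    rw [hc, a1]; linarith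
  have he1 : Real.exp (-(1 / 2)) ≤ 1 := Real.exp_le_one_iff.2 (by norm_num)
  have bP := (S.bdd_P q).sub (S.bdd_P q')
  have hP0 : ∫ x, (S.P q x - S.P q' x) ∂S.μ = 0 := by
    rw [integral_sub ((S.bdd_P q).integrable _) ((S.bdd_P q').integrable _), hq.integral_P,
      hq'.integral_P, ht, sub_self]
  -- one threshold
  let K : ℝ → X × ℤ → ℝ := fun t p =>
    if S.σ p.2 p.1 ∈ {x | t ≤ χ x} ∧ p.1 ∉ {x | t ≤ χ x} then
      1 - (if t + 1 / 2 ≤ χ (S.σ p.2 p.1) then Real.exp (-(1 / 2)) else 1) ^ 2 else 0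
  have mA : ∀ t, MeasurableSet {x | t ≤ χ x} := fun t => measurableSet_le measurable_const hχ.1
  have bd : ∀ t, Bdd fun x => if t + 1 / 2 ≤ χ x then Real.exp (-(1 / 2)) else 1 := fun t =>
    Bdd.ite (mA _) (Bdd.const _) (Bdd.const _)
  have bK : ∀ t, Bdd (K t) := fun t =>
    Bdd.ite (p := fun p : X × ℤ => S.σ p.2 p.1 ∈ {x | t ≤ χ x} ∧ p.1 ∉ {x | t ≤ χ x})
      ((S.meas_pt (mA t)).inter (measurable_fst (mA t).compl))
      ((Bdd.const 1).sub (((bd t).comp S.meas_pt).pow 2)) (Bdd.const 0)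
  have bI : ∀ t, Bdd fun x => if t ≤ χ x then (1 : ℝ) else 0 := fun t =>
    Bdd.ite (mA _) (Bdd.const _) (Bdd.const _)
  have K0 : ∀ t p, 0 ≤ K t p := fun t p => by
    simp only [K]
    split_ifs
    · rw [← hc]; linarith
    · norm_num
    · exact le_rfl
  have K1 : ∀ t p, c * ((if t ≤ χ (S.σ p.2 p.1) - 1 / 2 then 1 else 0) -
      if t ≤ χ p.1 then 1 else 0) ≤ K t p := fun t p => by
    by_cases h1 : t ≤ χ (S.σ p.2 p.1) - 1 / 2 ∧ ¬ t ≤ χ p.1
    · simp only [K, Set.mem_ofPred_eq]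
      rw [if_pos h1.1, if_neg h1.2, if_pos ⟨by linarith [h1.1], h1.2⟩, if_pos (by linarith [h1.1]),
        ← hc]
      linarith
    · refine le_trans ?_ (K0 t p)
      split_ifs with h2 h3 h3
      · linarith
      · exact absurd ⟨h2, h3⟩ h1
      · linarith
      · linarith
  have one : ∀ t, S.lk q (K t) ≤
      ∫ x, (if t ≤ χ x then (1 : ℝ) else 0) * (S.P q x - S.P q' x) ∂S.μ := fun t => by
    have h := hrel.core hχ.neg.exp (fun x => (Real.exp_pos _).le) (bd t).1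
      (Real.exp_pos (-(1 / 2))) (Real.exp_pos (-t))
      (fun x => by split_ifs; exacts [le_rfl, he1]) (fun x => by split_ifs; exacts [he1, le_rfl])
      (mA t) MeasurableSet.empty
      (fun x hx => by
        have hx' : t ≤ χ x := hx
        split_ifs with h
        · rw [← Real.exp_add]; exact Real.exp_le_exp.2 (by linarith)
        · rw [mul_one]; exact Real.exp_le_exp.2 (by linarith))
      (fun x hx _ => Real.exp_le_exp.2 (neg_le_neg (not_le.1 hx).le)) hq hq' ht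
    rw [measureReal_empty, add_zero] at h
    refine h.trans_eq (integral_congr_ae (Eventually.of_forall fun x => ?_))
    by_cases hx : t ≤ χ x <;> simp [hx]
  have bL : Bdd fun p : X × ℤ => if χ p.1 + 1 ≤ χ (S.σ p.2 p.1) then (1 : ℝ) else 0 :=
    Bdd.ite (measurableSet_le ((hχ.1.comp measurable_fst).add_const 1) (hχ.1.comp S.meas_pt))
      (Bdd.const 1) (Bdd.const 0)
  have L0 := S.lk_nonneg q (K := fun p => if χ p.1 + 1 ≤ χ (S.σ p.2 p.1) then 1 else 0)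
    (fun p => by split_ifs <;> norm_num)
  have key : ∀ n : ℕ, 2 ≤ n →
      c * (n / 2 - 1) * S.lk q (fun p => if χ p.1 + 1 ≤ χ (S.σ p.2 p.1) then 1 else 0) ≤
        1 + n * ∫ x, χ x * (S.P q x - S.P q' x) ∂S.μ := fun n hn => by
    have hn0 : 0 < n := by omega
    have hnr : (0 : ℝ) ≤ n := by positivity
    have cnt := fun (y : ℝ) (h0 : -(M : ℝ) ≤ y) (h1 : y ≤ M) =>
      core_cnt (N := n * (2 * M)) hn0 h0 (by push_cast; gcongr; linarith)
    have a1 : S.lk q (fun p => c * (n / 2 - 1) *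
        if χ p.1 + 1 ≤ χ (S.σ p.2 p.1) then 1 else 0) ≤
        S.lk q fun p => ∑ k ∈ Finset.range (n * (2 * M)), K ((k + 1) / n - M) p := by
      refine S.lk_mono q (bL.const_mul _) (Bdd.sum _ fun k _ => bK _) fun p => ?_
      split_ifs with h
      · refine le_trans ?_ (Finset.sum_le_sum fun k _ => K1 _ p)
        rw [← Finset.mul_sum, Finset.sum_sub_distrib, mul_one]
        refine mul_le_mul_of_nonneg_left ?_ (by linarith)
        have i1 := (cnt (χ (S.σ p.2 p.1) - 1 / 2) (by linarith [(hM p.1).1])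
          (by linarith [(hM (S.σ p.2 p.1)).2])).1
        have i2 := (cnt (χ p.1) (hM p.1).1 (hM p.1).2).2
        have i3 := mul_le_mul_of_nonneg_left h hnr
        linarith
      · rw [mul_zero]; exact Finset.sum_nonneg fun k _ => K0 _ p
    rw [S.lk_const_mul, S.lk_sum q _ fun k _ => bK _] at a1
    refine a1.trans ((Finset.sum_le_sum fun k _ => one _).trans ?_)
    rw [← integral_finsetSum _ fun k _ => ((bI _).mul bP).integrable _]
    have a2 : 1 + n * ∫ x, χ x * (S.P q x - S.P q' x) ∂S.μ =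
        ∫ x, (1 + (n * (χ x * (S.P q x - S.P q' x)) + n * M * (S.P q x - S.P q' x))) ∂S.μ := by
      rw [integral_add (integrable_const _) ((((hχ.mul bP).const_mul _).add
        (bP.const_mul _)).integrable _), integral_add (((hχ.mul bP).const_mul _).integrable _)
        ((bP.const_mul _).integrable _), integral_const_mul, integral_const_mul, hP0]
      simp
    rw [a2]
    refine integral_mono ((Bdd.sum _ fun k _ => (bI _).mul bP).integrable _)
      (((Bdd.const 1).add (((hχ.mul bP).const_mul _).add (bP.const_mul _))).integrable _) fun x => ?_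
    obtain ⟨i1, i2⟩ := cnt (χ x) (hM x).1 (hM x).2
    have p1 := S.P_nonneg q x
    have p2 := S.P_le_one q x
    have p3 := S.P_nonneg q' x
    have p4 := S.P_le_one q' x
    dsimp only
    rw [← Finset.sum_mul]
    generalize (∑ k ∈ Finset.range (n * (2 * M)),
      if ((k : ℝ) + 1) / n - M ≤ χ x then (1 : ℝ) else 0) = s at i1 i2
    nlinarith [mul_nonneg (sub_nonneg.2 i2) p1, mul_nonneg (sub_nonneg.2 i2) (sub_nonneg.2 p4)]
  generalize S.lk q (fun p => if χ p.1 + 1 ≤ χ (S.σ p.2 p.1) then 1 else 0) = l at *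
  generalize ∫ x, χ x * (S.P q x - S.P q' x) ∂S.μ = I at *
  by_contra hcon
  have h0 : 0 < l / 4 - I := by linarith [not_le.1 hcon]
  obtain ⟨n, hn⟩ := exists_nat_gt (max 2 ((1 + l / 2) / (l / 4 - I)))
  have n1 : (2 : ℝ) < n := (le_max_left _ _).trans_lt hn
  have n2 := (div_lt_iff₀ h0).1 ((le_max_right _ _).trans_lt hn)
  have k1 := key n (by exact_mod_cast n1.le)
  have k2 : 1 / 2 * ((n : ℝ) / 2 - 1) * l ≤ c * (n / 2 - 1) * l := by
    gcongr
    linarith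
  linarith

theorem Rel.mono {χ : X → ℝ} (hχ : Bdd χ) {q q' : S.Op} (hq : S.IsP q) (hq' : S.IsP q')
    (ht : S.tr q' = S.tr q) (hrel : S.Rel (fun x => Real.exp (-χ x)) q q') :
    0 ≤ ∫ x, χ x * (S.P q x - S.P q' x) ∂S.μ := by
  have h := hrel.mono_links hχ hq hq' ht
  have h0 := S.lk_nonneg q (K := fun p => if χ p.1 + 1 ≤ χ (S.σ p.2 p.1) then 1 else 0)
    (fun p => by split_ifs <;> norm_num)
  linarith

end Sys

end

end Crest.Agent.R113
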