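import Crest.Agent.R113.Det2
import Crest.Agent.R113.Trace
import Crest.Agent.R113.Cfc

/-!
# Row 113: the weighted shift over the product rotation (S0151)
-/

open MeasureTheory Filter Topology
open scoped InnerProductSpace BigOperators ENNReal

set_option linter.unusedSectionVars false

namespace Crest.Agent.R113

noncomputable section

open Classical

open Crest.AnalysisR.ProductShift

theorem Sys.trAlg {X : Type*} [MeasurableSpace X] (S : Sys X) : TrAlg S.alg S.Ω := by
  refine ⟨?_, S.norm_Ω, fun a ha b hb => S.τ_mul_comm ha hb⟩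
  unfold Sys.alg
  rw [StarSubalgebra.coe_centralizer]
  exact Set.isClosed_centralizer _

theorem Sys.det_term {X : Type*} [MeasurableSpace X] (S : Sys X) {f : X → ℝ}
    (hf : Measurable f) (h0 : ∀ x, 0 ≤ f x) (h1 : ∀ x, f x ≤ 1) {ε : ℝ} (hε : 0 < ε) :
    RCLike.re ⟪S.Ω, cfcR Real.log (star (S.U 1 * S.L f) * (S.U 1 * S.L f) +
      ((ε : ℝ) : ℂ) • (1 : S.Op)) S.Ω⟫_ℂ = ∫ x, Real.log (f x * f x + ε) ∂S.μ := by
  have hb : Bdd f := Bdd.of_mem_Icc hf h0 h1
  have e1 : star (S.U 1 * S.L f) * (S.U 1 * S.L f) + ((ε : ℝ) : ℂ) • (1 : S.Op) =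
      S.L fun x => f x * f x + ε := by
    rw [S.L_add (hb.mul hb) (Bdd.const ε), S.L_const, S.L_mul hb hb, star_mul, S.star_L hb,
      S.star_U, mul_assoc, ← mul_assoc (S.U (-1)), ← S.U_add, neg_add_cancel, S.U_zero, one_mul]
  have hm : Measurable fun x => f x * f x + ε := (hf.mul hf).add_const ε
  have hI : ∀ x, f x * f x + ε ∈ Set.Icc ε (1 + ε) := fun x =>
    ⟨by nlinarith [h0 x], by nlinarith [h0 x, h1 x]⟩
  rw [e1, S.cfc_L hm hI (Real.continuousOn_log.mono fun y hy => (hε.trans_le hy.1).ne')]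
  exact S.tr_L (Bdd.of_mem_Icc (Real.measurable_log.comp hm)
    (fun x => Real.log_le_log hε (hI x).1) fun x => Real.log_le_log (hε.trans_le (hI x).1) (hI x).2)

theorem exists_integral_log_le {X : Type*} [MeasurableSpace X] (μ : Measure X)
    [IsProbabilityMeasure μ] {f : X → ℝ} (hf : Measurable f) (h0 : ∀ x, 0 ≤ f x)
    (h1 : ∀ x, f x ≤ 1) (hpos : ∀ᵐ x ∂μ, 0 < f x)
    (hlog : ∫⁻ x, ENNReal.ofReal (-Real.log (f x)) ∂μ = ⊤) (M : ℝ) :
    ∃ ε : ℝ, 0 < ε ∧ ∫ x, Real.log (f x * f x + ε) ∂μ ≤ M := by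
  set g : ℕ → X → ℝ := fun n x => Real.log 2 - Real.log (f x * f x + 1 / ((n : ℝ) + 1)) with hg
  have hε : ∀ n : ℕ, (0 : ℝ) < 1 / ((n : ℝ) + 1) := fun n => by positivity
  have hε1 : ∀ n : ℕ, 1 / ((n : ℝ) + 1) ≤ 1 := fun n => by
    rw [div_le_one (by positivity)]; linarith [(Nat.cast_nonneg n : (0 : ℝ) ≤ n)]
  have hp : ∀ (n : ℕ) x, 0 < f x * f x + 1 / ((n : ℝ) + 1) := fun n x => by
    nlinarith [h0 x, hε n]
  have h2 : ∀ (n : ℕ) x, f x * f x + 1 / ((n : ℝ) + 1) ≤ 2 := fun n x => by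
    nlinarith [h0 x, h1 x, hε1 n]
  have hm : ∀ n : ℕ, Measurable fun x => Real.log (f x * f x + 1 / ((n : ℝ) + 1)) := fun n =>
    Real.measurable_log.comp ((hf.mul hf).add_const _)
  have hgm : ∀ n, Measurable (g n) := fun n => (hm n).const_sub _
  have hg0 : ∀ n x, 0 ≤ g n x := fun n x => sub_nonneg.2 (Real.log_le_log (hp n x) (h2 n x))
  have hmono : Monotone fun n x => ENNReal.ofReal (g n x) := by
    intro n m hnm x
    refine ENNReal.ofReal_le_ofReal (sub_le_sub_left (Real.log_le_log (hp m x) ?_) _)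
    gcongr
  have hsup : (⊤ : ℝ≥0∞) ≤ ⨆ n, ∫⁻ x, ENNReal.ofReal (g n x) ∂μ := by
    rw [← lintegral_iSup (fun n => (hgm n).ennreal_ofReal) hmono, ← hlog]
    refine lintegral_mono_ae ?_
    filter_upwards [hpos] with x hx
    have ht : Tendsto (fun n => ENNReal.ofReal (g n x)) atTop
        (𝓝 (ENNReal.ofReal (Real.log 2 - Real.log (f x * f x + 0)))) := by
      refine ENNReal.tendsto_ofReal (Tendsto.const_sub _ (Tendsto.log ?_ (by positivity)))
      exact tendsto_one_div_add_atTop_nhds_zero_nat.const_add _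
    refine le_trans (ENNReal.ofReal_le_ofReal ?_)
      (le_of_tendsto' ht fun n => le_iSup (fun n => ENNReal.ofReal (g n x)) n)
    rw [add_zero, Real.log_mul hx.ne' hx.ne']
    linarith [Real.log_nonpos (h0 x) (h1 x), Real.log_nonneg (one_le_two (α := ℝ))]
  obtain ⟨n, hn⟩ := lt_iSup_iff.1
    (lt_of_lt_of_le (ENNReal.ofReal_lt_top (r := Real.log 2 - M)) hsup)
  have hi : Integrable (fun x => Real.log (f x * f x + 1 / ((n : ℝ) + 1))) μ :=
    (Bdd.of_mem_Icc (hm n) (a := Real.log (1 / ((n : ℝ) + 1))) (b := Real.log 2)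
      (fun x => Real.log_le_log (hε n) (by nlinarith [h0 x]))
      fun x => Real.log_le_log (hp n x) (h2 n x)).integrable μ
  rw [← ofReal_integral_eq_lintegral_ofReal (f := g n) ((integrable_const _).sub hi)
    (Eventually.of_forall (hg0 n))] at hn
  have h3 := (ENNReal.ofReal_lt_ofReal_iff'.1 hn).1
  refine ⟨_, hε n, ?_⟩
  have h4 : ∫ x, g n x ∂μ =
      Real.log 2 - ∫ x, Real.log (f x * f x + 1 / ((n : ℝ) + 1)) ∂μ := by
    simp only [hg]
    rw [integral_sub (integrable_const _) hi]; simp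
  linarith

/-- `(U 1 L f)* (U 1 L f) + ε = L (f² + ε)`, so by `cfc_L`, `τ_Lc` the term for `ε` is
`exp (½ ∫ log (f² + ε))`; monotone convergence for `log 2 - log (f² + 1/(n+1)) ↑ log 2 - 2 log f`
shows that these integrals tend to `-∞`. -/
theorem Sys.vectorDet_zero {X : Type*} [MeasurableSpace X] (S : Sys X) {f : X → ℝ}
    (hf : Measurable f) (h0 : ∀ x, 0 ≤ f x) (h1 : ∀ x, f x ≤ 1) (hpos : ∀ᵐ x ∂S.μ, 0 < f x)
    (hlog : ∫⁻ x, ENNReal.ofReal (-Real.log (f x)) ∂S.μ = ⊤) :
    vectorDet S.Ω (S.U 1 * S.L f) = 0 := by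
  refine le_antisymm (le_of_forall_pos_le_add fun δ hδ => ?_)
    (Real.iInf_nonneg fun ε => (Real.exp_pos _).le)
  obtain ⟨ε, hε, hM⟩ := exists_integral_log_le S.μ hf h0 h1 hpos hlog (2 * Real.log δ)
  refine (ciInf_le ⟨0, ?_⟩ (⟨ε, hε⟩ : {r : ℝ // 0 < r})).trans ?_
  · rintro _ ⟨ε, rfl⟩
    exact (Real.exp_pos _).le
  · have := S.det_term hf h0 h1 hε
    unfold cfcR at this
    rw [zero_add, ← Real.exp_log hδ]
    refine Real.exp_le_exp.2 ?_
    rw [this]
    linarith

theorem pres_fract_add (a : ℝ) :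
    MeasurePreserving (fun y : ℝ => Int.fract (y + a)) unitLebesgue unitLebesgue := by
  have hm : Measurable fun y : ℝ => Int.fract (y + a) := measurable_fract.comp (measurable_add_const a)
  refine ⟨hm, Measure.ext fun s hs => ?_⟩
  have hA : MeasurableSet (Int.fract ⁻¹' s : Set ℝ) := measurable_fract hs
  have key := (isAddFundamentalDomain_Ioc one_pos a).measure_set_eq
    (isAddFundamentalDomain_Ioc one_pos 0) hA (by
      rintro ⟨g, hg⟩
      obtain ⟨k, rfl⟩ := AddSubgroup.mem_zmultiples_iff.1 hg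
      ext x
      simp [AddSubgroup.vadd_def])
  have e : unitLebesgue = volume.restrict (Set.Ioc (0 : ℝ) 1) :=
    Measure.restrict_congr_set Ico_ae_eq_Ioc
  rw [Measure.map_apply hm hs]
  calc unitLebesgue ((fun y : ℝ => Int.fract (y + a)) ⁻¹' s)
      = volume ((fun y : ℝ => y + a) ⁻¹' (Int.fract ⁻¹' s ∩ Set.Ioc a (a + 1))) := by
        rw [e, Measure.restrict_apply (hm hs)]
        congr 1
        ext y
        simp only [Set.mem_inter_iff, Set.mem_preimage, Set.mem_Ioc, lt_add_iff_pos_left]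
        refine and_congr_right fun _ => and_congr_right fun _ => ?_
        constructor <;> intro h <;> linarith
    _ = volume (Int.fract ⁻¹' s ∩ Set.Ioc (0 : ℝ) 1) := by
        rw [measure_preimage_add_right, key, zero_add]
    _ = unitLebesgue (Int.fract ⁻¹' s) := by rw [e, Measure.restrict_apply hA]
    _ = unitLebesgue s := by
        unfold unitLebesgue
        rw [Measure.restrict_apply hA, Measure.restrict_apply hs]
        congr 1
        ext y
        simp only [Set.mem_inter_iff, Set.mem_preimage]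
        refine and_congr_left fun hy => ?_
        rw [Int.fract_eq_self.2 hy]

/-- `Measure.infinitePi_map_pi` or `Measure.eq_infinitePi` -/
theorem pres_orbitPoint (θ : ℕ → ℝ) (k : ℤ) :
    MeasurePreserving (orbitPoint θ k) cubeMeasure cubeMeasure := by
  have hm : ∀ i : ℕ, Measurable fun y : ℝ => Int.fract (y + (k : ℝ) * θ i) := fun i =>
    (pres_fract_add _).measurable
  refine ⟨measurable_pi_lambda _ fun i => (hm i).comp (measurable_pi_apply i), ?_⟩
  unfold cubeMeasure orbitPoint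
  rw [Measure.infinitePi_map_pi (fun _ : ℕ => unitLebesgue) hm]
  congr 1
  funext i
  exact (pres_fract_add _).map_eq

theorem orbitPoint_add (θ : ℕ → ℝ) (k l : ℤ) (x : ℕ → ℝ) :
    orbitPoint θ (k + l) x = orbitPoint θ k (orbitPoint θ l x) := by
  funext i
  unfold orbitPoint
  rw [Int.fract_eq_fract]
  refine ⟨⌊x i + (l : ℝ) * θ i⌋, ?_⟩
  rw [Int.fract]
  push_cast
  ring

theorem orbitPoint_zero (θ : ℕ → ℝ) : ∀ᵐ x ∂cubeMeasure, orbitPoint θ 0 x = x := by
  have h : ∀ i : ℕ, ∀ᵐ x ∂cubeMeasure, x i ∈ Set.Ico (0 : ℝ) 1 := fun i =>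
    (measurePreserving_eval_infinitePi (fun _ : ℕ => unitLebesgue) i).quasiMeasurePreserving.ae
      (ae_restrict_mem measurableSet_Ico)
  filter_upwards [ae_all_iff.2 h] with x hx
  funext i
  simp [orbitPoint, Int.fract_eq_self.2 (hx i)]

/-- the product rotation -/
def cube (θ : ℕ → ℝ) : Sys (ℕ → ℝ) where
  μ := cubeMeasure
  prob := inferInstance
  σ := orbitPoint θ
  pres := pres_orbitPoint θ
  add := orbitPoint_add θ
  zero := orbitPoint_zero θ

theorem measurable_dropTerm (θ c : ℕ → ℝ) (i : ℕ) :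
    Measurable fun y : ℝ => ENNReal.ofReal (c i * (⌊y + θ i⌋ : ℝ)) :=
  (((measurable_of_countable (fun n : ℤ => (n : ℝ))).comp
    (Int.measurable_floor.comp (measurable_add_const _))).const_mul _).ennreal_ofReal

theorem measurable_dropCost (θ c : ℕ → ℝ) : Measurable (dropCost θ c) :=
  Measurable.tsum fun i => (measurable_dropTerm θ c i).comp (measurable_pi_apply i)

theorem measurable_weight (θ c : ℕ → ℝ) : Measurable (weight θ c) := by
  unfold weight
  exact Measurable.ite (measurable_dropCost θ c (measurableSet_singleton ⊤)) measurable_const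
    (measurable_dropCost θ c).ennreal_toReal.neg.exp

theorem weight_nonneg (θ c : ℕ → ℝ) (x : ℕ → ℝ) : 0 ≤ weight θ c x := by
  unfold weight
  split_ifs
  · exact le_rfl
  · exact (Real.exp_pos _).le

theorem weight_le_one (θ c : ℕ → ℝ) (x : ℕ → ℝ) : weight θ c x ≤ 1 := by
  unfold weight
  split_ifs
  · exact zero_le_one
  · exact Real.exp_le_one_iff.2 (neg_nonpos.2 ENNReal.toReal_nonneg)

theorem eq_of_isWeightedShift {θ c : ℕ → ℝ} {T : pairSpace →L[ℂ] pairSpace}
    (hT : IsWeightedShift θ c T) : T = (cube θ).U 1 * (cube θ).L (weight θ c) := by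
  have hb : Bdd (weight θ c) :=
    Bdd.of_mem_Icc (measurable_weight θ c) (weight_nonneg θ c) (weight_le_one θ c)
  refine ContinuousLinearMap.ext fun g => Lp.ext ?_
  have h1 := (cube θ).U_apply 1 ((cube θ).L (weight θ c) g)
  have h2 := ((cube θ).pres_U 1).quasiMeasurePreserving.ae ((cube θ).L_apply hb g)
  filter_upwards [hT g, h1, h2] with p e0 e1 e2
  exact e0.trans (e1.trans e2).symm

theorem weight_le_exp {θ c : ℕ → ℝ} (hc : ∀ i, 0 ≤ c i) (N : ℕ) {y : ℕ → ℝ}
    (hy : ∀ i, 0 ≤ y i + θ i) :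
    weight θ c y ≤ Real.exp (-∑ i ∈ Finset.range N, c i * (⌊y i + θ i⌋ : ℝ)) := by
  unfold weight
  split_ifs with h
  · exact (Real.exp_pos _).le
  · refine Real.exp_le_exp.2 (neg_le_neg ?_)
    rw [← ENNReal.ofReal_le_iff_le_toReal h, ENNReal.ofReal_sum_of_nonneg fun i _ =>
      mul_nonneg (hc i) (by exact_mod_cast Int.floor_nonneg.2 (hy i))]
    exact ENNReal.sum_le_tsum _

theorem sum_floor_fract (y a : ℝ) (n : ℕ) :
    ∑ k ∈ Finset.range n, (⌊Int.fract (y + ((k : ℤ) : ℝ) * a) + a⌋ : ℝ) =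
      (⌊y + n * a⌋ : ℝ) - ⌊y⌋ := by
  induction n with
  | zero => simp
  | succ n ih =>
    rw [Finset.sum_range_succ, ih]
    have : Int.fract (y + ((n : ℤ) : ℝ) * a) + a = (y + ((n + 1 : ℕ) : ℝ) * a) - ⌊y + n * a⌋ := by
      rw [Int.fract]; push_cast; ring
    rw [this, Int.floor_sub_intCast]
    push_cast
    ring

/-- `weight x ≤ exp (-∑_{i<N} c i ⌊x i + θ i⌋)` when the floors are nonnegative, and
`∑_{k<n} ⌊fract (y + k a) + a⌋ = ⌊y + n a⌋ - ⌊y⌋ ≥ n a - 1` -/
theorem wt_weight_le {θ c : ℕ → ℝ} (hθ : ∀ i, 0 < θ i ∧ θ i < 1) (hc : ∀ i, 0 ≤ c i) (n N : ℕ)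
    (x : ℕ → ℝ) :
    (cube θ).wt (weight θ c) n x ≤
      Real.exp (∑ i ∈ Finset.range N, c i) * Real.exp (-∑ i ∈ Finset.range N, c i * θ i) ^ n := by
  calc (cube θ).wt (weight θ c) n x
      ≤ ∏ k ∈ Finset.range n, Real.exp (-∑ i ∈ Finset.range N,
          c i * (⌊Int.fract (x i + ((k : ℤ) : ℝ) * θ i) + θ i⌋ : ℝ)) :=
        Finset.prod_le_prod (fun _ _ => weight_nonneg θ c _) fun k _ =>
          weight_le_exp hc N fun i => add_nonneg (Int.fract_nonneg _) (hθ i).1.le
    _ ≤ _ := by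
        rw [← Real.exp_sum, ← Real.exp_nat_mul, ← Real.exp_add, Finset.sum_neg_distrib,
          Finset.sum_comm, mul_neg, Finset.mul_sum, ← sub_eq_add_neg, ← Finset.sum_sub_distrib,
          ← Finset.sum_neg_distrib]
        refine Real.exp_le_exp.2 (Finset.sum_le_sum fun i _ => ?_)
        rw [← Finset.mul_sum, sum_floor_fract]
        have h1 := Int.lt_floor_add_one (x i + n * θ i)
        have h2 := Int.floor_le (x i)
        nlinarith [hc i]

/-- `ofReal (-log weight) ≤ dropCost` and `∫⁻ dropCost = ∑' ofReal (c i θ i)` -/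
theorem exists_sum_ge {θ c : ℕ → ℝ} (hθ : ∀ i, 0 < θ i ∧ θ i < 1) (hc : ∀ i, 0 ≤ c i)
    (hlog : ∫⁻ x, ENNReal.ofReal (- Real.log (weight θ c x)) ∂cubeMeasure = ⊤) (L : ℝ) :
    ∃ N : ℕ, L ≤ ∑ i ∈ Finset.range N, c i * θ i := by
  by_contra hL
  push Not at hL
  have h1 : ∫⁻ x, ENNReal.ofReal (- Real.log (weight θ c x)) ∂cubeMeasure ≤
      ∫⁻ x, dropCost θ c x ∂cubeMeasure := by
    refine lintegral_mono fun x => ?_
    unfold weight
    split_ifs with h
    · rw [h]; exact le_top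
    · rw [Real.log_exp, neg_neg, ENNReal.ofReal_toReal h]
  have h2 : ∀ i, ∫⁻ x, ENNReal.ofReal (c i * (⌊x i + θ i⌋ : ℝ)) ∂cubeMeasure ≤
      ENNReal.ofReal (c i * θ i) := by
    intro i
    have e := (measurePreserving_eval_infinitePi (fun _ : ℕ => unitLebesgue) i).lintegral_comp
      (measurable_dropTerm θ c i)
    refine le_trans (le_of_eq e) ?_
    calc ∫⁻ y, ENNReal.ofReal (c i * (⌊y + θ i⌋ : ℝ)) ∂unitLebesgue
        ≤ ∫⁻ y, (Set.Ico (1 - θ i) 1).indicator (fun _ => ENNReal.ofReal (c i)) y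
            ∂unitLebesgue := by
          refine lintegral_mono_ae ?_
          filter_upwards [ae_restrict_mem (μ := volume) (measurableSet_Ico (a := (0 : ℝ)) (b := 1))]
            with y hy
          by_cases h : 1 - θ i ≤ y
          · rw [Set.indicator_of_mem (show y ∈ Set.Ico (1 - θ i) 1 from ⟨h, hy.2⟩)]
            have : ⌊y + θ i⌋ = 1 := Int.floor_eq_iff.2
              ⟨by push_cast; linarith, by push_cast; linarith [hy.2, (hθ i).2]⟩
            simp [this]
          · have : ⌊y + θ i⌋ = 0 := Int.floor_eq_iff.2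
              ⟨by push_cast; linarith [hy.1, (hθ i).1], by push_cast; linarith [not_le.1 h]⟩
            simp [this]
      _ ≤ ENNReal.ofReal (c i) * volume (Set.Ico (1 - θ i) 1) := by
          rw [lintegral_indicator_const measurableSet_Ico]
          gcongr
          exact Measure.restrict_le_self
      _ = _ := by
          rw [Real.volume_Ico, ENNReal.ofReal_mul (hc i)]
          congr 2
          ring
  have h3 : ∫⁻ x, dropCost θ c x ∂cubeMeasure ≤ ENNReal.ofReal L := by
    unfold dropCost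
    rw [lintegral_tsum fun i => by
      exact ((measurable_dropTerm θ c i).comp (measurable_pi_apply i)).aemeasurable]
    refine (ENNReal.tsum_le_tsum h2).trans (ENNReal.tsum_le_of_sum_range_le fun N => ?_)
    rw [← ENNReal.ofReal_sum_of_nonneg fun i _ => mul_nonneg (hc i) (hθ i).1.le]
    exact ENNReal.ofReal_le_ofReal (hL N).le
  rw [hlog] at h1
  exact ENNReal.ofReal_ne_top (top_le_iff.1 (h1.trans h3))

theorem s0151 (θ c : ℕ → ℝ) (hθ : ∀ i, 0 < θ i ∧ θ i < 1) (hc : ∀ i, 0 ≤ c i)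
    (hpos : ∀ᵐ x ∂cubeMeasure, 0 < weight θ c x)
    (hlog : ∫⁻ x, ENNReal.ofReal (- Real.log (weight θ c x)) ∂cubeMeasure = ⊤)
    (T : pairSpace →L[ℂ] pairSpace) (hT : IsWeightedShift θ c T) (z : ℂ) :
    vectorDet vacuumVector (T - z • (1 : pairSpace →L[ℂ] pairSpace)) = ‖z‖ := by
  have hb : Bdd (weight θ c) :=
    Bdd.of_mem_Icc (measurable_weight θ c) (weight_nonneg θ c) (weight_le_one θ c)
  rw [eq_of_isWeightedShift hT]
  rcases eq_or_ne z 0 with rfl | hz
  · rw [zero_smul, sub_zero, norm_zero]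
    exact (cube θ).vectorDet_zero (measurable_weight θ c) (weight_nonneg θ c)
      (weight_le_one θ c) hpos hlog
  · refine (cube θ).trAlg.vectorDet_sub
      (mul_mem ((cube θ).U_mem 1) ((cube θ).L_mem hb)) (fun ε hε => ?_) (fun n hn => ?_) hz
    · obtain ⟨N, hN⟩ := exists_sum_ge hθ hc hlog (-Real.log ε)
      refine ⟨Real.exp (∑ i ∈ Finset.range N, c i), fun n => ?_⟩
      rw [(cube θ).T_pow hb]
      have h₁ : Real.exp (-∑ i ∈ Finset.range N, c i * θ i) ≤ ε := by
        rw [← Real.exp_log hε]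
        exact Real.exp_le_exp.2 (by linarith)
      have h₂ : ‖(cube θ).L ((cube θ).wt (weight θ c) n)‖ ≤
          Real.exp (∑ i ∈ Finset.range N, c i) * ε ^ n := by
        refine (cube θ).norm_L_le ((cube θ).bdd_wt hb n) (by positivity)
          (Eventually.of_forall fun x => ?_)
        have h0 : 0 ≤ (cube θ).wt (weight θ c) n x :=
          Finset.prod_nonneg fun _ _ => weight_nonneg θ c _
        rw [abs_of_nonneg h0]
        refine (wt_weight_le hθ hc n N x).trans ?_
        gcongr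
      refine ContinuousLinearMap.opNorm_le_bound _ (by positivity) fun ξ => ?_
      rw [mul_apply_eq_comp, (cube θ).norm_U_apply]
      exact ((cube θ).L _).le_of_opNorm_le h₂ ξ
    · rw [(cube θ).T_pow hb]
      exact (cube θ).τ_U_mul_L (by exact_mod_cast (Nat.one_le_iff_ne_zero.1 hn))
        ((cube θ).bdd_wt hb n)

end

end Crest.Agent.R113
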