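import Mathlib

/-!
# Row 113: definitions

The crossed product `L^∞(X) ⋊ ℤ` in its standard form on `L²(X × ℤ)`.  In the fibre over `x` the
site `a : ℤ` carries the point `σ a x`.  `L h` multiplies site `a` by `h (σ a x)`, `U k` shifts the
site by `k`; the algebra `alg` is the commutant of the right action (`ρ h` multiplies by `h x`,
`Sh k` moves the base point), and `τ` is the vector state of `Ω`, the indicator of site `0`.
-/

open MeasureTheory Filter Topology
open scoped InnerProductSpace BigOperators ENNReal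

set_option linter.unusedSectionVars false

namespace Crest.Agent.R113

noncomputable section

open Classical

/-- bounded measurable functions -/
def Bdd {Y E : Type*} [MeasurableSpace Y] [MeasurableSpace E] [Norm E] (h : Y → E) : Prop :=
  Measurable h ∧ ∃ C : ℝ, ∀ y, ‖h y‖ ≤ C

section Ops
variable {Y : Type*} [MeasurableSpace Y] (m : Measure Y)

theorem Bdd.memLp_top {h : Y → ℂ} (hh : Bdd h) : MemLp h ∞ m := by
  obtain ⟨hm, C, hC⟩ := hh
  exact memLp_top_of_bound hm.aestronglyMeasurable C (Eventually.of_forall hC)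

/-- multiplication by a bounded measurable function on `L²` (junk value `0`) -/
def mulOp (h : Y → ℂ) : Lp ℂ 2 m →L[ℂ] Lp ℂ 2 m :=
  if hh : Bdd h then (ContinuousLinearMap.mul ℂ ℂ).holderL m ∞ 2 2 ((hh.memLp_top m).toLp h) else 0

/-- composition with a measure preserving map on `L²` -/
def compOp (φ : Y → Y) (hφ : MeasurePreserving φ m m) : Lp ℂ 2 m →L[ℂ] Lp ℂ 2 m :=
  (Lp.compMeasurePreservingₗᵢ ℂ φ hφ).toContinuousLinearMap

end Ops

/-- a measure preserving action of `ℤ` on a probability space (`σ 0 = id` only almost everywhere) -/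
structure Sys (X : Type*) [MeasurableSpace X] where
  μ : Measure X
  prob : IsProbabilityMeasure μ
  σ : ℤ → X → X
  pres : ∀ k, MeasurePreserving (σ k) μ μ
  add : ∀ k l x, σ (k + l) x = σ k (σ l x)
  zero : ∀ᵐ x ∂μ, σ 0 x = x

theorem measurePreserving_sub_count (k : ℤ) :
    MeasurePreserving (fun a : ℤ => a - k) Measure.count Measure.count :=
  ⟨measurable_of_countable _, by
    ext s hs
    rw [Measure.map_apply (measurable_of_countable _) hs]
    have h : s = (fun a : ℤ => a - k) '' ((fun a : ℤ => a - k) ⁻¹' s) :=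
      (Set.image_preimage_eq s (Equiv.subRight k).surjective).symm
    conv_rhs => rw [h]
    exact (Measure.count_injective_image (f := fun a : ℤ => a - k)
      (Equiv.subRight k).injective _).symm⟩

namespace Sys
variable {X : Type*} [MeasurableSpace X] (S : Sys X)

instance : IsProbabilityMeasure S.μ := S.prob

/-- the measure on `X × ℤ` -/
def ν : Measure (X × ℤ) := S.μ.prod Measure.count

/-- the Hilbert space -/
abbrev H : Type _ := Lp ℂ 2 S.ν

/-- bounded operators -/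
abbrev Op : Type _ := S.H →L[ℂ] S.H

/-- left multiplication by a complex function -/
def Lc (h : X → ℂ) : S.Op := mulOp S.ν fun p => h (S.σ p.2 p.1)

/-- left multiplication by a real function -/
def L (h : X → ℝ) : S.Op := S.Lc fun x => (h x : ℂ)

/-- right multiplication -/
def ρ (h : X → ℂ) : S.Op := mulOp S.ν fun p => h p.1

theorem pres_U (k : ℤ) : MeasurePreserving (fun p : X × ℤ => (p.1, p.2 - k)) S.ν S.ν :=
  (MeasurePreserving.id S.μ).prod (measurePreserving_sub_count k)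

theorem pres_Sh (k : ℤ) : MeasurePreserving (fun p : X × ℤ => (S.σ k p.1, p.2 - k)) S.ν S.ν :=
  (S.pres k).prod (measurePreserving_sub_count k)

/-- the left shift: `(U k ξ) (x, a) = ξ (x, a - k)` -/
def U (k : ℤ) : S.Op := compOp S.ν _ (S.pres_U k)

/-- the right shift: `(Sh k ξ) (x, a) = ξ (σ k x, a - k)` -/
def Sh (k : ℤ) : S.Op := compOp S.ν _ (S.pres_Sh k)

/-- the generators of the right action -/
def gens : Set S.Op := {A | ∃ h : X → ℂ, Bdd h ∧ A = S.ρ h} ∪ Set.range S.Sh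

/-- the algebra: commutant of the right action -/
def alg : StarSubalgebra ℂ S.Op := StarSubalgebra.centralizer ℂ S.gens

/-- the trace vector -/
def Ω : S.H :=
  indicatorConstLp 2 (MeasurableSet.univ.prod (measurableSet_singleton (0 : ℤ)))
    (by
      rw [ν, Measure.prod_prod, measure_univ, Measure.count_singleton, one_mul]
      exact ENNReal.one_ne_top)
    (1 : ℂ)

/-- the trace -/
def τ (A : S.Op) : ℂ := ⟪S.Ω, A S.Ω⟫_ℂ

/-- the real part of the trace -/
def tr (A : S.Op) : ℝ := (S.τ A).re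

/-- projections of the algebra -/
def IsP (q : S.Op) : Prop := q ∈ S.alg ∧ IsStarProjection q

/-- the diagonal density of a projection, with values in `[0,1]` -/
def P (q : S.Op) (x : X) : ℝ := max 0 (min 1 ((q S.Ω : X × ℤ → ℂ) (x, 0)).re)

/-- the link functional: `(x, a)` is the link from the point `x` to the point `σ a x` -/
def lk (q : S.Op) (K : X × ℤ → ℝ) : ℝ := ∫ p, K p * ‖(q S.Ω : X × ℤ → ℂ) p‖ ^ 2 ∂S.ν

/-- `L R` maps the range of `q` into the range of `r` -/
def Rel (R : X → ℝ) (q r : S.Op) : Prop := (1 - r) * S.L R * q = 0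

/-- `q'` is the projection onto `exp (-ψ)` times the range of `q` -/
def Tilt (ψ : X → ℝ) (q q' : S.Op) : Prop :=
  S.IsP q' ∧ S.tr q' = S.tr q ∧ S.Rel (fun x => Real.exp (-ψ x)) q q' ∧
    S.Rel (fun x => Real.exp (ψ x)) q' q

/-- translate of an operator along the orbit -/
def cj (n : ℤ) (q : S.Op) : S.Op := S.U (-n) * q * S.U n

/-- product of the weights along `n` steps -/
def wt (f : X → ℝ) (n : ℕ) (x : X) : ℝ := ∏ k ∈ Finset.range n, f (S.σ k x)

/-! ### blocks cut out by a set `Z` -/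

/-- every orbit meets `Z` within `N` steps -/
def Synd (Z : Set X) (N : ℕ) : Prop := ∀ x, ∃ k : ℕ, k < N ∧ S.σ k x ∈ Z

/-- time to the next cut -/
def tp (Z : Set X) (x : X) : ℕ := sInf {n : ℕ | S.σ n x ∈ Z}

/-- time since the last cut -/
def tm (Z : Set X) (x : X) : ℕ := sInf {n : ℕ | S.σ (-((n : ℤ) + 1)) x ∈ Z}

/-- twice the position relative to the centre of the block -/
def D (Z : Set X) (x : X) : ℝ := (S.tm Z x : ℝ) - S.tp Z x

/-- the primitive of `D` along the block -/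
def Hh (Z : Set X) (x : X) : ℝ := ((S.tm Z x : ℝ) + 1) * S.tp Z x

/-- length of the block -/
def len (Z : Set X) (x : X) : ℕ := S.tm Z x + S.tp Z x + 1

/-- constant on blocks -/
def BC (Z : Set X) (g : X → ℝ) : Prop := ∀ x, x ∉ Z → g (S.σ 1 x) = g x

/-- block average -/
def avg (Z : Set X) (h : X → ℝ) (x : X) : ℝ :=
  (∑ k ∈ Finset.Icc (-(S.tm Z x : ℤ)) (S.tp Z x), h (S.σ k x)) / S.len Z x

/-- sum over the earlier sites of the block -/
def cum (Z : Set X) (h : X → ℝ) (x : X) : ℝ :=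
  ∑ k ∈ Finset.range (S.tm Z x), h (S.σ (-((k : ℤ) + 1)) x)

/-- the link `(x, a)` joins two sites of the same block -/
def Same (Z : Set X) (p : X × ℤ) : Prop := -(S.tm Z p.1 : ℤ) ≤ p.2 ∧ p.2 ≤ S.tp Z p.1

end Sys

/-- distance to the nearest integer -/
def dZ (y : ℝ) : ℝ := |y - round y|

/-- a weight `f` with nested cut sets `Z i` of huge cost `c i`, whose times-to-the-next-cut separate
the points of an orbit -/
structure Lev {X : Type*} [MeasurableSpace X] (S : Sys X) where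
  f : X → ℝ
  Z : ℕ → Set X
  E : ℕ → Set X
  B : ℕ → ℕ
  s : ℕ → ℝ
  c : ℕ → ℝ
  zero : ∀ x, S.σ 0 x = x
  erg : Ergodic (S.σ 1) S.μ
  f_meas : Measurable f
  f_nonneg : ∀ x, 0 ≤ f x
  f_le_one : ∀ x, f x ≤ 1
  Z_meas : ∀ i, MeasurableSet (Z i)
  E_meas : ∀ i, MeasurableSet (E i)
  Z_anti : Antitone Z
  B_pos : ∀ i, 1 ≤ B i
  B_grow : ∀ i, 2 * B i ≤ B (i + 1)
  synd : ∀ i, S.Synd (Z i) (3 * B i)
  s_nonneg : ∀ i, 0 ≤ s i
  s_mono : Monotone s
  f_Z : ∀ i x, x ∈ Z i → f x ≤ Real.exp (-c i)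
  f_off : ∀ i x, x ∉ Z i → x ∉ E i → Real.exp (-s i) ≤ f x
  c_big : ∀ i : ℕ, 100 * ((i : ℝ) + 1) * B i * (s i + B i + 1) ≤ c i
  E_small : ∀ i, S.μ.real (E i) ≤ 1 / (2 ^ i * B i)
  short : ∀ i (n : ℕ), S.μ.real {x | S.tp (Z i) x < n} ≤ 2 * n / B i + 2 / 2 ^ i
  cover : ∀ μ₀ : ℝ, 0 < μ₀ → ∃ K : ℝ, ∀ m₀ : ℕ, ∃ m, m₀ ≤ m ∧ ∀ J : ℕ,
    ∃ (M : ℕ) (a : ℕ → ℝ) (β : X → ℝ), (∀ i, 0 ≤ a i) ∧ ∑ i ∈ Finset.Ico m M, a i ^ 2 ≤ K ∧
      Bdd β ∧ (∀ x, 0 ≤ β x) ∧ ∫ x, β x ∂S.μ ≤ μ₀ ∧
      ∀ x (j : ℕ), 1 ≤ j → j ≤ J → S.tp (Z m) x < j →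
        1 ≤ ∑ i ∈ Finset.Ico m M,
          a i * |(S.tp (Z i) x : ℝ) - S.tp (Z i) (S.σ j x)| / B i + β x

end

end Crest.Agent.R113
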