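import Crest.Agent.R113.Defs
import Crest.Prelude.Def_ProductShift

/-!
# Row 113: first order expansion of `τ ∘ log`
-/

open MeasureTheory Filter Topology
open scoped InnerProductSpace BigOperators ENNReal

set_option linter.unusedSectionVars false

namespace Crest.Agent.R113

noncomputable section

open Classical

variable {H : Type*} [NormedAddCommGroup H] [InnerProductSpace ℂ H] [CompleteSpace H]

/-- a closed star algebra of operators on which a unit vector state is a trace -/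
structure TrAlg (A : StarSubalgebra ℂ (H →L[ℂ] H)) (Ω : H) : Prop where
  closed : IsClosed (A : Set (H →L[ℂ] H))
  unit : ‖Ω‖ = 1
  trace : ∀ a ∈ A, ∀ b ∈ A, ⟪Ω, (a * b) Ω⟫_ℂ = ⟪Ω, (b * a) Ω⟫_ℂ

theorem one_sub_eq_cfc {X : H →L[ℂ] H} (hX : IsSelfAdjoint X) (M : ℝ) :
    1 - ((M : ℂ)⁻¹) • X = cfc (fun x : ℝ => 1 - M⁻¹ * x) X := by
  rw [cfc_sub (fun _ : ℝ => (1 : ℝ)) (fun x : ℝ => M⁻¹ * x) X (by fun_prop) (by fun_prop),
    cfc_const_one ℝ X hX, cfc_const_mul M⁻¹ (fun x : ℝ => x) X (by fun_prop), cfc_id' ℝ X hX,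
    ← Complex.ofReal_inv, Complex.coe_smul]

theorem abs_one_sub_le {m M x : ℝ} (hm : 0 < m) (hx : x ∈ Set.Icc m M) :
    |1 - M⁻¹ * x| ≤ 1 - m / M := by
  have hM : 0 < M := hm.trans_le (hx.1.trans hx.2)
  have h1 : M⁻¹ * x ≤ 1 := by
    rw [inv_mul_le_iff₀ hM]; simpa using hx.2
  have h2 : m / M ≤ M⁻¹ * x := by
    rw [div_eq_inv_mul]; exact mul_le_mul_of_nonneg_left hx.1 (inv_nonneg.2 hM.le)
  rw [abs_of_nonneg (by linarith)]
  linarith

theorem norm_one_sub_le' {X : H →L[ℂ] H} (hX : IsSelfAdjoint X) {m M : ℝ} (hm : 0 < m)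
    (hM : m ≤ M) (hs : spectrum ℝ X ⊆ Set.Icc m M) : ‖1 - ((M : ℂ)⁻¹) • X‖ ≤ 1 - m / M := by
  rw [one_sub_eq_cfc hX]
  have hM0 : 0 < M := hm.trans_le hM
  refine norm_cfc_le ?_ fun x hx => ?_
  · have : m / M ≤ 1 := (div_le_one hM0).2 hM
    linarith
  · exact abs_one_sub_le hm (hs hx)

theorem norm_pow_le_of_le {a : H →L[ℂ] H} {κ : ℝ} (hκ : 0 ≤ κ) (ha : ‖a‖ ≤ κ) (j : ℕ) :
    ‖a ^ j‖ ≤ κ ^ j := by
  induction j with
  | zero => rw [pow_zero, pow_zero]; exact ContinuousLinearMap.norm_id_le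
  | succ j ih =>
    rw [pow_succ, pow_succ]
    exact (norm_mul_le _ _).trans (mul_le_mul ih ha (norm_nonneg _) (pow_nonneg hκ _))

theorem norm_pow_sub_pow_le' {a b : H →L[ℂ] H} {κ : ℝ} (hκ : 0 ≤ κ) (ha : ‖a‖ ≤ κ) (hb : ‖b‖ ≤ κ)
    (n : ℕ) : ‖b ^ (n + 1) - a ^ (n + 1)‖ ≤ ((n : ℝ) + 1) * κ ^ n * ‖b - a‖ := by
  induction n with
  | zero => simp
  | succ n ih =>
    have e : b ^ (n + 1 + 1) - a ^ (n + 1 + 1) =
        b ^ (n + 1) * (b - a) + (b ^ (n + 1) - a ^ (n + 1)) * a := by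
      rw [pow_succ b (n + 1), pow_succ a (n + 1)]; noncomm_ring
    rw [e]
    have h1 : ‖b ^ (n + 1) * (b - a)‖ ≤ κ ^ (n + 1) * ‖b - a‖ :=
      (norm_mul_le _ _).trans
        (mul_le_mul_of_nonneg_right (norm_pow_le_of_le hκ hb _) (norm_nonneg _))
    have h2 : ‖(b ^ (n + 1) - a ^ (n + 1)) * a‖ ≤ (((n : ℝ) + 1) * κ ^ n * ‖b - a‖) * κ :=
      (norm_mul_le _ _).trans (mul_le_mul ih ha (norm_nonneg _) (by positivity))
    refine (norm_add_le _ _).trans ((add_le_add h1 h2).trans (le_of_eq ?_))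
    push_cast; ring

theorem norm_inner_apply_le {Ω : H} (hΩ : ‖Ω‖ = 1) (T : H →L[ℂ] H) : ‖⟪Ω, T Ω⟫_ℂ‖ ≤ ‖T‖ := by
  refine (norm_inner_le_norm _ _).trans ?_
  have := T.le_opNorm Ω
  rw [hΩ] at this ⊢
  simpa using this

/-- `log x = log M - ∑ (1 - x / M)^(n+1) / (n+1)` uniformly on `[m, M]`
(`Real.hasSum_pow_div_log_of_abs_lt_one`); apply the continuous algebra map `cfcHom`, or bound the
remainders with `norm_cfc_le`. -/
theorem hasSum_log {X : H →L[ℂ] H} (hX : IsSelfAdjoint X) {m M : ℝ} (hm : 0 < m)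
    (hs : spectrum ℝ X ⊆ Set.Icc m M) :
    HasSum (fun n : ℕ => (((n : ℂ) + 1)⁻¹) • (1 - ((M : ℂ)⁻¹) • X) ^ (n + 1))
      ((Real.log M : ℂ) • (1 : H →L[ℂ] H) - cfc Real.log X) := by
  rcases subsingleton_or_nontrivial (H →L[ℂ] H) with hsub | hnt
  · convert (hasSum_zero (α := H →L[ℂ] H) (β := ℕ)) using 1
  obtain ⟨x0, hx0⟩ := ContinuousFunctionalCalculus.spectrum_nonempty (R := ℝ) X hX
  have hM : m ≤ M := (hs hx0).1.trans (hs hx0).2
  have hM0 : 0 < M := hm.trans_le hM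
  set κ : ℝ := 1 - m / M with hκ
  have hκ0 : 0 ≤ κ := by
    have : m / M ≤ 1 := (div_le_one hM0).2 hM
    linarith
  have hκ1 : κ < 1 := by
    have : 0 < m / M := div_pos hm hM0
    linarith
  have hn := norm_one_sub_le' hX hm hM hs
  have hsum : Summable fun n : ℕ => ‖(((n : ℂ) + 1)⁻¹) • (1 - ((M : ℂ)⁻¹) • X) ^ (n + 1)‖ := by
    refine Summable.of_nonneg_of_le (fun _ => norm_nonneg _) (fun n => ?_)
      (summable_geometric_of_lt_one hκ0 hκ1)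
    rw [norm_smul]
    have h1 : ‖((n : ℂ) + 1)⁻¹‖ ≤ 1 := by
      rw [norm_inv]
      apply inv_le_one_of_one_le₀
      have : ((n : ℂ) + 1) = ((n + 1 : ℕ) : ℂ) := by push_cast; rfl
      rw [this, Complex.norm_natCast]
      exact_mod_cast Nat.succ_pos n
    have h2 := norm_pow_le_of_le hκ0 hn (n + 1)
    have h3 : κ ^ (n + 1) ≤ κ ^ n := pow_le_pow_of_le_one hκ0 hκ1.le (Nat.le_succ n)
    calc _ ≤ 1 * κ ^ (n + 1) := mul_le_mul h1 h2 (norm_nonneg _) zero_le_one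
      _ ≤ κ ^ n := by linarith
  rw [hasSum_iff_tendsto_nat_of_summable_norm hsum]
  have hpart : ∀ N : ℕ, ∑ n ∈ Finset.range N,
      (((n : ℂ) + 1)⁻¹) • (1 - ((M : ℂ)⁻¹) • X) ^ (n + 1) =
      cfc (fun x : ℝ => ∑ n ∈ Finset.range N, (1 - M⁻¹ * x) ^ (n + 1) / ((n : ℝ) + 1)) X := by
    intro N
    induction N with
    | zero => simp
    | succ N ih =>
      simp only [Finset.sum_range_succ]
      rw [ih, cfc_add X _ _ (by fun_prop) (by fun_prop)]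
      congr 1
      have e : (fun x : ℝ => (1 - M⁻¹ * x) ^ (N + 1) / ((N : ℝ) + 1)) =
          fun x : ℝ => ((N : ℝ) + 1)⁻¹ * (1 - M⁻¹ * x) ^ (N + 1) := by
        funext x; rw [div_eq_inv_mul]
      rw [e, cfc_const_mul _ _ X (by fun_prop), cfc_pow _ _ X (by fun_prop) hX,
        ← one_sub_eq_cfc hX, ← Complex.coe_smul]
      push_cast; rfl
  have hlogc : ContinuousOn Real.log (spectrum ℝ X) :=
    Real.continuousOn_log.mono fun x hx => ne_of_gt (hm.trans_le (hs hx).1)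
  have htar : (Real.log M : ℂ) • (1 : H →L[ℂ] H) - cfc Real.log X =
      cfc (fun x : ℝ => Real.log M - Real.log x) X := by
    rw [cfc_sub (fun _ : ℝ => Real.log M) Real.log X (by fun_prop) hlogc,
      cfc_const _ X hX, Algebra.algebraMap_eq_smul_one, Complex.coe_smul]
  rw [tendsto_iff_norm_sub_tendsto_zero]
  have hlim : Tendsto (fun N : ℕ => κ ^ (N + 1) / (1 - κ)) atTop (𝓝 0) := by
    have := ((tendsto_pow_atTop_nhds_zero_of_lt_one hκ0 hκ1).comp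
      (tendsto_add_atTop_nat 1)).div_const (1 - κ)
    simpa using this
  refine squeeze_zero (fun _ => norm_nonneg _) (fun N => ?_) hlim
  rw [hpart, htar, ← cfc_sub _ _ X (by fun_prop) (by fun_prop)]
  refine norm_cfc_le (by have : 0 < 1 - κ := by linarith
                         positivity) fun x hx => ?_
  have ha := abs_one_sub_le hm (hs hx)
  have hx0' : 0 < x := hm.trans_le (hs hx).1
  have hb := Real.abs_log_sub_add_sum_range_le (ha.trans_lt hκ1) N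
  have e : Real.log (1 - (1 - M⁻¹ * x)) = Real.log x - Real.log M := by
    rw [sub_sub_cancel, Real.log_mul (inv_ne_zero hM0.ne') hx0'.ne', Real.log_inv]; ring
  rw [e] at hb
  rw [Real.norm_eq_abs]
  calc _ = |∑ i ∈ Finset.range N, (1 - M⁻¹ * x) ^ (i + 1) / ((i : ℝ) + 1) +
        (Real.log x - Real.log M)| := by congr 1; ring
    _ ≤ _ := hb
    _ ≤ _ := by
      apply div_le_div₀ (by positivity) (pow_le_pow_left₀ (abs_nonneg _) ha _) (by linarith)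
      linarith

theorem norm_one_sub_le {X : H →L[ℂ] H} (hX : IsSelfAdjoint X) {m M : ℝ} (hm : 0 < m) (hM : m ≤ M)
    (hs : spectrum ℝ X ⊆ Set.Icc m M) : ‖1 - ((M : ℂ)⁻¹) • X‖ ≤ 1 - m / M := by
  exact norm_one_sub_le' hX hm hM hs

/-- `b^(n+1) - a^(n+1) = ∑_k b^k (b - a) a^(n-k)`; by the trace property each term has trace
`τ (a^(n-k) b^k (b - a))`, and `‖b^k - a^k‖ ≤ k κ^(k-1) ‖b - a‖`. -/
theorem TrAlg.pow_sub_le {A : StarSubalgebra ℂ (H →L[ℂ] H)} {Ω : H} (h : TrAlg A Ω)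
    {a b : H →L[ℂ] H} (ha : a ∈ A) (hb : b ∈ A) {κ : ℝ} (hκ : 0 < κ) (ha' : ‖a‖ ≤ κ)
    (hb' : ‖b‖ ≤ κ) (n : ℕ) :
    ‖⟪Ω, (b ^ (n + 1)) Ω⟫_ℂ - ⟪Ω, (a ^ (n + 1)) Ω⟫_ℂ -
        ((n : ℂ) + 1) * ⟪Ω, (a ^ n * (b - a)) Ω⟫_ℂ‖ ≤
      ((n : ℝ) + 1) ^ 2 * κ ^ n / κ * ‖b - a‖ ^ 2 := by
  have key : ∀ n j : ℕ, ‖⟪Ω, (a ^ j * b ^ (n + 1)) Ω⟫_ℂ - ⟪Ω, (a ^ (j + n + 1)) Ω⟫_ℂ -
        ((n : ℂ) + 1) * ⟪Ω, (a ^ (j + n) * (b - a)) Ω⟫_ℂ‖ ≤
      ((n : ℝ) + 1) ^ 2 * κ ^ (j + n) / κ * ‖b - a‖ ^ 2 := by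
    intro n
    induction n with
    | zero =>
      intro j
      have e : a ^ j * b ^ (0 + 1) = a ^ (j + 0 + 1) + a ^ (j + 0) * (b - a) := by
        simp only [zero_add, add_zero, pow_succ, pow_zero, one_mul]; noncomm_ring
      rw [e, _root_.add_apply, inner_add_right]
      simp only [Nat.cast_zero, zero_add, one_mul, add_sub_cancel_left, sub_self, norm_zero]
      positivity
    | succ n ih =>
      intro j
      have e1 : a ^ j * b ^ (n + 1 + 1) = (a ^ j * b ^ (n + 1)) * a +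
          a ^ (j + (n + 1)) * (b - a) + a ^ j * (b ^ (n + 1) - a ^ (n + 1)) * (b - a) := by
        rw [pow_succ b (n + 1), pow_add a j (n + 1)]; noncomm_ring
      have e2 : ⟪Ω, ((a ^ j * b ^ (n + 1)) * a) Ω⟫_ℂ = ⟪Ω, (a ^ (j + 1) * b ^ (n + 1)) Ω⟫_ℂ := by
        rw [h.trace _ (mul_mem (pow_mem ha _) (pow_mem hb _)) _ ha, ← mul_assoc, ← pow_succ']
      have h3 : ‖⟪Ω, (a ^ j * (b ^ (n + 1) - a ^ (n + 1)) * (b - a)) Ω⟫_ℂ‖ ≤
          κ ^ j * (((n : ℝ) + 1) * κ ^ n * ‖b - a‖) * ‖b - a‖ := by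
        refine (norm_inner_apply_le h.unit _).trans ((norm_mul_le _ _).trans ?_)
        refine mul_le_mul_of_nonneg_right ((norm_mul_le _ _).trans ?_) (norm_nonneg _)
        exact mul_le_mul (norm_pow_le_of_le hκ.le ha' _) (norm_pow_sub_pow_le' hκ.le ha' hb' n)
          (norm_nonneg _) (by positivity)
      have h4 := ih (j + 1)
      have i1 : j + 1 + n + 1 = j + (n + 1) + 1 := by ring
      have i2 : j + 1 + n = j + (n + 1) := by ring
      rw [i1, i2] at h4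
      rw [e1, _root_.add_apply, _root_.add_apply, inner_add_right,
        inner_add_right, e2]
      have e3 : ∀ p q r s : ℂ, p + q + r - s - (((n + 1 : ℕ) : ℂ) + 1) * q =
          (p - s - ((n : ℂ) + 1) * q) + r := by
        intro p q r s; push_cast; ring
      rw [e3]
      refine (norm_add_le _ _).trans ((add_le_add h4 h3).trans ?_)
      have e4 : κ ^ (j + (n + 1)) / κ = κ ^ j * κ ^ n := by
        field_simp; ring
      rw [mul_div_assoc, mul_div_assoc, e4]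
      push_cast
      have : 0 ≤ κ ^ j * κ ^ n * ‖b - a‖ ^ 2 := by positivity
      have hn : (0 : ℝ) ≤ n := Nat.cast_nonneg n
      nlinarith [mul_nonneg hn this]
  simpa using key n 0

/-- Sum `pow_sub_le` against `hasSum_log` with `a = 1 - X / M'`, `b = 1 - Y / M'` (`M' = 2 M`, say,
and `κ = 1 - m / M' ∈ [1/2, 1)`); `∑ a^n` is the inverse of `X / M'`, i.e. `M' X'`. -/
theorem TrAlg.log_sub_le {A : StarSubalgebra ℂ (H →L[ℂ] H)} {Ω : H} (h : TrAlg A Ω) {m M : ℝ}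
    (hm : 0 < m) (hM : m ≤ M) :
    ∃ C : ℝ, ∀ X Y X' : H →L[ℂ] H, X ∈ A → Y ∈ A → IsSelfAdjoint X → IsSelfAdjoint Y →
      spectrum ℝ X ⊆ Set.Icc m M → spectrum ℝ Y ⊆ Set.Icc m M → X' * X = 1 →
      ‖⟪Ω, cfc Real.log Y Ω⟫_ℂ - ⟪Ω, cfc Real.log X Ω⟫_ℂ - ⟪Ω, (X' * (Y - X)) Ω⟫_ℂ‖ ≤
        C * ‖Y - X‖ ^ 2 := by
  have hM0 : 0 < M := hm.trans_le hM
  set M' : ℝ := 2 * M with hM'
  have hM'0 : 0 < M' := by positivity
  have hmM' : m ≤ M' := by linarith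
  set κ : ℝ := 1 - m / M' with hκ
  have hκ0 : 0 < κ := by
    have : m / M' < 1 := (div_lt_one hM'0).2 (by linarith)
    linarith
  have hκ1 : κ < 1 := by
    have : 0 < m / M' := div_pos hm hM'0
    linarith
  have hsumκ : Summable fun n : ℕ => ((n : ℝ) + 1) * κ ^ n := by
    have hk : ‖κ‖ < 1 := by rw [Real.norm_eq_abs, abs_of_pos hκ0]; exact hκ1
    have h1 := summable_pow_mul_geometric_of_norm_lt_one 1 hk
    have h2 := summable_geometric_of_lt_one hκ0.le hκ1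
    refine (h1.add h2).congr fun n => ?_
    ring
  refine ⟨(∑' n : ℕ, ((n : ℝ) + 1) * κ ^ n) / κ / M' ^ 2, ?_⟩
  intro X Y X' hXA hYA hX hY hsX hsY hinv
  have hsub : Set.Icc m M ⊆ Set.Icc m M' := Set.Icc_subset_Icc le_rfl (by linarith)
  have hsX' := hsX.trans hsub
  have hsY' := hsY.trans hsub
  set a : H →L[ℂ] H := 1 - ((M' : ℂ)⁻¹) • X with ha
  set b : H →L[ℂ] H := 1 - ((M' : ℂ)⁻¹) • Y with hb
  have haA : a ∈ A := sub_mem (one_mem _) (SMulMemClass.smul_mem _ hXA)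
  have hbA : b ∈ A := sub_mem (one_mem _) (SMulMemClass.smul_mem _ hYA)
  have han : ‖a‖ ≤ κ := norm_one_sub_le hX hm hmM' hsX'
  have hbn : ‖b‖ ≤ κ := norm_one_sub_le hY hm hmM' hsY'
  let τ : (H →L[ℂ] H) →L[ℂ] ℂ := (innerSL ℂ Ω).comp (ContinuousLinearMap.apply ℂ H Ω)
  have hτ : ∀ T : H →L[ℂ] H, τ T = ⟪Ω, T Ω⟫_ℂ := fun T => rfl
  have h1 := (hasSum_log hX hm hsX').mapL τ
  have h2 := (hasSum_log hY hm hsY').mapL τ
  have ha1 : ‖a‖ < 1 := han.trans_lt hκ1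
  have hS := (summable_geometric_of_norm_lt_one ha1).hasSum
  have hMc : (M' : ℂ) ≠ 0 := by exact_mod_cast hM'0.ne'
  have hX' : (∑' n : ℕ, a ^ n) = (M' : ℂ) • X' := by
    have e := mul_neg_geom_series a ha1
    have e' : 1 - a = ((M' : ℂ)⁻¹) • X := by rw [ha, sub_sub_cancel]
    rw [e'] at e
    calc (∑' n : ℕ, a ^ n) = (X' * X) * ∑' n : ℕ, a ^ n := by rw [hinv, one_mul]
      _ = (M' : ℂ) • (X' * ((((M' : ℂ)⁻¹) • X) * ∑' n : ℕ, a ^ n)) := by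
        rw [smul_mul_assoc, mul_smul_comm, smul_smul, mul_inv_cancel₀ hMc, one_smul, mul_assoc]
      _ = _ := by rw [e, mul_one]
  rw [hX'] at hS
  have h3 := (hS.mul_right (b - a)).mapL τ
  have hba : b - a = -(((M' : ℂ)⁻¹) • (Y - X)) := by
    rw [ha, hb, smul_sub]; abel
  have hnba : ‖b - a‖ = ‖Y - X‖ / M' := by
    rw [hba, norm_neg, norm_smul, norm_inv, Complex.norm_real, Real.norm_eq_abs, abs_of_pos hM'0,
      div_eq_inv_mul]
  have h4 := (h2.sub h1).sub h3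
  have h5 := (hsumκ.hasSum.div_const κ).mul_right (‖b - a‖ ^ 2)
  have h6 := h4.norm_le_of_bounded h5 (fun n => by
    have := h.pow_sub_le haA hbA hκ0 han hbn n
    have hn : ((n : ℂ) + 1) ≠ 0 := by exact_mod_cast Nat.succ_ne_zero n
    have e : τ ((((n : ℂ) + 1)⁻¹) • b ^ (n + 1)) - τ ((((n : ℂ) + 1)⁻¹) • a ^ (n + 1)) -
        τ (a ^ n * (b - a)) = ((n : ℂ) + 1)⁻¹ * (⟪Ω, (b ^ (n + 1)) Ω⟫_ℂ - ⟪Ω, (a ^ (n + 1)) Ω⟫_ℂ -
        ((n : ℂ) + 1) * ⟪Ω, (a ^ n * (b - a)) Ω⟫_ℂ) := by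
      rw [map_smul, map_smul, hτ, hτ, hτ, smul_eq_mul, smul_eq_mul]
      field_simp
    rw [e, norm_mul, norm_inv]
    have e2 : ‖(n : ℂ) + 1‖ = (n : ℝ) + 1 := by
      have : ((n : ℂ) + 1) = ((n + 1 : ℕ) : ℂ) := by push_cast; rfl
      rw [this, Complex.norm_natCast]; push_cast; rfl
    have hn' : (0 : ℝ) < (n : ℝ) + 1 := by positivity
    rw [e2, inv_mul_le_iff₀ hn']
    refine this.trans (le_of_eq ?_)
    ring)
  have e : τ ((Real.log M' : ℂ) • (1 : H →L[ℂ] H) - cfc Real.log Y) -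
      τ ((Real.log M' : ℂ) • (1 : H →L[ℂ] H) - cfc Real.log X) - τ ((M' : ℂ) • X' * (b - a)) =
      -(⟪Ω, cfc Real.log Y Ω⟫_ℂ - ⟪Ω, cfc Real.log X Ω⟫_ℂ - ⟪Ω, (X' * (Y - X)) Ω⟫_ℂ) := by
    have : (M' : ℂ) • X' * (b - a) = -(X' * (Y - X)) := by
      rw [hba, mul_neg, smul_mul_assoc, mul_smul_comm, smul_smul, mul_inv_cancel₀ hMc, one_smul]
    rw [this, map_sub, map_sub, map_neg, hτ (cfc _ Y), hτ (cfc _ X), hτ (X' * _)]
    ring
  rw [e, norm_neg, hnba] at h6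
  refine h6.trans (le_of_eq ?_)
  field_simp

end

end Crest.Agent.R113
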