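import Crest.Agent.R113.Det

/-!
# Row 113: the determinant of `T - z` for a quasinilpotent `T` with vanishing moments
-/

open MeasureTheory Filter Topology
open scoped InnerProductSpace BigOperators ENNReal

set_option linter.unusedSectionVars false

namespace Crest.Agent.R113

noncomputable section

open Classical

open Crest.AnalysisR.ProductShift

variable {H : Type*} [NormedAddCommGroup H] [InnerProductSpace ℂ H] [CompleteSpace H]

theorem abs_le_norm_of_mem_spectrum {B : H →L[ℂ] H} {x : ℝ} (hx : x ∈ spectrum ℝ B) :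
    |x| ≤ ‖B‖ := by
  have h := spectrum.norm_le_norm_mul_of_mem hx
  have h1 : ‖(1 : H →L[ℂ] H)‖ ≤ 1 := ContinuousLinearMap.norm_id_le
  calc |x| ≤ ‖B‖ * ‖(1 : H →L[ℂ] H)‖ := h
    _ ≤ ‖B‖ * 1 := mul_le_mul_of_nonneg_left h1 (norm_nonneg _)
    _ = ‖B‖ := mul_one _

theorem inv_mul_star_mul_self {A A' : H →L[ℂ] H} (h₁ : A' * A = 1) (h₂ : A * A' = 1) :
    A' * star A' * (star A * A) = 1 := by
  calc A' * star A' * (star A * A) = A' * star (A * A') * A := by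
        rw [star_mul]; simp only [mul_assoc]
    _ = 1 := by rw [h₂, star_one, mul_one, h₁]

theorem star_mul_self_mul_inv {A A' : H →L[ℂ] H} (h₁ : A' * A = 1) (h₂ : A * A' = 1) :
    star A * A * (A' * star A') = 1 := by
  calc star A * A * (A' * star A') = star A * (A * A') * star A' := by simp only [mul_assoc]
    _ = 1 := by rw [h₂, mul_one, ← star_mul, h₁, star_one]

theorem algebraMap_real_eq (r : ℝ) :
    algebraMap ℝ (H →L[ℂ] H) r = (r : ℂ) • (1 : H →L[ℂ] H) := by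
  rw [Algebra.algebraMap_eq_smul_one]
  ext v
  simp

theorem inner_star_apply (Ω : H) (B : H →L[ℂ] H) :
    ⟪Ω, (star B) Ω⟫_ℂ = (starRingEnd ℂ) ⟪Ω, B Ω⟫_ℂ := by
  rw [ContinuousLinearMap.star_eq_adjoint, ContinuousLinearMap.adjoint_inner_right,
    inner_conj_symm]

/-- a function whose increments are quadratically small is constant -/
theorem eq_of_sq_bound {φ : ℝ → ℂ} {C : ℝ}
    (h : ∀ s ∈ Set.Icc (0 : ℝ) 1, ∀ t ∈ Set.Icc (0 : ℝ) 1, ‖φ t - φ s‖ ≤ C * (t - s) ^ 2) :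
    φ 1 = φ 0 := by
  have key : ∀ n : ℕ, 0 < n → ‖φ 1 - φ 0‖ ≤ C / n := by
    intro n hn
    have hn' : (0 : ℝ) < n := by exact_mod_cast hn
    have ind : ∀ k : ℕ, k ≤ n → ‖φ (k / n) - φ 0‖ ≤ k * (C * (1 / (n : ℝ)) ^ 2) := by
      intro k
      induction k with
      | zero => intro _; simp
      | succ k ih =>
        intro hk
        have hk' : ((k + 1 : ℕ) : ℝ) ≤ n := by exact_mod_cast hk
        have hk0 : (0 : ℝ) ≤ k := Nat.cast_nonneg k
        have h1 := ih (Nat.le_of_succ_le hk)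
        have h2 := h (k / n) ⟨by positivity, by
            rw [div_le_one hn']; push_cast at hk'; linarith⟩ (((k + 1 : ℕ) : ℝ) / n)
          ⟨by positivity, by rw [div_le_one hn']; exact hk'⟩
        have e : (((k + 1 : ℕ) : ℝ) / n - k / n) = 1 / n := by push_cast; ring
        rw [e] at h2
        calc ‖φ (((k + 1 : ℕ) : ℝ) / n) - φ 0‖
            ≤ ‖φ (((k + 1 : ℕ) : ℝ) / n) - φ (k / n)‖ + ‖φ (k / n) - φ 0‖ :=
              norm_sub_le_norm_sub_add_norm_sub _ _ _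
          _ ≤ C * (1 / (n : ℝ)) ^ 2 + k * (C * (1 / (n : ℝ)) ^ 2) := add_le_add h2 h1
          _ = ((k + 1 : ℕ) : ℝ) * (C * (1 / (n : ℝ)) ^ 2) := by push_cast; ring
    have := ind n le_rfl
    rw [div_self hn'.ne'] at this
    refine this.trans (le_of_eq ?_)
    field_simp
  have ht : Tendsto (fun n : ℕ => C / (n : ℝ)) atTop (𝓝 0) := tendsto_const_div_atTop_nhds_zero_nat C
  have h0 : ‖φ 1 - φ 0‖ ≤ 0 :=
    ge_of_tendsto ht ((eventually_gt_atTop 0).mono fun n hn => key n hn)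
  exact sub_eq_zero.1 (norm_le_zero_iff.1 h0)

/-- If `‖A' ‖ ≤ K`, `A' A = 1 = A A'` and `‖A‖ ≤ K`, the spectrum of `A* A` lies in `[K⁻², K²]`. -/
theorem spectrum_star_mul_self_subset {A A' : H →L[ℂ] H} (h₁ : A' * A = 1) (h₂ : A * A' = 1)
    {K : ℝ} (hK : 0 < K) (hA : ‖A‖ ≤ K) (hA' : ‖A'‖ ≤ K) :
    spectrum ℝ (star A * A) ⊆ Set.Icc (1 / K ^ 2) (K ^ 2) := by
  intro x hx
  have hx0 : 0 ≤ x := spectrum_star_mul_self_nonneg x hx
  have hup : x ≤ K ^ 2 := by
    calc x ≤ |x| := le_abs_self x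
      _ ≤ ‖star A * A‖ := abs_le_norm_of_mem_spectrum hx
      _ ≤ ‖star A‖ * ‖A‖ := norm_mul_le _ _
      _ ≤ K * K := by
          rw [norm_star]; exact mul_le_mul hA hA (norm_nonneg _) hK.le
      _ = K ^ 2 := (sq K).symm
  let u : (H →L[ℂ] H)ˣ :=
    ⟨star A * A, A' * star A', star_mul_self_mul_inv h₁ h₂, inv_mul_star_mul_self h₁ h₂⟩
  have hne : x ≠ 0 := by
    rintro rfl
    exact spectrum.zero_notMem ℝ u.isUnit hx
  have hpos : 0 < x := lt_of_le_of_ne hx0 hne.symm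
  have hinv : x⁻¹ ∈ spectrum ℝ (A' * star A') := by
    have := (spectrum.inv_mem_iff (R := ℝ) (r := Units.mk0 x hne) (a := u)).1 hx
    rw [Units.val_inv_eq_inv_val, Units.val_mk0] at this
    exact this
  have hlow : x⁻¹ ≤ K ^ 2 := by
    calc x⁻¹ ≤ |x⁻¹| := le_abs_self _
      _ ≤ ‖A' * star A'‖ := abs_le_norm_of_mem_spectrum hinv
      _ ≤ ‖A'‖ * ‖star A'‖ := norm_mul_le _ _
      _ ≤ K * K := by
          rw [norm_star]; exact mul_le_mul hA' hA' (norm_nonneg _) hK.le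
      _ = K ^ 2 := (sq K).symm
  refine ⟨?_, hup⟩
  rw [one_div]
  exact inv_le_of_inv_le₀ hpos hlow

/-- For invertible `A` the infimum is the value at `ε = 0`:
`cfc log (B + ε) = cfc (fun x => log (x + ε)) B`, and `log x ≤ log (x + ε) ≤ log x + ε / m` on the
spectrum (`cfc_mono`, `norm_cfc_le`). -/
theorem vectorDet_eq_of_isUnit {Ω : H} (hΩ : ‖Ω‖ = 1) {A : H →L[ℂ] H} (hA : IsUnit A) :
    vectorDet Ω A = Real.exp (RCLike.re ⟪Ω, cfc Real.log (star A * A) Ω⟫_ℂ / 2) := by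
  obtain ⟨u, rfl⟩ := hA
  set K : ℝ := ‖(u : H →L[ℂ] H)‖ + ‖((u⁻¹ : (H →L[ℂ] H)ˣ) : H →L[ℂ] H)‖ + 1 with hKdef
  have hK : 0 < K := by positivity
  have hs := spectrum_star_mul_self_subset u.inv_mul u.mul_inv hK
    (by have := norm_nonneg ((u⁻¹ : (H →L[ℂ] H)ˣ) : H →L[ℂ] H); linarith)
    (by have := norm_nonneg (u : H →L[ℂ] H); linarith)
  set B : H →L[ℂ] H := star (u : H →L[ℂ] H) * u with hB
  have hBsa : IsSelfAdjoint B := IsSelfAdjoint.star_mul_self _
  set m : ℝ := 1 / K ^ 2 with hm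
  have hm0 : 0 < m := by positivity
  have hpos : ∀ x ∈ spectrum ℝ B, 0 < x := fun x hx => hm0.trans_le (hs hx).1
  have hc0 : ContinuousOn Real.log (spectrum ℝ B) :=
    Real.continuousOn_log.mono fun x hx => (hpos x hx).ne'
  -- the difference of the two logarithms
  have hdiff : ∀ ε : ℝ, 0 < ε →
      cfc Real.log (B + (ε : ℂ) • (1 : H →L[ℂ] H)) =
        cfc Real.log B + cfc (fun x : ℝ => Real.log (x + ε) - Real.log x) B := by
    intro ε hε
    have hc1 : ContinuousOn (fun x : ℝ => Real.log (x + ε)) (spectrum ℝ B) :=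
      (continuousOn_id.add continuousOn_const).log fun x hx => (add_pos (hpos x hx) hε).ne'
    have e1 : B + (ε : ℂ) • (1 : H →L[ℂ] H) = cfc (fun x : ℝ => x + ε) B := by
      rw [cfc_add_const ε (fun x : ℝ => x) B continuousOn_id hBsa, cfc_id' ℝ B hBsa,
        algebraMap_real_eq]
    have hc2 : ContinuousOn Real.log ((fun x : ℝ => x + ε) '' spectrum ℝ B) :=
      Real.continuousOn_log.mono (by
        rintro _ ⟨x, hx, rfl⟩
        exact (add_pos (hpos x hx) hε).ne')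
    rw [e1, ← cfc_comp' Real.log (fun x : ℝ => x + ε) B hc2 (by fun_prop) hBsa,
      cfc_sub (fun x : ℝ => Real.log (x + ε)) Real.log B hc1 hc0]
    abel
  set g : ℝ := RCLike.re ⟪Ω, cfc Real.log B Ω⟫_ℂ with hg
  have hbd : ∀ ε : ℝ, 0 < ε →
      g ≤ RCLike.re ⟪Ω, cfc Real.log (B + (ε : ℂ) • (1 : H →L[ℂ] H)) Ω⟫_ℂ ∧
      RCLike.re ⟪Ω, cfc Real.log (B + (ε : ℂ) • (1 : H →L[ℂ] H)) Ω⟫_ℂ ≤ g + ε / m := by
    intro ε hε
    rw [hdiff ε hε, add_apply, inner_add_right, map_add, ← hg]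
    have hnn : ∀ x ∈ spectrum ℝ B, 0 ≤ Real.log (x + ε) - Real.log x := fun x hx =>
      sub_nonneg.2 (Real.log_le_log (hpos x hx) (by linarith))
    have hle : ∀ x ∈ spectrum ℝ B, ‖Real.log (x + ε) - Real.log x‖ ≤ ε / m := by
      intro x hx
      have hx0 := hpos x hx
      rw [Real.norm_eq_abs, abs_of_nonneg (hnn x hx),
        ← Real.log_div (add_pos hx0 hε).ne' hx0.ne']
      calc Real.log ((x + ε) / x) ≤ (x + ε) / x - 1 :=
            Real.log_le_sub_one_of_pos (div_pos (add_pos hx0 hε) hx0)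
        _ = ε / x := by field_simp; ring
        _ ≤ ε / m := div_le_div_of_nonneg_left hε.le hm0 (hs hx).1
    constructor
    · have h1 : 0 ≤ cfc (fun x : ℝ => Real.log (x + ε) - Real.log x) B := cfc_nonneg hnn
      have h2 := ((ContinuousLinearMap.nonneg_iff_isPositive _).1 h1).re_inner_nonneg_right Ω
      linarith
    · have h1 : ‖cfc (fun x : ℝ => Real.log (x + ε) - Real.log x) B‖ ≤ ε / m :=
        norm_cfc_le (by positivity) hle
      have h2 := (RCLike.re_le_norm _).trans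
        ((norm_inner_apply_le hΩ (cfc (fun x : ℝ => Real.log (x + ε) - Real.log x) B)).trans h1)
      linarith
  have : Nonempty {r : ℝ // 0 < r} := ⟨⟨1, one_pos⟩⟩
  unfold vectorDet
  refine le_antisymm ?_ (le_ciInf fun ε => ?_)
  · have hbdd : BddBelow (Set.range fun ε : {r : ℝ // 0 < r} => Real.exp (RCLike.re (inner ℂ Ω
        (cfc Real.log (B + ((ε : ℝ) : ℂ) • (1 : H →L[ℂ] H)) Ω)) / 2)) :=
      ⟨0, by rintro _ ⟨ε, rfl⟩; exact (Real.exp_pos _).le⟩
    have ht : Tendsto (fun ε : ℝ => Real.exp ((g + ε / m) / 2)) (𝓝[>] 0)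
        (𝓝 (Real.exp (g / 2))) := by
      have hc : Continuous fun ε : ℝ => Real.exp ((g + ε / m) / 2) := by fun_prop
      have := hc.tendsto 0
      simp only [zero_div, add_zero] at this
      exact this.mono_left nhdsWithin_le_nhds
    refine ge_of_tendsto ht ?_
    filter_upwards [self_mem_nhdsWithin] with ε hε
    refine (ciInf_le hbdd ⟨ε, hε⟩).trans (Real.exp_le_exp.2 ?_)
    have := (hbd ε hε).2
    linarith
  · refine Real.exp_le_exp.2 ?_
    have := (hbd ε ε.2).1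
    linarith

/-- Let `A s = s T - z`, `s ∈ [0,1]`, with inverse `R s = -∑ s^n T^n / z^(n+1) ∈ A` (uniformly
bounded, `τ (R s T^k) = 0` for `k ≥ 1`), `B s = (A s)* (A s)` with inverse `R s (R s)*`.  For
`h = s' - s`, `B s' - B s = h (T* A s + (A s)* T) + h² T* T`, and
`τ (R R* T* A) = τ (R* T*) = 0`, `τ (R R* A* T) = τ (R T) = 0`.  By `log_sub_le`,
`φ s = τ (log (B s))` satisfies `‖φ s' - φ s‖ ≤ C' (s' - s)²`, so `φ 1 = φ 0 = log ‖z‖²` (telescope
over `s = k / n`). -/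
theorem TrAlg.vectorDet_sub {A : StarSubalgebra ℂ (H →L[ℂ] H)} {Ω : H} (h : TrAlg A Ω)
    {T : H →L[ℂ] H} (hT : T ∈ A) (hq : ∀ ε : ℝ, 0 < ε → ∃ C : ℝ, ∀ n : ℕ, ‖T ^ n‖ ≤ C * ε ^ n)
    (hτ : ∀ n : ℕ, 1 ≤ n → ⟪Ω, (T ^ n) Ω⟫_ℂ = 0) {z : ℂ} (hz : z ≠ 0) :
    vectorDet Ω (T - z • (1 : H →L[ℂ] H)) = ‖z‖ := by
  have hz0 : 0 < ‖z‖ := norm_pos_iff.2 hz
  obtain ⟨C, hC⟩ := hq (‖z‖ / 2) (by positivity)
  have hC0 : 0 ≤ C := by
    have := (norm_nonneg _).trans (hC 0)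
    simpa using this
  -- the family `A s = s T - z` and its inverses
  set a : ℝ → H →L[ℂ] H := fun s => (s : ℂ) • T - z • (1 : H →L[ℂ] H) with ha
  set w : ℝ → H →L[ℂ] H := fun s => ((s : ℂ) / z) • T with hw
  set r : ℝ → H →L[ℂ] H := fun s => (-z⁻¹) • ∑' n : ℕ, w s ^ n with hr
  have hwn : ∀ s ∈ Set.Icc (0 : ℝ) 1, ∀ n : ℕ, ‖w s ^ n‖ ≤ C * (1 / 2) ^ n := by
    intro s hs n
    have h1 : ‖(s : ℂ) / z‖ ≤ 1 / ‖z‖ := by
      rw [norm_div, Complex.norm_real, Real.norm_eq_abs, abs_of_nonneg hs.1]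
      exact div_le_div_of_nonneg_right hs.2 hz0.le
    calc ‖w s ^ n‖ = ‖(s : ℂ) / z‖ ^ n * ‖T ^ n‖ := by
          rw [hw]; dsimp only; rw [smul_pow, norm_smul, norm_pow]
      _ ≤ (1 / ‖z‖) ^ n * (C * (‖z‖ / 2) ^ n) :=
          mul_le_mul (pow_le_pow_left₀ (norm_nonneg _) h1 n) (hC n) (norm_nonneg _)
            (by positivity)
      _ = C * (1 / ‖z‖ * (‖z‖ / 2)) ^ n := by rw [mul_pow]; ring
      _ = C * (1 / 2) ^ n := by congr 2; field_simp
  have hgeo : HasSum (fun n : ℕ => C * (1 / 2 : ℝ) ^ n) (C * 2) := hasSum_geometric_two.mul_left C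
  have hsum : ∀ s ∈ Set.Icc (0 : ℝ) 1, Summable fun n : ℕ => w s ^ n := fun s hs =>
    Summable.of_norm_bounded hgeo.summable (hwn s hs)
  have haw : ∀ s, a s = (-z) • (1 - w s) := by
    intro s
    rw [ha, hw]
    dsimp only
    rw [smul_sub, smul_smul, neg_mul, mul_div_cancel₀ _ hz, neg_smul, neg_smul]
    abel
  have hra : ∀ s ∈ Set.Icc (0 : ℝ) 1, r s * a s = 1 := by
    intro s hs
    rw [haw, hr]
    dsimp only
    rw [smul_mul_smul_comm, (hsum s hs).tsum_pow_mul_one_sub, neg_mul_neg, inv_mul_cancel₀ hz,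
      one_smul]
  have har : ∀ s ∈ Set.Icc (0 : ℝ) 1, a s * r s = 1 := by
    intro s hs
    rw [haw, hr]
    dsimp only
    rw [smul_mul_smul_comm, (hsum s hs).one_sub_mul_tsum_pow, neg_mul_neg, mul_inv_cancel₀ hz,
      one_smul]
  have haA : ∀ s, a s ∈ A := fun s =>
    sub_mem (A.smul_mem hT _) (A.smul_mem (one_mem A) _)
  have hrA : ∀ s, r s ∈ A := fun s =>
    A.smul_mem (tsum_mem h.closed fun n => pow_mem (A.smul_mem hT _) n) _
  set K : ℝ := ‖T‖ + ‖z‖ + 2 * C / ‖z‖ + 1 with hK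
  have hK1 : 1 ≤ K := by
    have : 0 ≤ ‖T‖ + ‖z‖ + 2 * C / ‖z‖ := by positivity
    linarith
  have hK0 : 0 < K := by linarith
  have haK : ∀ s ∈ Set.Icc (0 : ℝ) 1, ‖a s‖ ≤ K := by
    intro s hs
    have h1 : ‖(s : ℂ) • T‖ ≤ ‖T‖ := by
      rw [norm_smul, Complex.norm_real, Real.norm_eq_abs, abs_of_nonneg hs.1]
      exact mul_le_of_le_one_left (norm_nonneg _) hs.2
    have h2 : ‖z • (1 : H →L[ℂ] H)‖ ≤ ‖z‖ := by
      rw [norm_smul]
      exact mul_le_of_le_one_right (norm_nonneg _) ContinuousLinearMap.norm_id_le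
    have h3 := norm_sub_le ((s : ℂ) • T) (z • (1 : H →L[ℂ] H))
    have h4 : 0 ≤ 2 * C / ‖z‖ := by positivity
    calc ‖a s‖ ≤ ‖T‖ + ‖z‖ := h3.trans (add_le_add h1 h2)
      _ ≤ K := by linarith
  have hrK : ∀ s ∈ Set.Icc (0 : ℝ) 1, ‖r s‖ ≤ K := by
    intro s hs
    have h1 : ‖∑' n : ℕ, w s ^ n‖ ≤ C * 2 := tsum_of_norm_bounded hgeo (hwn s hs)
    calc ‖r s‖ = ‖z‖⁻¹ * ‖∑' n : ℕ, w s ^ n‖ := by
          rw [hr]; dsimp only; rw [norm_smul, norm_neg, norm_inv]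
      _ ≤ ‖z‖⁻¹ * (C * 2) := mul_le_mul_of_nonneg_left h1 (by positivity)
      _ = 2 * C / ‖z‖ := by ring
      _ ≤ K := by
          have := norm_nonneg T
          linarith
  have hrT : ∀ s ∈ Set.Icc (0 : ℝ) 1, ⟪Ω, (r s * T) Ω⟫_ℂ = 0 := by
    intro s hs
    let L : (H →L[ℂ] H) →L[ℂ] ℂ := (innerSL ℂ Ω).comp (ContinuousLinearMap.apply ℂ H (T Ω))
    have hL : ∀ b : H →L[ℂ] H, L b = ⟪Ω, (b * T) Ω⟫_ℂ := fun b => rfl
    have h1 := (hsum s hs).hasSum.mapL L
    have h2 : (fun n : ℕ => L (w s ^ n)) = fun _ => 0 := by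
      funext n
      rw [hw]
      dsimp only
      rw [smul_pow, map_smul, hL, ← pow_succ, hτ (n + 1) (Nat.le_add_left 1 n), smul_zero]
    rw [h2] at h1
    have h3 : L (∑' n : ℕ, w s ^ n) = 0 := h1.unique hasSum_zero
    rw [← hL, hr]
    dsimp only
    rw [map_smul, h3, smul_zero]
  have hm0 : (0 : ℝ) < 1 / K ^ 2 := by positivity
  have hmM : 1 / K ^ 2 ≤ K ^ 2 := by
    have : 1 ≤ K ^ 2 := one_le_pow₀ hK1
    rw [div_le_iff₀ (by positivity)]
    nlinarith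
  obtain ⟨C', hC'⟩ := h.log_sub_le hm0 hmM
  set b : ℝ → H →L[ℂ] H := fun s => star (a s) * a s with hb
  have hbA : ∀ s, b s ∈ A := fun s => mul_mem (star_mem (haA s)) (haA s)
  have hbsa : ∀ s, IsSelfAdjoint (b s) := fun s => IsSelfAdjoint.star_mul_self _
  have hbs : ∀ s ∈ Set.Icc (0 : ℝ) 1, spectrum ℝ (b s) ⊆ Set.Icc (1 / K ^ 2) (K ^ 2) :=
    fun s hs => spectrum_star_mul_self_subset (hra s hs) (har s hs) hK0 (haK s hs) (hrK s hs)
  have hstep : ∀ s t : ℝ, b t - b s = ((t - s : ℝ) : ℂ) • (star T * a s + star (a s) * T) +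
      (((t - s : ℝ) : ℂ) ^ 2) • (star T * T) := by
    intro s t
    have e : a t = a s + ((t - s : ℝ) : ℂ) • T := by
      rw [ha]; dsimp only; push_cast; rw [sub_smul]; abel
    rw [hb]
    dsimp only
    rw [e, star_add, star_smul, Complex.star_def, Complex.conj_ofReal, add_mul, mul_add, mul_add,
      smul_mul_smul_comm, mul_smul_comm, smul_mul_assoc, smul_add, sq]
    abel
  set φ : ℝ → ℂ := fun s => ⟪Ω, cfc Real.log (b s) Ω⟫_ℂ with hφ
  have hφ' : φ 1 = φ 0 := by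
    refine eq_of_sq_bound (C := |C'| * (2 * ‖T‖ * K + ‖T‖ ^ 2) ^ 2 + K ^ 2 * ‖T‖ ^ 2) ?_
    intro s hs t ht
    have h1 := hC' (b s) (b t) (r s * star (r s)) (hbA s) (hbA t) (hbsa s) (hbsa t) (hbs s hs)
      (hbs t ht) (inv_mul_star_mul_self (hra s hs) (har s hs))
    have hts : |t - s| ≤ 1 := abs_le.2 ⟨by linarith [hs.2, ht.1], by linarith [hs.1, ht.2]⟩
    have hTT : ‖star T * T‖ ≤ ‖T‖ ^ 2 := by
      refine (norm_mul_le _ _).trans (le_of_eq ?_)
      rw [norm_star, sq]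
    have h2 : ‖b t - b s‖ ≤ |t - s| * (2 * ‖T‖ * K + ‖T‖ ^ 2) := by
      have h3 : ‖star T * a s + star (a s) * T‖ ≤ 2 * ‖T‖ * K := by
        have h4 := norm_mul_le (star T) (a s)
        have h5 := norm_mul_le (star (a s)) T
        rw [norm_star] at h4 h5
        have h6 := mul_le_mul_of_nonneg_left (haK s hs) (norm_nonneg T)
        have h7 := norm_add_le (star T * a s) (star (a s) * T)
        linarith
      rw [hstep]
      refine (norm_add_le _ _).trans ?_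
      rw [norm_smul, norm_smul, norm_pow, Complex.norm_real, Real.norm_eq_abs]
      have h8 : |t - s| ^ 2 ≤ |t - s| := by nlinarith [abs_nonneg (t - s)]
      have h9 := mul_le_mul_of_nonneg_left h3 (abs_nonneg (t - s))
      have h10 := mul_le_mul h8 hTT (norm_nonneg _) (abs_nonneg _)
      linarith
    have e1 : ⟪Ω, (r s * star (r s) * (star T * a s)) Ω⟫_ℂ = 0 := by
      have e2 : r s * star (r s) * (star T * a s) = (r s * star (r s) * star T) * a s := by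
        simp only [mul_assoc]
      have e3 : a s * (r s * star (r s) * star T) = star (T * r s) := by
        rw [star_mul, ← mul_assoc, ← mul_assoc, har s hs, one_mul]
      rw [e2, h.trace _ (mul_mem (mul_mem (hrA s) (star_mem (hrA s))) (star_mem hT)) _ (haA s), e3,
        inner_star_apply, h.trace _ hT _ (hrA s), hrT s hs, map_zero]
    have e4 : ⟪Ω, (r s * star (r s) * (star (a s) * T)) Ω⟫_ℂ = 0 := by
      have e5 : r s * star (r s) * (star (a s) * T) = r s * star (a s * r s) * T := by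
        rw [star_mul]; simp only [mul_assoc]
      rw [e5, har s hs, star_one, mul_one, hrT s hs]
    have h11 : ‖⟪Ω, (r s * star (r s) * (b t - b s)) Ω⟫_ℂ‖ ≤ (t - s) ^ 2 * (K ^ 2 * ‖T‖ ^ 2) := by
      rw [hstep, mul_add, mul_smul_comm, mul_smul_comm, mul_add, add_apply,
        smul_apply, smul_apply,
        add_apply, inner_add_right, inner_smul_right, inner_smul_right,
        inner_add_right, e1, e4, add_zero, mul_zero, zero_add, norm_mul, norm_pow,
        Complex.norm_real, Real.norm_eq_abs, sq_abs]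
      refine mul_le_mul_of_nonneg_left ?_ (sq_nonneg _)
      refine (norm_inner_apply_le h.unit _).trans ((norm_mul_le _ _).trans ?_)
      refine mul_le_mul ((norm_mul_le _ _).trans ?_) hTT (norm_nonneg _) (by positivity)
      rw [norm_star, sq]
      exact mul_le_mul (hrK s hs) (hrK s hs) (norm_nonneg _) hK0.le
    have h12 : C' * ‖b t - b s‖ ^ 2 ≤ |C'| * ((t - s) ^ 2 * (2 * ‖T‖ * K + ‖T‖ ^ 2) ^ 2) := by
      refine mul_le_mul (le_abs_self _) ?_ (sq_nonneg _) (abs_nonneg _)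
      rw [← sq_abs (t - s), ← mul_pow]
      exact pow_le_pow_left₀ (norm_nonneg _) h2 2
    have h13 := norm_add_le (φ t - φ s - ⟪Ω, (r s * star (r s) * (b t - b s)) Ω⟫_ℂ)
      ⟪Ω, (r s * star (r s) * (b t - b s)) Ω⟫_ℂ
    rw [sub_add_cancel] at h13
    calc ‖φ t - φ s‖ ≤ |C'| * ((t - s) ^ 2 * (2 * ‖T‖ * K + ‖T‖ ^ 2) ^ 2) +
          (t - s) ^ 2 * (K ^ 2 * ‖T‖ ^ 2) := h13.trans (add_le_add (h1.trans h12) h11)
      _ = _ := by ring
  have hφ0 : φ 0 = ((Real.log (‖z‖ ^ 2) : ℝ) : ℂ) := by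
    have e : b 0 = algebraMap ℝ (H →L[ℂ] H) (‖z‖ ^ 2) := by
      rw [algebraMap_real_eq, hb, ha]
      dsimp only
      rw [Complex.ofReal_zero, zero_smul, zero_sub, star_neg, neg_mul_neg, star_smul, star_one,
        smul_mul_smul_comm, one_mul, Complex.star_def, Complex.conj_mul']
      push_cast
      rfl
    rw [hφ]
    dsimp only
    rw [e, cfc_algebraMap, algebraMap_real_eq, smul_apply,
      one_apply_eq_self, inner_smul_right, inner_self_eq_norm_sq_to_K, h.unit]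
    simp
  have e1 : T - z • (1 : H →L[ℂ] H) = a 1 := by
    rw [ha]; dsimp only; rw [Complex.ofReal_one, one_smul]
  have hu : IsUnit (a 1) :=
    ⟨⟨a 1, r 1, har 1 ⟨zero_le_one, le_rfl⟩, hra 1 ⟨zero_le_one, le_rfl⟩⟩, rfl⟩
  rw [e1, vectorDet_eq_of_isUnit h.unit hu]
  change Real.exp (RCLike.re (φ 1) / 2) = ‖z‖
  rw [hφ', hφ0, RCLike.re_to_complex, Complex.ofReal_re, Real.log_pow]
  push_cast
  rw [mul_div_cancel_left₀ _ (two_ne_zero), Real.exp_log hz0]

end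

end Crest.Agent.R113
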