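import Crest.Agent.R113.Defs

/-!
# Row 113: generic frequencies in a window of scales
-/

open MeasureTheory Filter Topology
open scoped InnerProductSpace BigOperators ENNReal

set_option linter.unusedSectionVars false

namespace Crest.Agent.R113

noncomputable section

open Classical

/-- the resolution attached to the ratio `L` -/
def lam (L : ℕ) : ℝ := 1 / (64 * (L : ℝ) ^ 3) ^ 4

theorem dZ_nonneg (y : ℝ) : 0 ≤ dZ y := abs_nonneg _

theorem dZ_le_abs_sub (y : ℝ) (n : ℤ) : dZ y ≤ |y - n| := round_le y n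

theorem dZ_add_le (y z : ℝ) : dZ (y + z) ≤ dZ y + |z| := by
  refine (dZ_le_abs_sub (y + z) (round y)).trans ?_
  have e : y + z - (round y : ℝ) = (y - round y) + z := by ring
  rw [e]
  exact abs_add_le _ _

theorem dZ_sub_le (y z : ℝ) : dZ (y - z) ≤ dZ y + dZ z := by
  refine (dZ_le_abs_sub (y - z) (round y - round z)).trans ?_
  have e : y - z - ((round y - round z : ℤ) : ℝ) = (y - round y) - (z - round z) := by
    push_cast; ring
  rw [e]
  exact abs_sub _ _

theorem continuous_dZ : Continuous dZ :=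
  (LipschitzWith.of_le_add (f := dZ) fun y z => by
    have := dZ_add_le z (y - z)
    rwa [add_sub_cancel, ← Real.dist_eq] at this).continuous

/-- in an interval of length `ℓ` with `1 ≤ u ℓ`, the set where `u θ` is within `η` of an integer
is covered by at most `u ℓ + 3` intervals of length `2 η / u` (for `η ≤ 1/2`) -/
theorem volume_near_le {a ℓ u η : ℝ} (hℓ : 0 < ℓ) (hu : 1 ≤ u * ℓ) (hη : 0 < η) :
    volume {θ | θ ∈ Set.Ioo a (a + ℓ) ∧ dZ (u * θ) < η} ≤ ENNReal.ofReal (8 * η * ℓ) := by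
  have hu0 : 0 < u := by
    by_contra h
    push Not at h
    have : u * ℓ ≤ 0 := mul_nonpos_of_nonpos_of_nonneg h hℓ.le
    linarith
  set S : Finset ℤ := Finset.Icc ⌈u * a - 1 / 2⌉ ⌊u * a + u * ℓ + 1 / 2⌋ with hS
  have hsub : {θ | θ ∈ Set.Ioo a (a + ℓ) ∧ dZ (u * θ) < η} ⊆
      ⋃ n ∈ S, Set.Ioo (((n : ℝ) - η) / u) (((n : ℝ) + η) / u) := by
    rintro θ ⟨⟨h1, h2⟩, h3⟩
    have h4 := abs_le.1 (abs_sub_round (u * θ))
    have h5 := abs_lt.1 h3
    have h6 : u * a < u * θ := mul_lt_mul_of_pos_left h1 hu0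
    have h7 : u * θ < u * (a + ℓ) := mul_lt_mul_of_pos_left h2 hu0
    refine Set.mem_iUnion₂.2 ⟨round (u * θ), Finset.mem_Icc.2 ⟨?_, ?_⟩, ?_, ?_⟩
    · rw [Int.ceil_le]; linarith
    · rw [Int.le_floor]; linarith
    · rw [div_lt_iff₀ hu0]; linarith
    · rw [lt_div_iff₀ hu0]; linarith
  have hcard : (S.card : ℝ) ≤ u * ℓ + 2 := by
    have h1 := Int.le_ceil (u * a - 1 / 2)
    have h2 := Int.floor_le (u * a + u * ℓ + 1 / 2)
    rw [hS, Int.card_Icc]
    rcases le_total (⌊u * a + u * ℓ + 1 / 2⌋ + 1 - ⌈u * a - 1 / 2⌉) 0 with h | h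
    · rw [Int.toNat_of_nonpos h]; push_cast; linarith
    · have : ((⌊u * a + u * ℓ + 1 / 2⌋ + 1 - ⌈u * a - 1 / 2⌉).toNat : ℝ) =
          ((⌊u * a + u * ℓ + 1 / 2⌋ + 1 - ⌈u * a - 1 / 2⌉ : ℤ) : ℝ) := by
        rw [← Int.cast_natCast, Int.toNat_of_nonneg h]
      rw [this]; push_cast; linarith
  refine (measure_mono hsub).trans ((measure_biUnion_finset_le S _).trans ?_)
  have e : ∀ n ∈ S, volume (Set.Ioo (((n : ℝ) - η) / u) (((n : ℝ) + η) / u)) =
      ENNReal.ofReal (2 * η / u) := fun n _ => by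
    rw [Real.volume_Ioo]; congr 1; ring
  rw [Finset.sum_congr rfl e, Finset.sum_const, nsmul_eq_mul, ← ENNReal.ofReal_natCast,
    ← ENNReal.ofReal_mul (Nat.cast_nonneg _)]
  refine ENNReal.ofReal_le_ofReal ?_
  rw [← mul_div_assoc, div_le_iff₀ hu0]
  have h1 : (S.card : ℝ) * (2 * η) ≤ (u * ℓ + 2) * (2 * η) :=
    mul_le_mul_of_nonneg_right hcard (by positivity)
  have h2 : 1 * η ≤ u * ℓ * η := mul_le_mul_of_nonneg_right hu hη.le
  nlinarith

/-- Multiplicative weights.  For a finite family of multipliers `u n` and nonnegative weights `w n`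
some point `θ` of the interval has `∑_{n : dZ (u n θ) < η} w n ≤ 8 η ∑ w n` (average over `θ`). -/
theorem exists_light {ι : Type*} (T : Finset ι) (u w : ι → ℝ) (hw : ∀ n, 0 ≤ w n) {a ℓ η : ℝ}
    (hℓ : 0 < ℓ) (hu : ∀ n ∈ T, 1 ≤ u n * ℓ) (hη : 0 < η) :
    ∃ θ ∈ Set.Ioo a (a + ℓ),
      ∑ n ∈ T.filter (fun n => dZ (u n * θ) < η), w n ≤ 8 * η * ∑ n ∈ T, w n := by
  set A : ι → Set ℝ := fun n => {θ | dZ (u n * θ) < η} with hA
  have hAm : ∀ n, MeasurableSet (A n) := fun n =>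
    (isOpen_lt (continuous_dZ.comp (continuous_const.mul continuous_id)) continuous_const).measurableSet
  have hv : volume (Set.Ioo a (a + ℓ)) = ENNReal.ofReal ℓ := by rw [Real.volume_Ioo, add_sub_cancel_left]
  have hfin : volume (Set.Ioo a (a + ℓ)) ≠ ∞ := by rw [hv]; exact ENNReal.ofReal_ne_top
  have hi : ∀ n, IntegrableOn ((A n).indicator fun _ => w n) (Set.Ioo a (a + ℓ)) volume := fun n =>
    (integrableOn_const hfin).indicator (hAm n)
  obtain ⟨θ, hθ, h⟩ := exists_le_setAverage (μ := volume) (s := Set.Ioo a (a + ℓ))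
    (f := fun θ => ∑ n ∈ T, (A n).indicator (fun _ => w n) θ)
    (by rw [hv]; exact (ENNReal.ofReal_pos.2 hℓ).ne') hfin
    (integrable_finsetSum T fun n _ => hi n)
  refine ⟨θ, hθ, le_trans (le_of_eq ?_) (h.trans ?_)⟩
  · rw [Finset.sum_filter]
    refine Finset.sum_congr rfl fun n _ => ?_
    by_cases hn : dZ (u n * θ) < η
    · rw [if_pos hn, Set.indicator_of_mem (by exact hn)]
    · rw [if_neg hn, Set.indicator_of_notMem (by exact hn)]
  · rw [setAverage_eq, integral_finsetSum T fun n _ => hi n, measureReal_def, hv,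
      ENNReal.toReal_ofReal hℓ.le, smul_eq_mul, inv_mul_le_iff₀ hℓ, Finset.mul_sum, Finset.mul_sum]
    refine Finset.sum_le_sum fun n hn => ?_
    rw [integral_indicator (hAm n), Measure.restrict_restrict (hAm n), setIntegral_const, smul_eq_mul]
    have h1 := volume_near_le (a := a) hℓ (hu n hn) hη
    have h2 : A n ∩ Set.Ioo a (a + ℓ) = {θ | θ ∈ Set.Ioo a (a + ℓ) ∧ dZ (u n * θ) < η} := by
      ext θ; exact and_comm
    have h3 : volume.real (A n ∩ Set.Ioo a (a + ℓ)) ≤ 8 * η * ℓ := by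
      rw [h2, measureReal_def]
      exact ENNReal.toReal_le_of_le_ofReal (by positivity) h1
    have h4 := mul_le_mul_of_nonneg_right h3 (hw n)
    linarith

/-- the greedy choice of the first `m` frequencies -/
theorem greedy {ι : Type*} (T : Finset ι) (u : ι → ℝ) (lo ℓ : ℕ → ℝ) (hℓ : ∀ a, 0 < ℓ a) {k : ℕ}
    (hu : ∀ a < k, ∀ n ∈ T, 1 ≤ u n * ℓ a) {N : ℝ} (hN : 1 ≤ N) (m : ℕ) (hm : m ≤ k) :
    ∃ θ : ℕ → ℝ, (∀ a, θ a ∈ Set.Ioo (lo a) (lo a + ℓ a)) ∧
      ∑ n ∈ T, N ^ ((Finset.range m).filter fun a => dZ (u n * θ a) < 3 / N).card ≤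
        25 ^ m * T.card := by
  have hN0 : 0 < N := by linarith
  induction m with
  | zero =>
    refine ⟨fun a => lo a + ℓ a / 2, fun a => ⟨?_, ?_⟩, by simp⟩ <;> linarith [hℓ a]
  | succ m ih =>
    obtain ⟨θ, h1, h2⟩ := ih (by omega)
    set w : ι → ℝ := fun n => N ^ ((Finset.range m).filter fun a => dZ (u n * θ a) < 3 / N).card
      with hw
    have hw0 : ∀ n, 0 ≤ w n := fun n => by positivity
    obtain ⟨t, ht, h3⟩ := exists_light T u w hw0 (a := lo m) (hℓ m) (hu m (by omega))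
      (η := 3 / N) (by positivity)
    refine ⟨Function.update θ m t, fun a => ?_, ?_⟩
    · by_cases h : a = m
      · subst h; rw [Function.update_self]; exact ht
      · rw [Function.update_of_ne h]; exact h1 a
    have e : ∀ n ∈ T, N ^ ((Finset.range (m + 1)).filter fun a =>
        dZ (u n * Function.update θ m t a) < 3 / N).card ≤
        w n + N * (if dZ (u n * t) < 3 / N then w n else 0) := fun n _ => by
      have e1 : ((Finset.range m).filter fun a => dZ (u n * Function.update θ m t a) < 3 / N) =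
          (Finset.range m).filter fun a => dZ (u n * θ a) < 3 / N :=
        Finset.filter_congr fun a ha => by
          rw [Function.update_of_ne (Finset.mem_range.1 ha).ne]
      rw [Finset.range_add_one, Finset.filter_insert, Function.update_self, e1]
      split_ifs with h
      · rw [Finset.card_insert_of_notMem (by simp), pow_succ]
        have := hw0 n
        simp only [hw] at this ⊢
        linarith
      · simp only [hw, mul_zero, add_zero, le_refl]
    refine (Finset.sum_le_sum e).trans ?_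
    rw [Finset.sum_add_distrib, ← Finset.mul_sum, ← Finset.sum_filter]
    have h4 := mul_le_mul_of_nonneg_left h3 hN0.le
    have h5 : N * (8 * (3 / N) * ∑ n ∈ T, w n) = 24 * ∑ n ∈ T, w n := by field_simp; ring
    rw [pow_succ]
    linarith

/-- Let `λ = lam L'`, and consider the net `u n = n λ β` of the range `[β L^k, β L^k L'^(2k) + λ β]`,
of size `≤ 2 L'^(3k) / λ`.  Choose `θ 0, θ 1, …` successively by `exists_light` with `η = 3 λ` and
weights `λ^{-(number of earlier a with dZ (u n θ a) < 3 λ)}`: the total weight grows by a factor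
`≤ 25` at each step.  If some `u n` had more than `k / 2` matches then
`λ^{-k/2} ≤ 2 L'^(3k) 25^k / λ`, impossible for `k ≥ 4`.  Round `j` up to the net (moving `j θ a` by
at most `λ`) and perturb `θ a` into `Dn` (moving `j θ a` by at most `λ`). -/
theorem dio {Dn : Set ℝ} (hD : ∀ a b : ℝ, 0 ≤ a → a < b → b ≤ 1 → ∃ d ∈ Dn, a < d ∧ d < b)
    {k L L' β : ℕ} (hk : 4 ≤ k) (hL : 2 ≤ L) (hL' : L ≤ L') (hβ : 1 ≤ β) :
    ∃ θ : ℕ → ℝ, (∀ a, θ a ∈ Dn ∧ 1 / (2 * (β * L ^ a : ℝ)) < θ a ∧ θ a < 1 / (β * L ^ a : ℝ)) ∧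
      ∀ j : ℕ, β * L ^ k ≤ j → j ≤ β * L ^ k * L' ^ (2 * k) →
        k ≤ 2 * ((Finset.range k).filter fun a => lam L' ≤ dZ (j * θ a)).card := by
  set N : ℕ := (64 * L' ^ 3) ^ 4 with hN
  have hL'0 : 0 < L' := by omega
  have hN1 : 1 ≤ N := Nat.one_le_iff_ne_zero.2 (by positivity)
  have hNr : (1 : ℝ) ≤ N := by exact_mod_cast hN1
  have hN0 : (0 : ℝ) < N := by linarith
  have hlam : lam L' = 1 / N := by rw [lam, hN]; push_cast; rfl
  have hβr : (1 : ℝ) ≤ β := by exact_mod_cast hβ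
  have hβ0 : (0 : ℝ) < β := by linarith
  have hLr : (2 : ℝ) ≤ L := by exact_mod_cast hL
  have hL0 : (0 : ℝ) < L := by linarith
  have hLa : ∀ a : ℕ, (1 : ℝ) ≤ (L : ℝ) ^ a := fun a => one_le_pow₀ (by linarith)
  set T : Finset ℕ := Finset.Icc (L ^ k * N) (L ^ k * L' ^ (2 * k) * N) with hT
  obtain ⟨θ', h1, h2⟩ := greedy T (fun n => (n : ℝ) * β / N) (fun a => 1 / (2 * (β * L ^ a : ℝ)))
    (fun a => 1 / (2 * (β * L ^ a : ℝ))) (fun a => by positivity) (k := k) (fun a ha n hn => by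
      have a1 : ((L ^ k * N : ℕ) : ℝ) ≤ n := Nat.cast_le.2 (Finset.mem_Icc.1 hn).1
      have a2 : (L : ℝ) ^ (a + 1) ≤ (L : ℝ) ^ k := pow_le_pow_right₀ (by linarith) ha
      push_cast at a1
      have a3 : (n : ℝ) * β / N * (1 / (2 * (β * L ^ a))) = n / (2 * L ^ a * N) := by field_simp
      rw [a3, le_div_iff₀ (by positivity)]
      have a4 : 2 * (L : ℝ) ^ a ≤ (L : ℝ) ^ (a + 1) := by
        rw [pow_succ, mul_comm]; exact mul_le_mul_of_nonneg_left hLr (by positivity)
      have a5 := mul_le_mul_of_nonneg_right (a4.trans a2) hN0.le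
      linarith) hNr k le_rfl
  have h1' : ∀ a, 1 / (2 * (β * L ^ a : ℝ)) < θ' a ∧ θ' a < 1 / (β * L ^ a : ℝ) := fun a => by
    refine ⟨(h1 a).1, (h1 a).2.trans_eq ?_⟩
    field_simp; norm_num
  have hle1 : ∀ a : ℕ, 1 / (β * L ^ a : ℝ) ≤ 1 / β := fun a =>
    one_div_le_one_div_of_le hβ0 (le_mul_of_one_le_right hβ0.le (hLa a))
  set J : ℝ := β * L ^ k * L' ^ (2 * k) with hJ
  have hJ0 : 0 < J := by positivity
  have hpert : ∀ a, ∃ d ∈ Dn, θ' a < d ∧ d < min (θ' a + 1 / N / J) (1 / (β * L ^ a : ℝ)) := fun a =>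
    hD _ _ (le_trans (by positivity) (h1' a).1.le)
      (lt_min (lt_add_of_pos_right _ (by positivity)) (h1' a).2)
      ((min_le_right _ _).trans ((hle1 a).trans (by rw [div_le_one hβ0]; exact hβr)))
  choose θ hθD hθ1 hθ2 using hpert
  refine ⟨θ, fun a => ⟨hθD a, (h1' a).1.trans (hθ1 a), (hθ2 a).trans_le (min_le_right _ _)⟩,
    fun j hj1 hj2 => ?_⟩
  set n : ℕ := j * N / β with hn
  have hnT : n ∈ T := by
    refine Finset.mem_Icc.2 ⟨?_, ?_⟩
    · rw [hn, Nat.le_div_iff_mul_le (by omega)]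
      calc L ^ k * N * β = β * L ^ k * N := by ring
        _ ≤ j * N := Nat.mul_le_mul_right _ hj1
    · refine Nat.div_le_of_le_mul ?_
      calc j * N ≤ β * L ^ k * L' ^ (2 * k) * N := Nat.mul_le_mul_right _ hj2
        _ = β * (L ^ k * L' ^ (2 * k) * N) := by ring
  have n1 : (n : ℝ) * β ≤ j * N := by exact_mod_cast Nat.div_mul_le_self (j * N) β
  have n2 : (j : ℝ) * N < n * β + β := by
    exact_mod_cast Nat.lt_div_mul_add (a := j * N) (b := β) (by omega)
  have hjJ : (j : ℝ) ≤ J := by rw [hJ]; exact_mod_cast hj2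
  set c := ((Finset.range k).filter fun a => dZ ((n : ℝ) * β / N * θ' a) < 3 / N).card with hc
  have hc1 : (N : ℝ) ^ c ≤ 25 ^ k * T.card :=
    (Finset.single_le_sum (f := fun n : ℕ => (N : ℝ) ^ ((Finset.range k).filter fun a =>
      dZ ((n : ℝ) * β / N * θ' a) < 3 / N).card) (fun _ _ => by positivity) hnT).trans h2
  have hc2 : N ^ c ≤ 25 ^ k * T.card := by exact_mod_cast hc1
  have hT1 : T.card ≤ L' ^ (3 * k) * N := by
    rw [hT, Nat.card_Icc]
    have b1 : 1 ≤ L ^ k * N := Nat.one_le_iff_ne_zero.2 (by positivity)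
    have b2 : L ^ k * L' ^ (2 * k) * N ≤ L' ^ (3 * k) * N := by
      refine Nat.mul_le_mul_right _ ?_
      calc L ^ k * L' ^ (2 * k) ≤ L' ^ k * L' ^ (2 * k) :=
            Nat.mul_le_mul_right _ (Nat.pow_le_pow_left hL' k)
        _ = L' ^ (3 * k) := by rw [← pow_add]; congr 1; ring
    omega
  have hc3 : 2 * c ≤ k := by
    set M : ℕ := 64 * L' ^ 3 with hM
    have hM1 : 1 < M := by
      have : 1 ≤ L' ^ 3 := Nat.one_le_pow _ _ hL'0
      omega
    have b1 : 25 ^ k * L' ^ (3 * k) ≤ M ^ k := by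
      rw [pow_mul, ← mul_pow]
      exact Nat.pow_le_pow_left (Nat.mul_le_mul_right _ (by norm_num)) k
    have b2 : M ^ (4 * c) ≤ M ^ (k + 4) := by
      calc M ^ (4 * c) = N ^ c := by rw [hN, pow_mul]
        _ ≤ 25 ^ k * (L' ^ (3 * k) * N) := hc2.trans (Nat.mul_le_mul_left _ hT1)
        _ = 25 ^ k * L' ^ (3 * k) * N := by ring
        _ ≤ M ^ k * N := Nat.mul_le_mul_right _ b1
        _ = M ^ (k + 4) := by rw [hN, pow_add]
    have b3 := (Nat.pow_le_pow_iff_right hM1).1 b2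
    omega
  have hsub : ((Finset.range k).filter fun a => ¬ lam L' ≤ dZ (j * θ a)) ⊆
      (Finset.range k).filter fun a => dZ ((n : ℝ) * β / N * θ' a) < 3 / N := by
    intro a ha
    obtain ⟨ha1, ha2⟩ := Finset.mem_filter.1 ha
    refine Finset.mem_filter.2 ⟨ha1, ?_⟩
    rw [hlam, not_le] at ha2
    have t0 : 0 < θ' a := lt_trans (by positivity) (h1' a).1
    have t1 : θ' a ≤ 1 / β := (h1' a).2.le.trans (hle1 a)
    have t2 : θ a - θ' a ≤ 1 / N / J := by
      have := (hθ2 a).trans_le (min_le_left _ _)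
      linarith
    have t3 : 0 ≤ θ a - θ' a := by linarith [hθ1 a]
    have s1 : 0 ≤ (j : ℝ) - n * β / N := by
      rw [sub_nonneg, div_le_iff₀ hN0]; exact n1
    have s2 : (j : ℝ) - n * β / N ≤ β / N := by
      rw [sub_le_iff_le_add, ← add_div, le_div_iff₀ hN0]; linarith
    have s3 : ((j : ℝ) - n * β / N) * θ' a ≤ 1 / N := by
      refine (mul_le_mul s2 t1 t0.le (by positivity)).trans_eq ?_
      field_simp
    have s4 : (j : ℝ) * (θ a - θ' a) ≤ 1 / N := by
      refine (mul_le_mul hjJ t2 t3 hJ0.le).trans_eq ?_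
      field_simp
    have s5 := mul_nonneg s1 t0.le
    have s6 := mul_nonneg (Nat.cast_nonneg (α := ℝ) j) t3
    have e : (n : ℝ) * β / N * θ' a =
        j * θ a + -(((j : ℝ) - n * β / N) * θ' a + j * (θ a - θ' a)) := by ring
    rw [e]
    refine (dZ_add_le _ _).trans_lt ?_
    rw [abs_neg, abs_of_nonneg (add_nonneg s5 s6)]
    have : (3 : ℝ) / N = 1 / N + 1 / N + 1 / N := by ring
    linarith
  have h3 := Finset.card_le_card hsub
  have h4 := Finset.card_filter_add_card_filter_not (s := Finset.range k)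
    (fun a => lam L' ≤ dZ (j * θ a))
  rw [Finset.card_range] at h4
  omega

end

end Crest.Agent.R113
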