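import Mathlib

/-!
# Row 113: estimates for the Domar type lemma

With `λ = 10 ^ t`, `r = exp λ` and `N = t + c + 1`, only the coefficients of index `≤ N` of a
superexponentially decaying sequence matter on the circle of radius `r`.
-/

open MeasureTheory Filter Topology
open scoped InnerProductSpace BigOperators ENNReal

set_option linter.unusedSectionVars false

namespace Crest.Agent.R113

noncomputable section

open Classical

/-- partial sums -/
def ps (e : ℕ → ℝ) (k : ℕ) : ℝ := ∑ l ∈ Finset.range k, e l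

/-- superexponential growth from the index `c` on -/
structure Grow (e : ℕ → ℝ) (c : ℕ) : Prop where
  one_le : ∀ l, 1 ≤ e l
  grow : ∀ l, c ≤ l → 100 * e l ≤ e (l + 1)

/-- decay given by `e` on the right, growth at most given by `e'` on the left -/
structure Two (e e' : ℕ → ℝ) (a : ℤ → ℂ) : Prop where
  pos : ∀ k : ℕ, ‖a k‖ ≤ Real.exp (-ps e k)
  neg : ∀ m : ℕ, ‖a (-(m : ℤ))‖ ≤ Real.exp (ps e' m)

theorem domar_deg (N : ℕ) (a : ℕ → ℂ) :
    (∑ i ∈ Finset.range (N + 1), Polynomial.monomial i (a i)).natDegree ≤ N :=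
  Polynomial.natDegree_sum_le_of_forall_le _ _ fun i hi =>
    (Polynomial.natDegree_monomial_le _).trans (Nat.lt_succ_iff.1 (Finset.mem_range.1 hi))

theorem domar_coeff_le (N : ℕ) (a : ℕ → ℂ) {i : ℕ} (hi : i ≤ N) :
    ‖a i‖ ≤ 2 ^ N * (∑ i ∈ Finset.range (N + 1), Polynomial.monomial i (a i)).mahlerMeasure := by
  set A : Polynomial ℂ := ∑ i ∈ Finset.range (N + 1), Polynomial.monomial i (a i) with hA
  have h1 : A.coeff i = a i := by
    rw [hA, Polynomial.finsetSum_coeff]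
    simp [Polynomial.coeff_monomial, Nat.lt_succ_iff, hi]
  have h2 := A.norm_coeff_le_choose_mul_mahlerMeasure i
  rw [h1] at h2
  refine h2.trans (mul_le_mul_of_nonneg_right ?_ A.mahlerMeasure_nonneg)
  have h3 : A.natDegree.choose i ≤ 2 ^ N :=
    (Nat.choose_le_two_pow _ _).trans (Nat.pow_le_pow_right (by norm_num) (domar_deg N a))
  exact_mod_cast h3

theorem domar_six (n : ℕ) : 6 * (n : ℝ) ≤ 10 ^ n := by
  induction n with
  | zero => simp
  | succ n ih =>
    have : (1 : ℝ) ≤ 10 ^ n := one_le_pow₀ (by norm_num)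
    rw [pow_succ]; push_cast; linarith

theorem domar_geom (s : Finset ℕ) : ∑ k ∈ s, Real.exp (-(k : ℝ)) ≤ 2 := by
  have h1 : Real.exp (-1) ≤ 1 / 2 := by
    have := Real.add_one_le_exp (1 : ℝ)
    rw [Real.exp_neg, inv_eq_one_div]
    exact one_div_le_one_div_of_le (by norm_num) (by linarith)
  refine le_trans (Finset.sum_le_sum fun k _ => ?_)
    (sum_le_hasSum s (fun k _ => by positivity) hasSum_geometric_two)
  rw [show (-(k : ℝ)) = k * (-1) by ring, Real.exp_nat_mul]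
  exact pow_le_pow_left₀ (Real.exp_pos _).le h1 k

/-- Let `A = ∑_{i ≤ N} a i X^i`, `B = ∑_{k ≤ N} b k X^k`.  Then
`‖a i‖ ≤ choose (deg A) i * M A ≤ 2^N M A` (`Polynomial.norm_coeff_le_choose_mul_mahlerMeasure`),
`M A * M B = M (A * B)` (`Polynomial.mahlerMeasure_mul`) and `M (A * B)` is at most the sum of the
norms of the coefficients (`Polynomial.mahlerMeasure_le_sum_norm_coeff`). -/
theorem mahler_lower (N : ℕ) (a b : ℕ → ℂ) {i k : ℕ} (hi : i ≤ N) (hk : k ≤ N) :
    ‖a i‖ * ‖b k‖ ≤ 4 ^ N * ∑ n ∈ Finset.range (2 * N + 1),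
      ‖∑ p ∈ (Finset.range (N + 1) ×ˢ Finset.range (N + 1)).filter (fun p => p.1 + p.2 = n),
        a p.1 * b p.2‖ := by
  set A : Polynomial ℂ := ∑ i ∈ Finset.range (N + 1), Polynomial.monomial i (a i) with hA
  set B : Polynomial ℂ := ∑ i ∈ Finset.range (N + 1), Polynomial.monomial i (b i) with hB
  have h1 := domar_coeff_le N a hi
  have h2 := domar_coeff_le N b hk
  rw [← hA] at h1
  rw [← hB] at h2
  have hdA : A.natDegree ≤ N := domar_deg N a
  have hdB : B.natDegree ≤ N := domar_deg N b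
  have hAB : (A * B).natDegree < 2 * N + 1 := by
    have := Polynomial.natDegree_mul_le (p := A) (q := B)
    omega
  have h3 := (A * B).mahlerMeasure_le_sum_norm_coeff
  rw [Polynomial.sum_over_range' _ (by simp) _ hAB, Polynomial.mahlerMeasure_mul] at h3
  have h4 : ∀ n, (A * B).coeff n =
      ∑ p ∈ (Finset.range (N + 1) ×ˢ Finset.range (N + 1)).filter (fun p => p.1 + p.2 = n),
        a p.1 * b p.2 := by
    intro n
    rw [hA, hB, Finset.sum_mul_sum, Finset.sum_filter, Finset.sum_product,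
      Polynomial.finsetSum_coeff]
    refine Finset.sum_congr rfl fun i _ => ?_
    rw [Polynomial.finsetSum_coeff]
    refine Finset.sum_congr rfl fun j _ => ?_
    rw [Polynomial.monomial_mul_monomial, Polynomial.coeff_monomial]
  simp only [h4] at h3
  have h5 := A.mahlerMeasure_nonneg
  have h6 := B.mahlerMeasure_nonneg
  calc ‖a i‖ * ‖b k‖ ≤ (2 ^ N * A.mahlerMeasure) * (2 ^ N * B.mahlerMeasure) :=
        mul_le_mul h1 h2 (norm_nonneg _) (by positivity)
    _ = 4 ^ N * (A.mahlerMeasure * B.mahlerMeasure) := by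
        rw [show (4 : ℝ) = 2 * 2 by norm_num, mul_pow]; ring
    _ ≤ _ := by gcongr

namespace Grow
variable {e : ℕ → ℝ} {c : ℕ}

theorem last_le (h : Grow e c) (k : ℕ) : e k ≤ ps e (k + 1) :=
  Finset.single_le_sum (f := e) (fun l _ => zero_le_one.trans (h.one_le l))
    (Finset.self_mem_range_succ k)

theorem mono (h : Grow e c) {l l' : ℕ} (hl : c ≤ l) (hll : l ≤ l') : e l ≤ e l' := by
  induction hll with
  | refl => exact le_rfl
  | @step m hm ih =>
    have h1 := h.grow m (hl.trans hm)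
    have h2 := h.one_le m
    linarith

theorem pow_le (h : Grow e c) (s : ℕ) : (100 : ℝ) ^ s ≤ e (c + s) := by
  induction s with
  | zero => simpa using h.one_le c
  | succ s ih =>
    have := h.grow (c + s) (Nat.le_add_right _ _)
    rw [pow_succ, ← add_assoc]
    linarith

/-- `ps e k ≥ e (k - 1) ≥ 100 ^ (t + s)` for `k = t + c + 1 + s`, `s ≥ 1`, and
`10 ^ t + 1 ≤ 2 * 10 ^ t`, `2 k ≤ 6 (t + s) ≤ 10 ^ (t + 2 s)`. -/
theorem tail_le (h : Grow e c) {t k : ℕ} (ht : c ≤ t) (hk : t + c + 1 < k) :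
    (10 : ℝ) ^ t * k + k ≤ ps e k := by
  obtain ⟨s, rfl⟩ : ∃ s, k = c + (t + s + 1) + 1 := ⟨k - (t + c + 2), by omega⟩
  have h1 := h.last_le (c + (t + s + 1))
  have h2 := h.pow_le (t + s + 1)
  have h3 := domar_six (t + s + 1)
  have h4 : (1 : ℝ) ≤ 10 ^ t := one_le_pow₀ (by norm_num)
  have h5 : ((c + (t + s + 1) + 1 : ℕ) : ℝ) ≤ 3 * ((t + s + 1 : ℕ) : ℝ) := by
    exact_mod_cast (by omega : c + (t + s + 1) + 1 ≤ 3 * (t + s + 1))
  have h6 : (10 : ℝ) ^ t ≤ 10 ^ (t + s + 1) := pow_le_pow_right₀ (by norm_num) (by omega)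
  have h7 : (100 : ℝ) ^ (t + s + 1) = 10 ^ (t + s + 1) * 10 ^ (t + s + 1) := by
    rw [← mul_pow]; norm_num
  set K : ℝ := ((c + (t + s + 1) + 1 : ℕ) : ℝ)
  have hK : 0 ≤ K := Nat.cast_nonneg _
  have h8 : 2 * K ≤ 10 ^ (t + s + 1) := by linarith
  calc (10 : ℝ) ^ t * K + K ≤ 10 ^ t * (2 * K) := by nlinarith
    _ ≤ 10 ^ (t + s + 1) * 10 ^ (t + s + 1) := by gcongr
    _ ≤ _ := by linarith

/-- Some `l₀ < m` has `e l₀ > λ`, so `c < l₀` and `e l ≥ 100 λ` for `l ≥ m`.  Hence the left side is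
at most `-∑_{m ≤ l < k} e l / 2 ≤ - e (k - 1) / 2 ≤ 2 (c + 1) - 2 k`. -/
theorem cross_le (h : Grow e c) {lam : ℝ} (hlam : ∀ l, l ≤ c → e l ≤ lam) {m k : ℕ} (hmk : m < k)
    (hm : lam * m < ps e m) :
    ps e m - ps e k + lam * ((k : ℝ) - m) ≤ 2 * ((c : ℝ) + 1) - m - k := by
  obtain ⟨l₀, hl₀, hl⟩ : ∃ l₀ < m, lam < e l₀ := by
    by_contra hc
    push Not at hc
    have : ps e m ≤ lam * m := by
      calc ps e m ≤ ∑ _l ∈ Finset.range m, lam :=
            Finset.sum_le_sum fun l hl => hc l (Finset.mem_range.1 hl)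
        _ = lam * m := by simp [mul_comm]
    linarith
  have hc : c < l₀ := by
    by_contra hc
    have := hlam l₀ (by omega)
    linarith
  have hbig : ∀ l, m ≤ l → 2 * lam ≤ e l := by
    intro l hml
    have h1 := h.mono (show c ≤ l₀ + 1 by omega) (show l₀ + 1 ≤ l by omega)
    have h2 := h.grow l₀ hc.le
    have h3 := h.one_le l₀
    linarith
  obtain ⟨j, rfl⟩ : ∃ j, k = c + j + 1 := ⟨k - (c + 1), by omega⟩
  have h1 : ps e (c + j + 1) - ps e m = ∑ l ∈ Finset.Ico m (c + j + 1), e l := by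
    rw [Finset.sum_Ico_eq_sub _ hmk.le]; rfl
  have h2 : lam * (((c + j + 1 : ℕ) : ℝ) - m) = ∑ _l ∈ Finset.Ico m (c + j + 1), lam := by
    rw [Finset.sum_const, Nat.card_Ico, nsmul_eq_mul, Nat.cast_sub hmk.le, mul_comm]
  have h3 : ∑ _l ∈ Finset.Ico m (c + j + 1), lam ≤ ∑ l ∈ Finset.Ico m (c + j + 1), e l / 2 :=
    Finset.sum_le_sum fun l hl => by
      have := hbig l (Finset.mem_Ico.1 hl).1
      linarith
  rw [← Finset.sum_div] at h3
  have h4 : e (c + j) ≤ ∑ l ∈ Finset.Ico m (c + j + 1), e l :=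
    Finset.single_le_sum (f := e) (fun l _ => zero_le_one.trans (h.one_le l))
      (Finset.mem_Ico.2 ⟨by omega, by omega⟩)
  have h5 := h.pow_le j
  have h6 := domar_six j
  have h7 : (10 : ℝ) ^ j ≤ 100 ^ j := pow_le_pow_left₀ (by norm_num) (by norm_num) j
  have h8 : (m : ℝ) ≤ ((c + j + 1 : ℕ) : ℝ) := by exact_mod_cast hmk.le
  have h9 : (0 : ℝ) ≤ j := Nat.cast_nonneg j
  rw [h2]
  push_cast at h8 ⊢
  linarith

/-- The tail: each term is at most `exp (-k)` by `tail_le`. -/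
theorem sum_tail_le (h : Grow e c) {t : ℕ} (ht : c ≤ t) {u : ℕ → ℝ}
    (hu : ∀ k, u k ≤ Real.exp (-ps e k)) (s : Finset ℕ) (hs : ∀ k ∈ s, t + c + 1 < k) :
    ∑ k ∈ s, u k * Real.exp (10 ^ t * k) ≤ 2 := by
  refine le_trans (Finset.sum_le_sum fun k hk => ?_) (domar_geom s)
  have h1 := h.tail_le ht (hs k hk)
  calc u k * Real.exp (10 ^ t * k) ≤ Real.exp (-ps e k) * Real.exp (10 ^ t * k) := by
        gcongr; exact hu k
    _ = Real.exp (-ps e k + 10 ^ t * k) := (Real.exp_add _ _).symm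
    _ ≤ Real.exp (-(k : ℝ)) := Real.exp_le_exp.2 (by linarith)

theorem sum_le (h : Grow e c) {t : ℕ} (ht : c ≤ t) {u : ℕ → ℝ}
    (hu : ∀ k, u k ≤ Real.exp (-ps e k)) {μ : ℝ} (hμ : 0 ≤ μ)
    (hle : ∀ k : ℕ, k ≤ t + c + 1 → u k * Real.exp (10 ^ t * k) ≤ μ) (s : Finset ℕ) :
    ∑ k ∈ s, u k * Real.exp (10 ^ t * k) ≤ ((t : ℝ) + c + 2) * μ + 2 := by
  rw [← Finset.sum_filter_add_sum_filter_not s (fun k => k ≤ t + c + 1)]
  refine add_le_add ?_ (h.sum_tail_le ht hu _ fun k hk => not_le.1 (Finset.mem_filter.1 hk).2)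
  refine (Finset.sum_le_card_nsmul _ _ μ fun k hk => hle k (Finset.mem_filter.1 hk).2).trans ?_
  rw [nsmul_eq_mul]
  gcongr
  have : (s.filter (fun k => k ≤ t + c + 1)).card ≤ (Finset.range (t + c + 2)).card :=
    Finset.card_le_card fun k hk => Finset.mem_range.2 (by have := (Finset.mem_filter.1 hk).2; omega)
  rw [Finset.card_range] at this
  exact_mod_cast this

/-- Pairs `(m, k)` with `ps e m ≤ λ m` have `m ≤ t + c + 1` (`tail_le`) and contribute at most
`u k r^k` (`sum_le` for each such `m`); the others contribute at most `exp (2 (c + 1) - m - k)`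
(`cross_le`). -/
theorem sum_cross_le (h : Grow e c) {t : ℕ} (ht : c ≤ t) (hlam : ∀ l, l ≤ c → e l ≤ 10 ^ t)
    {u : ℕ → ℝ} (hu0 : ∀ k, 0 ≤ u k) (hu : ∀ k, u k ≤ Real.exp (-ps e k)) {μ : ℝ} (hμ : 0 ≤ μ)
    (hle : ∀ k : ℕ, k ≤ t + c + 1 → u k * Real.exp (10 ^ t * k) ≤ μ) (s : Finset (ℕ × ℕ))
    (hs : ∀ p ∈ s, p.1 < p.2) :
    ∑ p ∈ s, Real.exp (ps e p.1) * u p.2 * Real.exp (10 ^ t * ((p.2 : ℝ) - p.1)) ≤
      ((t : ℝ) + c + 2) * (((t : ℝ) + c + 2) * μ + 2) + 4 * Real.exp (2 * ((c : ℝ) + 1)) := by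
  rw [← Finset.sum_filter_add_sum_filter_not s (fun p => ps e p.1 ≤ 10 ^ t * p.1)]
  refine add_le_add ?_ ?_
  · calc ∑ p ∈ s.filter (fun p => ps e p.1 ≤ 10 ^ t * p.1),
          Real.exp (ps e p.1) * u p.2 * Real.exp (10 ^ t * ((p.2 : ℝ) - p.1))
        ≤ ∑ p ∈ s.filter (fun p => ps e p.1 ≤ 10 ^ t * p.1), u p.2 * Real.exp (10 ^ t * p.2) := by
          refine Finset.sum_le_sum fun p hp => ?_
          have h1 := (Finset.mem_filter.1 hp).2
          rw [mul_comm (Real.exp _) (u p.2), mul_assoc, ← Real.exp_add]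
          exact mul_le_mul_of_nonneg_left (Real.exp_le_exp.2 (by linarith)) (hu0 _)
      _ ≤ ∑ p ∈ Finset.range (t + c + 2) ×ˢ s.image Prod.snd, u p.2 * Real.exp (10 ^ t * p.2) := by
          refine Finset.sum_le_sum_of_subset_of_nonneg (fun p hp => ?_)
            fun p _ _ => mul_nonneg (hu0 _) (Real.exp_pos _).le
          obtain ⟨hp1, hp2⟩ := Finset.mem_filter.1 hp
          refine Finset.mem_product.2 ⟨Finset.mem_range.2 ?_, Finset.mem_image_of_mem _ hp1⟩
          by_contra hc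
          have h1 := h.tail_le ht (show t + c + 1 < p.1 by omega)
          have h2 : (0 : ℝ) < p.1 := by exact_mod_cast (show 0 < p.1 by omega)
          linarith
      _ ≤ ∑ _m ∈ Finset.range (t + c + 2), (((t : ℝ) + c + 2) * μ + 2) := by
          rw [Finset.sum_product]
          exact Finset.sum_le_sum fun m _ => h.sum_le ht hu hμ hle _
      _ = _ := by
          rw [Finset.sum_const, Finset.card_range, nsmul_eq_mul]; push_cast; ring
  · calc ∑ p ∈ s.filter (fun p => ¬ ps e p.1 ≤ 10 ^ t * p.1),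
          Real.exp (ps e p.1) * u p.2 * Real.exp (10 ^ t * ((p.2 : ℝ) - p.1))
        ≤ ∑ p ∈ s.filter (fun p => ¬ ps e p.1 ≤ 10 ^ t * p.1),
          Real.exp (2 * ((c : ℝ) + 1)) * (Real.exp (-(p.1 : ℝ)) * Real.exp (-(p.2 : ℝ))) := by
          refine Finset.sum_le_sum fun p hp => ?_
          obtain ⟨hp1, hp2⟩ := Finset.mem_filter.1 hp
          have h1 := h.cross_le hlam (hs p hp1) (not_le.1 hp2)
          calc Real.exp (ps e p.1) * u p.2 * Real.exp (10 ^ t * ((p.2 : ℝ) - p.1))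
              ≤ Real.exp (ps e p.1) * Real.exp (-ps e p.2) *
                Real.exp (10 ^ t * ((p.2 : ℝ) - p.1)) := by
                gcongr; exact hu _
            _ ≤ _ := by
                simp only [← Real.exp_add]
                exact Real.exp_le_exp.2 (by linarith)
      _ ≤ ∑ p ∈ s.image Prod.fst ×ˢ s.image Prod.snd,
          Real.exp (2 * ((c : ℝ) + 1)) * (Real.exp (-(p.1 : ℝ)) * Real.exp (-(p.2 : ℝ))) := by
          refine Finset.sum_le_sum_of_subset_of_nonneg (fun p hp => ?_) fun p _ _ => by positivity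
          have hp1 := (Finset.mem_filter.1 hp).1
          exact Finset.mem_product.2 ⟨Finset.mem_image_of_mem _ hp1, Finset.mem_image_of_mem _ hp1⟩
      _ = Real.exp (2 * ((c : ℝ) + 1)) * ((∑ m ∈ s.image Prod.fst, Real.exp (-(m : ℝ))) *
            ∑ k ∈ s.image Prod.snd, Real.exp (-(k : ℝ))) := by
          rw [← Finset.mul_sum, Finset.sum_mul_sum, Finset.sum_product]
      _ ≤ Real.exp (2 * ((c : ℝ) + 1)) * (2 * 2) := by
          gcongr
          · exact domar_geom _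
          · exact domar_geom _
      _ = _ := by ring

end Grow

end

end Crest.Agent.R113
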