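import Crest.Agent.R113.Domar

/-!
# Row 113: the Domar type lemma
-/

open MeasureTheory Filter Topology
open scoped InnerProductSpace BigOperators ENNReal

set_option linter.unusedSectionVars false

namespace Crest.Agent.R113

noncomputable section

open Classical

theorem cross_region {e : ℕ → ℝ} {c t : ℕ} (h : Grow e c) (ht : c ≤ t)
    (hlam : ∀ l, l ≤ c → e l ≤ 10 ^ t) {a b : ℤ → ℂ}
    (ha : ∀ m : ℕ, ‖a (-(m : ℤ))‖ ≤ Real.exp (ps e m))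
    (hb : ∀ k : ℕ, ‖b k‖ ≤ Real.exp (-ps e k)) {ν : ℝ} (hν : 0 ≤ ν)
    (hle : ∀ k : ℕ, k ≤ t + c + 1 → ‖b k‖ * Real.exp (10 ^ t * k) ≤ ν)
    (P : Finset (ℤ × ℤ)) (hP : ∀ p ∈ P, p.1 < 0 ∧ 1 ≤ p.1 + p.2) :
    ∑ p ∈ P, ‖a p.1‖ * ‖b p.2‖ * Real.exp (10 ^ t * ((p.1 : ℝ) + p.2)) ≤
      ((t : ℝ) + c + 2) * (((t : ℝ) + c + 2) * ν + 2) + 4 * Real.exp (2 * ((c : ℝ) + 1)) := by
  set φ : ℤ × ℤ → ℕ × ℕ := fun p => ((-p.1).toNat, p.2.toNat) with hφ
  have hinj : Set.InjOn φ P := by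
    intro p hp q hq hpq
    have h1 := hP p hp
    have h2 := hP q hq
    simp only [hφ, Prod.mk.injEq] at hpq
    refine Prod.ext ?_ ?_ <;> omega
  have key := h.sum_cross_le ht hlam (u := fun k => ‖b k‖) (fun k => norm_nonneg _) hb hν hle
    (P.image φ) (by
      intro q hq
      obtain ⟨p, hp, rfl⟩ := Finset.mem_image.1 hq
      have h1 := hP p hp
      simp only [hφ]
      omega)
  rw [Finset.sum_image hinj] at key
  refine le_trans (Finset.sum_le_sum fun p hp => ?_) key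
  have h1 := hP p hp
  obtain ⟨m, hm⟩ : ∃ m : ℕ, p.1 = -(m : ℤ) := ⟨(-p.1).toNat, by omega⟩
  obtain ⟨k, hk⟩ : ∃ k : ℕ, p.2 = (k : ℤ) := ⟨p.2.toNat, by omega⟩
  have e1 : (φ p).1 = m := by simp only [hφ]; omega
  have e2 : (φ p).2 = k := by simp only [hφ]; omega
  rw [e1, e2, hm, hk]
  have e3 : (((-(m : ℤ) : ℤ) : ℝ) + ((k : ℤ) : ℝ)) = (k : ℝ) - m := by push_cast; ring
  rw [e3]
  exact mul_le_mul_of_nonneg_right (mul_le_mul_of_nonneg_right (ha m) (norm_nonneg _))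
    (Real.exp_pos _).le

theorem tail_region {e e' : ℕ → ℝ} {c t : ℕ} (h : Grow e c) (h' : Grow e' c) (ht : c ≤ t)
    {a b : ℤ → ℂ} (ha : ∀ k : ℕ, ‖a k‖ ≤ Real.exp (-ps e' k))
    (hb : ∀ k : ℕ, ‖b k‖ ≤ Real.exp (-ps e k)) {μ : ℝ} (hμ : 0 ≤ μ)
    (hle : ∀ k : ℕ, k ≤ t + c + 1 → ‖a k‖ * Real.exp (10 ^ t * k) ≤ μ)
    (P : Finset (ℤ × ℤ)) (hP : ∀ p ∈ P, 0 ≤ p.1 ∧ ((t + c + 1 : ℕ) : ℤ) < p.2) :
    ∑ p ∈ P, ‖a p.1‖ * ‖b p.2‖ * Real.exp (10 ^ t * ((p.1 : ℝ) + p.2)) ≤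
      (((t : ℝ) + c + 2) * μ + 2) * 2 := by
  set φ : ℤ × ℤ → ℕ × ℕ := fun p => (p.1.toNat, p.2.toNat) with hφ
  have hinj : Set.InjOn φ P := by
    intro p hp q hq hpq
    have h1 := hP p hp
    have h2 := hP q hq
    simp only [hφ, Prod.mk.injEq] at hpq
    refine Prod.ext ?_ ?_ <;> omega
  set s₁ := P.image fun p => p.1.toNat
  set s₂ := P.image fun p => p.2.toNat
  have k₁ := h'.sum_le ht (u := fun k => ‖a k‖) ha hμ hle s₁
  have k₂ := h.sum_tail_le ht (u := fun k => ‖b k‖) hb s₂ (by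
    intro q hq
    obtain ⟨p, hp, rfl⟩ := Finset.mem_image.1 hq
    have h1 := hP p hp
    omega)
  set G : ℕ × ℕ → ℝ := fun q => (‖a q.1‖ * Real.exp (10 ^ t * q.1)) *
    (‖b q.2‖ * Real.exp (10 ^ t * q.2)) with hG
  calc ∑ p ∈ P, ‖a p.1‖ * ‖b p.2‖ * Real.exp (10 ^ t * ((p.1 : ℝ) + p.2))
      = ∑ p ∈ P, G (φ p) := by
        refine Finset.sum_congr rfl fun p hp => ?_
        have h1 := hP p hp
        obtain ⟨m, hm⟩ : ∃ m : ℕ, p.1 = (m : ℤ) := ⟨p.1.toNat, by omega⟩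
        obtain ⟨k, hk⟩ : ∃ k : ℕ, p.2 = (k : ℤ) := ⟨p.2.toNat, by omega⟩
        have e1 : (φ p).1 = m := by simp only [hφ]; omega
        have e2 : (φ p).2 = k := by simp only [hφ]; omega
        simp only [hG]
        rw [e1, e2, hm, hk, mul_add, Real.exp_add]
        push_cast
        ring
    _ = ∑ q ∈ P.image φ, G q := (Finset.sum_image hinj).symm
    _ ≤ ∑ q ∈ s₁ ×ˢ s₂, G q := by
        refine Finset.sum_le_sum_of_subset_of_nonneg ?_ fun q _ _ => by positivity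
        intro q hq
        obtain ⟨p, hp, rfl⟩ := Finset.mem_image.1 hq
        exact Finset.mem_product.2 ⟨Finset.mem_image_of_mem _ hp, Finset.mem_image_of_mem _ hp⟩
    _ = (∑ k ∈ s₁, ‖a k‖ * Real.exp (10 ^ t * k)) * ∑ k ∈ s₂, ‖b k‖ * Real.exp (10 ^ t * k) := by
        rw [Finset.sum_product, Finset.sum_mul_sum]
    _ ≤ _ := mul_le_mul k₁ k₂ (Finset.sum_nonneg fun _ _ => by positivity) (by positivity)

theorem sum_swap_eq (a b : ℤ → ℂ) (lam : ℝ) (P : Finset (ℤ × ℤ)) :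
    ∑ p ∈ P, ‖a p.1‖ * ‖b p.2‖ * Real.exp (lam * ((p.1 : ℝ) + p.2)) =
      ∑ p ∈ P.image Prod.swap, ‖b p.1‖ * ‖a p.2‖ * Real.exp (lam * ((p.1 : ℝ) + p.2)) := by
  rw [Finset.sum_image (Prod.swap_injective.injOn)]
  refine Finset.sum_congr rfl fun p _ => ?_
  simp only [Prod.fst_swap, Prod.snd_swap]
  rw [add_comm (p.2 : ℝ)]
  ring

theorem exists_pow_ge (e : ℕ → ℝ) (c : ℕ) :
    ∃ t₀ : ℕ, ∀ t, t₀ ≤ t → ∀ l, l ≤ c → e l ≤ 10 ^ t := by
  obtain ⟨t₀, ht₀⟩ := pow_unbounded_of_one_lt (∑ l ∈ Finset.range (c + 1), |e l|)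
    (by norm_num : (1 : ℝ) < 10)
  refine ⟨t₀, fun t ht l hl => ?_⟩
  calc e l ≤ |e l| := le_abs_self _
    _ ≤ ∑ l ∈ Finset.range (c + 1), |e l| :=
      Finset.single_le_sum (f := fun l => |e l|) (fun _ _ => abs_nonneg _)
        (Finset.mem_range.2 (by omega))
    _ ≤ 10 ^ t₀ := ht₀.le
    _ ≤ 10 ^ t := pow_le_pow_right₀ (by norm_num) ht

/-- Split `P` into the regions `p.1 < 0`, `p.2 < 0` (`sum_cross_le`, through
`p ↦ ((-p.1).toNat, p.2.toNat)`), and `0 ≤ p.1, N < p.2`, `0 ≤ p.2, N < p.1` (contained in a product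
of two finite sets; `sum_le` times `sum_tail_le`). -/
theorem err_le {e e' : ℕ → ℝ} {c : ℕ} (h : Grow e c) (h' : Grow e' c) :
    ∃ (t₀ : ℕ) (C : ℝ), 0 ≤ C ∧ ∀ t : ℕ, t₀ ≤ t → ∀ (a b : ℤ → ℂ) (μ ν : ℝ),
      Two e' e a → Two e e' b → 0 ≤ μ → 0 ≤ ν →
      (∀ i : ℕ, i ≤ t + c + 1 → ‖a i‖ * Real.exp (10 ^ t * i) ≤ μ) →
      (∀ k : ℕ, k ≤ t + c + 1 → ‖b k‖ * Real.exp (10 ^ t * k) ≤ ν) →
      ∀ P : Finset (ℤ × ℤ),
        (∀ p ∈ P, 1 ≤ p.1 + p.2 ∧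
          ¬ (0 ≤ p.1 ∧ p.1 ≤ (t + c + 1 : ℕ) ∧ 0 ≤ p.2 ∧ p.2 ≤ (t + c + 1 : ℕ))) →
        ∑ p ∈ P, ‖a p.1‖ * ‖b p.2‖ * Real.exp (10 ^ t * ((p.1 : ℝ) + p.2)) ≤
          C * ((t : ℝ) + c + 2) ^ 2 * (μ + ν + 1) := by
  obtain ⟨t₁, ht₁⟩ := exists_pow_ge e c
  obtain ⟨t₂, ht₂⟩ := exists_pow_ge e' c
  set K : ℝ := Real.exp (2 * ((c : ℝ) + 1)) with hK
  have hK0 : 0 < K := Real.exp_pos _
  refine ⟨c + t₁ + t₂, 20 + 8 * K, by positivity, ?_⟩
  intro t ht a b μ ν ha hb hμ hν hle hle' P hP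
  set F : ℤ × ℤ → ℝ := fun p => ‖a p.1‖ * ‖b p.2‖ * Real.exp (10 ^ t * ((p.1 : ℝ) + p.2)) with hF
  have hF0 : ∀ p, 0 ≤ F p := fun p => by positivity
  set P₁ := P.filter fun p => p.1 < 0
  set P₂ := P.filter fun p => p.2 < 0
  set P₃ := P.filter fun p => 0 ≤ p.1 ∧ ((t + c + 1 : ℕ) : ℤ) < p.2
  set P₄ := P.filter fun p => 0 ≤ p.2 ∧ ((t + c + 1 : ℕ) : ℤ) < p.1
  have k₁ := cross_region h (t := t) (by omega) (ht₁ t (by omega)) ha.neg hb.pos hν hle' P₁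
    (fun p hp => ⟨(Finset.mem_filter.1 hp).2, (hP p (Finset.mem_filter.1 hp).1).1⟩)
  have k₂ := cross_region h' (t := t) (by omega) (ht₂ t (by omega)) hb.neg ha.pos hμ hle
    (P₂.image Prod.swap) (by
      intro q hq
      obtain ⟨p, hp, rfl⟩ := Finset.mem_image.1 hq
      have h1 := (hP p (Finset.mem_filter.1 hp).1).1
      have h2 := (Finset.mem_filter.1 hp).2
      simp only [Prod.fst_swap, Prod.snd_swap]
      omega)
  rw [← sum_swap_eq] at k₂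
  have k₃ := tail_region h h' (t := t) (by omega) ha.pos hb.pos hμ hle P₃
    (fun p hp => (Finset.mem_filter.1 hp).2)
  have k₄ := tail_region h' h (t := t) (by omega) hb.pos ha.pos hν hle'
    (P₄.image Prod.swap) (by
      intro q hq
      obtain ⟨p, hp, rfl⟩ := Finset.mem_image.1 hq
      exact (Finset.mem_filter.1 hp).2)
  rw [← sum_swap_eq] at k₄
  have hsplit : ∑ p ∈ P, F p ≤
      ∑ p ∈ P₁, F p + ∑ p ∈ P₂, F p + ∑ p ∈ P₃, F p + ∑ p ∈ P₄, F p := by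
    simp only [P₁, P₂, P₃, P₄, Finset.sum_filter, ← Finset.sum_add_distrib]
    refine Finset.sum_le_sum fun p hp => ?_
    have h1 := hP p hp
    have h0 := hF0 p
    split_ifs <;> first | linarith | (exfalso; omega)
  refine hsplit.trans ?_
  set M : ℝ := (t : ℝ) + c + 2 with hM
  have hM2 : 2 ≤ M := by
    have : (0 : ℝ) ≤ t := Nat.cast_nonneg _
    have : (0 : ℝ) ≤ c := Nat.cast_nonneg _
    linarith
  have hMM : M ≤ M ^ 2 := by nlinarith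
  have hM1 : 1 ≤ M ^ 2 := by nlinarith
  have e1 : M * μ ≤ M ^ 2 * μ := mul_le_mul_of_nonneg_right hMM hμ
  have e2 : M * ν ≤ M ^ 2 * ν := mul_le_mul_of_nonneg_right hMM hν
  have e3 : K ≤ K * M ^ 2 := le_mul_of_one_le_right hK0.le hM1
  have e4 : 0 ≤ M ^ 2 * μ := by positivity
  have e5 : 0 ≤ M ^ 2 * ν := by positivity
  have e6 : 0 ≤ K * (M ^ 2 * μ) := by positivity
  have e7 : 0 ≤ K * (M ^ 2 * ν) := by positivity
  calc _ ≤ (M * (M * ν + 2) + 4 * K) + (M * (M * μ + 2) + 4 * K) + (M * μ + 2) * 2 +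
        (M * ν + 2) * 2 := add_le_add (add_le_add (add_le_add k₁ k₂) k₃) k₄
    _ ≤ _ := by nlinarith

theorem main_eq (a b : ℤ → ℂ) (N n : ℕ) (lam : ℝ) :
    ∑ p ∈ (Finset.range (N + 1) ×ˢ Finset.range (N + 1)).filter (fun p => p.1 + p.2 = n),
        (a p.1 * (Real.exp (lam * p.1) : ℂ)) * (b p.2 * (Real.exp (lam * p.2) : ℂ)) =
      (Real.exp (lam * n) : ℂ) *
        ∑ i ∈ (Finset.Icc (0 : ℤ) N).filter (fun i => 0 ≤ (n : ℤ) - i ∧ (n : ℤ) - i ≤ N),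
          a i * b (n - i) := by
  rw [Finset.mul_sum]
  refine Finset.sum_bij (fun p _ => (p.1 : ℤ)) ?_ ?_ ?_ ?_
  · intro p hp
    simp only [Finset.mem_filter, Finset.mem_product, Finset.mem_range, Finset.mem_Icc] at hp ⊢
    omega
  · intro p hp q hq hpq
    simp only [Finset.mem_filter, Finset.mem_product, Finset.mem_range] at hp hq
    refine Prod.ext ?_ ?_ <;> omega
  · intro i hi
    simp only [Finset.mem_filter, Finset.mem_Icc] at hi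
    refine ⟨(i.toNat, ((n : ℤ) - i).toNat), ?_, ?_⟩
    · simp only [Finset.mem_filter, Finset.mem_product, Finset.mem_range]
      omega
    · simp only
      omega
  · intro p hp
    simp only [Finset.mem_filter, Finset.mem_product, Finset.mem_range] at hp
    have e : (n : ℤ) - p.1 = p.2 := by omega
    have e' : (n : ℝ) = p.1 + p.2 := by rw [← hp.2]; push_cast; ring
    rw [e, e', mul_add, Real.exp_add]
    push_cast
    ring

/-- If every finite sum of the norms of the terms outside the square is at most `E`, the main terms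
of the vanishing convolutions have total size at most `E`: choose a finite `s ⊇ [0, N]` such that the
partial sums over `s` are smaller than `ε` for all `1 ≤ n ≤ 2 N`. -/
theorem main_le {a b : ℤ → ℂ} (N : ℕ) (lam E : ℝ)
    (h : ∀ n : ℕ, 1 ≤ n → HasSum (fun i : ℤ => a i * b (n - i)) 0)
    (hE : ∀ P : Finset (ℤ × ℤ),
      (∀ p ∈ P, 1 ≤ p.1 + p.2 ∧ ¬ (0 ≤ p.1 ∧ p.1 ≤ N ∧ 0 ≤ p.2 ∧ p.2 ≤ N)) →
      ∑ p ∈ P, ‖a p.1‖ * ‖b p.2‖ * Real.exp (lam * ((p.1 : ℝ) + p.2)) ≤ E) :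
    ∑ n ∈ Finset.range (2 * N + 1),
      ‖∑ p ∈ (Finset.range (N + 1) ×ˢ Finset.range (N + 1)).filter (fun p => p.1 + p.2 = n),
        (a p.1 * (Real.exp (lam * p.1) : ℂ)) * (b p.2 * (Real.exp (lam * p.2) : ℂ))‖ ≤
      ‖a 0‖ * ‖b 0‖ + E := by
  simp only [main_eq]
  set I : ℕ → Finset ℤ := fun n =>
    (Finset.Icc (0 : ℤ) N).filter (fun i => 0 ≤ (n : ℤ) - i ∧ (n : ℤ) - i ≤ N) with hI
  rw [Finset.sum_range_succ', add_comm]
  refine add_le_add ?_ ?_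
  · have : (Finset.Icc (0 : ℤ) N).filter
        (fun i => 0 ≤ ((0 : ℕ) : ℤ) - i ∧ ((0 : ℕ) : ℤ) - i ≤ N) = {0} := by
      ext i
      simp only [Finset.mem_filter, Finset.mem_Icc, Finset.mem_singleton]
      omega
    rw [this]
    simp
  · have hlim : Tendsto (fun s : Finset ℤ => ∑ n ∈ Finset.range (2 * N),
        Real.exp (lam * ((n + 1 : ℕ) : ℝ)) * ‖∑ i ∈ s, a i * b (((n + 1 : ℕ) : ℤ) - i)‖ + E)
        atTop (𝓝 (∑ n ∈ Finset.range (2 * N), Real.exp (lam * ((n + 1 : ℕ) : ℝ)) * ‖(0 : ℂ)‖ + E)) :=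
      (tendsto_finsetSum _ fun n _ =>
        (Tendsto.norm (h (n + 1) (by omega))).const_mul _).add_const _
    simp only [norm_zero, mul_zero, Finset.sum_const_zero, zero_add] at hlim
    refine ge_of_tendsto hlim ?_
    filter_upwards [eventually_ge_atTop (Finset.Icc (0 : ℤ) N)] with s hs
    set Q : Finset (Σ _ : ℕ, ℤ) := (Finset.range (2 * N)).sigma fun n => s \ I (n + 1) with hQ
    set φ : (Σ _ : ℕ, ℤ) → ℤ × ℤ := fun q => (q.2, ((q.1 + 1 : ℕ) : ℤ) - q.2) with hφ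
    have hinj : Set.InjOn φ Q := by
      rintro ⟨n, i⟩ _ ⟨m, j⟩ _ hpq
      simp only [hφ, Prod.mk.injEq] at hpq
      obtain ⟨rfl, h2⟩ := hpq
      have : n = m := by omega
      rw [this]
    have key := hE (Q.image φ) (by
      intro p hp
      obtain ⟨⟨n, i⟩, hq, rfl⟩ := Finset.mem_image.1 hp
      simp only [hQ, hI, Finset.mem_sigma, Finset.mem_range, Finset.mem_sdiff, Finset.mem_filter,
        Finset.mem_Icc] at hq
      simp only [hφ]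
      omega)
    rw [Finset.sum_image hinj, hQ, Finset.sum_sigma] at key
    refine le_trans ?_ (add_le_add_right key _)
    rw [← Finset.sum_add_distrib]
    refine Finset.sum_le_sum fun n _ => ?_
    have hsub : I (n + 1) ⊆ s := (Finset.filter_subset _ _).trans hs
    have e : ∑ i ∈ I (n + 1), a i * b (((n + 1 : ℕ) : ℤ) - i) =
        ∑ i ∈ s, a i * b (((n + 1 : ℕ) : ℤ) - i) -
          ∑ i ∈ s \ I (n + 1), a i * b (((n + 1 : ℕ) : ℤ) - i) := by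
      rw [← Finset.sum_sdiff hsub]
      ring
    rw [norm_mul, Complex.norm_real, Real.norm_eq_abs, abs_of_pos (Real.exp_pos _)]
    change Real.exp _ * ‖∑ i ∈ I (n + 1), a i * b (((n + 1 : ℕ) : ℤ) - i)‖ ≤ _
    rw [e]
    refine (mul_le_mul_of_nonneg_left ((norm_sub_le _ _).trans
      (add_le_add_right (norm_sum_le _ _) _)) (Real.exp_pos _).le).trans ?_
    rw [mul_add, Finset.mul_sum]
    refine add_le_add_right (le_of_eq (Finset.sum_congr rfl fun i _ => ?_)) _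
    simp only [hφ]
    rw [norm_mul]
    have e' : ((i : ℝ) + ((((n + 1 : ℕ) : ℤ) - i : ℤ) : ℝ)) = ((n + 1 : ℕ) : ℝ) := by
      push_cast; ring
    rw [e']
    ring

theorem eventually_large {δ C : ℝ} (hδ : 0 < δ) (hC : 0 ≤ C) (c : ℕ) :
    ∀ᶠ t : ℕ in atTop,
      4 ^ (t + c + 1) * (1 + 3 * C * ((t : ℝ) + c + 2) ^ 2) < δ * Real.exp (10 ^ t) := by
  set D : ℝ := 4 ^ (c + 1) * (1 + 3 * C * ((c : ℝ) + 2) ^ 2) with hD
  have hlim := tendsto_pow_atTop_atTop_of_one_lt (by norm_num : (1 : ℝ) < 100 / 16)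
  filter_upwards [hlim.eventually_gt_atTop (2 * D / δ)] with t ht
  have h1 : (100 : ℝ) ^ t / 2 ≤ Real.exp (10 ^ t) := by
    have := Real.quadratic_le_exp_of_nonneg (x := 10 ^ t) (by positivity)
    have e : ((10 : ℝ) ^ t) ^ 2 = 100 ^ t := by rw [← pow_mul, mul_comm, pow_mul]; norm_num
    have : (0 : ℝ) ≤ 10 ^ t := by positivity
    linarith
  have h2 : (t : ℝ) + 1 ≤ 2 ^ t := by
    have := one_add_mul_le_pow (a := (1 : ℝ)) (by norm_num) t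
    norm_num at this
    linarith
  have ht0 : (0 : ℝ) ≤ t := Nat.cast_nonneg _
  have hc0 : (0 : ℝ) ≤ c := Nat.cast_nonneg _
  have h3 : (t : ℝ) + c + 2 ≤ ((c : ℝ) + 2) * 2 ^ t := by nlinarith
  have e4 : ((2 : ℝ) ^ t) ^ 2 = 4 ^ t := by rw [← pow_mul, mul_comm, pow_mul]; norm_num
  have h4 : ((t : ℝ) + c + 2) ^ 2 ≤ ((c : ℝ) + 2) ^ 2 * 4 ^ t := by
    rw [← e4, ← mul_pow]
    exact pow_le_pow_left₀ (by positivity) h3 2
  have h5 : (1 : ℝ) ≤ 4 ^ t := one_le_pow₀ (by norm_num)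
  have h6 : 1 + 3 * C * ((t : ℝ) + c + 2) ^ 2 ≤ (1 + 3 * C * ((c : ℝ) + 2) ^ 2) * 4 ^ t := by
    have := mul_le_mul_of_nonneg_left h4 (by positivity : 0 ≤ 3 * C)
    nlinarith
  have e16 : (16 : ℝ) ^ t = 4 ^ t * 4 ^ t := by rw [← mul_pow]; norm_num
  have h7 : 2 * D * 16 ^ t < δ * 100 ^ t := by
    rw [div_pow, div_lt_div_iff₀ hδ (by positivity)] at ht
    linarith
  calc 4 ^ (t + c + 1) * (1 + 3 * C * ((t : ℝ) + c + 2) ^ 2)
      ≤ 4 ^ (t + c + 1) * ((1 + 3 * C * ((c : ℝ) + 2) ^ 2) * 4 ^ t) :=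
        mul_le_mul_of_nonneg_left h6 (by positivity)
    _ = D * 16 ^ t := by rw [hD, e16, add_assoc, pow_add]; ring
    _ < δ * (100 ^ t / 2) := by linarith
    _ ≤ _ := mul_le_mul_of_nonneg_left h1 hδ.le

/-- Let `μ`, `ν` be the maxima of `‖a i‖ r^i`, `‖b k‖ r^k` over indices `≤ N = t + c + 1`.  By
`mahler_lower`, `main_le` and `err_le`, `μ ν ≤ 4^N (1 + C (N+1)² (μ + ν + 1))`, while
`μ, ν ≥ δ r` with `δ = min ‖a i₀‖ ‖b k₀‖`.  So `δ r ≤ 4^N (1 + 3 C (N+1)²)` as soon as `δ r ≥ 1`,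
which fails for large `t` because `r = exp (10^t) ≥ 100^t / 2`. -/
theorem domar_nat {e e' : ℕ → ℝ} {c : ℕ} (he : Grow e c) (he' : Grow e' c) {a b : ℤ → ℂ}
    (ha : Two e' e a) (hb : Two e e' b)
    (h : ∀ n : ℕ, 1 ≤ n → HasSum (fun i : ℤ => a i * b (n - i)) 0)
    {i₀ k₀ : ℕ} (hi : 1 ≤ i₀) (hk : 1 ≤ k₀) (hai : a i₀ ≠ 0) (hbk : b k₀ ≠ 0) : False := by
  obtain ⟨t₀, C, hC, herr⟩ := err_le he he'
  set δ : ℝ := min ‖a i₀‖ ‖b k₀‖ with hδ
  have hδ0 : 0 < δ := lt_min (norm_pos_iff.2 hai) (norm_pos_iff.2 hbk)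
  obtain ⟨t, hlarge, ht⟩ := ((eventually_large hδ0 hC c).and
    (eventually_ge_atTop (t₀ + i₀ + k₀))).exists
  set N : ℕ := t + c + 1 with hN
  obtain ⟨i, hiN, hi'⟩ := (Finset.range (N + 1)).exists_max_image
    (fun i : ℕ => ‖a i‖ * Real.exp (10 ^ t * i)) ⟨0, by simp⟩
  obtain ⟨k, hkN, hk'⟩ := (Finset.range (N + 1)).exists_max_image
    (fun k : ℕ => ‖b k‖ * Real.exp (10 ^ t * k)) ⟨0, by simp⟩
  set μ : ℝ := ‖a i‖ * Real.exp (10 ^ t * i) with hμ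
  set ν : ℝ := ‖b k‖ * Real.exp (10 ^ t * k) with hν
  have hμ0 : 0 ≤ μ := by positivity
  have hν0 : 0 ≤ ν := by positivity
  have hμle : ∀ j : ℕ, j ≤ t + c + 1 → ‖a j‖ * Real.exp (10 ^ t * j) ≤ μ :=
    fun j hj => hi' j (Finset.mem_range.2 (by omega))
  have hνle : ∀ j : ℕ, j ≤ t + c + 1 → ‖b j‖ * Real.exp (10 ^ t * j) ≤ ν :=
    fun j hj => hk' j (Finset.mem_range.2 (by omega))
  have h₁ := mahler_lower N (fun j => a j * (Real.exp (10 ^ t * j) : ℂ))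
    (fun j => b j * (Real.exp (10 ^ t * j) : ℂ)) (i := i) (k := k)
    (by have := Finset.mem_range.1 hiN; omega) (by have := Finset.mem_range.1 hkN; omega)
  have h₂ := main_le N (10 ^ t) _ h (herr t (by omega) a b μ ν ha hb hμ0 hν0 hμle hνle)
  have h₃ : ‖a 0‖ * ‖b 0‖ ≤ 1 := by
    have e1 : ‖a 0‖ ≤ 1 := by simpa [ps] using ha.pos 0
    have e2 : ‖b 0‖ ≤ 1 := by simpa [ps] using hb.pos 0
    exact mul_le_one₀ e1 (norm_nonneg _) e2
  have h₄ : μ * ν ≤ 4 ^ N * (1 + C * ((t : ℝ) + c + 2) ^ 2 * (μ + ν + 1)) := by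
    simp only [norm_mul, Complex.norm_real, Real.norm_eq_abs, abs_of_pos (Real.exp_pos _)] at h₁
    refine h₁.trans (mul_le_mul_of_nonneg_left (h₂.trans ?_) (by positivity))
    linarith
  set r : ℝ := Real.exp (10 ^ t) with hr
  have hlow : ∀ j : ℕ, 1 ≤ j → r ≤ Real.exp (10 ^ t * j) := fun j hj =>
    Real.exp_le_exp.2 (le_mul_of_one_le_right (by positivity) (by exact_mod_cast hj))
  have hμr : δ * r ≤ μ := (mul_le_mul (min_le_left _ _) (hlow i₀ hi) (Real.exp_pos _).le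
    (norm_nonneg _)).trans (hμle i₀ (by omega))
  have hνr : δ * r ≤ ν := (mul_le_mul (min_le_right _ _) (hlow k₀ hk) (Real.exp_pos _).le
    (norm_nonneg _)).trans (hνle k₀ (by omega))
  set G : ℝ := C * ((t : ℝ) + c + 2) ^ 2 with hG
  have hG0 : 0 ≤ G := by positivity
  have h4 : (1 : ℝ) ≤ 4 ^ N := one_le_pow₀ (by norm_num)
  have hlarge' : 4 ^ N * (1 + 3 * G) < δ * r := by
    rw [hG, ← mul_assoc 3]
    exact hlarge
  have hone : 1 ≤ δ * r := by nlinarith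
  set m : ℝ := max μ ν with hm
  have hm1 : μ ≤ m := le_max_left _ _
  have hm2 : ν ≤ m := le_max_right _ _
  have hm3 : 1 ≤ m := by linarith
  have h5 : δ * r * m ≤ μ * ν := by
    rcases le_total μ ν with hh | hh
    · rw [hm, max_eq_right hh]
      exact mul_le_mul_of_nonneg_right hμr hν0
    · rw [hm, max_eq_left hh, mul_comm μ]
      exact mul_le_mul_of_nonneg_right hνr hμ0
  have h6 : 1 + G * (μ + ν + 1) ≤ (1 + 3 * G) * m := by
    have : G * (μ + ν + 1) ≤ G * (3 * m) := mul_le_mul_of_nonneg_left (by linarith) hG0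
    nlinarith
  have h7 : 4 ^ N * (1 + 3 * G) * m < δ * r * m := mul_lt_mul_of_pos_right hlarge' (by linarith)
  have h8 := mul_le_mul_of_nonneg_left h6 (by positivity : (0 : ℝ) ≤ 4 ^ N)
  nlinarith

/-- Suppose `p + 2 ≤ q`.  Apply `domar_nat` with centre `o = p + 1`, `c = o.natAbs`,
`e l = d (o + l)`, `e' l = d (o - 1 - l)`, `a i = C⁻¹ f (o - i) exp (Φ (o - i) - Φ o)`,
`b k = C⁻¹ g (o + k) exp (Φ o - Φ (o + k))`, `i₀ = 1`, `k₀ = q - o`; reindex by `Equiv.subLeft o`. -/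
theorem domar_key {d Φ : ℤ → ℝ} (hΦ : ∀ j, Φ (j + 1) = Φ j + d j) (h0 : 1 ≤ d 0)
    (hp : ∀ j, 0 ≤ j → 100 * d j ≤ d (j + 1)) (hn : ∀ j, j ≤ 0 → 100 * d j ≤ d (j - 1))
    {f g : ℤ → ℂ} {C : ℝ} (hC : 0 < C) (hf : ∀ j, ‖f j‖ ≤ C) (hg : ∀ j, ‖g j‖ ≤ C)
    (h : ∀ n : ℕ, 1 ≤ n →
      HasSum (fun j : ℤ => f j * g (j + n) * (Real.exp (Φ j - Φ (j + n)) : ℂ)) 0)
    {p q : ℤ} (hfp : f p ≠ 0) (hgq : g q ≠ 0) : q ≤ p + 1 := by
  by_contra hq
  have hd1 : ∀ j, 1 ≤ d j := by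
    intro j
    induction j using Int.induction_on with
    | zero => exact h0
    | succ n ih => have := hp n (by omega); linarith
    | pred n ih => have := hn (-(n : ℤ)) (by omega); linarith
  set o : ℤ := p + 1 with ho
  have hps : ∀ k : ℕ, ps (fun l => d (o + l)) k = Φ (o + k) - Φ o := by
    intro k
    induction k with
    | zero => simp [ps]
    | succ k ih =>
      unfold ps at ih ⊢
      rw [Finset.sum_range_succ, ih, Nat.cast_succ, ← add_assoc, hΦ (o + k)]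
      ring
  have hps' : ∀ k : ℕ, ps (fun l => d (o - 1 - l)) k = Φ o - Φ (o - k) := by
    intro k
    induction k with
    | zero => simp [ps]
    | succ k ih =>
      unfold ps at ih ⊢
      have e := hΦ (o - 1 - k)
      have e1 : o - 1 - k + 1 = o - k := by ring
      have e2 : o - ((k + 1 : ℕ) : ℤ) = o - 1 - k := by push_cast; ring
      rw [Finset.sum_range_succ, ih, e2, ← e1, e]
      ring
  have hbd : ∀ (u : ℂ) (y : ℝ), ‖u‖ ≤ C → ‖(C⁻¹ : ℝ) * u * (Real.exp y : ℂ)‖ ≤ Real.exp y := by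
    intro u y hu
    rw [norm_mul, norm_mul, Complex.norm_real, Complex.norm_real, Real.norm_eq_abs,
      Real.norm_eq_abs, abs_of_pos (Real.exp_pos _), abs_of_pos (inv_pos.2 hC)]
    refine mul_le_of_le_one_left (Real.exp_pos _).le ?_
    rw [inv_mul_le_iff₀ hC, mul_one]
    exact hu
  have hne : ∀ (u : ℂ) (y : ℝ), u ≠ 0 → ((C⁻¹ : ℝ) : ℂ) * u * (Real.exp y : ℂ) ≠ 0 :=
    fun u y hu => mul_ne_zero (mul_ne_zero (by exact_mod_cast (inv_pos.2 hC).ne') hu)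
      (by exact_mod_cast (Real.exp_pos y).ne')
  refine domar_nat (e := fun l => d (o + l)) (e' := fun l => d (o - 1 - l)) (c := o.natAbs)
    (a := fun i => (C⁻¹ : ℝ) * f (o - i) * (Real.exp (Φ (o - i) - Φ o) : ℂ))
    (b := fun k => (C⁻¹ : ℝ) * g (o + k) * (Real.exp (Φ o - Φ (o + k)) : ℂ))
    ⟨fun l => hd1 _, fun l hl => ?_⟩ ⟨fun l => hd1 _, fun l hl => ?_⟩
    ⟨fun k => ?_, fun k => ?_⟩ ⟨fun k => ?_, fun k => ?_⟩ (fun n hn => ?_)
    (i₀ := 1) (k₀ := (q - o).toNat) le_rfl (by omega) (hne _ _ ?_) (hne _ _ ?_)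
  · rw [Nat.cast_succ, ← add_assoc]
    exact hp _ (by omega)
  · rw [Nat.cast_succ, ← sub_sub]
    exact hn _ (by omega)
  · rw [hps', neg_sub]
    exact hbd _ _ (hf _)
  · rw [hps, sub_neg_eq_add]
    exact hbd _ _ (hf _)
  · rw [hps, neg_sub]
    exact hbd _ _ (hg _)
  · rw [hps', ← sub_eq_add_neg]
    exact hbd _ _ (hg _)
  · have h1 := ((Equiv.subLeft o).hasSum_iff.2 (h n hn)).mul_left (((C⁻¹ : ℝ) : ℂ) ^ 2)
    rw [mul_zero] at h1
    refine HasSum.congr_fun h1 fun i => ?_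
    simp only [Function.comp, Equiv.subLeft_apply]
    have e : o + ((n : ℤ) - i) = o - i + n := by ring
    have e' : Φ (o - i) - Φ (o - i + n) = (Φ (o - i) - Φ o) + (Φ o - Φ (o - i + n)) := by ring
    rw [e, e', Real.exp_add]
    push_cast
    ring
  · have e : o - ((1 : ℕ) : ℤ) = p := by omega
    rwa [e]
  · have e : o + (((q - o).toNat : ℕ) : ℤ) = q := by omega
    rwa [e]

end

end Crest.Agent.R113
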