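import Crest.Agent.R113.Core
import Crest.Agent.R113.Avg

/-!
# Row 113: approximate equilibrium of the block densities
-/

open MeasureTheory Filter Topology
open scoped InnerProductSpace BigOperators ENNReal

set_option linter.unusedSectionVars false

namespace Crest.Agent.R113

noncomputable section

open Classical

namespace Sys
variable {X : Type*} [MeasurableSpace X] {S : Sys X}

theorem equi_expand {u v : X → ℝ} (hu : Bdd u) (hv : Bdd v) (a b : ℝ) :
    ∫ x, (a * u x + b * v x) ^ 2 ∂S.μ =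
      a ^ 2 * ∫ x, u x ^ 2 ∂S.μ + 2 * a * b * ∫ x, u x * v x ∂S.μ + b ^ 2 * ∫ x, v x ^ 2 ∂S.μ := by
  have h1 := ((hu.pow 2).const_mul (a ^ 2)).integrable S.μ
  have h2 := ((hu.mul hv).const_mul (2 * a * b)).integrable S.μ
  have h3 := ((hv.pow 2).const_mul (b ^ 2)).integrable S.μ
  have h12 : Integrable (fun x => a ^ 2 * u x ^ 2 + 2 * a * b * (u x * v x)) S.μ := h1.add h2
  rw [← integral_const_mul, ← integral_const_mul, ← integral_const_mul, ← integral_add h1 h2,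
    ← integral_add h12 h3]
  refine integral_congr_ae (Eventually.of_forall fun x => ?_)
  simp only
  ring

/-- monotonicity and the Lipschitz bound for the averaged densities -/
theorem equi_pair {Z : Set X} {N : ℕ} (c : S.Cut Z N) {p q q' : S.Op} {ψ₀ g g' : X → ℝ}
    (hψ₀ : Bdd ψ₀) (hg : Bdd g) (hg' : Bdd g') (bc : S.BC Z g) (bc' : S.BC Z g') {M : ℝ}
    (hM : ∀ x, |g x - g' x| ≤ M) (hq : S.Tilt (fun x => ψ₀ x + g x) p q)
    (hq' : S.Tilt (fun x => ψ₀ x + g' x) p q') :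
    ∫ x, (g x - g' x) * (S.avg Z (S.P q) x - S.avg Z (S.P q') x) ∂S.μ ≤ 0 ∧
      ∫ x, (S.avg Z (S.P q) x - S.avg Z (S.P q') x) ^ 2 ∂S.μ ≤
        2 * Real.exp M ^ 2 * ∫ x, (g x - g' x) ^ 2 ∂S.μ := by
  have hrel := Tilt.rel (hψ₀.add hg') (hψ₀.add hg) hq' hq
  have e : (fun x => Real.exp (-((ψ₀ x + g x) - (ψ₀ x + g' x)))) =
      fun x => Real.exp (-(g x - g' x)) := by
    funext x
    congr 1
    ring
  rw [e] at hrel
  have ht : S.tr q = S.tr q' := hq.2.1.trans hq'.2.1.symm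
  have hPP : Bdd fun x => S.P q x - S.P q' x := (S.bdd_P q).sub (S.bdd_P q')
  constructor
  · have h1 := Rel.mono (χ := fun x => g x - g' x) (hg.sub hg') hq'.1 hq.1 ht hrel
    have h2 := c.integral_BC_mul (g := fun x => g x - g' x) (hg.sub hg')
      (fun x hx => by simp only [bc x hx, bc' x hx]) hPP
    simp only [Cut.avg_sub] at h2
    rw [← h2]
    have h3 : ∫ x, (g x - g' x) * (S.P q x - S.P q' x) ∂S.μ =
        -∫ x, (g x - g' x) * (S.P q' x - S.P q x) ∂S.μ := by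
      rw [← integral_neg]
      refine integral_congr_ae (Eventually.of_forall fun x => ?_)
      simp only
      ring
    linarith
  · have h1 := Rel.lip_exp (χ := fun x => g x - g' x) (hg.sub hg').1 hM hq'.1 hq.1 ht hrel
    have h2 := c.integral_avg_sq_le hPP
    simp only [Cut.avg_sub] at h2
    have h3 : ∫ x, (S.P q x - S.P q' x) ^ 2 ∂S.μ = ∫ x, (S.P q' x - S.P q x) ^ 2 ∂S.μ := by
      refine integral_congr_ae (Eventually.of_forall fun x => ?_)
      simp only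
      ring
    linarith

/-- For bounded `g` choose a tilt `q g` of `p` by `ψ₀ + g` (`exists_tilt`), and iterate
`Γ g = (1 - λ η) g + λ (avg (P (q g)) - t)`, `t = tr p ∈ [0,1]`, from `g = 0`; `Γ` preserves the
bounded block constant functions with `|g| ≤ 1 / η`.  With `L² = 2 exp (2 / η)²` (`Rel.lip_exp`,
`Tilt.rel`, `integral_avg_sq_le`), monotonicity `∫ (g - g') (avg P_g - avg P_g') ≤ 0` (`Rel.mono`,
`integral_BC_mul`) and `λ = η / (η² + L²)`,
`∫ (Γ g - Γ g')² ≤ ((1 - λ η)² + λ² L²) ∫ (g - g')² = L² / (η² + L²) ∫ (g - g')²`.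
So `∫ (g_{n+1} - g_n)² → 0`, and `g_{n+1} - g_n = -λ (η g_n - (avg P - t))`. -/
theorem exists_equilibrium {Z : Set X} {N : ℕ} (c : S.Cut Z N) {p : S.Op} (hp : S.IsP p)
    {ψ₀ : X → ℝ} (hψ₀ : Bdd ψ₀) {η ε : ℝ} (hη : 0 < η) (hε : 0 < ε) :
    ∃ (g : X → ℝ) (q : S.Op), Bdd g ∧ S.BC Z g ∧ (∀ x, |g x| ≤ 1 / η) ∧
      S.Tilt (fun x => ψ₀ x + g x) p q ∧
      ∫ x, (η * g x - (S.avg Z (S.P q) x - S.tr p)) ^ 2 ∂S.μ ≤ ε ^ 2 := by
  have hQ : ∀ g : X → ℝ, ∃ q : S.Op, Bdd g → S.Tilt (fun x => ψ₀ x + g x) p q := by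
    intro g
    by_cases hg : Bdd g
    · obtain ⟨q, hq⟩ := exists_tilt (hψ₀.add hg) hp
      exact ⟨q, fun _ => hq⟩
    · exact ⟨0, fun h => absurd h hg⟩
  choose Q hQ using hQ
  obtain ⟨L, hL⟩ : ∃ L : ℝ, L = 2 * Real.exp (2 / η) ^ 2 := ⟨_, rfl⟩
  have hL0 : 0 < L := by rw [hL]; positivity
  have hden : 0 < η ^ 2 + L := by positivity
  obtain ⟨a, ha⟩ : ∃ a : ℝ, a = L / (η ^ 2 + L) := ⟨_, rfl⟩
  obtain ⟨l, hl⟩ : ∃ l : ℝ, l = η / (η ^ 2 + L) := ⟨_, rfl⟩
  have ha0 : 0 < a := by rw [ha]; positivity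
  have hl0 : 0 < l := by rw [hl]; positivity
  have ha1 : a < 1 := by
    rw [ha, div_lt_one hden]
    have : 0 < η ^ 2 := by positivity
    linarith
  have hal : a = 1 - l * η := by
    rw [ha, hl]
    field_simp
    ring
  have hκ : a ^ 2 + l ^ 2 * L = a := by
    rw [ha, hl]
    field_simp
    ring
  let A : (X → ℝ) → X → ℝ := fun g x => S.avg Z (S.P (Q g)) x - S.tr p
  have hAb : ∀ g, Bdd (A g) := fun g => (c.bdd_avg (S.bdd_P _)).sub (Bdd.const _)
  have hA1 : ∀ g x, |A g x| ≤ 1 := by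
    intro g x
    have h1 := c.abs_avg_le (h := fun x => S.P (Q g) x - S.tr p) (C := 1) (fun y => by
      have := S.P_nonneg (Q g) y
      have := S.P_le_one (Q g) y
      have := hp.tr_nonneg
      have := hp.tr_le_one
      rw [abs_le]
      constructor <;> linarith) x
    rwa [Cut.avg_sub, Cut.avg_const] at h1
  let Γ : (X → ℝ) → X → ℝ := fun g x => a * g x + l * A g x
  let Good : (X → ℝ) → Prop := fun g => Bdd g ∧ S.BC Z g ∧ ∀ x, |g x| ≤ 1 / η
  have hΓ : ∀ g, Good g → Good (Γ g) := by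
    rintro g ⟨hg, bc, hb⟩
    refine ⟨(hg.const_mul a).add ((hAb g).const_mul l), fun x hx => ?_, fun x => ?_⟩
    · simp only [Γ, A, bc x hx, c.BC_avg (S.P (Q g)) x hx]
    · have h1 : |Γ g x| ≤ a * |g x| + l * |A g x| := by
        refine (abs_add_le _ _).trans (le_of_eq ?_)
        rw [abs_mul, abs_mul, abs_of_pos ha0, abs_of_pos hl0]
      have h2 := mul_le_mul_of_nonneg_left (hb x) ha0.le
      have h3 := mul_le_mul_of_nonneg_left (hA1 g x) hl0.le
      have h4 : a * (1 / η) + l * 1 = 1 / η := by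
        rw [hal]
        field_simp
        ring
      linarith
  have hstep : ∀ g g', Good g → Good g' →
      ∫ x, (Γ g x - Γ g' x) ^ 2 ∂S.μ ≤ a * ∫ x, (g x - g' x) ^ 2 ∂S.μ := by
    rintro g g' ⟨hg, bc, hb⟩ ⟨hg', bc', hb'⟩
    have hM : ∀ x, |g x - g' x| ≤ 2 / η := by
      intro x
      have h1 := abs_sub (g x) (g' x)
      have h2 := hb x
      have h3 := hb' x
      have h4 : 2 / η = 1 / η + 1 / η := by ring
      linarith
    obtain ⟨h1, h2⟩ := equi_pair c hψ₀ hg hg' bc bc' hM (hQ g hg) (hQ g' hg')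
    have h3 := equi_expand (S := S) (hg.sub hg')
      ((c.bdd_avg (S.bdd_P (Q g))).sub (c.bdd_avg (S.bdd_P (Q g')))) a l
    have h4 : ∫ x, (Γ g x - Γ g' x) ^ 2 ∂S.μ = ∫ x, (a * (g x - g' x) +
        l * (S.avg Z (S.P (Q g)) x - S.avg Z (S.P (Q g')) x)) ^ 2 ∂S.μ := by
      refine integral_congr_ae (Eventually.of_forall fun x => ?_)
      simp only [Γ, A]
      ring
    rw [h4, h3]
    rw [← hL] at h2
    have h5 := mul_le_mul_of_nonneg_left h2 (sq_nonneg l)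
    have h6 := mul_le_mul_of_nonneg_left h1 (show 0 ≤ 2 * a * l by positivity)
    have h7 : a * ∫ x, (g x - g' x) ^ 2 ∂S.μ =
        (a ^ 2 + l ^ 2 * L) * ∫ x, (g x - g' x) ^ 2 ∂S.μ := by rw [hκ]
    rw [h7]
    linarith
  let G : ℕ → X → ℝ := fun n => Γ^[n] fun _ => 0
  have hGs : ∀ n, G (n + 1) = Γ (G n) := fun n => Function.iterate_succ_apply' _ _ _
  have hG : ∀ n, Good (G n) := by
    intro n
    induction n with
    | zero => exact ⟨Bdd.const 0, fun _ _ => rfl, fun x => by simp [G, hη.le]⟩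
    | succ n ih => rw [hGs]; exact hΓ _ ih
  have hd : ∀ n, ∫ x, (Γ (G n) x - G n x) ^ 2 ∂S.μ ≤
      a ^ n * ∫ x, (Γ (G 0) x - G 0 x) ^ 2 ∂S.μ := by
    intro n
    induction n with
    | zero => simp
    | succ n ih =>
      have h1 := hstep (Γ (G n)) (G n) (hΓ _ (hG n)) (hG n)
      rw [hGs, pow_succ]
      have h2 := mul_le_mul_of_nonneg_left ih ha0.le
      linarith
  have hlim : Tendsto (fun n => a ^ n * ∫ x, (Γ (G 0) x - G 0 x) ^ 2 ∂S.μ) atTop (𝓝 0) := by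
    simpa using (tendsto_pow_atTop_nhds_zero_of_lt_one ha0.le ha1).mul_const
      (∫ x, (Γ (G 0) x - G 0 x) ^ 2 ∂S.μ)
  obtain ⟨n, hn⟩ := (hlim.eventually (gt_mem_nhds (show 0 < l ^ 2 * ε ^ 2 by positivity))).exists
  obtain ⟨hg, bc, hb⟩ := hG n
  refine ⟨G n, Q (G n), hg, bc, hb, hQ _ hg, ?_⟩
  have h1 : ∫ x, (Γ (G n) x - G n x) ^ 2 ∂S.μ =
      l ^ 2 * ∫ x, (η * G n x - (S.avg Z (S.P (Q (G n))) x - S.tr p)) ^ 2 ∂S.μ := by
    rw [← integral_const_mul]
    refine integral_congr_ae (Eventually.of_forall fun x => ?_)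
    simp only [Γ, A]
    rw [hal]
    ring
  have h2 := (hd n).trans hn.le
  rw [h1] at h2
  exact le_of_mul_le_mul_left h2 (by positivity)

end Sys

end

end Crest.Agent.R113
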