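import Crest.Agent.R113.Blocks

/-!
# Row 113: a fixed function is almost orthogonal to the functions attached to long blocks
-/

open MeasureTheory Filter Topology
open scoped InnerProductSpace BigOperators ENNReal

set_option linter.unusedSectionVars false

namespace Crest.Agent.R113

noncomputable section

open Classical

namespace Sys
variable {X : Type*} [MeasurableSpace X] {S : Sys X}

theorem erg_memLp {h : X → ℝ} (hh : Bdd h) : MemLp h 2 S.μ := by
  obtain ⟨hm, C, hC⟩ := hh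
  exact MemLp.of_bound hm.aestronglyMeasurable C (Eventually.of_forall hC)

/-- Cauchy-Schwarz for bounded functions -/
theorem erg_cs {f g : X → ℝ} (hf : Bdd f) (hg : Bdd g) :
    |∫ x, f x * g x ∂S.μ| ≤ Real.sqrt (∫ x, f x ^ 2 ∂S.μ) * Real.sqrt (∫ x, g x ^ 2 ∂S.μ) := by
  rw [← Real.sqrt_mul (integral_nonneg fun x => sq_nonneg _)]
  refine Real.abs_le_sqrt ?_
  have h := discrim_le_zero (a := ∫ x, f x ^ 2 ∂S.μ) (b := 2 * ∫ x, f x * g x ∂S.μ)
    (c := ∫ x, g x ^ 2 ∂S.μ) fun t => by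
      have h1 : 0 ≤ ∫ x, (t * f x + g x) ^ 2 ∂S.μ := integral_nonneg fun x => sq_nonneg _
      have e : ∀ x, (t * f x + g x) ^ 2 = (t * t) * f x ^ 2 + (2 * t) * (f x * g x) + g x ^ 2 :=
        fun x => by ring
      simp only [e] at h1
      rw [integral_add (((hf.pow 2).const_mul _).add ((hf.mul hg).const_mul _) |>.integrable _)
        ((hg.pow 2).integrable _), integral_add (((hf.pow 2).const_mul _).integrable _)
        (((hf.mul hg).const_mul _).integrable _), integral_const_mul, integral_const_mul] at h1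
      linarith
  unfold discrim at h
  nlinarith

theorem erg_parts {g w : X → ℝ} (hg : Bdd g) (hw : Bdd w) :
    ∫ x, g x * (w x - w (S.σ 1 x)) ∂S.μ = ∫ x, (g (S.σ 1 x) - g x) * w (S.σ 1 x) ∂S.μ := by
  have hg1 := hg.comp (S.meas_σ 1)
  have hw1 := hw.comp (S.meas_σ 1)
  simp only [mul_sub, sub_mul]
  rw [integral_sub ((hg.mul hw).integrable _) ((hg.mul hw1).integrable _),
    integral_sub ((hg1.mul hw1).integrable _) ((hg.mul hw1).integrable _),
    S.integral_σ 1 (h := fun x => g x * w x) (hg.mul hw).meas]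

theorem erg_split {g h w r : X → ℝ} {c : ℝ} (hg : Bdd g) (hw : Bdd w) (hr : Bdd r)
    (e : ∀ x, h x - c = w x - w (S.σ 1 x) + r x) :
    |∫ x, g x * (h x - c) ∂S.μ| ≤
      |∫ x, (g (S.σ 1 x) - g x) * w (S.σ 1 x) ∂S.μ| + |∫ x, g x * r x ∂S.μ| := by
  simp only [e, mul_add]
  rw [integral_add ((hg.mul (hw.sub (hw.comp (S.meas_σ 1)))).integrable _)
    ((hg.mul hr).integrable _), erg_parts hg hw]
  exact abs_add_le _ _

/-- Mean ergodic theorem for an ergodic map (apply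
`ContinuousLinearMap.tendsto_birkhoffAverage_orthogonalProjection` to the Koopman isometry
`Lp.compMeasurePreservingₗᵢ` on `Lp ℝ 2 μ`; its fixed vectors are constant by
`Ergodic.ae_eq_const_of_ae_eq_comp_ae`). -/
theorem mean_ergodic (h0 : ∀ x, S.σ 0 x = x) (herg : Ergodic (S.σ 1) S.μ) {h : X → ℝ}
    (hh : Bdd h) {ε : ℝ} (hε : 0 < ε) :
    ∃ n : ℕ, 1 ≤ n ∧
      ∫ x, ((∑ k ∈ Finset.range n, h (S.σ k x)) / n - ∫ y, h y ∂S.μ) ^ 2 ∂S.μ ≤ ε ^ 2 := by
  set c := ∫ y, h y ∂S.μ with hc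
  have hb : ∀ k : ℤ, Bdd fun x => h (S.σ k x) - c := fun k =>
    (hh.comp (S.meas_σ k)).sub (Bdd.const c)
  let ξ : ℕ → Lp ℝ 2 S.μ := fun k => (erg_memLp (hb k)).toLp _
  have hξ : ∀ k : ℕ, ξ k =ᵐ[S.μ] fun x => h (S.σ k x) - c := fun k => MemLp.coeFn_toLp _
  let U : Lp ℝ 2 S.μ →L[ℝ] Lp ℝ 2 S.μ :=
    (Lp.compMeasurePreservingₗᵢ ℝ (S.σ 1) (S.pres 1)).toContinuousLinearMap
  have hU : ∀ η : Lp ℝ 2 S.μ, U η =ᵐ[S.μ] η ∘ S.σ 1 := fun η =>
    Lp.coeFn_compMeasurePreserving η (S.pres 1)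
  have hU1 : ‖U‖ ≤ 1 := LinearIsometry.norm_toContinuousLinearMap_le _
  have hit : ∀ k, U^[k] (ξ 0) = ξ k := by
    intro k
    induction k with
    | zero => rfl
    | succ k ih =>
      rw [Function.iterate_succ_apply', ih]
      refine Lp.ext ((hU _).trans ?_)
      filter_upwards [(S.pres 1).quasiMeasurePreserving.ae_eq_comp (hξ k), hξ (k + 1)] with x h1 h2
      rw [h1, h2, Function.comp_apply, ← S.add]
      push_cast
      rfl
  have hperp : ξ 0 ∈ (U.eqLocus (1 : Lp ℝ 2 S.μ →L[ℝ] Lp ℝ 2 S.μ))ᗮ := by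
    intro η hη
    have h1 : U η = η := hη
    obtain ⟨a, ha⟩ := herg.ae_eq_const_of_ae_eq_comp_ae (Lp.aestronglyMeasurable η)
      ((hU η).symm.trans (by rw [h1]))
    rw [L2.inner_def]
    have : ∫ x, ⟪η x, ξ 0 x⟫_ℝ ∂S.μ = ∫ x, a * (h x - c) ∂S.μ := by
      refine integral_congr_ae ?_
      filter_upwards [ha, hξ 0] with x h1 h2
      rw [h1, h2]
      simp [h0, mul_comm]
    rw [this, integral_const_mul, integral_sub (hh.integrable _) (integrable_const c)]
    simp [hc]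
  have hlim := U.tendsto_birkhoffAverage_orthogonalProjection hU1 (ξ 0)
  rw [Submodule.orthogonalProjectionOnto_eq_zero_iff.2 hperp,
    Submodule.coe_zero, tendsto_zero_iff_norm_tendsto_zero] at hlim
  obtain ⟨n, hn, hn1⟩ := ((hlim.eventually (gt_mem_nhds hε)).and (eventually_ge_atTop 1)).exists
  refine ⟨n, hn1, ?_⟩
  have hsum : ∀ m : ℕ, (∑ k ∈ Finset.range m, ξ k : Lp ℝ 2 S.μ) =ᵐ[S.μ]
      fun x => ∑ k ∈ Finset.range m, (h (S.σ k x) - c) := by
    intro m
    induction m with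
    | zero =>
      simp only [Finset.range_zero, Finset.sum_empty]
      exact Lp.coeFn_zero ℝ 2 S.μ
    | succ m ih =>
      rw [Finset.sum_range_succ]
      filter_upwards [Lp.coeFn_add (∑ k ∈ Finset.range m, ξ k) (ξ m), ih, hξ m] with x h1 h2 h3
      rw [h1, Pi.add_apply, h2, h3, Finset.sum_range_succ]
  have hn0 : (n : ℝ) ≠ 0 := by positivity
  have hav : (birkhoffAverage ℝ U id n (ξ 0) : Lp ℝ 2 S.μ) =ᵐ[S.μ]
      fun x => (∑ k ∈ Finset.range n, h (S.σ k x)) / n - c := by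
    simp only [birkhoffAverage, birkhoffSum, id, hit]
    filter_upwards [Lp.coeFn_smul (n : ℝ)⁻¹ (∑ k ∈ Finset.range n, ξ k), hsum n] with x h1 h2
    rw [h1, Pi.smul_apply, h2, Finset.sum_sub_distrib, Finset.sum_const, Finset.card_range,
      smul_eq_mul, nsmul_eq_mul]
    field_simp
  have hsq : ‖birkhoffAverage ℝ U id n (ξ 0)‖ ^ 2 =
      ∫ x, ((∑ k ∈ Finset.range n, h (S.σ k x)) / n - c) ^ 2 ∂S.μ := by
    rw [← real_inner_self_eq_norm_sq, L2.inner_def]
    refine integral_congr_ae ?_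
    filter_upwards [hav] with x h1
    rw [h1, real_inner_self_eq_norm_sq, Real.norm_eq_abs, sq_abs]
  rw [← hsq]
  exact pow_le_pow_left₀ (norm_nonneg _) hn.le 2

/-- `h - ∫ h = (w - w ∘ σ 1) + r` with `w = (1/n) ∑_{k<n} (n - 1 - k) h ∘ σ k` bounded and `r` the
error of the ergodic average. -/
theorem exists_cob (h0 : ∀ x, S.σ 0 x = x) (herg : Ergodic (S.σ 1) S.μ) {h : X → ℝ}
    (hh : Bdd h) {ε : ℝ} (hε : 0 < ε) :
    ∃ w r : X → ℝ, Bdd w ∧ Bdd r ∧ ∫ x, r x ^ 2 ∂S.μ ≤ ε ^ 2 ∧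
      ∀ x, h x - ∫ y, h y ∂S.μ = w x - w (S.σ 1 x) + r x := by
  obtain ⟨n, hn, hr⟩ := mean_ergodic h0 herg hh hε
  have hb : ∀ k : ℤ, Bdd fun x => h (S.σ k x) := fun k => hh.comp (S.meas_σ k)
  have hs : ∀ m : ℕ, Bdd fun x => ∑ k ∈ Finset.range m, h (S.σ k x) := fun m =>
    Bdd.sum (h := fun (k : ℕ) x => h (S.σ k x)) _ fun k _ => hb k
  have hw : Bdd fun x => ∑ m ∈ Finset.range n, ∑ k ∈ Finset.range m, h (S.σ k x) :=
    Bdd.sum (h := fun (m : ℕ) x => ∑ k ∈ Finset.range m, h (S.σ k x)) _ fun m _ => hs m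
  refine ⟨_, _, hw.div_const n, ((hs n).div_const n).sub (Bdd.const (∫ y, h y ∂S.μ)), hr,
    fun x => ?_⟩
  have e : ∀ m : ℕ, ∑ k ∈ Finset.range m, h (S.σ k (S.σ 1 x)) =
      ∑ k ∈ Finset.range m, h (S.σ k x) + h (S.σ m x) - h x := by
    intro m
    induction m with
    | zero => simp [h0]
    | succ m ih =>
      rw [Finset.sum_range_succ, Finset.sum_range_succ, ih, ← S.add]
      push_cast
      ring
  have hn0 : (n : ℝ) ≠ 0 := by positivity
  simp only [e, Finset.sum_sub_distrib, Finset.sum_add_distrib, Finset.sum_const,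
    Finset.card_range, nsmul_eq_mul]
  field_simp
  ring

/-- With `|w| ≤ C`: by `integral_cob`-type summation by parts
`∫ g (w - w ∘ σ 1) = ∫ (g ∘ σ 1 - g) (w ∘ σ 1)`, and `g ∘ σ 1 - g` vanishes off `Z`, so this is at most
`2 C ‖g‖₂ √(μ Z)`.  For `D`: `∫ D = 0` (`integral_D_BC`), `D ∘ σ 1 - D = 2` off `Z`, `|D| ≤ N`. -/
theorem erg_small (h0 : ∀ x, S.σ 0 x = x) (herg : Ergodic (S.σ 1) S.μ) {h : X → ℝ}
    (hh : Bdd h) {ε : ℝ} (hε : 0 < ε) :
    ∃ δ : ℝ, 0 < δ ∧ ∃ C : ℝ, ∀ (Z : Set X) (N : ℕ), S.Cut Z N → S.μ.real Z ≤ δ →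
      (∀ g : X → ℝ, Bdd g → S.BC Z g →
        |∫ x, g x * (h x - ∫ y, h y ∂S.μ) ∂S.μ| ≤ ε * Real.sqrt (∫ x, g x ^ 2 ∂S.μ)) ∧
      |∫ x, S.D Z x * h x ∂S.μ| ≤ ε * N + C := by
  obtain ⟨w, r, hw, hr, hr2, e⟩ := exists_cob h0 herg hh (half_pos hε)
  obtain ⟨C, hC0, hC⟩ := hw.exists_pos
  have hw1 := hw.comp (S.meas_σ 1)
  have hr3 : Real.sqrt (∫ x, r x ^ 2 ∂S.μ) ≤ ε / 2 := Real.sqrt_le_iff.2 ⟨by positivity, hr2⟩
  refine ⟨min ((ε / (4 * C)) ^ 2) (ε / (4 * C)), by positivity, 2 * C, fun Z N c hZ => ⟨?_, ?_⟩⟩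
  · intro g hg hBC
    have hg1 := hg.comp (S.meas_σ 1)
    have hi : Bdd (Z.indicator fun x => w (S.σ 1 x)) := hw1.indicator c.meas
    have h1 : ∫ x, (g (S.σ 1 x) - g x) * w (S.σ 1 x) ∂S.μ =
        ∫ x, g (S.σ 1 x) * Z.indicator (fun x => w (S.σ 1 x)) x ∂S.μ -
          ∫ x, g x * Z.indicator (fun x => w (S.σ 1 x)) x ∂S.μ := by
      rw [← integral_sub ((hg1.mul hi).integrable _) ((hg.mul hi).integrable _)]
      refine integral_congr_ae (Eventually.of_forall fun x => ?_)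
      by_cases hx : x ∈ Z
      · simp only [Set.indicator_of_mem hx]; ring
      · simp [Set.indicator_of_notMem hx, hBC x hx]
    have h2 : Real.sqrt (∫ x, Z.indicator (fun x => w (S.σ 1 x)) x ^ 2 ∂S.μ) ≤ ε / 4 := by
      refine Real.sqrt_le_iff.2 ⟨by positivity, ?_⟩
      calc _ ≤ ∫ x, Z.indicator (fun _ => C ^ 2) x ∂S.μ := by
            refine integral_mono ((hi.pow 2).integrable _)
              (((Bdd.const _).indicator c.meas).integrable _) fun x => ?_
            by_cases hx : x ∈ Z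
            · simp only [Set.indicator_of_mem hx]
              exact sq_le_sq' (abs_le.1 (hC _)).1 (abs_le.1 (hC _)).2
            · simp [Set.indicator_of_notMem hx]
        _ = S.μ.real Z * C ^ 2 := by rw [integral_indicator_const _ c.meas, smul_eq_mul]
        _ ≤ (ε / (4 * C)) ^ 2 * C ^ 2 :=
            mul_le_mul_of_nonneg_right (hZ.trans (min_le_left _ _)) (by positivity)
        _ = (ε / 4) ^ 2 := by field_simp
    have h3 := erg_cs (S := S) hg1 hi
    have h4 := erg_cs (S := S) hg hi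
    have h5 := erg_cs (S := S) hg hr
    rw [S.integral_σ 1 (h := fun x => g x ^ 2) (hg.pow 2).meas] at h3
    have h6 := erg_split hg hw hr e
    rw [h1] at h6
    have h7 := abs_sub (∫ x, g (S.σ 1 x) * Z.indicator (fun x => w (S.σ 1 x)) x ∂S.μ)
      (∫ x, g x * Z.indicator (fun x => w (S.σ 1 x)) x ∂S.μ)
    have hG := Real.sqrt_nonneg (∫ x, g x ^ 2 ∂S.μ)
    have h8 := mul_le_mul_of_nonneg_left h2 hG
    have h9 := mul_le_mul_of_nonneg_left hr3 hG
    linarith
  · have hD := c.bdd_D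
    have hD1 := hD.comp (S.meas_σ 1)
    have h1 : ∫ x, S.D Z x * h x ∂S.μ = ∫ x, S.D Z x * (h x - ∫ y, h y ∂S.μ) ∂S.μ := by
      simp only [mul_sub]
      rw [integral_sub ((hD.mul hh).integrable _) ((hD.mul (Bdd.const _)).integrable _),
        c.integral_D_BC (Bdd.const _) fun _ _ => rfl, sub_zero]
    have h2 : |∫ x, (S.D Z (S.σ 1 x) - S.D Z x) * w (S.σ 1 x) ∂S.μ| ≤
        2 * C + S.μ.real Z * (2 * N * C) := by
      calc _ ≤ ∫ x, |(S.D Z (S.σ 1 x) - S.D Z x) * w (S.σ 1 x)| ∂S.μ := abs_integral_le_integral_abs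
        _ ≤ ∫ x, (2 * C + Z.indicator (fun _ => 2 * N * C) x) ∂S.μ := by
            refine integral_mono (((hD1.sub hD).mul hw1).abs.integrable _)
              (((Bdd.const _).add ((Bdd.const _).indicator c.meas)).integrable _) fun x => ?_
            have a0 : |w (S.σ 1 x)| ≤ C := hC _
            simp only [abs_mul]
            by_cases hx : x ∈ Z
            · rw [Set.indicator_of_mem hx]
              have a1 := c.abs_D_le x
              have a2 := c.abs_D_le (S.σ 1 x)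
              have a3 := abs_sub (S.D Z (S.σ 1 x)) (S.D Z x)
              have a4 := mul_le_mul (show |S.D Z (S.σ 1 x) - S.D Z x| ≤ 2 * N by linarith) a0
                (abs_nonneg _) (by positivity)
              linarith
            · rw [Set.indicator_of_notMem hx, c.D_succ hx, add_sub_cancel_left, abs_two]
              linarith
        _ = _ := by
            rw [integral_add (integrable_const _) (((Bdd.const _).indicator c.meas).integrable _),
              integral_indicator_const _ c.meas]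
            simp
    have h3 : Real.sqrt (∫ x, S.D Z x ^ 2 ∂S.μ) ≤ N := by
      refine Real.sqrt_le_iff.2 ⟨by positivity, ?_⟩
      calc _ ≤ ∫ _x, (N : ℝ) ^ 2 ∂S.μ :=
            integral_mono ((hD.pow 2).integrable _) (integrable_const _) fun x =>
              sq_le_sq' (abs_le.1 (c.abs_D_le x)).1 (abs_le.1 (c.abs_D_le x)).2
        _ = _ := by simp
    have h4 := (erg_cs (S := S) hD hr).trans
      (mul_le_mul h3 hr3 (Real.sqrt_nonneg _) (Nat.cast_nonneg _))
    have h5 := erg_split hD hw hr e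
    have h6 : S.μ.real Z * (2 * N * C) ≤ ε / 2 * N :=
      calc _ ≤ ε / (4 * C) * (2 * N * C) :=
            mul_le_mul_of_nonneg_right (hZ.trans (min_le_right _ _)) (by positivity)
        _ = _ := by field_simp; ring
    rw [h1]
    linarith

end Sys

end

end Crest.Agent.R113
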