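import Crest.Agent.R113.Core
import Crest.Agent.R113.Avg

/-!
# Row 113: consequences of the covariance for a tilted invariant projection
-/

open MeasureTheory Filter Topology
open scoped InnerProductSpace BigOperators ENNReal

set_option linter.unusedSectionVars false

namespace Crest.Agent.R113

noncomputable section

open Classical

namespace Lev
variable {X : Type*} [MeasurableSpace X] {S : Sys X} (Λ : Lev S)

theorem cut (i : ℕ) : S.Cut (Λ.Z i) (3 * Λ.B i) := ⟨Λ.zero, Λ.Z_meas i, Λ.synd i⟩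

theorem bdd_f : Bdd Λ.f := Bdd.of_mem_Icc Λ.f_meas Λ.f_nonneg Λ.f_le_one

/-- the unit in which tilts at level `m` are measured -/
def W (m : ℕ) : ℝ := ((m : ℝ) + 1) * Λ.B m * (Λ.s m + Λ.B m + 1)

/-- the cost truncated at height `s m` -/
def low (m : ℕ) (x : X) : ℝ := -Real.log (max (Λ.f x) (Real.exp (-Λ.s m)))

/-- the tilt which removes the low costs and adds the slope `v / B m` along the blocks -/
def base (m : ℕ) (v : ℝ) (x : X) : ℝ :=
  -S.cum (Λ.Z m) (Λ.low m) x + v * S.D (Λ.Z m) x / (2 * Λ.B m)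

theorem B_pow_le {i j : ℕ} (h : i ≤ j) : (2 : ℝ) ^ (j - i) * Λ.B i ≤ Λ.B j := by
  induction j, h using Nat.le_induction with
  | base => simp
  | succ j h ih =>
    have h1 : (2 : ℝ) * Λ.B j ≤ Λ.B (j + 1) := by exact_mod_cast Λ.B_grow j
    rw [Nat.succ_sub h, pow_succ]
    linarith

theorem level_one_le_B (m : ℕ) : (1 : ℝ) ≤ Λ.B m := by exact_mod_cast Λ.B_pos m

theorem W_mono : Monotone Λ.W := by
  refine monotone_nat_of_le_succ fun m => ?_
  have h1 : (2 : ℝ) * Λ.B m ≤ Λ.B (m + 1) := by exact_mod_cast Λ.B_grow m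
  have h2 := Λ.level_one_le_B m
  have h3 := Λ.s_nonneg m
  have h4 := Λ.s_mono (Nat.le_succ m)
  have h5 : (Λ.B m : ℝ) ≤ Λ.B (m + 1) := by linarith
  unfold W
  push_cast
  refine mul_le_mul (mul_le_mul (by linarith) h5 (by positivity) (by positivity)) ?_ (by positivity)
    (by positivity)
  exact add_le_add (add_le_add h4 h5) le_rfl

theorem two_le_W (m : ℕ) : 2 ≤ Λ.W m := by
  have h2 := Λ.level_one_le_B m
  have h3 := Λ.s_nonneg m
  have h4 : (0 : ℝ) ≤ m := Nat.cast_nonneg m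
  have h5 : (1 : ℝ) ≤ ((m : ℝ) + 1) * Λ.B m := by nlinarith
  unfold W
  nlinarith

theorem level_Bs_le (m : ℕ) : (Λ.B m : ℝ) * Λ.s m ≤ Λ.W m := by
  have h2 := Λ.level_one_le_B m
  have h3 := Λ.s_nonneg m
  have h4 : (0 : ℝ) ≤ m := Nat.cast_nonneg m
  unfold W
  have h5 : (Λ.B m : ℝ) * Λ.s m ≤ Λ.B m * (Λ.s m + Λ.B m + 1) := by nlinarith
  have h6 : 0 ≤ (m : ℝ) * (Λ.B m * (Λ.s m + Λ.B m + 1)) := by positivity
  nlinarith

theorem level_c_ge (m : ℕ) : 100 * Λ.W m ≤ Λ.c m := by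
  have := Λ.c_big m
  unfold W
  linarith

theorem low_nonneg (m : ℕ) (x : X) : 0 ≤ Λ.low m x := by
  unfold low
  rw [neg_nonneg]
  refine Real.log_nonpos (le_max_of_le_right (Real.exp_pos _).le) (max_le (Λ.f_le_one x) ?_)
  rw [Real.exp_le_one_iff]
  linarith [Λ.s_nonneg m]

theorem low_le (m : ℕ) (x : X) : Λ.low m x ≤ Λ.s m := by
  unfold low
  have := Real.log_le_log (Real.exp_pos (-Λ.s m)) (le_max_right (Λ.f x) _)
  rw [Real.log_exp] at this
  linarith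

theorem bdd_low (m : ℕ) : Bdd (Λ.low m) := by
  exact Bdd.of_mem_Icc (Λ.f_meas.max measurable_const).log.neg (Λ.low_nonneg m) (Λ.low_le m)

theorem bdd_base (m : ℕ) (v : ℝ) : Bdd (Λ.base m v) := by
  exact ((Λ.cut m).bdd_cum (Λ.bdd_low m)).neg.add (((Λ.cut m).bdd_D.const_mul v).div_const _)

theorem abs_base_add_le (m : ℕ) {v V : ℝ} (hv0 : 0 ≤ v) (hv : v ≤ 2 * V) (hV : V ≤ 4 * Λ.W m)
    {g : X → ℝ} (hg : ∀ x, |g x| ≤ V) (x : X) : |Λ.base m v x + g x| ≤ 20 * Λ.W m := by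
  have hB := Λ.level_one_le_B m
  have h1 : 0 ≤ S.cum (Λ.Z m) (Λ.low m) x := Sys.Cut.cum_nonneg (Λ.low_nonneg m) x
  have h2 := (Λ.cut m).cum_le (Λ.s_nonneg m) (Λ.low_le m) x
  have h3 := (Λ.cut m).abs_D_le x
  push_cast at h2 h3
  have h4 : |v * S.D (Λ.Z m) x / (2 * Λ.B m)| ≤ 3 / 2 * v := by
    rw [abs_div, abs_mul, abs_of_nonneg hv0, abs_of_pos (by positivity : (0 : ℝ) < 2 * Λ.B m),
      div_le_iff₀ (by positivity)]
    have := mul_le_mul_of_nonneg_left h3 hv0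
    linarith
  have h5 := Λ.level_Bs_le m
  have h6 := abs_le.1 h4
  have h7 := abs_le.1 (hg x)
  have h8 := Λ.two_le_W m
  unfold base
  rw [abs_le]
  constructor <;> linarith [h6.1, h6.2, h7.1, h7.2]

theorem level_exp_low (m : ℕ) (x : X) :
    Λ.f x * Real.exp (Λ.low m x) = Λ.f x / max (Λ.f x) (Real.exp (-Λ.s m)) := by
  unfold low
  rw [Real.exp_neg, Real.exp_log (lt_max_of_lt_right (Real.exp_pos _)), div_eq_mul_inv]

/-- By `Tilt.rel_cj` with `n = 1` and `Rel.const_mul`, `Rel w q (cj 1 q)` for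
`w = exp (v / B m) exp (-ψ ∘ σ 1) f exp ψ`.  Off `Z m`, `w = f exp (low) ≤ 1`, with equality off
`E m` (`cum_succ`, `D_succ`); on `Z m`, `log w ≤ 8 W - c m + 40 W ≤ 0`.  Apply `Rel.contr` with `h` the
indicator of `{x ∉ Z, x ∉ E, P q (σ 1 x) < P q x}` and `IsP.P_cj`. -/
theorem P_mono {p : S.Op} (hp : S.IsP p) (hinv : (1 - p) * (S.U 1 * S.L Λ.f) * p = 0) (m : ℕ)
    {v V : ℝ} (hv0 : 0 ≤ v) (hv : v ≤ 2 * V) (hV : V ≤ 4 * Λ.W m) {g : X → ℝ} (hgb : Bdd g)
    (hBC : S.BC (Λ.Z m) g) (hg : ∀ x, |g x| ≤ V) {q : S.Op}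
    (ht : S.Tilt (fun x => Λ.base m v x + g x) p q) :
    ∀ᵐ x ∂S.μ, x ∉ Λ.Z m → x ∉ Λ.E m → S.P q x ≤ S.P q (S.σ 1 x) := by
  have hB := Λ.level_one_le_B m
  have hc := Λ.cut m
  have hψ : Bdd fun x => Λ.base m v x + g x := (Λ.bdd_base m v).add hgb
  have hb := Λ.abs_base_add_le m hv0 hv hV hg
  obtain ⟨ψ, hψd⟩ : ∃ ψ : X → ℝ, ψ = fun x => Λ.base m v x + g x := ⟨_, rfl⟩
  have hψx : ∀ x, ψ x = Λ.base m v x + g x := fun x => by rw [hψd]
  rw [← hψd] at hψ ht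
  simp only [← hψx] at hb
  have hq := ht.1
  have hR : Bdd fun x => Real.exp (-ψ (S.σ (1 : ℕ) x)) * (S.wt Λ.f 1 x * Real.exp (ψ x)) :=
    (hψ.comp (S.meas_σ _)).neg.exp.mul ((S.bdd_wt Λ.bdd_f 1).mul hψ.exp)
  have hrel := (ht.rel_cj Λ.bdd_f hψ hinv 1).const_mul hR (Real.exp (v / Λ.B m))
  have hw := hR.const_mul (Real.exp (v / Λ.B m))
  obtain ⟨w, hwd⟩ : ∃ w : X → ℝ, w = fun x => Real.exp (v / Λ.B m) *
    (Real.exp (-ψ (S.σ (1 : ℕ) x)) * (S.wt Λ.f 1 x * Real.exp (ψ x))) := ⟨_, rfl⟩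
  rw [← hwd] at hrel hw
  have hwx : ∀ x, w x = Λ.f x * Real.exp (v / Λ.B m - ψ (S.σ 1 x) + ψ x) := by
    intro x
    rw [hwd]
    simp only [Sys.wt, Finset.prod_range_one, Nat.cast_zero, Nat.cast_one, Λ.zero]
    rw [sub_eq_add_neg, Real.exp_add, Real.exp_add]
    ring
  have hoff : ∀ x, x ∉ Λ.Z m → w x = Λ.f x / max (Λ.f x) (Real.exp (-Λ.s m)) := by
    intro x hx
    rw [hwx, ← Λ.level_exp_low]
    congr 2
    rw [hψx, hψx, hBC x hx]
    unfold base
    rw [hc.cum_succ _ hx, hc.D_succ hx]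
    field_simp
    ring
  have hw0 : ∀ x, 0 ≤ w x := fun x => by
    rw [hwx]; exact mul_nonneg (Λ.f_nonneg x) (Real.exp_pos _).le
  have hw1 : ∀ x, w x ≤ 1 := by
    intro x
    by_cases hx : x ∈ Λ.Z m
    · rw [hwx]
      refine (mul_le_mul_of_nonneg_right (Λ.f_Z m x hx) (Real.exp_pos _).le).trans ?_
      rw [← Real.exp_add, Real.exp_le_one_iff]
      have h1 : v / Λ.B m ≤ v := div_le_self hv0 hB
      have h2 := abs_le.1 (hb x)
      have h3 := abs_le.1 (hb (S.σ 1 x))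
      have h4 := Λ.level_c_ge m
      have h5 := Λ.two_le_W m
      linarith [h2.2, h3.1]
    · rw [hoff x hx, div_le_one (lt_max_of_lt_right (Real.exp_pos _))]
      exact le_max_left _ _
  have hweq : ∀ x, x ∉ Λ.Z m → x ∉ Λ.E m → w x = 1 := by
    intro x hx hx'
    have h1 := Λ.f_off m x hx hx'
    rw [hoff x hx, max_eq_left h1, div_self (lt_of_lt_of_le (Real.exp_pos _) h1).ne']
  have hP := S.bdd_P q
  have hP1 : Bdd fun x => S.P q (S.σ 1 x) := hP.comp (S.meas_σ 1)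
  obtain ⟨G, hG⟩ : ∃ G : Set X, G = {x | x ∉ Λ.Z m ∧ x ∉ Λ.E m ∧ S.P q (S.σ 1 x) < S.P q x} :=
    ⟨_, rfl⟩
  have hGm : MeasurableSet G := by
    rw [hG]
    exact (Λ.Z_meas m).compl.inter ((Λ.E_meas m).compl.inter (measurableSet_lt hP1.meas hP.meas))
  have hh : Bdd (G.indicator fun _ => (1 : ℝ)) := (Bdd.const 1).indicator hGm
  have hh0 : ∀ x, 0 ≤ G.indicator (fun _ => (1 : ℝ)) x :=
    fun x => Set.indicator_nonneg (fun _ _ => zero_le_one) x
  have key := hrel.contr hw hw0 hw1 hh hh0 hq (hq.cj _)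
  have hl : 0 ≤ S.lk q fun p => (1 - w (S.σ p.2 p.1) ^ 2) *
      (w p.1 ^ 2 * G.indicator (fun _ => (1 : ℝ)) p.1) := by
    refine S.lk_nonneg q fun p => mul_nonneg ?_ (mul_nonneg (sq_nonneg _) (hh0 _))
    have := pow_le_one₀ (n := 2) (hw0 (S.σ p.2 p.1)) (hw1 _)
    linarith
  have e1 : ∫ x, G.indicator (fun _ => (1 : ℝ)) x * w x ^ 2 * S.P q x ∂S.μ =
      ∫ x, G.indicator (fun _ => (1 : ℝ)) x * S.P q x ∂S.μ := by
    congr 1
    funext x
    by_cases hx : x ∈ G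
    · have hx' := hx
      rw [hG] at hx'
      rw [hweq x hx'.1 hx'.2.1]
      ring
    · simp [Set.indicator_of_notMem hx]
  have e2 : ∫ x, G.indicator (fun _ => (1 : ℝ)) x * S.P (S.cj (1 : ℕ) q) x ∂S.μ =
      ∫ x, G.indicator (fun _ => (1 : ℝ)) x * S.P q (S.σ 1 x) ∂S.μ := by
    refine integral_congr_ae ?_
    filter_upwards [hq.P_cj ((1 : ℕ) : ℤ)] with x hx
    rw [hx, Nat.cast_one]
  have hnn : ∀ x, 0 ≤ G.indicator (fun _ => (1 : ℝ)) x * S.P q x -
      G.indicator (fun _ => (1 : ℝ)) x * S.P q (S.σ 1 x) := by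
    intro x
    by_cases hx : x ∈ G
    · rw [Set.indicator_of_mem hx]
      rw [hG] at hx
      linarith [hx.2.2]
    · simp [Set.indicator_of_notMem hx]
  have hi1 := (hh.mul hP).integrable S.μ
  have hi2 := (hh.mul hP1).integrable S.μ
  have hz : ∫ x, (G.indicator (fun _ => (1 : ℝ)) x * S.P q x -
      G.indicator (fun _ => (1 : ℝ)) x * S.P q (S.σ 1 x)) ∂S.μ = 0 := by
    refine le_antisymm ?_ (integral_nonneg hnn)
    rw [integral_sub hi1 hi2]
    linarith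
  rw [integral_eq_zero_iff_of_nonneg hnn (hi1.sub hi2)] at hz
  filter_upwards [hz] with x hx hxZ hxE
  by_contra hlt
  have hxG : x ∈ G := by rw [hG]; exact ⟨hxZ, hxE, not_le.1 hlt⟩
  rw [Set.indicator_of_mem hxG, Pi.zero_apply] at hx
  linarith [not_le.1 hlt]

theorem level_sum_ind {t N : ℕ} (h : t ≤ N) :
    ∑ n ∈ Finset.range N, (if t < n + 1 then (1 : ℝ) else 0) = N - t := by
  induction N, h using Nat.le_induction with
  | base =>
    rw [sub_self]
    refine Finset.sum_eq_zero fun n hn => if_neg ?_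
    have := Finset.mem_range.1 hn
    omega
  | succ N h ih =>
    rw [Finset.sum_range_succ, ih, if_pos (by omega)]
    push_cast
    ring

theorem level_sum_sep {t t' N : ℕ} (h : t ≤ N) (h' : t' ≤ N) :
    ∑ n ∈ Finset.range N, (if (t' < n + 1 ↔ t < n + 1) then (0 : ℝ) else 1) = |(t : ℝ) - t'| := by
  wlog hle : t ≤ t' generalizing t t'
  · rw [abs_sub_comm, ← this h' h (by omega)]
    refine Finset.sum_congr rfl fun n _ => ?_
    simp only [iff_comm]
  have e : ∀ n ∈ Finset.range N, (if (t' < n + 1 ↔ t < n + 1) then (0 : ℝ) else 1) =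
      (if t < n + 1 then (1 : ℝ) else 0) - (if t' < n + 1 then (1 : ℝ) else 0) := by
    intro n _
    by_cases h1 : t' < n + 1
    · have h2 : t < n + 1 := by omega
      simp [h1, h2]
    · by_cases h2 : t < n + 1 <;> simp [h1, h2]
  have hle' : (t : ℝ) ≤ t' := by exact_mod_cast hle
  rw [Finset.sum_congr rfl e, Finset.sum_sub_distrib, level_sum_ind h, level_sum_ind h',
    abs_of_nonpos (by linarith)]
  ring

theorem level_wt_le (n : ℕ) (x : X) {k : ℕ} (hk : k < n) : S.wt Λ.f n x ≤ Λ.f (S.σ k x) := by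
  unfold Sys.wt
  rw [← Finset.mul_prod_erase _ _ (Finset.mem_range.2 hk)]
  refine mul_le_of_le_one_right (Λ.f_nonneg _) ?_
  exact Finset.prod_le_one (fun _ _ => Λ.f_nonneg _) fun _ _ => Λ.f_le_one _

theorem level_step {p : S.Op} (hinv : (1 - p) * (S.U 1 * S.L Λ.f) * p = 0) {m i : ℕ}
    (hmi : m ≤ i) {ψ : X → ℝ} (hψ : Bdd ψ) (hb : ∀ x, |ψ x| ≤ 20 * Λ.W m) {q : S.Op}
    (ht : S.Tilt ψ p q) {n : ℕ} (hn : n ≤ 3 * Λ.B i) :
    S.lk q (fun y => if (S.tp (Λ.Z i) (S.σ y.2 y.1) < n ↔ S.tp (Λ.Z i) y.1 < n) then 0 else 1) ≤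
      3 * (∫ x, ((if S.tp (Λ.Z i) x < n then (1 : ℝ) else 0) -
        (if S.tm (Λ.Z i) x < n then (1 : ℝ) else 0)) * S.P q x ∂S.μ + 3 / 2 ^ i) := by
  have hB := Λ.level_one_le_B i
  have hc := Λ.cut i
  have hq := ht.1
  have hR : Bdd fun x => Real.exp (-ψ (S.σ n x)) * (S.wt Λ.f n x * Real.exp (ψ x)) :=
    (hψ.comp (S.meas_σ _)).neg.exp.mul ((S.bdd_wt Λ.bdd_f n).mul hψ.exp)
  have hwt0 : ∀ x, 0 ≤ S.wt Λ.f n x := fun x => Finset.prod_nonneg fun _ _ => Λ.f_nonneg _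
  have hA : MeasurableSet {x | S.tp (Λ.Z i) x < n} := measurableSet_lt hc.meas_tp measurable_const
  have hA' : MeasurableSet {x | S.tm (Λ.Z i) x < n} := measurableSet_lt hc.meas_tm measurable_const
  have hBm : MeasurableSet (⋃ k ∈ Finset.range n, S.σ k ⁻¹' Λ.E i) :=
    Finset.measurableSet_biUnion _ fun k _ => S.meas_σ k (Λ.E_meas i)
  have hnR : (n : ℝ) ≤ 3 * Λ.B i := by exact_mod_cast hn
  have key := (ht.rel_cj Λ.bdd_f hψ hinv n).core_sep hR
    (fun x => mul_nonneg (Real.exp_pos _).le (mul_nonneg (hwt0 x) (Real.exp_pos _).le))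
    (Real.exp_pos (-(3 * Λ.B i * Λ.s i + 40 * Λ.W m))) hA hBm (fun x hx => ?_) (fun x hx hx' => ?_)
    hq (hq.cj _) (hq.tr_cj _)
  · refine le_trans (le_of_eq ?_)
      (key.trans (mul_le_mul_of_nonneg_left (add_le_add (le_of_eq ?_) ?_) (by norm_num)))
    · congr 1
      funext y
      by_cases h : S.tp (Λ.Z i) (S.σ y.2 y.1) < n ↔ S.tp (Λ.Z i) y.1 < n
      · rw [if_pos h, if_pos (by exact h)]
      · rw [if_neg h, if_neg (by exact h)]
    · have hP := S.bdd_P q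
      have b1 : Bdd fun x => (if S.tp (Λ.Z i) x < n then (1 : ℝ) else 0) :=
        Bdd.ite hA (Bdd.const 1) (Bdd.const 0)
      have b2 : Bdd fun x => (if S.tm (Λ.Z i) x < n then (1 : ℝ) else 0) :=
        Bdd.ite hA' (Bdd.const 1) (Bdd.const 0)
      have e1 := S.integral_σ n (b2.mul hP).meas
      simp only [sub_mul]
      rw [integral_sub ((b1.mul hP).integrable _) ((b2.mul hP).integrable _), ← e1,
        ← integral_sub ((b1.mul hP).integrable _)
          (((b2.mul hP).comp (S.meas_σ n)).integrable _)]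
      refine integral_congr_ae ?_
      filter_upwards [hq.P_cj (n : ℤ)] with x hx
      have e2 : S.tm (Λ.Z i) (S.σ n x) < n ↔ S.tp (Λ.Z i) x < n := by
        rw [hc.tm_lt_iff_tp, ← S.add, neg_add_cancel, Λ.zero]
      by_cases h : S.tp (Λ.Z i) x < n
      · rw [Set.indicator_of_mem (by exact h), hx, if_pos h, if_pos (e2.2 h)]
        ring
      · rw [Set.indicator_of_notMem (by exact h), if_neg h, if_neg (fun h' => h (e2.1 h'))]
        ring
    · refine (measureReal_biUnion_finset_le _ _).trans ?_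
      have e : ∀ k ∈ Finset.range n, S.μ.real (S.σ k ⁻¹' Λ.E i) = S.μ.real (Λ.E i) := by
        intro k _
        rw [measureReal_def, (S.pres k).measure_preimage (Λ.E_meas i).nullMeasurableSet,
          measureReal_def]
      rw [Finset.sum_congr rfl e, Finset.sum_const, Finset.card_range, nsmul_eq_mul]
      have h1 := mul_le_mul hnR (Λ.E_small i) measureReal_nonneg (by positivity)
      refine h1.trans (le_of_eq ?_)
      field_simp
  · obtain ⟨k, hk, hkZ⟩ := (hc.tp_lt_iff x n).1 hx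
    have h1 := (Λ.level_wt_le n x hk).trans (Λ.f_Z i _ hkZ)
    have h2 : Real.exp (-ψ (S.σ n x)) * (S.wt Λ.f n x * Real.exp (ψ x)) ≤
        Real.exp (-ψ (S.σ n x)) * (Real.exp (-Λ.c i) * Real.exp (ψ x)) := by gcongr
    refine h2.trans ?_
    rw [← Real.exp_add, ← Real.exp_add, ← Real.exp_add, Real.exp_le_exp]
    have h3 := abs_le.1 (hb x)
    have h4 := abs_le.1 (hb (S.σ n x))
    have h5 := Λ.level_c_ge i
    have h6 := Λ.two_le_W i
    have h7 := Λ.W_mono hmi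
    have h8 := Λ.level_Bs_le i
    linarith [h3.2, h4.1]
  · have h1 : Real.exp (-(3 * Λ.B i * Λ.s i)) ≤ S.wt Λ.f n x := by
      have h2 : ∏ _k ∈ Finset.range n, Real.exp (-Λ.s i) ≤ S.wt Λ.f n x := by
        refine Finset.prod_le_prod (fun _ _ => (Real.exp_pos _).le) fun k hk => Λ.f_off i _ ?_ ?_
        · exact fun h => hx ((hc.tp_lt_iff x n).2 ⟨k, Finset.mem_range.1 hk, h⟩)
        · exact fun h => hx' (Set.mem_biUnion hk h)
      refine le_trans ?_ h2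
      rw [Finset.prod_const, Finset.card_range, ← Real.exp_nat_mul, Real.exp_le_exp]
      have := mul_le_mul_of_nonneg_right hnR (Λ.s_nonneg i)
      linarith
    have h2 : Real.exp (-ψ (S.σ n x)) * (Real.exp (-(3 * Λ.B i * Λ.s i)) * Real.exp (ψ x)) ≤
        Real.exp (-ψ (S.σ n x)) * (S.wt Λ.f n x * Real.exp (ψ x)) := by gcongr
    refine le_trans ?_ h2
    rw [← Real.exp_add, ← Real.exp_add, Real.exp_le_exp]
    have h3 := abs_le.1 (hb x)
    have h4 := abs_le.1 (hb (S.σ n x))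
    linarith [h3.1, h4.2]

/-- For `n = 1, …, N = 3 B i` apply `Rel.core_sep` to `Tilt.rel_cj … n` with `A = {tp < n}`,
`B = ⋃_{k<n} σ k ⁻¹' E i` (measure `≤ N μ (E i)`), `ρ = exp (-(N s i + 40 W m))`: on `A` the weight
is at most `exp (40 W m - c i)`.  `∫_A P (cj n q) = ∫_{tm < n} P q` (`IsP.P_cj`, `tm_lt_iff_tp`,
`integral_σ`).  Sum over `n`: `∑_n 1[tp < n] = N - tp`, and the indicators of separation add up to
`|tp x - tp x'|`. -/
theorem level {p : S.Op} (hp : S.IsP p) (hinv : (1 - p) * (S.U 1 * S.L Λ.f) * p = 0) {m i : ℕ}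
    (hmi : m ≤ i) {ψ : X → ℝ} (hψ : Bdd ψ) (hb : ∀ x, |ψ x| ≤ 20 * Λ.W m) {q : S.Op}
    (ht : S.Tilt ψ p q) :
    S.lk q (fun y => |(S.tp (Λ.Z i) y.1 : ℝ) - S.tp (Λ.Z i) (S.σ y.2 y.1)| / Λ.B i) ≤
      3 * ((∫ x, S.D (Λ.Z i) x * S.P q x ∂S.μ) / Λ.B i) + 27 / 2 ^ i := by
  have hB := Λ.level_one_le_B i
  have hc := Λ.cut i
  have hP := S.bdd_P q
  have hA : ∀ n, MeasurableSet {x | S.tp (Λ.Z i) x < n} := fun n =>
    measurableSet_lt hc.meas_tp measurable_const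
  have hA' : ∀ n, MeasurableSet {x | S.tm (Λ.Z i) x < n} := fun n =>
    measurableSet_lt hc.meas_tm measurable_const
  have h1 := Finset.sum_le_sum (s := Finset.range (3 * Λ.B i)) fun n hn =>
    Λ.level_step hinv hmi hψ hb ht (n := n + 1) (Finset.mem_range.1 hn)
  rw [← S.lk_sum q _ fun n _ => Bdd.ite ?_ (Bdd.const 0) (Bdd.const 1), ← Finset.mul_sum,
    Finset.sum_add_distrib, ← integral_finsetSum _ fun n _ => ?_, Finset.sum_const, Finset.card_range,
    nsmul_eq_mul] at h1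
  · have e1 : (fun y : X × ℤ => ∑ n ∈ Finset.range (3 * Λ.B i),
        if (S.tp (Λ.Z i) (S.σ y.2 y.1) < n + 1 ↔ S.tp (Λ.Z i) y.1 < n + 1) then (0 : ℝ) else 1) =
        fun y => |(S.tp (Λ.Z i) y.1 : ℝ) - S.tp (Λ.Z i) (S.σ y.2 y.1)| :=
      funext fun y => level_sum_sep (hc.tp_lt _).le (hc.tp_lt _).le
    have e2 : (fun x => ∑ n ∈ Finset.range (3 * Λ.B i),
        ((if S.tp (Λ.Z i) x < n + 1 then (1 : ℝ) else 0) -
          (if S.tm (Λ.Z i) x < n + 1 then (1 : ℝ) else 0)) * S.P q x) =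
        fun x => S.D (Λ.Z i) x * S.P q x := by
      funext x
      rw [← Finset.sum_mul, Finset.sum_sub_distrib, level_sum_ind (hc.tp_lt _).le,
        level_sum_ind (hc.tm_lt _).le]
      unfold Sys.D
      ring
    rw [e1, e2] at h1
    have e3 : (fun y : X × ℤ => |(S.tp (Λ.Z i) y.1 : ℝ) - S.tp (Λ.Z i) (S.σ y.2 y.1)| / Λ.B i) =
        fun y => (Λ.B i : ℝ)⁻¹ * |(S.tp (Λ.Z i) y.1 : ℝ) - S.tp (Λ.Z i) (S.σ y.2 y.1)| :=
      funext fun y => by rw [div_eq_inv_mul]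
    rw [e3, S.lk_const_mul]
    refine (mul_le_mul_of_nonneg_left h1 (by positivity)).trans (le_of_eq ?_)
    push_cast
    field_simp
    ring
  · exact (((Bdd.ite (hA _) (Bdd.const 1) (Bdd.const 0)).sub
      (Bdd.ite (hA' _) (Bdd.const 1) (Bdd.const 0))).mul hP).integrable _
  · exact (S.meas_pt (hA _)).iff (measurable_fst (hA _))

end Lev

end

end Crest.Agent.R113
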