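import Crest.Agent.R113.Trace

/-!
# Row 113: the diagonal density `P` and the link functional `lk`

Recipe.  For a projection `q ∈ alg` and a measurable `E`,
`∫_E (qΩ)(x,0) = τ (L 1_E * q) = ‖q (L 1_E) Ω‖² ∈ [0, μ E]` (trace property), so the slice
`x ↦ (qΩ)(x,0)` is a.e. real with values in `[0,1]` and agrees a.e. with `P q` (`slice_eq_P`).
For `A ∈ alg`, `A (L h' Ω) = A (ρ h' Ω) = ρ h' (A Ω)`, which gives `norm_sq_eq_lk`.
-/

open MeasureTheory Filter Topology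
open scoped InnerProductSpace BigOperators ENNReal

set_option linter.unusedSectionVars false

namespace Crest.Agent.R113

noncomputable section

open Classical

namespace Sys
variable {X : Type*} [MeasurableSpace X] (S : Sys X)

theorem P_nonneg (q : S.Op) (x : X) : 0 ≤ S.P q x := le_max_left _ _

theorem P_le_one (q : S.Op) (x : X) : S.P q x ≤ 1 := max_le zero_le_one (min_le_left _ _)

theorem meas_vec (ξ : S.H) : Measurable (ξ : X × ℤ → ℂ) := (Lp.stronglyMeasurable ξ).measurable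

theorem meas_slice (ξ : S.H) : Measurable fun x => (ξ : X × ℤ → ℂ) (x, 0) :=
  (S.meas_vec ξ).comp measurable_prodMk_right

theorem pres_slice : MeasurePreserving (fun x : X => (x, (0 : ℤ))) S.μ
    (S.ν.restrict (Set.univ ×ˢ {0})) :=
  ⟨measurable_prodMk_right, by
    rw [ν, ← Measure.prod_restrict, Measure.restrict_univ, Measure.restrict_singleton,
      Measure.count_singleton, one_smul, Measure.prod_dirac]⟩

theorem integrable_slice (ξ : S.H) : Integrable (fun x => (ξ : X × ℤ → ℂ) (x, 0)) S.μ :=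
  (((Lp.memLp ξ).restrict _).comp_measurePreserving S.pres_slice).integrable one_le_two

theorem slice_sub (A B : S.Op) : ∀ᵐ x ∂S.μ, ((A - B) S.Ω : X × ℤ → ℂ) (x, 0) =
    (A S.Ω : X × ℤ → ℂ) (x, 0) - (B S.Ω : X × ℤ → ℂ) (x, 0) :=
  S.ae_ν_iff.1 (Lp.coeFn_sub (A S.Ω) (B S.Ω)) 0

theorem slice_one : ∀ᵐ x ∂S.μ, ((1 : S.Op) S.Ω : X × ℤ → ℂ) (x, 0) = 1 := by
  filter_upwards [S.ae_ν_iff.1 S.Ω_apply 0] with x hx
  simpa using hx

theorem integrable_norm_sq (ξ : S.H) : Integrable (fun p => ‖(ξ : X × ℤ → ℂ) p‖ ^ 2) S.ν :=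
  (Lp.memLp ξ).integrable_norm_pow two_ne_zero

theorem norm_sq_eq_integral (ξ : S.H) : ‖ξ‖ ^ 2 = ∫ p, ‖(ξ : X × ℤ → ℂ) p‖ ^ 2 ∂S.ν := by
  rw [← inner_self_eq_norm_sq (𝕜 := ℂ), L2.inner_def]
  simp only [inner_self_eq_norm_sq_to_K]
  norm_cast

theorem U_mul_U_neg (n : ℤ) : S.U n * S.U (-n) = 1 := by rw [← S.U_add, add_neg_cancel, S.U_zero]

theorem bdd_P (q : S.Op) : Bdd (S.P q) := by
  exact Bdd.of_mem_Icc (measurable_const.max (measurable_const.min
    (Complex.measurable_re.comp (S.meas_slice _)))) (S.P_nonneg q) (S.P_le_one q)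

theorem lk_diag' (A : S.Op) : S.lk A (fun p => if p.2 = 0 then 1 else 0) =
    ∫ x, ‖(A S.Ω : X × ℤ → ℂ) (x, 0)‖ ^ 2 ∂S.μ := by
  have hm : MeasurableSet (Set.univ ×ˢ {0} : Set (X × ℤ)) :=
    MeasurableSet.univ.prod (measurableSet_singleton _)
  have h1 := integral_map (μ := S.μ) (f := fun p => ‖(A S.Ω : X × ℤ → ℂ) p‖ ^ 2)
    S.pres_slice.measurable.aemeasurable ((S.meas_vec _).norm.pow_const 2).aestronglyMeasurable
  rw [← h1, S.pres_slice.map_eq, ← integral_indicator hm, lk]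
  congr 1
  funext p
  by_cases hp : p.2 = 0 <;> simp [Set.indicator, hp]

theorem slice_sq_le (A : S.Op) : ∫ x, ‖(A S.Ω : X × ℤ → ℂ) (x, 0)‖ ^ 2 ∂S.μ ≤ ‖A S.Ω‖ ^ 2 := by
  rw [← S.lk_diag', S.norm_sq_eq_integral, lk]
  refine integral_mono_of_nonneg (Eventually.of_forall fun p => ?_) (S.integrable_norm_sq _)
    (Eventually.of_forall fun p => ?_)
  · dsimp only; split_ifs <;> simp
  · dsimp only; split_ifs <;> simp

variable {S}

theorem IsP.slice_nonneg {q : S.Op} (hq : S.IsP q) :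
    ∀ᵐ x ∂S.μ, 0 ≤ ((q S.Ω : X × ℤ → ℂ) (x, 0)).re := by
  refine ae_nonneg_of_forall_setIntegral_nonneg (S.integrable_slice _).re fun E hE _ => ?_
  have hb : Bdd (E.indicator fun _ : X => (1 : ℝ)) := (Bdd.const 1).indicator hE
  have he : S.L (E.indicator fun _ => 1) * S.L (E.indicator fun _ => 1) =
      S.L (E.indicator fun _ => 1) := by
    rw [← S.L_mul hb hb]
    congr 1
    funext x
    by_cases hx : x ∈ E <;> simp [hx]
  have h1 := S.tr_star_mul_self (q * S.L (E.indicator fun _ => 1))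
  rw [star_mul, hq.star_eq, S.star_L hb, mul_assoc, ← mul_assoc q, hq.mul_self, ← mul_assoc,
    S.tr_mul_comm (mul_mem (S.L_mem hb) hq.1) (S.L_mem hb), ← mul_assoc, he, tr, L,
    S.τ_Lc_mul hb.ofReal] at h1
  have h2 : ∫ x, ((E.indicator (fun _ => (1 : ℝ)) x : ℝ) : ℂ) * (q S.Ω : X × ℤ → ℂ) (x, 0) ∂S.μ =
      ∫ x in E, (q S.Ω : X × ℤ → ℂ) (x, 0) ∂S.μ := by
    rw [← integral_indicator hE]
    congr 1
    funext x
    by_cases hx : x ∈ E <;> simp [hx]
  rw [h2] at h1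
  have h3 := integral_re (μ := S.μ.restrict E) (S.integrable_slice (q S.Ω)).restrict
  simp only [RCLike.re_to_complex] at h3 ⊢
  rw [h3, h1]
  positivity

theorem IsP.slice_eq_P {q : S.Op} (hq : S.IsP q) :
    ∀ᵐ x ∂S.μ, (q S.Ω : X × ℤ → ℂ) (x, 0) = (S.P q x : ℂ) := by
  have h1 := S.star_apply_Ω hq.1
  rw [hq.star_eq] at h1
  filter_upwards [S.ae_ν_iff.1 h1 0, S.zero, hq.slice_nonneg, hq.one_sub.slice_nonneg,
    S.slice_sub 1 q, S.slice_one] with x a1 a2 a3 a4 a5 a6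
  rw [a5, a6, Complex.sub_re, Complex.one_re] at a4
  simp only [flip, a2, neg_zero] at a1
  rw [P, min_eq_right (by linarith), max_eq_right a3]
  exact (Complex.conj_eq_iff_re.1 a1.symm).symm

theorem IsP.τ_L_mul {q : S.Op} (hq : S.IsP q) {h : X → ℝ} (hh : Bdd h) :
    S.τ (S.L h * q) = ((∫ x, h x * S.P q x ∂S.μ : ℝ) : ℂ) := by
  rw [L, S.τ_Lc_mul hh.ofReal, ← integral_complex_ofReal]
  refine integral_congr_ae ?_
  filter_upwards [hq.slice_eq_P] with x hx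
  rw [hx, Complex.ofReal_mul]

theorem IsP.tr_L_mul {q : S.Op} (hq : S.IsP q) {h : X → ℝ} (hh : Bdd h) :
    S.tr (S.L h * q) = ∫ x, h x * S.P q x ∂S.μ := by
  rw [tr, hq.τ_L_mul hh, Complex.ofReal_re]

theorem IsP.integral_P {q : S.Op} (hq : S.IsP q) : ∫ x, S.P q x ∂S.μ = S.tr q := by
  have := hq.tr_L_mul (Bdd.const (1 : ℝ))
  rw [S.L_one, one_mul] at this
  simp only [this, one_mul]

theorem IsP.P_one_sub {q : S.Op} (hq : S.IsP q) :
    ∀ᵐ x ∂S.μ, S.P (1 - q) x = 1 - S.P q x := by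
  filter_upwards [hq.slice_eq_P, hq.one_sub.slice_eq_P, S.slice_sub 1 q, S.slice_one]
    with x a1 a2 a3 a4
  rw [a1, a2, a4] at a3
  exact_mod_cast a3

/-- the diagonal is a contraction for the 2-norms -/
theorem IsP.integral_P_sub_sq_le {q r : S.Op} (hq : S.IsP q) (hr : S.IsP r) :
    ∫ x, (S.P q x - S.P r x) ^ 2 ∂S.μ ≤ ‖(q - r) S.Ω‖ ^ 2 := by
  refine le_trans (le_of_eq (integral_congr_ae ?_)) (S.slice_sq_le (q - r))
  filter_upwards [hq.slice_eq_P, hr.slice_eq_P, S.slice_sub q r] with x a1 a2 a3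
  rw [a3, a1, a2, ← Complex.ofReal_sub, Complex.norm_real, Real.norm_eq_abs, sq_abs]

theorem IsP.cj {q : S.Op} (hq : S.IsP q) (n : ℤ) : S.IsP (S.cj n q) := by
  refine ⟨mul_mem (mul_mem (S.U_mem _) hq.1) (S.U_mem _), ?_, ?_⟩
  · change S.U (-n) * q * S.U n * (S.U (-n) * q * S.U n) = S.U (-n) * q * S.U n
    calc S.U (-n) * q * S.U n * (S.U (-n) * q * S.U n)
        = S.U (-n) * (q * (S.U n * S.U (-n)) * q) * S.U n := by simp only [mul_assoc]
      _ = _ := by rw [S.U_mul_U_neg, mul_one, hq.mul_self]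
  · change star (S.U (-n) * q * S.U n) = S.U (-n) * q * S.U n
    rw [star_mul, star_mul, S.star_U, S.star_U, hq.star_eq, neg_neg, mul_assoc]

theorem IsP.tr_cj {q : S.Op} (hq : S.IsP q) (n : ℤ) : S.tr (S.cj n q) = S.tr q := by
  rw [Sys.cj, S.tr_mul_comm (mul_mem (S.U_mem _) hq.1) (S.U_mem _), ← mul_assoc, S.U_mul_U_neg,
    one_mul]

theorem IsP.P_cj {q : S.Op} (hq : S.IsP q) (n : ℤ) :
    ∀ᵐ x ∂S.μ, S.P (S.cj n q) x = S.P q (S.σ n x) := by
  have hP : Bdd fun x => S.P q (S.σ n x) := (S.bdd_P q).comp (S.meas_σ n)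
  have key : ∀ h : X → ℝ, Bdd h →
      ∫ x, h x * S.P (S.cj n q) x ∂S.μ = ∫ x, h x * S.P q (S.σ n x) ∂S.μ := by
    intro h hh
    have hh' : Bdd fun x => h (S.σ (-n) x) := hh.comp (S.meas_σ _)
    rw [← (hq.cj n).tr_L_mul hh, Sys.cj, ← mul_assoc, ← mul_assoc, S.L_mul_U hh,
      S.tr_mul_comm (mul_mem (mul_mem (S.U_mem _) (S.L_mem hh')) hq.1) (S.U_mem _), ← mul_assoc,
      ← mul_assoc, S.U_mul_U_neg, one_mul, hq.tr_L_mul hh',
      ← S.integral_σ n (hh'.mul (S.bdd_P q)).1]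
    refine integral_congr_ae ?_
    filter_upwards [S.zero] with x hx
    rw [← S.add, neg_add_cancel, hx]
  have hd := (S.bdd_P (S.cj n q)).sub hP
  have h1 := key _ hd
  rw [← sub_eq_zero, ← integral_sub ((hd.mul (S.bdd_P _)).integrable _) ((hd.mul hP).integrable _)] at h1
  simp only [← mul_sub] at h1
  filter_upwards [(integral_eq_zero_iff_of_nonneg (fun x => mul_self_nonneg _)
    ((hd.mul hd).integrable _)).1 h1] with x hx
  exact sub_eq_zero.1 (mul_self_eq_zero.1 hx)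

variable (S)

theorem integrable_lk (q : S.Op) {K : X × ℤ → ℝ} (hK : Bdd K) :
    Integrable (fun p => K p * ‖(q S.Ω : X × ℤ → ℂ) p‖ ^ 2) S.ν := by
  obtain ⟨hm, C, hC⟩ := hK
  exact (S.integrable_norm_sq _).bdd_mul hm.aestronglyMeasurable (Eventually.of_forall hC)

theorem lk_add (q : S.Op) {K K' : X × ℤ → ℝ} (hK : Bdd K) (hK' : Bdd K') :
    S.lk q (fun p => K p + K' p) = S.lk q K + S.lk q K' := by
  simp only [lk, add_mul]
  exact integral_add (S.integrable_lk q hK) (S.integrable_lk q hK')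

theorem lk_const_mul (q : S.Op) (c : ℝ) (K : X × ℤ → ℝ) :
    S.lk q (fun p => c * K p) = c * S.lk q K := by
  simp only [lk, mul_assoc, integral_const_mul]

theorem lk_sum (q : S.Op) {ι : Type*} (s : Finset ι) {K : ι → X × ℤ → ℝ}
    (hK : ∀ i ∈ s, Bdd (K i)) : S.lk q (fun p => ∑ i ∈ s, K i p) = ∑ i ∈ s, S.lk q (K i) := by
  simp only [lk, Finset.sum_mul]
  exact integral_finsetSum _ fun i hi => S.integrable_lk q (hK i hi)

theorem lk_mono (q : S.Op) {K K' : X × ℤ → ℝ} (hK : Bdd K) (hK' : Bdd K') (h : ∀ p, K p ≤ K' p) :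
    S.lk q K ≤ S.lk q K' := by
  exact integral_mono (S.integrable_lk q hK) (S.integrable_lk q hK') fun p =>
    mul_le_mul_of_nonneg_right (h p) (sq_nonneg _)

theorem lk_nonneg (q : S.Op) {K : X × ℤ → ℝ} (h : ∀ p, 0 ≤ K p) : 0 ≤ S.lk q K := by
  exact integral_nonneg fun p => mul_nonneg (h p) (sq_nonneg _)

theorem lk_one (q : S.Op) : S.lk q (fun _ => 1) = ‖q S.Ω‖ ^ 2 := by
  simp only [lk, one_mul, S.norm_sq_eq_integral]

theorem lk_tail (q : S.Op) {ε : ℝ} (hε : 0 < ε) :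
    ∃ J : ℕ, S.lk q (fun p => if (J : ℤ) < |p.2| then 1 else 0) ≤ ε := by
  have hb : ∀ J : ℕ, Bdd fun p : X × ℤ => if (J : ℤ) < |p.2| then (1 : ℝ) else 0 := fun J =>
    Bdd.ite (measurable_snd (MeasurableSet.of_discrete (s := {a : ℤ | (J : ℤ) < |a|})))
      (Bdd.const 1) (Bdd.const 0)
  have h1 := tendsto_integral_of_dominated_convergence (μ := S.ν) (f := fun _ => (0 : ℝ))
    (F := fun (J : ℕ) p => (if (J : ℤ) < |p.2| then (1 : ℝ) else 0) * ‖(q S.Ω : X × ℤ → ℂ) p‖ ^ 2)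
    _ (fun J => (S.integrable_lk q (hb J)).1) (S.integrable_norm_sq (q S.Ω))
    (fun J => Eventually.of_forall fun p => by split_ifs <;> simp)
    (Eventually.of_forall fun p => tendsto_const_nhds.congr' ?_)
  · rw [integral_zero] at h1
    exact (h1.eventually (ge_mem_nhds hε)).exists
  · filter_upwards [eventually_ge_atTop p.2.natAbs] with J hJ
    rw [if_neg (by rw [Int.abs_eq_natAbs]; omega), zero_mul]

variable {S}

theorem norm_sq_eq_lk {A : S.Op} (hA : A ∈ S.alg) {h h' : X → ℝ} (hh : Bdd h) (hh' : Bdd h') :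
    ‖(S.L h * A * S.L h') S.Ω‖ ^ 2 = S.lk A fun p => h (S.σ p.2 p.1) ^ 2 * h' p.1 ^ 2 := by
  have h1 : (S.L h * A * S.L h') S.Ω = S.L h (S.ρ (fun x => (h' x : ℂ)) (A S.Ω)) := by
    have h2 := (S.mem_alg.1 hA).1 _ hh'.ofReal
    change S.L h (A (S.Lc (fun x => (h' x : ℂ)) S.Ω)) = S.L h ((S.ρ (fun x => (h' x : ℂ)) * A) S.Ω)
    rw [S.Lc_Ω hh'.ofReal, h2]
    rfl
  rw [h1, S.norm_sq_eq_integral]
  refine integral_congr_ae ?_
  filter_upwards [S.L_apply hh (S.ρ (fun x => (h' x : ℂ)) (A S.Ω)), S.ρ_apply hh'.ofReal (A S.Ω)]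
    with p a1 a2
  rw [a1, a2, norm_mul, norm_mul, Complex.norm_real, Complex.norm_real, Real.norm_eq_abs,
    Real.norm_eq_abs, mul_pow, mul_pow, sq_abs, sq_abs, mul_assoc]

theorem IsP.lk_one {q : S.Op} (hq : S.IsP q) : S.lk q (fun _ => 1) = S.tr q := by
  rw [S.lk_one, hq.tr_eq]

theorem IsP.lk_diag {q : S.Op} (hq : S.IsP q) :
    S.lk q (fun p => if p.2 = 0 then 1 else 0) = ∫ x, S.P q x ^ 2 ∂S.μ := by
  rw [S.lk_diag']
  refine integral_congr_ae ?_
  filter_upwards [hq.slice_eq_P] with x hx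
  rw [hx, Complex.norm_real, Real.norm_eq_abs, sq_abs]

theorem IsP.lk_flip {q : S.Op} (hq : S.IsP q) {K : X × ℤ → ℝ} (hK : Bdd K) :
    S.lk q (fun p => K (S.flip p)) = S.lk q K := by
  have h1 := S.star_apply_Ω hq.1
  rw [hq.star_eq] at h1
  have h2 := integral_map (μ := S.ν) (f := fun p => K p * ‖(q S.Ω : X × ℤ → ℂ) p‖ ^ 2)
    S.meas_flip.aemeasurable (hK.1.mul ((S.meas_vec _).norm.pow_const 2)).aestronglyMeasurable
  rw [S.pres_flip.map_eq] at h2
  rw [lk, lk, h2]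
  refine integral_congr_ae ?_
  filter_upwards [h1] with p hp
  rw [hp, Complex.norm_conj]

theorem IsP.lk_fst_le {q : S.Op} (hq : S.IsP q) {β : X → ℝ} (hβ : Bdd β) (h0 : ∀ x, 0 ≤ β x) :
    S.lk q (fun p => β p.1) ≤ ∫ x, β x ∂S.μ := by
  have hs : Bdd fun x => √(β x) := by
    obtain ⟨hm, C, hC⟩ := hβ
    exact Bdd.of_mem_Icc hm.sqrt (fun x => Real.sqrt_nonneg _)
      fun x => Real.sqrt_le_sqrt ((le_abs_self _).trans (hC x))
  have h1 := norm_sq_eq_lk hq.1 (Bdd.const (1 : ℝ)) hs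
  have h2 := S.norm_L_Ω_sq hs
  simp only [Real.sq_sqrt (h0 _), one_pow, one_mul, S.L_one] at h1 h2
  rw [← h1, ← h2]
  have h3 : ‖(q * S.L fun x => √(β x)) S.Ω‖ ≤ ‖S.L (fun x => √(β x)) S.Ω‖ :=
    (q.le_opNorm _).trans (mul_le_of_le_one_left (norm_nonneg _) hq.norm_le)
  gcongr

end Sys

end

end Crest.Agent.R113
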