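import Crest.Agent.R113.Stage
import Crest.Agent.R113.Bessel

/-!
# Row 113: the weighted shift of a `Lev` has no invariant projection
-/

open MeasureTheory Filter Topology
open scoped InnerProductSpace BigOperators ENNReal

set_option linter.unusedSectionVars false

namespace Crest.Agent.R113

noncomputable section

open Classical

namespace Lev
variable {X : Type*} [MeasurableSpace X] {S : Sys X} (Λ : Lev S)

omit Λ in
theorem mn_bdd_snd (P : ℤ → Prop) [DecidablePred P] :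
    Bdd fun y : X × ℤ => if P y.2 then (1 : ℝ) else 0 :=
  Bdd.ite (measurable_snd (MeasurableSet.of_discrete (s := {a | P a}))) (Bdd.const _) (Bdd.const _)

omit Λ in
/-- `t (1 - t)` is the variance of the density plus twice the mass of the forward links -/
theorem mn_split {q : S.Op} (hq : S.IsP q) :
    S.tr q * (1 - S.tr q) = ∫ x, (S.P q x - S.tr q) ^ 2 ∂S.μ +
      2 * S.lk q (fun y => if 0 < y.2 then 1 else 0) := by
  have b0 : Bdd fun y : X × ℤ => if y.2 = 0 then (1 : ℝ) else 0 := mn_bdd_snd fun a => a = 0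
  have b1 : Bdd fun y : X × ℤ => if 0 < y.2 then (1 : ℝ) else 0 := mn_bdd_snd fun a => 0 < a
  have b2 : Bdd fun y : X × ℤ => if 0 < -y.2 then (1 : ℝ) else 0 := mn_bdd_snd fun a => 0 < -a
  have e1 : S.lk q (fun y => if 0 < -y.2 then 1 else 0) = S.lk q (fun y => if 0 < y.2 then 1 else 0) :=
    hq.lk_flip b1
  have e2 : (fun _ : X × ℤ => (1 : ℝ)) = fun y : X × ℤ =>
      ((if y.2 = 0 then (1 : ℝ) else 0) + if 0 < y.2 then (1 : ℝ) else 0) +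
        if 0 < -y.2 then (1 : ℝ) else 0 := by
    funext y
    rcases lt_trichotomy y.2 0 with h | h | h
    · rw [if_neg h.ne, if_neg h.le.not_gt, if_pos (neg_pos.2 h)]
      norm_num
    · simp [h]
    · rw [if_neg h.ne', if_pos h, if_neg (by omega)]
      norm_num
  have e3 := hq.lk_one
  rw [e2, S.lk_add q (b0.add b1) b2, S.lk_add q b0 b1, hq.lk_diag, e1] at e3
  have hP := S.bdd_P q
  have e4 : ∫ x, (S.P q x - S.tr q) ^ 2 ∂S.μ = ∫ x, S.P q x ^ 2 ∂S.μ - S.tr q ^ 2 := by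
    have e5 : (fun x => (S.P q x - S.tr q) ^ 2) =
        fun x => (S.P q x ^ 2 - 2 * S.tr q * S.P q x) + S.tr q ^ 2 := by
      funext x
      ring
    have i1 : Integrable (fun x => S.P q x ^ 2) S.μ := (hP.pow 2).integrable _
    have i2 : Integrable (fun x => 2 * S.tr q * S.P q x) S.μ := (hP.const_mul _).integrable _
    have i3 : Integrable (fun x => S.P q x ^ 2 - 2 * S.tr q * S.P q x) S.μ := i1.sub i2
    rw [e5, integral_add i3 (integrable_const _), integral_sub i1 i2, integral_const_mul,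
      hq.integral_P]
    simp only [integral_const, probReal_univ, smul_eq_mul, one_mul]
    ring
  rw [e4]
  linarith

theorem mn_B_ge (m : ℕ) : (2 : ℝ) ^ m ≤ Λ.B m := by
  have h := Λ.B_pow_le (Nat.zero_le m)
  have h1 : (1 : ℝ) ≤ Λ.B 0 := by exact_mod_cast Λ.B_pos 0
  have h2 : (0 : ℝ) < 2 ^ m := by positivity
  rw [Nat.sub_zero] at h
  nlinarith

/-- the variance of a density which increases along the blocks -/
theorem mn_var {q : S.Op} {m : ℕ} {t e μ₀ : ℝ} (he : 0 < e) (hμ : 0 < μ₀) (hm : 1 / 2 ^ m ≤ e)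
    (hmono : ∀ᵐ x ∂S.μ, x ∉ Λ.Z m → x ∉ Λ.E m → S.P q x ≤ S.P q (S.σ 1 x))
    (h₁ : ∫ x, (S.avg (Λ.Z m) (S.P q) x - t) ^ 2 ∂S.μ ≤ e ^ 2)
    (h₂ : ∫ x, S.D (Λ.Z m) x * S.P q x ∂S.μ ≤ e * Λ.B m) :
    ∫ x, (S.P q x - t) ^ 2 ∂S.μ ≤ e ^ 2 + 38 * e / μ₀ + 2 * μ₀ + 4 * e := by
  have c := Λ.cut m
  have hP := S.bdd_P q
  have hB := Λ.mn_B_ge m
  have h2m : (0 : ℝ) < 2 ^ m := by positivity
  have hB0 : (0 : ℝ) < Λ.B m := by linarith
  have e1 := c.integral_sq_eq (hP.sub (Bdd.const t))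
  simp only [Sys.Cut.avg_sub, Sys.Cut.avg_const, sub_sub_sub_cancel_right] at e1
  have hℓ0 : 0 < μ₀ * Λ.B m := mul_pos hμ hB0
  have hℓ1 : μ₀ * Λ.B m ≤ ⌈μ₀ * Λ.B m⌉₊ := Nat.le_ceil _
  have hℓ2 : (⌈μ₀ * Λ.B m⌉₊ : ℝ) < μ₀ * Λ.B m + 1 := Nat.ceil_lt_add_one hℓ0.le
  have hℓ3 : 1 ≤ ⌈μ₀ * Λ.B m⌉₊ := Nat.ceil_pos.2 hℓ0
  generalize ⌈μ₀ * Λ.B m⌉₊ = ℓ at hℓ1 hℓ2 hℓ3
  have e2 := c.integral_sub_avg_sq_le hP.1 (S.P_nonneg q) (S.P_le_one q) (Λ.E_meas m) hmono hℓ3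
  have e3 := Λ.short m ℓ
  have e4 := Λ.E_small m
  have e5 : (((3 * Λ.B m : ℕ) : ℝ)) ^ 2 * S.μ.real (Λ.E m) ≤ 9 * (e * Λ.B m) := by
    have h1 : (((3 * Λ.B m : ℕ) : ℝ)) ^ 2 * S.μ.real (Λ.E m) ≤
        (((3 * Λ.B m : ℕ) : ℝ)) ^ 2 * (1 / (2 ^ m * Λ.B m)) :=
      mul_le_mul_of_nonneg_left e4 (by positivity)
    have h2 : (((3 * Λ.B m : ℕ) : ℝ)) ^ 2 * (1 / (2 ^ m * Λ.B m)) = 9 * (1 / 2 ^ m * Λ.B m) := by
      push_cast
      field_simp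
      ring
    have h3 : 1 / 2 ^ m * (Λ.B m : ℝ) ≤ e * Λ.B m := mul_le_mul_of_nonneg_right hm hB0.le
    linarith
  have hℓp : (0 : ℝ) < ℓ := by linarith
  have e6 : 2 / (ℓ : ℝ) * (∫ x, S.D (Λ.Z m) x * S.P q x ∂S.μ +
      2 * ((((3 * Λ.B m : ℕ) : ℝ)) ^ 2 * S.μ.real (Λ.E m))) ≤ 38 * e / μ₀ := by
    have h1 : 2 / (ℓ : ℝ) * (∫ x, S.D (Λ.Z m) x * S.P q x ∂S.μ +
        2 * ((((3 * Λ.B m : ℕ) : ℝ)) ^ 2 * S.μ.real (Λ.E m))) ≤ 2 / (ℓ : ℝ) * (19 * (e * Λ.B m)) :=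
      mul_le_mul_of_nonneg_left (by linarith) (by positivity)
    refine h1.trans ?_
    rw [div_mul_eq_mul_div, div_le_div_iff₀ hℓp hμ]
    nlinarith [mul_le_mul_of_nonneg_left hℓ1 he.le]
  have e7 : 2 * (ℓ : ℝ) / Λ.B m ≤ 2 * μ₀ + 2 * e := by
    rw [div_le_iff₀ hB0]
    have h1 : 1 ≤ e * Λ.B m := by
      rw [div_le_iff₀ h2m] at hm
      nlinarith
    nlinarith
  have e8 : (2 : ℝ) / 2 ^ m ≤ 2 * e := by
    have : (2 : ℝ) / 2 ^ m = 2 * (1 / 2 ^ m) := by ring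
    linarith
  linarith

/-- Suppose `γ = t (1 - t) > 0`, `t = tr p`.  Take `μ₀ = γ / 20`, `K` from `cover`, `e` small, `m` large
from `cover` and `stage`, `J` from `lk_tail`.  Then `tr q = t`, `∫ P q = t`, so
`γ = ∫ (P q - t)² + lk (a ≠ 0)` (`IsP.lk_one`, `IsP.lk_diag`), `lk (a ≠ 0) = 2 lk (0 < a)` (`lk_flip`),
and pointwise `1[0 < a] ≤ 1[0 < a ≤ tp] + ∑ a i δ_i + β + 1[J < |a|]`; use `level`, `bessel`,
`sum_err_le`, `lk_fst_le`.  `∫ (P q - t)² = ∫ (avg P q - t)² + ∫ (P q - avg P q)²`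
(`integral_sq_eq`, `avg_sub`, `avg_const`), and `integral_sub_avg_sq_le` with `ℓ = ⌈μ₀ B m⌉₊`,
`short`, `E_small`. -/
theorem no_invariant {p : S.Op} (hp : S.IsP p) (hinv : (1 - p) * (S.U 1 * S.L Λ.f) * p = 0) :
    p = 0 ∨ p = 1 := by
  by_contra hne
  obtain ⟨h0, h1⟩ := not_or.1 hne
  have ht0 : 0 < S.tr p := lt_of_le_of_ne hp.tr_nonneg fun h => h0 (hp.eq_zero h.symm)
  have ht1 : S.tr p < 1 := lt_of_le_of_ne hp.tr_le_one fun h => h1 (hp.eq_one h)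
  obtain ⟨μ₀, hμ₀⟩ : ∃ μ₀ : ℝ, S.tr p * (1 - S.tr p) = 20 * μ₀ := ⟨S.tr p * (1 - S.tr p) / 20, by ring⟩
  have hμ : 0 < μ₀ := by nlinarith [mul_pos ht0 (sub_pos.2 ht1)]
  have hμ1 : μ₀ ≤ 1 := by nlinarith
  obtain ⟨K, hK⟩ := Λ.cover μ₀ hμ
  have hk := Real.sqrt_nonneg K
  obtain ⟨e, he, hee⟩ : ∃ e : ℝ, 0 < e ∧ 100 * (1 + Real.sqrt K) * e = μ₀ ^ 2 :=
    ⟨μ₀ ^ 2 / (100 * (1 + Real.sqrt K)), by positivity, by field_simp⟩
  obtain ⟨m₀, hm₀⟩ := Λ.stage hp hinv he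
  obtain ⟨m₁, hm₁⟩ := exists_pow_lt_of_lt_one he (show (1 / 2 : ℝ) < 1 by norm_num)
  obtain ⟨m, hm, hcov⟩ := hK (max m₀ m₁)
  have hme : 1 / 2 ^ m ≤ e := by
    rw [← one_div_pow]
    exact (pow_le_pow_of_le_one (by norm_num) (by norm_num) ((le_max_right _ _).trans hm)).trans hm₁.le
  obtain ⟨ψ, q, hψ, hb, ht, hmono, h₁, h₂, h₃⟩ := hm₀ m ((le_max_left _ _).trans hm)
  have hq := ht.1
  obtain ⟨J, hJ⟩ := S.lk_tail q he
  obtain ⟨M, a, β, ha, haK, hβ, hβ0, hβ1, hpt⟩ := hcov J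
  have hvar := Λ.mn_var he hμ hme hmono h₁ h₂
  have hsplit := mn_split hq
  rw [ht.2.1] at hsplit
  -- the forward links
  have c := Λ.cut m
  have b1 : Bdd fun y : X × ℤ => if 0 < y.2 then (1 : ℝ) else 0 := mn_bdd_snd fun a => 0 < a
  have b2 : Bdd fun y : X × ℤ => if 0 < y.2 ∧ y.2 ≤ S.tp (Λ.Z m) y.1 then (1 : ℝ) else 0 := by
    refine Bdd.ite ?_ (Bdd.const _) (Bdd.const _)
    refine (measurableSet_lt measurable_const measurable_snd).inter (measurableSet_le measurable_snd ?_)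
    exact (measurable_of_countable (fun n : ℕ => (n : ℤ))).comp (c.meas_tp.comp measurable_fst)
  have b3 : ∀ i, Bdd fun y : X × ℤ =>
      |(S.tp (Λ.Z i) y.1 : ℝ) - S.tp (Λ.Z i) (S.σ y.2 y.1)| / Λ.B i := fun i =>
    (((Λ.cut i).bdd_tp.comp measurable_fst).sub ((Λ.cut i).bdd_tp.comp S.meas_pt)).abs.div_const _
  have b4 : Bdd fun y : X × ℤ => ∑ i ∈ Finset.Ico m M,
      a i * (|(S.tp (Λ.Z i) y.1 : ℝ) - S.tp (Λ.Z i) (S.σ y.2 y.1)| / Λ.B i) :=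
    Bdd.sum _ fun i _ => (b3 i).const_mul _
  have b5 : Bdd fun y : X × ℤ => β y.1 := hβ.comp measurable_fst
  have b6 : Bdd fun y : X × ℤ => if (J : ℤ) < |y.2| then (1 : ℝ) else 0 :=
    mn_bdd_snd fun a => (J : ℤ) < |a|
  have hle := S.lk_mono q b1 (((b2.add b4).add b5).add b6) (fun y => by
    obtain ⟨x, j⟩ := y
    have n1 : (0 : ℝ) ≤ if 0 < j ∧ j ≤ S.tp (Λ.Z m) x then 1 else 0 := by split_ifs <;> norm_num
    have n2 : 0 ≤ ∑ i ∈ Finset.Ico m M,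
        a i * (|(S.tp (Λ.Z i) x : ℝ) - S.tp (Λ.Z i) (S.σ j x)| / Λ.B i) :=
      Finset.sum_nonneg fun i _ => mul_nonneg (ha i) (by positivity)
    have n3 := hβ0 x
    have n4 : (0 : ℝ) ≤ if (J : ℤ) < |j| then 1 else 0 := by split_ifs <;> norm_num
    dsimp only
    by_cases hj : 0 < j
    swap
    · rw [if_neg hj]
      linarith
    rw [if_pos hj]
    by_cases hj1 : j ≤ S.tp (Λ.Z m) x
    · rw [if_pos ⟨hj, hj1⟩]
      linarith
    by_cases hj2 : (J : ℤ) < |j|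
    · rw [if_pos hj2]
      linarith
    lift j to ℕ using hj.le
    rw [Nat.abs_cast] at hj2
    have := hpt x j (by exact_mod_cast hj) (by exact_mod_cast not_lt.1 hj2)
      (by exact_mod_cast not_le.1 hj1)
    simp only [mul_div_assoc] at this
    linarith)
  rw [S.lk_add q ((b2.add b4).add b5) b6, S.lk_add q (b2.add b4) b5, S.lk_add q b2 b4,
    S.lk_sum q _ fun i _ => (b3 i).const_mul _] at hle
  have s1 : ∑ i ∈ Finset.Ico m M, S.lk q (fun y =>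
      a i * (|(S.tp (Λ.Z i) y.1 : ℝ) - S.tp (Λ.Z i) (S.σ y.2 y.1)| / Λ.B i)) ≤
      3 * ∑ i ∈ Finset.Ico m M, a i * ((∫ x, S.D (Λ.Z i) x * S.P q x ∂S.μ) / Λ.B i) +
        ∑ i ∈ Finset.Ico m M, a i * (27 / 2 ^ i) := by
    rw [Finset.mul_sum, ← Finset.sum_add_distrib]
    refine Finset.sum_le_sum fun i hi => ?_
    rw [S.lk_const_mul]
    have := mul_le_mul_of_nonneg_left (Λ.level hp hinv (Finset.mem_Ico.1 hi).1 hψ hb ht) (ha i)
    linarith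
  have s2 := Λ.bessel (S.bdd_P q) ha haK he.le h₁ h₂
  have s3 := sum_err_le ha haK
  have s4 : 54 * Real.sqrt K / 2 ^ m ≤ 54 * Real.sqrt K * e := by
    rw [div_eq_mul_one_div]
    exact mul_le_mul_of_nonneg_left hme (by positivity)
  have s5 := hq.lk_fst_le hβ hβ0
  have k1 : 0 ≤ Real.sqrt K * e := mul_nonneg hk he.le
  have k2 : μ₀ ^ 2 ≤ μ₀ := by nlinarith
  have k3 : 38 * e / μ₀ ≤ μ₀ := by
    rw [div_le_iff₀ hμ]
    nlinarith
  have k4 : e ^ 2 ≤ μ₀ := by nlinarith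
  nlinarith

end Lev

end

end Crest.Agent.R113
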