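import Crest.Agent.R113.Defs

/-!
# Row 113: bounded functions, multiplication and composition operators
-/

open MeasureTheory Filter Topology
open scoped InnerProductSpace BigOperators ENNReal

set_option linter.unusedSectionVars false

namespace Crest.Agent.R113

noncomputable section

open Classical

section Bdd
variable {Y Y' E : Type*} [MeasurableSpace Y] [MeasurableSpace Y'] [NormedRing E]
  [MeasurableSpace E] [BorelSpace E] [SecondCountableTopology E]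

theorem Bdd.meas {h : Y → E} (hh : Bdd h) : Measurable h := hh.1

theorem Bdd.exists_pos {h : Y → E} (hh : Bdd h) : ∃ C : ℝ, 0 < C ∧ ∀ y, ‖h y‖ ≤ C := by
  obtain ⟨-, C, hC⟩ := hh
  exact ⟨max C 1, lt_max_of_lt_right one_pos, fun y => (hC y).trans (le_max_left _ _)⟩

theorem Bdd.const (c : E) : Bdd (fun _ : Y => c) := ⟨measurable_const, ‖c‖, fun _ => le_rfl⟩

theorem Bdd.add {h g : Y → E} (hh : Bdd h) (hg : Bdd g) : Bdd fun y => h y + g y := by
  obtain ⟨hm, C, hC⟩ := hh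
  obtain ⟨gm, C', hC'⟩ := hg
  exact ⟨hm.add gm, C + C', fun y => (norm_add_le _ _).trans (add_le_add (hC y) (hC' y))⟩

theorem Bdd.neg {h : Y → E} (hh : Bdd h) : Bdd fun y => -h y := by
  obtain ⟨hm, C, hC⟩ := hh
  exact ⟨hm.neg, C, fun y => by simpa using hC y⟩

theorem Bdd.sub {h g : Y → E} (hh : Bdd h) (hg : Bdd g) : Bdd fun y => h y - g y := by
  simpa only [sub_eq_add_neg] using hh.add hg.neg

theorem Bdd.mul {h g : Y → E} (hh : Bdd h) (hg : Bdd g) : Bdd fun y => h y * g y := by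
  obtain ⟨C, hC0, hC⟩ := hh.exists_pos
  obtain ⟨C', -, hC'⟩ := hg.exists_pos
  exact ⟨hh.1.mul hg.1, C * C', fun y =>
    (norm_mul_le _ _).trans (mul_le_mul (hC y) (hC' y) (norm_nonneg _) hC0.le)⟩

theorem Bdd.const_mul {h : Y → E} (hh : Bdd h) (c : E) : Bdd fun y => c * h y :=
  (Bdd.const c).mul hh

theorem Bdd.mul_const {h : Y → E} (hh : Bdd h) (c : E) : Bdd fun y => h y * c :=
  hh.mul (Bdd.const c)

theorem Bdd.pow {h : Y → E} (hh : Bdd h) (n : ℕ) : Bdd fun y => h y ^ n := by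
  induction n with
  | zero => simpa using Bdd.const (1 : E)
  | succ n ih => simpa only [pow_succ] using ih.mul hh

theorem Bdd.sum {ι : Type*} (s : Finset ι) {h : ι → Y → E} (hh : ∀ i ∈ s, Bdd (h i)) :
    Bdd fun y => ∑ i ∈ s, h i y := by
  induction s using Finset.induction_on with
  | empty => simpa using Bdd.const (0 : E)
  | insert a s ha ih =>
    simp only [Finset.sum_insert ha]
    exact (hh a (Finset.mem_insert_self _ _)).add
      (ih fun i hi => hh i (Finset.mem_insert_of_mem hi))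

theorem Bdd.comp {h : Y → E} (hh : Bdd h) {φ : Y' → Y} (hφ : Measurable φ) :
    Bdd fun y => h (φ y) := by
  obtain ⟨hm, C, hC⟩ := hh
  exact ⟨hm.comp hφ, C, fun y => hC _⟩

theorem Bdd.ite {p : Y → Prop} [DecidablePred p] (hp : MeasurableSet {y | p y}) {h g : Y → E}
    (hh : Bdd h) (hg : Bdd g) : Bdd fun y => if p y then h y else g y := by
  obtain ⟨hm, C, hC⟩ := hh
  obtain ⟨gm, C', hC'⟩ := hg
  refine ⟨Measurable.ite hp hm gm, max C C', fun y => ?_⟩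
  dsimp only
  split_ifs
  · exact (hC y).trans (le_max_left _ _)
  · exact (hC' y).trans (le_max_right _ _)

theorem Bdd.indicator {A : Set Y} (hA : MeasurableSet A) {h : Y → E} (hh : Bdd h) :
    Bdd (A.indicator h) := by
  obtain ⟨hm, C, hC⟩ := hh
  exact ⟨hm.indicator hA, C, fun y => (norm_indicator_le_norm_self _ _).trans (hC y)⟩

theorem Bdd.integrable [NormedSpace ℝ E] {h : Y → E} (hh : Bdd h) (m : Measure Y)
    [IsFiniteMeasure m] : Integrable h m := by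
  obtain ⟨hm, C, hC⟩ := hh
  exact Integrable.of_bound hm.aestronglyMeasurable C (Eventually.of_forall hC)

theorem Bdd.of_abs_le {h : Y → ℝ} (hm : Measurable h) {C : ℝ} (hC : ∀ y, |h y| ≤ C) : Bdd h :=
  ⟨hm, C, hC⟩

theorem Bdd.of_mem_Icc {h : Y → ℝ} (hm : Measurable h) {a b : ℝ} (h₁ : ∀ y, a ≤ h y)
    (h₂ : ∀ y, h y ≤ b) : Bdd h :=
  ⟨hm, max |a| |b|, fun y => abs_le_max_abs_abs (h₁ y) (h₂ y)⟩

theorem Bdd.div_const {h : Y → ℝ} (hh : Bdd h) (c : ℝ) : Bdd fun y => h y / c := by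
  simpa only [div_eq_mul_inv] using hh.mul_const c⁻¹

theorem Bdd.ofReal {h : Y → ℝ} (hh : Bdd h) : Bdd fun y => (h y : ℂ) := by
  obtain ⟨hm, C, hC⟩ := hh
  exact ⟨Complex.measurable_ofReal.comp hm, C, fun y => by simpa using hC y⟩

theorem Bdd.conj {h : Y → ℂ} (hh : Bdd h) : Bdd fun y => (starRingEnd ℂ) (h y) := by
  obtain ⟨hm, C, hC⟩ := hh
  exact ⟨Complex.continuous_conj.measurable.comp hm, C, fun y => by simpa using hC y⟩

theorem Bdd.exp {h : Y → ℝ} (hh : Bdd h) : Bdd fun y => Real.exp (h y) := by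
  obtain ⟨hm, C, hC⟩ := hh
  refine ⟨Real.measurable_exp.comp hm, Real.exp C, fun y => ?_⟩
  rw [Real.norm_eq_abs, abs_of_pos (Real.exp_pos _)]
  exact Real.exp_le_exp.2 ((le_abs_self _).trans (hC y))

theorem Bdd.abs {h : Y → ℝ} (hh : Bdd h) : Bdd fun y => |h y| := by
  obtain ⟨hm, C, hC⟩ := hh
  exact ⟨hm.abs, C, fun y => by simpa using hC y⟩

theorem Bdd.max {h g : Y → ℝ} (hh : Bdd h) (hg : Bdd g) : Bdd fun y => max (h y) (g y) := by
  obtain ⟨hm, C, hC⟩ := hh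
  obtain ⟨gm, C', hC'⟩ := hg
  exact ⟨hm.max gm, Max.max C C', fun y =>
    (abs_max_le_max_abs_abs).trans (max_le_max (hC y) (hC' y))⟩

theorem Bdd.min {h g : Y → ℝ} (hh : Bdd h) (hg : Bdd g) : Bdd fun y => min (h y) (g y) := by
  obtain ⟨hm, C, hC⟩ := hh
  obtain ⟨gm, C', hC'⟩ := hg
  exact ⟨hm.min gm, Max.max C C', fun y =>
    (abs_min_le_max_abs_abs).trans (max_le_max (hC y) (hC' y))⟩

end Bdd

section Ops
variable {Y : Type*} [MeasurableSpace Y] {m : Measure Y}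

theorem mulOp_apply {h : Y → ℂ} (hh : Bdd h) (ξ : Lp ℂ 2 m) :
    (mulOp m h ξ : Y → ℂ) =ᵐ[m] fun y => h y * ξ y := by
  unfold mulOp
  rw [dif_pos hh, ContinuousLinearMap.holderL_apply_apply]
  filter_upwards [(ContinuousLinearMap.mul ℂ ℂ).coeFn_holder (r := 2) ((hh.memLp_top m).toLp h) ξ,
    (hh.memLp_top m).coeFn_toLp] with y h1 h2
  rw [h1, h2, ContinuousLinearMap.mul_apply']

theorem mulOp_congr {h g : Y → ℂ} (hh : Bdd h) (hg : Bdd g) (e : h =ᵐ[m] g) :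
    mulOp m h = mulOp m g := by
  ext1 ξ
  apply Lp.ext
  filter_upwards [mulOp_apply hh ξ, mulOp_apply hg ξ, e] with y h1 h2 h3
  rw [h1, h2, h3]

theorem mulOp_mul {h g : Y → ℂ} (hh : Bdd h) (hg : Bdd g) :
    mulOp m (fun y => h y * g y) = mulOp m h * mulOp m g := by
  ext1 ξ
  apply Lp.ext
  rw [mul_apply_eq_comp]
  filter_upwards [mulOp_apply (hh.mul hg) ξ, mulOp_apply hg ξ, mulOp_apply hh (mulOp m g ξ)]
    with y h1 h2 h3
  rw [h1, h3, h2, mul_assoc]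

theorem mulOp_add {h g : Y → ℂ} (hh : Bdd h) (hg : Bdd g) :
    mulOp m (fun y => h y + g y) = mulOp m h + mulOp m g := by
  ext1 ξ
  apply Lp.ext
  rw [add_apply]
  filter_upwards [mulOp_apply (hh.add hg) ξ, mulOp_apply hg ξ, mulOp_apply hh ξ,
    Lp.coeFn_add (mulOp m h ξ) (mulOp m g ξ)] with y h1 h2 h3 h4
  rw [h1, h4, Pi.add_apply, h3, h2, add_mul]

theorem mulOp_sub {h g : Y → ℂ} (hh : Bdd h) (hg : Bdd g) :
    mulOp m (fun y => h y - g y) = mulOp m h - mulOp m g := by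
  ext1 ξ
  apply Lp.ext
  rw [sub_apply]
  filter_upwards [mulOp_apply (hh.sub hg) ξ, mulOp_apply hg ξ, mulOp_apply hh ξ,
    Lp.coeFn_sub (mulOp m h ξ) (mulOp m g ξ)] with y h1 h2 h3 h4
  rw [h1, h4, Pi.sub_apply, h3, h2, sub_mul]

theorem mulOp_const (c : ℂ) : mulOp m (fun _ => c) = c • (1 : Lp ℂ 2 m →L[ℂ] Lp ℂ 2 m) := by
  ext1 ξ
  apply Lp.ext
  rw [smul_apply, one_apply_eq_self]
  filter_upwards [mulOp_apply (m := m) (Bdd.const c) ξ, Lp.coeFn_smul c ξ] with y h1 h2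
  rw [h1, h2, Pi.smul_apply, smul_eq_mul]

theorem star_mulOp {h : Y → ℂ} (hh : Bdd h) :
    star (mulOp m h) = mulOp m fun y => (starRingEnd ℂ) (h y) := by
  rw [ContinuousLinearMap.star_eq_adjoint]
  symm
  rw [ContinuousLinearMap.eq_adjoint_iff]
  intro ξ η
  rw [L2.inner_def, L2.inner_def]
  apply integral_congr_ae
  filter_upwards [mulOp_apply hh.conj ξ, mulOp_apply hh η] with y h1 h2
  rw [h1, h2]
  simp only [RCLike.inner_apply, map_mul, Complex.conj_conj]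
  ring

theorem norm_mulOp_le {h : Y → ℂ} (hh : Bdd h) {C : ℝ} (hC0 : 0 ≤ C) (hC : ∀ᵐ y ∂m, ‖h y‖ ≤ C) :
    ‖mulOp m h‖ ≤ C := by
  refine ContinuousLinearMap.opNorm_le_bound _ hC0 fun ξ => ?_
  apply Lp.norm_le_mul_norm_of_ae_le_mul
  filter_upwards [mulOp_apply hh ξ, hC] with y h1 h2
  rw [h1, norm_mul]
  exact mul_le_mul_of_nonneg_right h2 (norm_nonneg _)

theorem compOp_apply {φ : Y → Y} (hφ : MeasurePreserving φ m m) (ξ : Lp ℂ 2 m) :
    (compOp m φ hφ ξ : Y → ℂ) =ᵐ[m] fun y => ξ (φ y) := by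
  exact Lp.coeFn_compMeasurePreserving ξ hφ

theorem norm_compOp_apply {φ : Y → Y} (hφ : MeasurePreserving φ m m) (ξ : Lp ℂ 2 m) :
    ‖compOp m φ hφ ξ‖ = ‖ξ‖ := by
  exact Lp.norm_compMeasurePreserving ξ hφ

theorem compOp_mul_of_ae {φ ψ χ : Y → Y} (hφ : MeasurePreserving φ m m)
    (hψ : MeasurePreserving ψ m m) (hχ : MeasurePreserving χ m m) (e : ∀ᵐ y ∂m, ψ (φ y) = χ y) :
    compOp m φ hφ * compOp m ψ hψ = compOp m χ hχ := by
  ext1 ξ
  apply Lp.ext
  rw [mul_apply_eq_comp]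
  filter_upwards [compOp_apply hφ (compOp m ψ hψ ξ), compOp_apply hχ ξ,
    hφ.quasiMeasurePreserving.ae (compOp_apply hψ ξ), e] with y h1 h2 h3 h4
  rw [h1, h2, h3, h4]

theorem compOp_eq_one {φ : Y → Y} (hφ : MeasurePreserving φ m m) (e : ∀ᵐ y ∂m, φ y = y) :
    compOp m φ hφ = 1 := by
  ext1 ξ
  apply Lp.ext
  rw [one_apply_eq_self]
  filter_upwards [compOp_apply hφ ξ, e] with y h1 h2
  rw [h1, h2]

theorem star_compOp_of_mul {φ : Y → Y} (hφ : MeasurePreserving φ m m)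
    {B : Lp ℂ 2 m →L[ℂ] Lp ℂ 2 m} (h : compOp m φ hφ * B = 1) : star (compOp m φ hφ) = B := by
  have h1 : star (compOp m φ hφ) * compOp m φ hφ = 1 :=
    (compOp m φ hφ).norm_map_iff_adjoint_comp_self.1 (norm_compOp_apply hφ)
  rw [← mul_one (star _), ← h, ← mul_assoc, h1, one_mul]

theorem compOp_mul_mulOp {φ : Y → Y} (hφ : MeasurePreserving φ m m) {h : Y → ℂ} (hh : Bdd h) :
    compOp m φ hφ * mulOp m h = mulOp m (fun y => h (φ y)) * compOp m φ hφ := by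
  ext1 ξ
  apply Lp.ext
  rw [mul_apply_eq_comp, mul_apply_eq_comp]
  filter_upwards [compOp_apply hφ (mulOp m h ξ), compOp_apply hφ ξ,
    hφ.quasiMeasurePreserving.ae (mulOp_apply hh ξ),
    mulOp_apply (hh.comp hφ.measurable) (compOp m φ hφ ξ)] with y h1 h2 h3 h4
  rw [h1, h4, h3, h2]

end Ops

namespace Sys
variable {X : Type*} [MeasurableSpace X] (S : Sys X)

theorem meas_σ (k : ℤ) : Measurable (S.σ k) := (S.pres k).measurable

/-- the point at a site -/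
theorem meas_pt : Measurable fun p : X × ℤ => S.σ p.2 p.1 :=
  measurable_from_prod_countable_left fun k => S.meas_σ k

instance : SFinite S.ν := by unfold ν; infer_instance

/-- almost everywhere on `X × ℤ` means almost everywhere on each slice -/
theorem ae_ν_iff {p : X × ℤ → Prop} : (∀ᵐ y ∂S.ν, p y) ↔ ∀ a : ℤ, ∀ᵐ x ∂S.μ, p (x, a) := by
  unfold ν
  constructor
  · intro h a
    filter_upwards [Measure.ae_ae_of_ae_prod h] with x hx
    rw [ae_iff, Measure.count_eq_zero_iff] at hx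
    by_contra hn
    exact (Set.eq_empty_iff_forall_notMem.1 hx) a hn
  · intro h
    have h1 : ∀ᵐ x ∂S.μ, ∀ a : ℤ, p (x, a) := ae_all_iff.2 h
    filter_upwards [(Measure.quasiMeasurePreserving_fst (μ := S.μ)
      (ν := (Measure.count : Measure ℤ))).ae h1] with y hy
    exact hy y.2

theorem integral_σ (k : ℤ) {h : X → ℝ} (hh : Measurable h) :
    ∫ x, h (S.σ k x) ∂S.μ = ∫ x, h x ∂S.μ := by
  conv_rhs => rw [← (S.pres k).map_eq]
  rw [integral_map (S.meas_σ k).aemeasurable hh.aestronglyMeasurable]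

theorem Lc_apply {h : X → ℂ} (hh : Bdd h) (ξ : S.H) :
    (S.Lc h ξ : X × ℤ → ℂ) =ᵐ[S.ν] fun p => h (S.σ p.2 p.1) * ξ p :=
  mulOp_apply (hh.comp S.meas_pt) ξ

theorem L_apply {h : X → ℝ} (hh : Bdd h) (ξ : S.H) :
    (S.L h ξ : X × ℤ → ℂ) =ᵐ[S.ν] fun p => (h (S.σ p.2 p.1) : ℂ) * ξ p :=
  S.Lc_apply hh.ofReal ξ

theorem ρ_apply {h : X → ℂ} (hh : Bdd h) (ξ : S.H) :
    (S.ρ h ξ : X × ℤ → ℂ) =ᵐ[S.ν] fun p => h p.1 * ξ p :=
  mulOp_apply (hh.comp measurable_fst) ξ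

theorem U_apply (k : ℤ) (ξ : S.H) :
    (S.U k ξ : X × ℤ → ℂ) =ᵐ[S.ν] fun p => ξ (p.1, p.2 - k) :=
  compOp_apply _ ξ

theorem Sh_apply (k : ℤ) (ξ : S.H) :
    (S.Sh k ξ : X × ℤ → ℂ) =ᵐ[S.ν] fun p => ξ (S.σ k p.1, p.2 - k) :=
  compOp_apply _ ξ

theorem Ω_apply : (S.Ω : X × ℤ → ℂ) =ᵐ[S.ν] fun p => if p.2 = 0 then 1 else 0 := by
  unfold Ω
  refine indicatorConstLp_coeFn.trans (Eventually.of_forall fun p => ?_)
  simp [Set.indicator_apply]

theorem norm_Ω : ‖S.Ω‖ = 1 := by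
  unfold Ω
  rw [norm_indicatorConstLp (by norm_num) (by norm_num)]
  have : S.ν.real (Set.univ ×ˢ ({0} : Set ℤ)) = 1 := by
    rw [measureReal_def, ν, Measure.prod_prod, measure_univ, Measure.count_singleton, one_mul]
    rfl
  rw [this]
  simp

theorem Lc_mul {h g : X → ℂ} (hh : Bdd h) (hg : Bdd g) :
    S.Lc (fun x => h x * g x) = S.Lc h * S.Lc g :=
  mulOp_mul (hh.comp S.meas_pt) (hg.comp S.meas_pt)

theorem Lc_add {h g : X → ℂ} (hh : Bdd h) (hg : Bdd g) :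
    S.Lc (fun x => h x + g x) = S.Lc h + S.Lc g :=
  mulOp_add (hh.comp S.meas_pt) (hg.comp S.meas_pt)

theorem Lc_const (c : ℂ) : S.Lc (fun _ => c) = c • (1 : S.Op) := mulOp_const c

theorem star_Lc {h : X → ℂ} (hh : Bdd h) :
    star (S.Lc h) = S.Lc fun x => (starRingEnd ℂ) (h x) :=
  star_mulOp (hh.comp S.meas_pt)

theorem norm_Lc_le {h : X → ℂ} (hh : Bdd h) {C : ℝ} (hC0 : 0 ≤ C) (hC : ∀ᵐ x ∂S.μ, ‖h x‖ ≤ C) :
    ‖S.Lc h‖ ≤ C := by
  exact norm_mulOp_le (hh.comp S.meas_pt) hC0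
    (S.ae_ν_iff.2 fun a => (S.pres a).quasiMeasurePreserving.ae hC)

theorem Lc_congr {h g : X → ℂ} (hh : Bdd h) (hg : Bdd g) (e : h =ᵐ[S.μ] g) : S.Lc h = S.Lc g := by
  exact mulOp_congr (hh.comp S.meas_pt) (hg.comp S.meas_pt)
    (S.ae_ν_iff.2 fun a => (S.pres a).quasiMeasurePreserving.ae e)

theorem L_mul {h g : X → ℝ} (hh : Bdd h) (hg : Bdd g) :
    S.L (fun x => h x * g x) = S.L h * S.L g := by
  unfold L
  rw [← S.Lc_mul hh.ofReal hg.ofReal]
  simp only [Complex.ofReal_mul]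

theorem L_add {h g : X → ℝ} (hh : Bdd h) (hg : Bdd g) :
    S.L (fun x => h x + g x) = S.L h + S.L g := by
  unfold L
  rw [← S.Lc_add hh.ofReal hg.ofReal]
  simp only [Complex.ofReal_add]

theorem L_sub {h g : X → ℝ} (hh : Bdd h) (hg : Bdd g) :
    S.L (fun x => h x - g x) = S.L h - S.L g := by
  unfold L Lc
  rw [← mulOp_sub (hh.ofReal.comp S.meas_pt) (hg.ofReal.comp S.meas_pt)]
  simp only [Complex.ofReal_sub]

theorem L_const (c : ℝ) : S.L (fun _ => c) = (c : ℂ) • (1 : S.Op) := S.Lc_const _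

theorem L_one : S.L (fun _ => 1) = 1 := by
  rw [L_const]
  simp

theorem star_L {h : X → ℝ} (hh : Bdd h) : star (S.L h) = S.L h := by
  unfold L
  rw [S.star_Lc hh.ofReal]
  simp only [Complex.conj_ofReal]

theorem norm_L_le {h : X → ℝ} (hh : Bdd h) {C : ℝ} (hC0 : 0 ≤ C) (hC : ∀ᵐ x ∂S.μ, |h x| ≤ C) :
    ‖S.L h‖ ≤ C := by
  refine S.norm_Lc_le hh.ofReal hC0 ?_
  filter_upwards [hC] with x hx
  simpa using hx

theorem L_congr {h g : X → ℝ} (hh : Bdd h) (hg : Bdd g) (e : h =ᵐ[S.μ] g) : S.L h = S.L g := by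
  refine S.Lc_congr hh.ofReal hg.ofReal ?_
  filter_upwards [e] with x hx
  rw [hx]

theorem U_add (k l : ℤ) : S.U (k + l) = S.U k * S.U l := by
  refine (compOp_mul_of_ae _ _ _ (Eventually.of_forall fun p => ?_)).symm
  simp only [sub_sub]

theorem U_zero : S.U 0 = 1 := by
  exact compOp_eq_one _ (Eventually.of_forall fun p => by simp)

theorem star_U (k : ℤ) : star (S.U k) = S.U (-k) := by
  refine star_compOp_of_mul _ ?_
  change S.U k * S.U (-k) = 1
  rw [← U_add, add_neg_cancel, U_zero]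

theorem norm_U_apply (k : ℤ) (ξ : S.H) : ‖S.U k ξ‖ = ‖ξ‖ := norm_compOp_apply _ ξ

theorem Sh_add (k l : ℤ) : S.Sh (k + l) = S.Sh k * S.Sh l := by
  refine (compOp_mul_of_ae _ _ _ (Eventually.of_forall fun p => ?_)).symm
  simp only [sub_sub, ← S.add, add_comm l k]

theorem Sh_zero : S.Sh 0 = 1 := by
  refine compOp_eq_one _ (S.ae_ν_iff.2 fun a => ?_)
  filter_upwards [S.zero] with x hx
  simp [hx]

theorem star_Sh (k : ℤ) : star (S.Sh k) = S.Sh (-k) := by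
  refine star_compOp_of_mul _ ?_
  change S.Sh k * S.Sh (-k) = 1
  rw [← Sh_add, add_neg_cancel, Sh_zero]

/-- covariance -/
theorem Lc_mul_U {h : X → ℂ} (hh : Bdd h) (k : ℤ) :
    S.Lc h * S.U k = S.U k * S.Lc fun x => h (S.σ k x) := by
  unfold U Lc
  rw [compOp_mul_mulOp _ ((hh.comp (S.meas_σ k)).comp S.meas_pt)]
  simp only [← S.add, add_sub_cancel]

theorem L_mul_U {h : X → ℝ} (hh : Bdd h) (k : ℤ) :
    S.L h * S.U k = S.U k * S.L fun x => h (S.σ k x) :=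
  S.Lc_mul_U hh.ofReal k

/-- the generating set is closed under adjoints, so membership is just commutation -/
theorem mem_alg {A : S.Op} :
    A ∈ S.alg ↔ (∀ h : X → ℂ, Bdd h → S.ρ h * A = A * S.ρ h) ∧ ∀ k, S.Sh k * A = A * S.Sh k := by
  unfold alg
  rw [StarSubalgebra.mem_centralizer_iff]
  constructor
  · intro H
    exact ⟨fun h hh => (H _ (Or.inl ⟨h, hh, rfl⟩)).1, fun k => (H _ (Or.inr ⟨k, rfl⟩)).1⟩
  · rintro ⟨H1, H2⟩ g (⟨h, hh, rfl⟩ | ⟨k, rfl⟩)
    · refine ⟨H1 h hh, ?_⟩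
      have : star (S.ρ h) = S.ρ fun x => (starRingEnd ℂ) (h x) :=
        star_mulOp (hh.comp measurable_fst)
      rw [this]
      exact H1 _ hh.conj
    · refine ⟨H2 k, ?_⟩
      rw [star_Sh]
      exact H2 _

theorem Lc_mem {h : X → ℂ} (hh : Bdd h) : S.Lc h ∈ S.alg := by
  refine S.mem_alg.2 ⟨fun g hg => ?_, fun k => ?_⟩
  · unfold ρ Lc
    rw [← mulOp_mul (hg.comp measurable_fst) (hh.comp S.meas_pt),
      ← mulOp_mul (hh.comp S.meas_pt) (hg.comp measurable_fst)]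
    simp only [mul_comm]
  · unfold Sh Lc
    rw [compOp_mul_mulOp _ (hh.comp S.meas_pt)]
    simp only [← S.add, sub_add_cancel]

theorem L_mem {h : X → ℝ} (hh : Bdd h) : S.L h ∈ S.alg := S.Lc_mem hh.ofReal

theorem U_mem (k : ℤ) : S.U k ∈ S.alg := by
  refine S.mem_alg.2 ⟨fun g hg => ?_, fun l => ?_⟩
  · unfold ρ U
    rw [compOp_mul_mulOp _ (hg.comp measurable_fst)]
  · unfold Sh U
    rw [compOp_mul_of_ae (S.pres_Sh l) (S.pres_U k) ((S.pres_U k).comp (S.pres_Sh l))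
        (Eventually.of_forall fun p => rfl),
      compOp_mul_of_ae (S.pres_U k) (S.pres_Sh l) ((S.pres_U k).comp (S.pres_Sh l))
        (Eventually.of_forall fun p => by simp only [Function.comp, sub_right_comm])]

theorem Lc_Ω {h : X → ℂ} (hh : Bdd h) : S.Lc h S.Ω = S.ρ h S.Ω := by
  apply Lp.ext
  have h0 : ∀ᵐ p ∂S.ν, S.σ 0 p.1 = p.1 := S.ae_ν_iff.2 fun _ => S.zero
  filter_upwards [S.Lc_apply hh S.Ω, S.ρ_apply hh S.Ω, S.Ω_apply, h0] with p h1 h2 h3 h4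
  rw [h1, h2, h3]
  split_ifs with h5
  · rw [h5, h4]
  · simp

theorem bdd_wt_aux {f : X → ℝ} (hf : Bdd f) (n : ℕ) : Bdd (S.wt f n) := by
  induction n with
  | zero =>
    have : S.wt f 0 = fun _ => 1 := by funext x; simp [wt]
    rw [this]; exact Bdd.const _
  | succ n ih =>
    have : S.wt f (n + 1) = fun x => S.wt f n x * f (S.σ n x) := by
      funext x; simp [wt, Finset.prod_range_succ]
    rw [this]; exact ih.mul (hf.comp (S.meas_σ n))

/-- powers of the weighted shift -/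
theorem T_pow {f : X → ℝ} (hf : Bdd f) (n : ℕ) :
    (S.U 1 * S.L f) ^ n = S.U n * S.L (S.wt f n) := by
  induction n with
  | zero =>
    have : S.wt f 0 = fun _ => 1 := by funext x; simp [wt]
    rw [this, L_one, pow_zero, Nat.cast_zero, U_zero, one_mul]
  | succ n ih =>
    have : S.wt f (n + 1) = fun x => f (S.σ n x) * S.wt f n x := by
      funext x; simp [wt, Finset.prod_range_succ, mul_comm]
    rw [pow_succ', ih, this, S.L_mul (hf.comp (S.meas_σ n)) (S.bdd_wt_aux hf n), Nat.cast_succ,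
      add_comm, U_add, mul_assoc, ← mul_assoc (S.L f), S.L_mul_U hf]
    simp only [mul_assoc]

theorem bdd_wt {f : X → ℝ} (hf : Bdd f) (n : ℕ) : Bdd (S.wt f n) := by
  exact S.bdd_wt_aux hf n

end Sys

end

end Crest.Agent.R113
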