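import Crest.Agent.R113.Ops
import Crest.Agent.R113.Dio

/-!
# Row 113: the irrational rotation
-/

open MeasureTheory Filter Topology
open scoped InnerProductSpace BigOperators ENNReal

set_option linter.unusedSectionVars false

namespace Crest.Agent.R113

noncomputable section

open Classical

theorem volume_eq_haar :
    (volume : Measure UnitAddCircle) = AddCircle.haarAddCircle := by
  rw [AddCircle.volume_eq_smul_haarAddCircle]; simp

/-- the rotation by `θ` -/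
def rot (θ : ℝ) : Sys UnitAddCircle where
  μ := volume
  prob := by rw [volume_eq_haar]; infer_instance
  σ k x := k • (θ : UnitAddCircle) + x
  pres k := measurePreserving_add_left _ _
  add k l x := by rw [add_smul, add_assoc]
  zero := Eventually.of_forall fun x => by simp

theorem rot_σ (θ : ℝ) (k : ℤ) (x : UnitAddCircle) :
    (rot θ).σ k x = k • (θ : UnitAddCircle) + x := rfl

theorem rot_μ (θ : ℝ) : (rot θ).μ = volume := rfl

theorem rot_zero (θ : ℝ) (x : UnitAddCircle) : (rot θ).σ 0 x = x := by simp [rot_σ]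

theorem rot_dense {θ : ℝ} (hθ : Irrational θ) :
    DenseRange (fun k : ℤ => k • (θ : UnitAddCircle)) :=
  AddCircle.denseRange_zsmul_coe_iff.2 (by simpa using hθ)

theorem rot_norm_le (y : ℝ) (n : ℤ) : ‖(y : UnitAddCircle)‖ ≤ |y - n| := by
  rw [UnitAddCircle.norm_eq]
  exact round_le y n

theorem rot_norm_le' (y : ℝ) : ‖(y : UnitAddCircle)‖ ≤ |y| := by
  simpa using rot_norm_le y 0

theorem rot_norm_le_half (x : UnitAddCircle) : ‖x‖ ≤ 1 / 2 := by
  simpa using AddCircle.norm_le_half_period (1 : ℝ) (x := x) one_ne_zero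

/-- the phase of level `m` moves by `d` at each step -/
theorem rot_phase {θ d : ℝ} {m : ℤ} (hd : (d : UnitAddCircle) = m • (θ : UnitAddCircle)) (k : ℤ)
    (x : UnitAddCircle) : m • (rot θ).σ k x = ((k * d : ℝ) : UnitAddCircle) + m • x := by
  rw [rot_σ, smul_add, smul_comm, ← hd, ← AddCircle.coe_zsmul, zsmul_eq_mul]

/-- `AddCircle.ergodic_add_left`, `AddCircle.denseRange_zsmul_iff`, `denseRange_zsmul_coe_iff` -/
theorem rot_erg {θ : ℝ} (hθ : Irrational θ) : Ergodic ((rot θ).σ 1) (rot θ).μ := by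
  have h : Ergodic (fun x : UnitAddCircle => (θ : UnitAddCircle) + x) volume :=
    AddCircle.ergodic_add_left.2 (AddCircle.denseRange_zsmul_iff.1 (rot_dense hθ))
  have e : (rot θ).σ 1 = fun x : UnitAddCircle => (θ : UnitAddCircle) + x := by
    funext x
    rw [rot_σ, one_smul]
  rw [e]
  exact h

/-- real representatives of the nonzero multiples of `θ` -/
def Dn (θ : ℝ) : Set ℝ := {d | ∃ m : ℤ, m ≠ 0 ∧ (d : UnitAddCircle) = m • (θ : UnitAddCircle)}

theorem Dn_dense {θ : ℝ} (hθ : Irrational θ) (a b : ℝ) (ha : 0 ≤ a) (hab : a < b) (hb : b ≤ 1) :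
    ∃ d ∈ Dn θ, a < d ∧ d < b := by
  have ho : IsOpen ((fun y : ℝ => (y : UnitAddCircle)) '' Set.Ioo a b) :=
    QuotientAddGroup.isOpenMap_coe _ isOpen_Ioo
  obtain ⟨m, d, hd, hm⟩ := (rot_dense hθ).exists_mem_open ho
    ⟨_, (a + b) / 2, ⟨by linarith, by linarith⟩, rfl⟩
  refine ⟨d, ⟨m, ?_, hm⟩, hd.1, hd.2⟩
  rintro rfl
  simp only [zero_smul] at hm
  obtain ⟨n, hn⟩ := (AddCircle.coe_eq_zero_iff (1 : ℝ)).1 hm
  rw [zsmul_eq_mul, mul_one] at hn
  have h0 : (0 : ℝ) < n := by rw [hn]; linarith [hd.1]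
  have h1 : (n : ℝ) < 1 := by rw [hn]; linarith [hd.2]
  have h0' : (0 : ℤ) < n := by exact_mod_cast h0
  have h1' : n < 1 := by exact_mod_cast h1
  omega

/-- compactness: finitely many of the open sets `{x | ‖σ k x‖ < r}`, `k ∈ ℤ`, cover the circle;
translate the indices to `ℕ` -/
theorem exists_return {θ : ℝ} (hθ : Irrational θ) {r : ℝ} (hr : 0 < r) :
    ∃ R : ℕ, ∀ x, ∃ k : ℕ, k < R ∧ ‖(rot θ).σ k x‖ ≤ r := by
  obtain ⟨t, ht⟩ := (isCompact_univ (X := UnitAddCircle)).elim_finite_subcover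
    (fun k : ℤ => {x | ‖(rot θ).σ k x‖ < r})
    (fun k => isOpen_lt (by simp only [rot_σ]; fun_prop) continuous_const)
    (fun x _ => by
      obtain ⟨k, hk⟩ := (rot_dense hθ).exists_dist_lt (-x) hr
      refine Set.mem_iUnion.2 ⟨k, ?_⟩
      rw [dist_comm, dist_eq_norm, sub_neg_eq_add] at hk
      exact hk)
  set N : ℕ := t.sup Int.natAbs with hN
  refine ⟨2 * N + 1, fun x => ?_⟩
  obtain ⟨k, hk, hx⟩ := Set.mem_iUnion₂.1 (ht (Set.mem_univ ((rot θ).σ N x)))
  have h1 : k.natAbs ≤ N := Finset.le_sup (f := Int.natAbs) hk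
  refine ⟨(k + N).toNat, by omega, ?_⟩
  have e : (((k + N).toNat : ℕ) : ℤ) = k + N := by omega
  rw [e, (rot θ).add]
  exact le_of_lt hx

/-- `r i = 1 / (n i + 1)` with `n i` the largest `n ≤ i` whose return time satisfies the bounds
(`n = 0` works with `R = 1`) -/
theorem exists_radii {θ : ℝ} (hθ : Irrational θ) {B : ℕ → ℕ} (hB : ∀ i, 4 ^ (i + 1) ≤ B i) :
    ∃ (r : ℕ → ℝ) (R : ℕ → ℕ), (∀ i, 0 < r i) ∧ Tendsto r atTop (𝓝 0) ∧
      (∀ i, R i * 2 ^ i ≤ B i ∧ R i + 1 ≤ B i) ∧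
      ∀ i x, ∃ k : ℕ, k < R i ∧ ‖(rot θ).σ k x‖ ≤ r i := by
  have h0 : ∀ n : ℕ, ∃ R : ℕ, (n = 0 → R = 1) ∧
      ∀ x, ∃ k : ℕ, k < R ∧ ‖(rot θ).σ k x‖ ≤ 1 / ((n : ℝ) + 1) := by
    intro n
    rcases Nat.eq_zero_or_pos n with rfl | hn
    · refine ⟨1, fun _ => rfl, fun x => ⟨0, one_pos, ?_⟩⟩
      have := rot_norm_le_half ((rot θ).σ (0 : ℕ) x)
      simp only [Nat.cast_zero, zero_add, div_one] at this ⊢
      linarith
    · obtain ⟨R, hR⟩ := exists_return hθ (r := 1 / ((n : ℝ) + 1)) (by positivity)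
      exact ⟨R, fun h => absurd h hn.ne', hR⟩
  choose Rr hRr0 hRr using h0
  set n : ℕ → ℕ := fun i => Nat.findGreatest (fun n => Rr n ≤ 2 ^ i) i with hn
  have hle : ∀ i, Rr (n i) ≤ 2 ^ i := fun i =>
    Nat.findGreatest_spec (P := fun n => Rr n ≤ 2 ^ i) (Nat.zero_le i)
      (by rw [hRr0 0 rfl]; exact Nat.one_le_two_pow)
  have hlim : Tendsto n atTop atTop := by
    refine tendsto_atTop_atTop.2 fun N => ⟨max N (Rr N), fun i hi => ?_⟩
    refine Nat.le_findGreatest (P := fun n => Rr n ≤ 2 ^ i) ((le_max_left _ _).trans hi) ?_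
    exact ((le_max_right _ _).trans hi).trans Nat.lt_two_pow_self.le
  refine ⟨fun i => 1 / ((n i : ℝ) + 1), fun i => Rr (n i), fun i => by positivity,
    tendsto_one_div_add_atTop_nhds_zero_nat.comp hlim, fun i => ?_, fun i => hRr (n i)⟩
  have h1 := hle i
  have h2 := hB i
  have h3 : 4 ^ (i + 1) = 4 * (2 ^ i * 2 ^ i) := by
    rw [pow_succ, ← mul_pow]; ring
  have h4 : 1 ≤ 2 ^ i := Nat.one_le_two_pow
  have h5 : Rr (n i) * 2 ^ i ≤ 2 ^ i * 2 ^ i := Nat.mul_le_mul_right _ h1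
  have h6 : 2 ^ i ≤ 2 ^ i * 2 ^ i := Nat.le_mul_of_pos_right _ h4
  beta_reduce
  constructor <;> omega

/-- `measurePreserving_zsmul`, `AddCircle.volume_closedBall` -/
theorem measure_arc {m : ℤ} (hm : m ≠ 0) (c : UnitAddCircle) {ρ : ℝ} (hρ : 0 ≤ ρ) :
    (volume : Measure UnitAddCircle).real {x | ‖m • x - c‖ ≤ ρ} ≤ 2 * ρ := by
  have hp : MeasurePreserving (fun x : UnitAddCircle => m • x) volume volume :=
    Measure.measurePreserving_zsmul volume hm
  have e : {x : UnitAddCircle | ‖m • x - c‖ ≤ ρ} = (fun x => m • x) ⁻¹' Metric.closedBall c ρ := by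
    ext x
    simp [dist_eq_norm]
  rw [e, Measure.real, hp.measure_preimage measurableSet_closedBall.nullMeasurableSet,
    AddCircle.volume_closedBall, ENNReal.toReal_ofReal (le_min zero_le_one (by linarith))]
  exact min_le_right _ _

/-- the annulus lies in two arcs centred at `±(ρ + η / 2)` -/
theorem measure_annulus {m : ℤ} (hm : m ≠ 0) {ρ η : ℝ} (hρ : 0 ≤ ρ) (hη : 0 ≤ η) :
    (volume : Measure UnitAddCircle).real {x | ρ < ‖m • x‖ ∧ ‖m • x‖ < ρ + η} ≤ 2 * η := by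
  have hsub : {x : UnitAddCircle | ρ < ‖m • x‖ ∧ ‖m • x‖ < ρ + η} ⊆
      {x | ‖m • x - ((ρ + η / 2 : ℝ) : UnitAddCircle)‖ ≤ η / 2} ∪
      {x | ‖m • x - ((-(ρ + η / 2) : ℝ) : UnitAddCircle)‖ ≤ η / 2} := by
    rintro x ⟨h1, h2⟩
    obtain ⟨y, hy⟩ := QuotientAddGroup.mk_surjective (m • x)
    have e : m • x = ((y - round y : ℝ) : UnitAddCircle) := by
      rw [AddCircle.coe_sub, ← hy]
      have : ((round y : ℝ) : UnitAddCircle) = 0 :=
        (AddCircle.coe_eq_zero_iff (1 : ℝ)).2 ⟨round y, by simp⟩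
      rw [this, sub_zero]
    rw [← hy, UnitAddCircle.norm_eq] at h1 h2
    simp only [Set.mem_union, Set.mem_ofPred_eq]
    rw [e, ← AddCircle.coe_sub, ← AddCircle.coe_sub]
    rcases le_total 0 (y - round y) with h | h
    · left
      rw [abs_of_nonneg h] at h1 h2
      exact (rot_norm_le' _).trans (abs_le.2 ⟨by linarith, by linarith⟩)
    · right
      rw [abs_of_nonpos h] at h1 h2
      exact (rot_norm_le' _).trans (abs_le.2 ⟨by linarith, by linarith⟩)
  have : IsProbabilityMeasure (volume : Measure UnitAddCircle) := (rot 0).prob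
  have h1 := measure_arc hm ((ρ + η / 2 : ℝ) : UnitAddCircle) (ρ := η / 2) (by linarith)
  have h2 := measure_arc hm ((-(ρ + η / 2) : ℝ) : UnitAddCircle) (ρ := η / 2) (by linarith)
  have h3 := (measureReal_mono (μ := volume) hsub).trans (measureReal_union_le _ _)
  linarith

/-- the core of the cut set of one level -/
def core (r w : ℝ) (m : ℤ) : Set UnitAddCircle := {x | ‖x‖ ≤ r ∧ ‖m • x‖ ≤ w / 2}

theorem measurableSet_core (r w : ℝ) (m : ℤ) : MeasurableSet (core r w m) := by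
  refine IsClosed.measurableSet ?_
  have h : Continuous fun x : UnitAddCircle => ‖m • x‖ := by fun_prop
  exact (isClosed_le continuous_norm continuous_const).inter (isClosed_le h continuous_const)

/-- Lift `m • x` to `y : ℝ`, take `n : ℤ` with `n - w / 2 ∈ [y, y + 1)` and
`k₁ = ⌈(n - w / 2 - y) / d⌉ ≤ 2 B`; for `k₁ ≤ k < k₁ + R` the phase `y + k d` is within `w / 2` of `n`. -/
theorem synd_core {θ r w d : ℝ} {m : ℤ} {B R : ℕ} (hd : (d : UnitAddCircle) = m • (θ : UnitAddCircle))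
    (hd₁ : 1 / (2 * (B : ℝ)) < d) (hB : R + 1 ≤ B) (hw : R * d ≤ w)
    (hR : ∀ x, ∃ k : ℕ, k < R ∧ ‖(rot θ).σ k x‖ ≤ r) : (rot θ).Synd (core r w m) (3 * B) := by
  intro x
  obtain ⟨y, hy⟩ := QuotientAddGroup.mk_surjective (m • x)
  have hB0 : (0 : ℝ) < B := by exact_mod_cast (by omega : 0 < B)
  have hd0 : 0 < d := lt_trans (by positivity) hd₁
  set n : ℤ := ⌈y + w / 2⌉ with hn
  have hn1 : y + w / 2 ≤ n := Int.le_ceil _
  have hn2 : (n : ℝ) < y + w / 2 + 1 := Int.ceil_lt_add_one _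
  set z : ℝ := (n - w / 2 - y) / d with hz
  have hz0 : 0 ≤ z := div_nonneg (by linarith) hd0.le
  have hzd : z * d = n - w / 2 - y := by rw [hz]; field_simp
  have hzB : z ≤ ((2 * B : ℕ) : ℝ) := by
    rw [div_lt_iff₀ (by positivity)] at hd₁
    rw [hz, div_le_iff₀ hd0]
    push_cast
    linarith
  set k₁ : ℕ := ⌈z⌉₊ with hk₁
  have hk1 : k₁ ≤ 2 * B := Nat.ceil_le.2 hzB
  have hk2 : z ≤ k₁ := Nat.le_ceil z
  have hk3 : (k₁ : ℝ) < z + 1 := Nat.ceil_lt_add_one hz0
  obtain ⟨k, hk, hx⟩ := hR ((rot θ).σ k₁ x)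
  refine ⟨k + k₁, by omega, ?_, ?_⟩
  · rw [Nat.cast_add, (rot θ).add]
    exact hx
  · rw [rot_phase hd, ← hy, ← AddCircle.coe_add]
    refine (rot_norm_le _ n).trans ?_
    have hk' : (k : ℝ) + 1 ≤ R := by exact_mod_cast hk
    have hk0 : (0 : ℝ) ≤ k := Nat.cast_nonneg k
    push_cast
    refine abs_le.2 ⟨?_, ?_⟩ <;> nlinarith

theorem measure_hit_core {θ r w d : ℝ} {m : ℤ} (hm : m ≠ 0)
    (hd : (d : UnitAddCircle) = m • (θ : UnitAddCircle)) (hd0 : 0 ≤ d) (hw : 0 ≤ w) (n : ℕ) :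
    (volume : Measure UnitAddCircle).real {x | ∃ k : ℕ, k < n ∧ (rot θ).σ k x ∈ core r w m} ≤
      w + n * d := by
  have : IsProbabilityMeasure (volume : Measure UnitAddCircle) := (rot 0).prob
  have hn : (0 : ℝ) ≤ n := Nat.cast_nonneg n
  have h1 := measure_arc hm ((-(n * d / 2) : ℝ) : UnitAddCircle) (ρ := w / 2 + n * d / 2)
    (by positivity)
  refine (measureReal_mono (μ := volume) ?_).trans (h1.trans (le_of_eq (by ring)))
  rintro x ⟨k, hk, -, hx⟩
  rw [rot_phase hd] at hx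
  have e : m • x - ((-(n * d / 2) : ℝ) : UnitAddCircle) =
      ((((k : ℤ) * d : ℝ) : UnitAddCircle) + m • x) + ((n * d / 2 - (k : ℤ) * d : ℝ) : UnitAddCircle) := by
    rw [AddCircle.coe_sub, AddCircle.coe_neg]
    abel
  show ‖_‖ ≤ _
  rw [e]
  refine (norm_add_le _ _).trans (add_le_add hx ((rot_norm_le' _).trans ?_))
  have hk' : (k : ℝ) ≤ n := by exact_mod_cast hk.le
  have hk0 : (0 : ℝ) ≤ k := Nat.cast_nonneg k
  push_cast
  refine abs_le.2 ⟨?_, ?_⟩ <;> nlinarith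

theorem dZ_le_of_mem_core {θ r w d : ℝ} {m : ℤ}
    (hd : (d : UnitAddCircle) = m • (θ : UnitAddCircle)) {x : UnitAddCircle} {k l : ℤ}
    (hk : (rot θ).σ k x ∈ core r w m) (hl : (rot θ).σ l x ∈ core r w m) :
    dZ (((l : ℝ) - k) * d) ≤ w := by
  have h1 := hk.2
  have h2 := hl.2
  rw [rot_phase hd] at h1 h2
  have e : ((((l : ℝ) - k) * d : ℝ) : UnitAddCircle) =
      (((l * d : ℝ) : UnitAddCircle) + m • x) - (((k * d : ℝ) : UnitAddCircle) + m • x) := by
    rw [sub_mul, AddCircle.coe_sub]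
    abel
  unfold dZ
  rw [← UnitAddCircle.norm_eq, e]
  have := norm_sub_le (((l * d : ℝ) : UnitAddCircle) + m • x) (((k * d : ℝ) : UnitAddCircle) + m • x)
  linarith

/-- trapezoid: `1` up to `a`, `0` from `a + η` on -/
def trap (a η u : ℝ) : ℝ := max 0 (min 1 ((a + η - u) / η))

/-- the cost of one level -/
def cost (c r w η : ℝ) (m : ℤ) (x : UnitAddCircle) : ℝ :=
  c * trap r η ‖x‖ * trap (w / 2) η ‖m • x‖

/-- the weight -/
def wgt (c r w η : ℕ → ℝ) (m : ℕ → ℤ) (x : UnitAddCircle) : ℝ :=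
  ‖x‖ * Real.exp (-∑' i, cost (c i) (r i) (w i) (η i) (m i) x)

theorem trap_nonneg (a η u : ℝ) : 0 ≤ trap a η u := le_max_left _ _

theorem trap_le_one (a η u : ℝ) : trap a η u ≤ 1 := max_le zero_le_one (min_le_left _ _)

theorem trap_eq_zero {a η u : ℝ} (hη : 0 < η) (h : a + η ≤ u) : trap a η u = 0 :=
  max_eq_left ((min_le_right _ _).trans (div_nonpos_of_nonpos_of_nonneg (by linarith) hη.le))

theorem trap_eq_one {a η u : ℝ} (hη : 0 < η) (h : u ≤ a) : trap a η u = 1 := by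
  have : 1 ≤ (a + η - u) / η := by rw [le_div_iff₀ hη]; linarith
  unfold trap
  rw [min_eq_left this, max_eq_right zero_le_one]

theorem continuous_trap (a η : ℝ) : Continuous (trap a η) := by
  unfold trap
  fun_prop

theorem cost_nonneg {c : ℝ} (hc : 0 ≤ c) (r w η : ℝ) (m : ℤ) (x : UnitAddCircle) :
    0 ≤ cost c r w η m x :=
  mul_nonneg (mul_nonneg hc (trap_nonneg _ _ _)) (trap_nonneg _ _ _)

theorem cost_le {c : ℝ} (hc : 0 ≤ c) (r w η : ℝ) (m : ℤ) (x : UnitAddCircle) :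
    cost c r w η m x ≤ c :=
  (mul_le_of_le_one_right (mul_nonneg hc (trap_nonneg _ _ _)) (trap_le_one _ _ _)).trans
    (mul_le_of_le_one_right hc (trap_le_one _ _ _))

theorem cost_eq_zero {c r w η : ℝ} (hη : 0 < η) {m : ℤ} {x : UnitAddCircle}
    (h : r + η ≤ ‖x‖ ∨ w / 2 + η ≤ ‖m • x‖) : cost c r w η m x = 0 := by
  unfold cost
  rcases h with h | h <;> rw [trap_eq_zero hη h] <;> simp

theorem continuous_cost (c r w η : ℝ) (m : ℤ) : Continuous (cost c r w η m) :=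
  (continuous_const.mul ((continuous_trap _ _).comp continuous_norm)).mul
    ((continuous_trap _ _).comp (by fun_prop))

/-- Near `x₀ ≠ 0` all but finitely many costs vanish (`r i + η i → 0`), at `0` squeeze by `‖x‖`. -/
theorem wgt_spec {c r w η : ℕ → ℝ} (m : ℕ → ℤ) (hc : ∀ i, 0 ≤ c i) (hη : ∀ i, 0 < η i)
    (hr : Tendsto r atTop (𝓝 0)) (hη' : Tendsto η atTop (𝓝 0)) :
    Continuous (wgt c r w η m) ∧ (∀ x, 0 ≤ wgt c r w η m x ∧ wgt c r w η m x ≤ 1) ∧
      (∀ x, wgt c r w η m x = 0 ↔ x = 0) ∧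
      (∀ i, ∀ x ∈ core (r i) (w i) (m i), wgt c r w η m x ≤ Real.exp (-c i)) ∧
      ∀ i x, (∀ j, i ≤ j → r j + η j ≤ ‖x‖ ∨ w j / 2 + η j ≤ ‖m j • x‖) →
        ‖x‖ * Real.exp (-∑ j ∈ Finset.range i, c j) ≤ wgt c r w η m x := by
  have hfin : ∀ ε : ℝ, 0 < ε → ∃ N : ℕ, ∀ x : UnitAddCircle, ε ≤ ‖x‖ →
      ∀ i ∉ Finset.range N, cost (c i) (r i) (w i) (η i) (m i) x = 0 := by
    intro ε hε
    have h := hr.add hη'
    rw [add_zero] at h
    obtain ⟨N, hN⟩ := eventually_atTop.1 (h.eventually (gt_mem_nhds hε))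
    refine ⟨N, fun x hx i hi => cost_eq_zero (hη i) (Or.inl ?_)⟩
    have := hN i (by simpa using hi)
    linarith
  have hb : ∀ x, 0 ≤ wgt c r w η m x ∧ wgt c r w η m x ≤ ‖x‖ := fun x =>
    ⟨mul_nonneg (norm_nonneg _) (Real.exp_pos _).le, mul_le_of_le_one_right (norm_nonneg _)
      (Real.exp_le_one_iff.2 (neg_nonpos.2 (tsum_nonneg fun i => cost_nonneg (hc i) _ _ _ _ _)))⟩
  refine ⟨?_, fun x => ⟨(hb x).1, (hb x).2.trans ((rot_norm_le_half x).trans (by norm_num))⟩,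
    fun x => ?_, fun i x hx => ?_, fun i x hx => ?_⟩
  · refine continuous_iff_continuousAt.2 fun x₀ => ?_
    by_cases h0 : x₀ = 0
    · subst h0
      have e : wgt c r w η m 0 = 0 := by simp [wgt]
      unfold ContinuousAt
      rw [e]
      refine squeeze_zero (fun x => (hb x).1) (fun x => (hb x).2) ?_
      simpa using (continuous_norm (E := UnitAddCircle)).tendsto 0
    · have hp : 0 < ‖x₀‖ := norm_pos_iff.2 h0
      obtain ⟨N, hN⟩ := hfin (‖x₀‖ / 2) (by linarith)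
      have hc' : Continuous fun x : UnitAddCircle =>
          ‖x‖ * Real.exp (-∑ i ∈ Finset.range N, cost (c i) (r i) (w i) (η i) (m i) x) :=
        continuous_norm.mul (Real.continuous_exp.comp
          (continuous_finsetSum _ fun i _ => continuous_cost _ _ _ _ _).neg)
      refine hc'.continuousAt.congr ?_
      have : ∀ᶠ x in 𝓝 x₀, ‖x₀‖ / 2 < ‖x‖ :=
        continuous_norm.continuousAt.eventually (lt_mem_nhds (by linarith))
      filter_upwards [this] with x hx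
      unfold wgt
      rw [tsum_eq_sum (hN x hx.le)]
  · unfold wgt
    rw [mul_eq_zero, norm_eq_zero]
    exact ⟨fun h => h.resolve_right (Real.exp_pos _).ne', Or.inl⟩
  · by_cases h0 : x = 0
    · subst h0
      have e : wgt c r w η m 0 = 0 := by simp [wgt]
      rw [e]
      exact (Real.exp_pos _).le
    · obtain ⟨N, hN⟩ := hfin ‖x‖ (norm_pos_iff.2 h0)
      have hs : Summable fun j => cost (c j) (r j) (w j) (η j) (m j) x :=
        summable_of_ne_finset_zero (hN x le_rfl)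
      have h1 := hs.le_tsum i fun j _ => cost_nonneg (hc j) _ _ _ _ _
      have e : cost (c i) (r i) (w i) (η i) (m i) x = c i := by
        unfold cost
        rw [trap_eq_one (hη i) hx.1, trap_eq_one (hη i) hx.2, mul_one, mul_one]
      rw [e] at h1
      refine (mul_le_of_le_one_left (Real.exp_pos _).le
        ((rot_norm_le_half x).trans (by norm_num))).trans ?_
      exact Real.exp_le_exp.2 (neg_le_neg h1)
  · unfold wgt
    rw [tsum_eq_sum (s := Finset.range i) fun j hj =>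
      cost_eq_zero (hη j) (hx j (by simpa using hj))]
    refine mul_le_mul_of_nonneg_left (Real.exp_le_exp.2 (neg_le_neg ?_)) (norm_nonneg _)
    exact Finset.sum_le_sum fun j _ => cost_le (hc j) _ _ _ _ _

end

end Crest.Agent.R113
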