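import Crest.Agent.R113.Dio

/-!
# Row 113: the scales

Levels `i : ℕ` are grouped in windows `s : ℕ`; window `s` consists of the `2 ^ rr s` levels
`bb s ≤ i < bb (s + 1)`, in which the scales grow by the ratio `LL (rr s)`.  In epoch `e`
(`e² ≤ s < (e + 1)²`) the parameter `rr s` runs from `0` to `2 e`.
-/

open MeasureTheory Filter Topology
open scoped InnerProductSpace BigOperators ENNReal

set_option linter.unusedSectionVars false

namespace Crest.Agent.R113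

noncomputable section

open Classical

/-- size parameter of window `s` -/
def rr (s : ℕ) : ℕ := s - Nat.sqrt s ^ 2

/-- ratio of consecutive scales -/
def LL (r : ℕ) : ℕ := (r + 4) ^ 2

/-- first level of window `s` -/
def bb : ℕ → ℕ
  | 0 => 0
  | s + 1 => bb s + 2 ^ rr s

/-- windows used after the start `s₀` -/
def Used (s₀ s : ℕ) : Prop :=
  s₀ ≤ s ∧ (Nat.sqrt s = Nat.sqrt s₀ ∨ 2 * Nat.sqrt s ≤ rr s + 2)

/-- properties of the scales `B` and frequencies `θ` -/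
structure Scale (Dn : Set ℝ) (B : ℕ → ℕ) (θ : ℕ → ℝ) : Prop where
  zero : B 0 = 4
  succ : ∀ s i, bb s ≤ i → i < bb (s + 1) → B (i + 1) = LL (rr s) * B i
  mem : ∀ i, θ i ∈ Dn
  lower : ∀ i, 1 / (2 * (B i : ℝ)) < θ i
  upper : ∀ i, θ i < 1 / (B i : ℝ)
  dio : ∀ s, 2 ≤ rr s → ∀ j : ℕ, B (bb (s + 1)) ≤ j →
    j ≤ B (bb (s + 1)) * LL (rr s + 1) ^ (2 * 2 ^ rr s) →
    2 ^ rr s ≤ 2 * ((Finset.Ico (bb s) (bb (s + 1))).filter
      fun i => lam (LL (rr s + 1)) ≤ dZ (j * θ i)).card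

theorem bb_strictMono : StrictMono bb := by
  refine strictMono_nat_of_lt_succ fun s => ?_
  have : 0 < 2 ^ rr s := Nat.pos_of_ne_zero (by positivity)
  simp only [bb]
  omega

theorem le_bb (s : ℕ) : s ≤ bb s := bb_strictMono.le_apply

theorem exists_window (i : ℕ) : ∃ s, bb s ≤ i ∧ i < bb (s + 1) := by
  induction i with
  | zero => exact ⟨0, le_rfl, bb_strictMono (Nat.lt_succ_self 0)⟩
  | succ i ih =>
    obtain ⟨s, h1, h2⟩ := ih
    by_cases h : i + 1 < bb (s + 1)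
    · exact ⟨s, by omega, h⟩
    · have := bb_strictMono (Nat.lt_succ_self (s + 1))
      simp only [Nat.succ_eq_add_one] at this
      exact ⟨s + 1, by omega, by omega⟩

theorem rr_succ_le (s : ℕ) : rr (s + 1) ≤ rr s + 1 := by
  have h1 : Nat.sqrt s ^ 2 ≤ Nat.sqrt (s + 1) ^ 2 :=
    Nat.pow_le_pow_left (Nat.sqrt_le_sqrt (Nat.le_succ s)) 2
  have h2 := Nat.sqrt_le' s
  simp only [rr]
  omega

theorem rr_le (s : ℕ) : rr s ≤ 2 * Nat.sqrt s := by
  have h := Nat.sqrt_le_add s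
  simp only [rr, pow_two]
  omega

theorem sqrt_sq_add {e r : ℕ} (h : r ≤ 2 * e) : Nat.sqrt (e ^ 2 + r) = e ∧ rr (e ^ 2 + r) = r := by
  have h1 : Nat.sqrt (e ^ 2 + r) = e := Nat.sqrt_add_eq' e (by omega)
  refine ⟨h1, ?_⟩
  rw [rr, h1]
  omega

theorem window_unique {s s' i : ℕ} (h₁ : bb s ≤ i) (h₂ : i < bb (s + 1)) (h₃ : bb s' ≤ i)
    (h₄ : i < bb (s' + 1)) : s = s' := by
  have a := bb_strictMono.lt_iff_lt.1 (h₁.trans_lt h₄)
  have b := bb_strictMono.lt_iff_lt.1 (h₃.trans_lt h₂)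
  omega

theorem sixteen_le_LL (r : ℕ) : 16 ≤ LL r := by
  rw [LL]
  exact (by norm_num : 16 = 4 ^ 2).le.trans (Nat.pow_le_pow_left (by omega) 2)

theorem LL_mono {r r' : ℕ} (h : r ≤ r') : LL r ≤ LL r' :=
  Nat.pow_le_pow_left (by omega) 2

theorem eq_sq_add_rr (s : ℕ) : s = Nat.sqrt s ^ 2 + rr s := by
  have := Nat.sqrt_le' s
  simp only [rr]
  omega

/-- the scale at the start of window `s` -/
def bet : ℕ → ℕ
  | 0 => 4
  | s + 1 => bet s * LL (rr s) ^ 2 ^ rr s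

theorem one_le_bet (s : ℕ) : 1 ≤ bet s := by
  induction s with
  | zero => simp [bet]
  | succ s ih =>
    have := sixteen_le_LL (rr s)
    exact Nat.mul_pos ih (Nat.pow_pos (by omega))

/-- `β 0 = 4`, `β (s+1) = β s * LL (rr s) ^ 2 ^ rr s`, `B i = β s * LL (rr s) ^ (i - bb s)` in window
`s`; the frequencies of window `s` come from `dio` (from `hD` if `rr s < 2`). -/
theorem exists_scale {Dn : Set ℝ}
    (hD : ∀ a b : ℝ, 0 ≤ a → a < b → b ≤ 1 → ∃ d ∈ Dn, a < d ∧ d < b) :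
    ∃ (B : ℕ → ℕ) (θ : ℕ → ℝ), Scale Dn B θ := by
  choose W hW1 hW2 using exists_window
  have hW : ∀ s i, bb s ≤ i → i < bb (s + 1) → W i = s := fun s i h1 h2 =>
    window_unique (hW1 i) (hW2 i) h1 h2
  have hΘ : ∀ s, ∃ Θ : ℕ → ℝ, (∀ a, Θ a ∈ Dn ∧ 1 / (2 * (bet s * LL (rr s) ^ a : ℝ)) < Θ a ∧
      Θ a < 1 / (bet s * LL (rr s) ^ a : ℝ)) ∧ (2 ≤ rr s → ∀ j : ℕ, bet s * LL (rr s) ^ 2 ^ rr s ≤ j →
        j ≤ bet s * LL (rr s) ^ 2 ^ rr s * LL (rr s + 1) ^ (2 * 2 ^ rr s) →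
        2 ^ rr s ≤ 2 * ((Finset.range (2 ^ rr s)).filter
          fun a => lam (LL (rr s + 1)) ≤ dZ (j * Θ a)).card) := by
    intro s
    have hL : 2 ≤ LL (rr s) := le_trans (by norm_num) (sixteen_le_LL _)
    by_cases hs : 2 ≤ rr s
    · have hk : 4 ≤ 2 ^ rr s := (by norm_num : 4 = 2 ^ 2).le.trans (Nat.pow_le_pow_right (by norm_num) hs)
      obtain ⟨Θ, h1, h2⟩ := dio hD hk hL (LL_mono (Nat.le_succ (rr s))) (one_le_bet s)
      exact ⟨Θ, h1, fun _ => h2⟩
    · obtain ⟨Θ, h1, -⟩ := dio hD (le_refl 4) hL (LL_mono (Nat.le_succ (rr s))) (one_le_bet s)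
      exact ⟨Θ, h1, fun h => absurd h hs⟩
  choose Θ hΘ1 hΘ2 using hΘ
  set B : ℕ → ℕ := fun i => bet (W i) * LL (rr (W i)) ^ (i - bb (W i)) with hB
  have key : ∀ s i, bb s ≤ i → i ≤ bb (s + 1) → B i = bet s * LL (rr s) ^ (i - bb s) := by
    intro s i h1 h2
    rcases h2.lt_or_eq with h2 | rfl
    · simp only [hB, hW s i h1 h2]
    · have h3 := hW (s + 1) (bb (s + 1)) le_rfl (bb_strictMono (Nat.lt_succ_self _))
      have h4 : bb (s + 1) - bb s = 2 ^ rr s := by simp [bb]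
      simp only [hB, h3, h4, Nat.sub_self, pow_zero, mul_one, bet]
  refine ⟨B, fun i => Θ (W i) (i - bb (W i)), ?_, ?_, fun i => (hΘ1 _ _).1, fun i => ?_,
    fun i => ?_, ?_⟩
  · rw [key 0 0 le_rfl (Nat.zero_le _)]
    simp [bet]
  · intro s i h1 h2
    rw [key s i h1 h2.le, key s (i + 1) (by omega) h2, Nat.succ_sub h1, pow_succ]
    ring
  · simpa only [hB, Nat.cast_mul, Nat.cast_pow] using (hΘ1 (W i) (i - bb (W i))).2.1
  · simpa only [hB, Nat.cast_mul, Nat.cast_pow] using (hΘ1 (W i) (i - bb (W i))).2.2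
  · intro s hs j hj1 hj2
    have h4 : bb (s + 1) = bb s + 2 ^ rr s := rfl
    have h5 : B (bb (s + 1)) = bet s * LL (rr s) ^ 2 ^ rr s := by
      rw [h4, key s _ (Nat.le_add_right _ _) le_rfl, Nat.add_sub_cancel_left]
    rw [h5] at hj1 hj2
    refine (hΘ2 s hs j hj1 hj2).trans (Nat.mul_le_mul_left 2 ?_)
    refine Finset.card_le_card_of_injOn (fun a => bb s + a) (fun a ha => ?_) fun a _ b _ h => ?_
    · simp only [Finset.coe_filter, Finset.mem_range, Set.mem_ofPred_eq, Finset.mem_Ico] at ha ⊢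
      refine ⟨⟨by omega, by omega⟩, ?_⟩
      rw [hW s (bb s + a) (by omega) (by omega), Nat.add_sub_cancel_left]
      exact ha.2
    · exact Nat.add_left_cancel h

namespace Scale
variable {Dn : Set ℝ} {B : ℕ → ℕ} {θ : ℕ → ℝ}

theorem grow (h : Scale Dn B θ) (i : ℕ) : 16 * B i ≤ B (i + 1) := by
  obtain ⟨s, h1, h2⟩ := exists_window i
  rw [h.succ s i h1 h2]
  exact Nat.mul_le_mul_right _ (sixteen_le_LL _)

theorem pow_le (h : Scale Dn B θ) (i : ℕ) : 4 ^ (i + 1) ≤ B i := by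
  induction i with
  | zero => simp [h.zero]
  | succ i ih =>
    have := h.grow i
    rw [pow_succ]
    omega

theorem strictMono (h : Scale Dn B θ) : StrictMono B := by
  refine strictMono_nat_of_lt_succ fun i => ?_
  have h1 := h.grow i
  have h2 := h.pow_le i
  have h3 : 0 < 4 ^ (i + 1) := by positivity
  omega

theorem B_bb_succ (h : Scale Dn B θ) (s : ℕ) :
    B (bb (s + 1)) = B (bb s) * LL (rr s) ^ 2 ^ rr s := by
  have h4 : bb (s + 1) = bb s + 2 ^ rr s := rfl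
  have key : ∀ a, a ≤ 2 ^ rr s → B (bb s + a) = B (bb s) * LL (rr s) ^ a := by
    intro a
    induction a with
    | zero => simp
    | succ a ih =>
      intro ha
      rw [← add_assoc, h.succ s (bb s + a) (by omega) (by omega), ih (by omega), pow_succ]
      ring
  rw [h4, key _ le_rfl]

/-- the ratio is bounded in the `n` levels after window `s` -/
theorem ratio_le (h : Scale Dn B θ) {s n i : ℕ} (h₁ : bb s ≤ i) (h₂ : i < bb (s + 1) + n) :
    B (i + 1) ≤ LL (rr s + n + 1) * B i := by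
  obtain ⟨s', h3, h4⟩ := exists_window i
  have h5 : s < s' + 1 := bb_strictMono.lt_iff_lt.1 (h₁.trans_lt h4)
  have h6 : ∀ a, bb (s + 1) + a ≤ bb (s + 1 + a) := fun a => by
    have := bb_strictMono.add_le_nat a (s + 1)
    rwa [add_comm a, add_comm a] at this
  have h7 : ∀ a, rr (s + a) ≤ rr s + a := by
    intro a
    induction a with
    | zero => simp
    | succ a ih =>
      have := rr_succ_le (s + a)
      rw [← add_assoc]
      omega
  have h8 : s' ≤ s + n := by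
    by_contra hc
    have a := h6 n
    have b : bb (s + 1 + n) ≤ bb s' := bb_strictMono.monotone (by omega)
    omega
  obtain ⟨a, rfl⟩ : ∃ a, s' = s + a := ⟨s' - s, by omega⟩
  rw [h.succ _ i h3 h4]
  have := h7 a
  exact Nat.mul_le_mul_right _ (LL_mono (by omega))

theorem B_epoch (h : Scale Dn B θ) {e R : ℕ} (m : ℕ) (hm : m ≤ 2 * e + 1) (hR : m ≤ R + 1) :
    B (bb (e ^ 2 + m)) ≤ B (bb (e ^ 2)) * LL R ^ 2 ^ m := by
  induction m with
  | zero =>
    have := sixteen_le_LL R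
    simp only [add_zero, pow_zero, pow_one]
    exact Nat.le_mul_of_pos_right _ (by omega)
  | succ m ih =>
    rw [← add_assoc, h.B_bb_succ, (sqrt_sq_add (by omega : m ≤ 2 * e)).2, pow_succ 2 m, mul_two,
      pow_add, ← mul_assoc]
    exact Nat.mul_le_mul (ih (by omega) (by omega)) (Nat.pow_le_pow_left (LL_mono (by omega)) _)

theorem exists_range (h : Scale Dn B θ) {s₀ j : ℕ} (hj : B (bb s₀) ≤ j) :
    ∃ s, s₀ ≤ s ∧ B (bb s) ≤ j ∧ j < B (bb (s + 1)) := by
  have hm : StrictMono fun s => B (bb s) := h.strictMono.comp bb_strictMono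
  have hex : ∃ s, j < B (bb s) := ⟨j + 1, lt_of_lt_of_le (Nat.lt_succ_self j) hm.le_apply⟩
  have h1 := Nat.find_spec hex
  have h2 : s₀ < Nat.find hex := hm.lt_iff_lt.1 (hj.trans_lt h1)
  obtain ⟨s, hs⟩ : ∃ s, Nat.find hex = s + 1 := ⟨Nat.find hex - 1, by omega⟩
  have h3 := Nat.find_min hex (show s < Nat.find hex by omega)
  rw [hs] at h1
  exact ⟨s, by omega, not_lt.1 h3, h1⟩

/-- Every large `j` lies in the range of a used window: if `B (bb s) ≤ j < B (bb (s+1))`, take the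
previous window if `s` is in the epoch of `s₀` or `2 e - 1 ≤ rr s`, and otherwise the last window
`e² - 1` of the previous epoch (`∑_{r ≤ 2e-2} 2^r < 2 · 2^(2e-2)`). -/
theorem exists_used (h : Scale Dn B θ) {s₀ j : ℕ} (hj : B (bb (s₀ + 1)) ≤ j) :
    ∃ s, Used s₀ s ∧ B (bb (s + 1)) ≤ j ∧
      j ≤ B (bb (s + 1)) * LL (rr s + 1) ^ (2 * 2 ^ rr s) := by
  obtain ⟨s, hs, h1, h2⟩ := h.exists_range hj
  obtain ⟨s, rfl⟩ : ∃ s', s = s' + 1 := ⟨s - 1, by omega⟩
  have hs0 : s₀ ≤ s := by omega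
  have hprev : j ≤ B (bb (s + 1)) * LL (rr s + 1) ^ (2 * 2 ^ rr s) := by
    rw [h.B_bb_succ (s + 1)] at h2
    refine h2.le.trans (Nat.mul_le_mul_left _ ?_)
    have h3 := rr_succ_le s
    have h4 := sixteen_le_LL (rr s + 1)
    refine (Nat.pow_le_pow_left (LL_mono h3) _).trans (Nat.pow_le_pow_right (by omega) ?_)
    rw [← pow_succ']
    exact Nat.pow_le_pow_right (by norm_num) h3
  have m1 : Nat.sqrt s₀ ≤ Nat.sqrt s := Nat.sqrt_le_sqrt hs0
  have m2 : Nat.sqrt s ≤ Nat.sqrt (s + 1) := Nat.sqrt_le_sqrt (Nat.le_succ s)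
  by_cases he : Nat.sqrt (s + 1) = Nat.sqrt s₀
  · exact ⟨s, ⟨hs0, Or.inl (by omega)⟩, h1, hprev⟩
  obtain ⟨e, he'⟩ : ∃ e, Nat.sqrt (s + 1) = e + 1 := ⟨Nat.sqrt (s + 1) - 1, by omega⟩
  have hdec := eq_sq_add_rr (s + 1)
  have hle := rr_le (s + 1)
  rw [he'] at hdec hle
  by_cases hr : 2 * (e + 1) ≤ rr (s + 1) + 1
  · obtain ⟨r, hr'⟩ : ∃ r, rr (s + 1) = r + 1 := ⟨rr (s + 1) - 1, by omega⟩
    have hs' : s = (e + 1) ^ 2 + r := by omega
    have := sqrt_sq_add (e := e + 1) (r := r) (by omega)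
    rw [← hs'] at this
    exact ⟨s, ⟨hs0, Or.inr (by omega)⟩, h1, hprev⟩
  · have hsq : e ^ 2 + 2 * e + 1 = (e + 1) ^ 2 := by ring
    obtain ⟨k1, k2⟩ := sqrt_sq_add (e := e) (r := 2 * e) le_rfl
    have hs1 : s₀ < (e + 1) ^ 2 := Nat.sqrt_lt'.1 (by omega)
    refine ⟨e ^ 2 + 2 * e, ⟨by omega, Or.inr (by omega)⟩, ?_, ?_⟩
    · rw [hsq]
      exact (h.strictMono.monotone (bb_strictMono.monotone (by omega))).trans h1
    · rw [hsq, k2]
      have h3 := h.B_epoch (e := e + 1) (R := 2 * e + 1) (rr (s + 1) + 1) (by omega) (by omega)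
      rw [← add_assoc, ← hdec] at h3
      refine h2.le.trans (h3.trans (Nat.mul_le_mul_left _ ?_))
      have h4 := sixteen_le_LL (2 * e + 1)
      refine Nat.pow_le_pow_right (by omega) ?_
      rw [← pow_succ']
      exact Nat.pow_le_pow_right (by norm_num) (by omega)

end Scale

theorem Used.le_rr {s₀ s : ℕ} (h₀ : rr s₀ ≤ Nat.sqrt s₀) (h : Used s₀ s) : rr s₀ ≤ rr s := by
  obtain ⟨h1, h2⟩ := h
  have m1 : Nat.sqrt s₀ ≤ Nat.sqrt s := Nat.sqrt_le_sqrt h1
  by_cases he : Nat.sqrt s = Nat.sqrt s₀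
  · simp only [rr, he]
    omega
  · omega

/-- each value of `rr` is taken by at most three used windows -/
theorem sum_used_le {s₀ : ℕ} (h₀ : rr s₀ ≤ Nat.sqrt s₀) (n : ℕ) {g : ℕ → ℝ} (hg : ∀ r, 0 ≤ g r) :
    ∑ s ∈ (Finset.range n).filter (Used s₀), g (rr s) ≤ 3 * ∑ r ∈ Finset.Ico (rr s₀) n, g r := by
  have hmap : ∀ s ∈ (Finset.range n).filter (Used s₀), rr s ∈ Finset.Ico (rr s₀) n := by
    intro s hs
    rw [Finset.mem_filter, Finset.mem_range] at hs
    have : rr s ≤ s := Nat.sub_le _ _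
    exact Finset.mem_Ico.2 ⟨hs.2.le_rr h₀, by omega⟩
  rw [← Finset.sum_fiberwise_of_maps_to hmap, Finset.mul_sum]
  refine Finset.sum_le_sum fun r _ => ?_
  rw [Finset.sum_congr rfl (g := fun _ => g r) fun s hs => by rw [(Finset.mem_filter.1 hs).2],
    Finset.sum_const, nsmul_eq_mul]
  refine mul_le_mul_of_nonneg_right ?_ (hg r)
  have hsub : ((Finset.range n).filter (Used s₀)).filter (fun s => rr s = r) ⊆
      {Nat.sqrt s₀ ^ 2 + r, (r / 2) ^ 2 + r, (r / 2 + 1) ^ 2 + r} := by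
    intro s hs
    simp only [Finset.mem_filter] at hs
    obtain ⟨⟨-, -, hu⟩, hr⟩ := hs
    have hdec := eq_sq_add_rr s
    have hle := rr_le s
    rw [hr] at hdec hle
    simp only [Finset.mem_insert, Finset.mem_singleton]
    rcases hu with hu | hu
    · left; rw [← hu]; exact hdec
    · right
      rw [hr] at hu
      have : Nat.sqrt s = r / 2 ∨ Nat.sqrt s = r / 2 + 1 := by omega
      rcases this with h | h
      · left; rw [← h]; exact hdec
      · right; rw [← h]; exact hdec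
  exact_mod_cast (Finset.card_le_card hsub).trans Finset.card_le_three

end

end Crest.Agent.R113
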