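import Crest.Agent.R113.Level
import Crest.Agent.R113.Equi
import Crest.Agent.R113.Erg

/-!
# Row 113: a tilt with constant density and no links inside the blocks
-/

open MeasureTheory Filter Topology
open scoped InnerProductSpace BigOperators ENNReal

set_option linter.unusedSectionVars false

namespace Crest.Agent.R113

noncomputable section

open Classical

namespace Lev
variable {X : Type*} [MeasurableSpace X] {S : Sys X} (Λ : Lev S)

/-- One value of the slope.  `t = tr p`, `η = 1 / V`, `g, q` from `exists_equilibrium` with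
`ψ₀ = base m v`.  `Rel.mono` for `p → q` gives `∫ ψ P q ≤ ∫ ψ P p`, `ψ = -cum + v D / (2B) + g`,
`0 ≤ cum ≤ 3 B s ≤ ε V`; `∫ g P q - t ∫ g = ∫ g (avg P q - t) ≥ η ‖g‖² - ε' ‖g‖`, `∫ P p = t`.  With
`y = η ‖g‖₂ ≤ 1`, `a = ∫ D P q / (2B) ≥ -ε` (`P_mono`, `integral_D_mul_ge`, `E_small`):
`y² V + v a ≤ (ε + ε') y V + v ε + ε V`.  Hence `y² ≤ 7 ε` and `a ≤ 4 ε`. -/
theorem slope {p : S.Op} (hp : S.IsP p) (hinv : (1 - p) * (S.U 1 * S.L Λ.f) * p = 0) (m : ℕ)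
    {ε ε' V v : ℝ} (hε : 0 < ε) (hε1 : ε ≤ 1) (hε' : 0 < ε') (hε'1 : ε' ≤ ε) (hV0 : 0 < V)
    (hV : V ≤ 4 * Λ.W m) (hv₁ : V ≤ v) (hv₂ : v ≤ 2 * V) (hC : 3 * Λ.B m * Λ.s m ≤ ε * V)
    (hm : 5 / 2 ^ m ≤ ε)
    (hg : ∀ g : X → ℝ, Bdd g → S.BC (Λ.Z m) g →
      |∫ x, g x * (S.P p x - S.tr p) ∂S.μ| ≤ ε * Real.sqrt (∫ x, g x ^ 2 ∂S.μ))
    (hD : |∫ x, S.D (Λ.Z m) x * S.P p x ∂S.μ| ≤ ε * (2 * Λ.B m)) :
    ∃ (g : X → ℝ) (q : S.Op), Bdd g ∧ S.BC (Λ.Z m) g ∧ (∀ x, |g x| ≤ V) ∧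
      S.Tilt (fun x => Λ.base m v x + g x) p q ∧
      ∫ x, (g x / V - (S.avg (Λ.Z m) (S.P q) x - S.tr p)) ^ 2 ∂S.μ ≤ ε' ^ 2 ∧
      ∫ x, (S.avg (Λ.Z m) (S.P q) x - S.tr p) ^ 2 ∂S.μ ≤ 16 * ε ∧
      ∫ x, S.D (Λ.Z m) x * S.P q x ∂S.μ ≤ 8 * ε * Λ.B m := by
  have c := Λ.cut m
  obtain ⟨g, q, hgb, hBC, hgV, ht, hR⟩ :=
    Sys.exists_equilibrium c hp (Λ.bdd_base m v) (η := 1 / V) (by positivity) hε'
  rw [one_div_one_div] at hgV
  simp only [one_div, inv_mul_eq_div] at hR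
  have hB : (1 : ℝ) ≤ Λ.B m := by exact_mod_cast Λ.B_pos m
  have hPp := S.bdd_P p
  have hPq := S.bdd_P q
  have hDb := c.bdd_D
  have hcum := c.bdd_cum (Λ.bdd_low m)
  have hA : Bdd fun x => S.avg (Λ.Z m) (S.P q) x - S.tr p := (c.bdd_avg hPq).sub (Bdd.const _)
  have hG := hgb.div_const V
  have hG1 : ∀ x, (g x / V) ^ 2 ≤ 1 := fun x => by
    rw [div_pow, div_le_one (by positivity)]
    exact sq_le_sq' (abs_le.1 (hgV x)).1 (abs_le.1 (hgV x)).2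
  have h1 := Sys.Rel.mono ((Λ.bdd_base m v).add hgb) hp ht.1 ht.2.1 ht.2.2.1
  have e1 : ∀ x, (Λ.base m v x + g x) * (S.P p x - S.P q x) =
      S.cum (Λ.Z m) (Λ.low m) x * (S.P q x - S.P p x) +
        v / (2 * Λ.B m) * (S.D (Λ.Z m) x * S.P p x) - v / (2 * Λ.B m) * (S.D (Λ.Z m) x * S.P q x) +
        g x * (S.P p x - S.tr p) - (g x * S.P q x - g x * S.tr p) := fun x => by
    rw [base]
    ring
  have i1 := (hcum.mul (hPq.sub hPp)).integrable S.μ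
  have i2 := ((hDb.mul hPp).const_mul (v / (2 * Λ.B m))).integrable S.μ
  have i3 := ((hDb.mul hPq).const_mul (v / (2 * Λ.B m))).integrable S.μ
  have i4 := (hgb.mul (hPp.sub (Bdd.const (S.tr p)))).integrable S.μ
  have i5 := (hgb.mul hPq).integrable S.μ
  have i6 := (hgb.mul_const (S.tr p)).integrable S.μ
  simp only [e1] at h1
  rw [integral_sub (((i1.fun_add i2).sub' i3).fun_add i4) (i5.sub' i6),
    integral_add ((i1.fun_add i2).sub' i3) i4, integral_sub (i1.fun_add i2) i3, integral_add i1 i2,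
    integral_sub i5 i6, integral_const_mul, integral_const_mul, c.integral_BC_mul hgb hBC hPq,
    ← integral_sub ((hgb.mul (c.bdd_avg hPq)).integrable S.μ) i6] at h1
  have b1 : ∫ x, S.cum (Λ.Z m) (Λ.low m) x * (S.P q x - S.P p x) ∂S.μ ≤ ε * V := by
    refine (integral_mono i1 (integrable_const (ε * V)) fun x => ?_).trans (by simp)
    have e2 := c.cum_le (Λ.s_nonneg m) (Λ.low_le m) x
    have e3 := Sys.Cut.cum_nonneg (S := S) (Z := Λ.Z m) (Λ.low_nonneg m) x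
    push_cast at e2
    simp only
    nlinarith [S.P_nonneg p x, S.P_le_one q x]
  have b2 : ∫ x, g x * (S.P p x - S.tr p) ∂S.μ ≤ ε * V := by
    refine (le_abs_self _).trans ((hg g hgb hBC).trans (mul_le_mul_of_nonneg_left ?_ hε.le))
    rw [Real.sqrt_le_left hV0.le]
    exact (integral_mono ((hgb.pow 2).integrable S.μ) (integrable_const (V ^ 2)) fun x =>
      sq_le_sq' (abs_le.1 (hgV x)).1 (abs_le.1 (hgV x)).2).trans (by simp)
  have iG := (hG.pow 2).integrable S.μ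
  have iR := ((hG.sub hA).pow 2).integrable S.μ
  have b3 : V * (∫ x, (g x / V) ^ 2 ∂S.μ - ε') ≤
      ∫ x, (g x * S.avg (Λ.Z m) (S.P q) x - g x * S.tr p) ∂S.μ := by
    have e2 : ∀ x, V * (g x / V) ^ 2 - V * ε' / 2 -
        V / (2 * ε') * (g x / V - (S.avg (Λ.Z m) (S.P q) x - S.tr p)) ^ 2 ≤
        g x * S.avg (Λ.Z m) (S.P q) x - g x * S.tr p := fun x => by
      have e3 := hG1 x
      have e4 : g x = V * (g x / V) := by field_simp
      rw [← mul_sub]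
      generalize S.avg (Λ.Z m) (S.P q) x - S.tr p = A
      generalize g x / V = G at e3 e4
      rw [e4, ← sub_nonneg, show V * G * A - (V * G ^ 2 - V * ε' / 2 - V / (2 * ε') * (G - A) ^ 2) =
        V / (2 * ε') * ((ε' * G - (G - A)) ^ 2 + ε' ^ 2 * (1 - G ^ 2)) by
          field_simp
          ring]
      have e5 : 0 ≤ 1 - G ^ 2 := by linarith
      positivity
    refine le_trans ?_ (integral_mono (((iG.const_mul V).sub' (integrable_const _)).sub'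
      (iR.const_mul _)) (((hgb.mul (c.bdd_avg hPq)).integrable S.μ).sub' i6) e2)
    rw [integral_sub ((iG.const_mul V).sub' (integrable_const _)) (iR.const_mul _),
      integral_sub (iG.const_mul V) (integrable_const _), integral_const_mul, integral_const_mul]
    have e3 := mul_le_mul_of_nonneg_left hR (by positivity : 0 ≤ V / (2 * ε'))
    have e4 : V / (2 * ε') * ε' ^ 2 = V * ε' / 2 := by field_simp
    simp only [integral_const, probReal_univ, smul_eq_mul, one_mul]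
    linarith
  have b4 : -(ε * (2 * Λ.B m)) ≤ ∫ x, S.D (Λ.Z m) x * S.P q x ∂S.μ := by
    refine le_trans ?_ (c.integral_D_mul_ge hPq.1 (S.P_nonneg q) (S.P_le_one q) (Λ.E_meas m)
      (Λ.P_mono hp hinv m (hV0.le.trans hv₁) hv₂ hV hgb hBC hgV ht))
    have e2 := mul_le_mul_of_nonneg_left (Λ.E_small m) (sq_nonneg ((3 * Λ.B m : ℕ) : ℝ))
    have e3 : ((3 * Λ.B m : ℕ) : ℝ) ^ 2 * (1 / (2 ^ m * Λ.B m)) = 9 / 5 * Λ.B m * (5 / 2 ^ m) := by
      push_cast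
      field_simp
      norm_num
    have e4 := mul_le_mul_of_nonneg_left hm (by positivity : (0 : ℝ) ≤ 9 / 5 * Λ.B m)
    nlinarith
  have b5 := (abs_le.1 hD).2
  have b6 : ∫ x, (S.avg (Λ.Z m) (S.P q) x - S.tr p) ^ 2 ∂S.μ ≤
      2 * ∫ x, (g x / V) ^ 2 ∂S.μ + 2 * ε' ^ 2 := by
    refine (integral_mono ((hA.pow 2).integrable S.μ) ((iG.const_mul 2).fun_add (iR.const_mul 2))
      fun x => ?_).trans ?_
    · simp only
      nlinarith [sq_nonneg (2 * (g x / V) - (S.avg (Λ.Z m) (S.P q) x - S.tr p))]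
    · rw [integral_add (iG.const_mul 2) (iR.const_mul 2), integral_const_mul, integral_const_mul]
      linarith
  have b7 : 0 ≤ ∫ x, (g x / V) ^ 2 ∂S.μ := integral_nonneg fun x => sq_nonneg _
  refine ⟨g, q, hgb, hBC, hgV, ht, hR, ?_⟩
  generalize ∫ x, (g x / V) ^ 2 ∂S.μ = Y at *
  generalize ∫ x, S.D (Λ.Z m) x * S.P q x ∂S.μ = dq at *
  generalize ∫ x, S.D (Λ.Z m) x * S.P p x ∂S.μ = dp at *
  have hv0 : 0 < v := hV0.trans_le hv₁
  have hκ : 0 < v / (2 * Λ.B m) := by positivity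
  have e2 : v / (2 * Λ.B m) * (ε * (2 * Λ.B m)) = ε * v := by field_simp
  have e3 := mul_le_mul_of_nonneg_left b5 hκ.le
  have e4 := mul_le_mul_of_nonneg_left b4 hκ.le
  have e5 := mul_le_mul_of_nonneg_left hε'1 hV0.le
  have e6 := mul_le_mul_of_nonneg_left hv₂ hε.le
  have e7 := mul_le_mul_of_nonneg_left hv₁ hε.le
  have e8 := mul_nonneg hV0.le b7
  constructor
  · have e9 : Y ≤ 7 * ε := le_of_mul_le_mul_left (by nlinarith) hV0
    nlinarith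
  · refine le_of_mul_le_mul_left ?_ hκ
    nlinarith

/-- Take `m` large (`erg_small` for `P p`; `μ (Z m) ≤ μ {tp < 1} ≤ 2 / B m + 2 / 2^m`, `2^m ≤ B m`),
`n₀ = (m + 1) (3 ⌈s m⌉₊ + B m + 1)`, `V = n₀ B m ≤ 4 W m`, and apply `slope` to `v_k = V + k B m`,
`k = 0, …, n₀`, with `ε' = min ε (ε / V)`.  The numbers `a_k = ∫ D P q_k / (2B)` lie in
`[-3/2, 3/2]`, so `a_k - a_{k+1} ≤ 3 / n₀` for some `k < n₀`.  For `χ = ψ_{k+1} - ψ_k = Δ g + D / 2`,
`∫ χ (P q_k - P q_{k+1}) ≤ -‖Δ g‖² / V + 2 ε' ‖Δ g‖ + B (a_k - a_{k+1}) ≤ 4 ε + 3 / (m + 1)`, and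
`χ` increases by `j` along a link `0 < j ≤ tp` (`BC_shift`, `D_shift`): use `Rel.mono_links`. -/
theorem stage {p : S.Op} (hp : S.IsP p) (hinv : (1 - p) * (S.U 1 * S.L Λ.f) * p = 0) {e : ℝ}
    (he : 0 < e) :
    ∃ m₀ : ℕ, ∀ m, m₀ ≤ m → ∃ (ψ : X → ℝ) (q : S.Op), Bdd ψ ∧ (∀ x, |ψ x| ≤ 20 * Λ.W m) ∧
      S.Tilt ψ p q ∧ (∀ᵐ x ∂S.μ, x ∉ Λ.Z m → x ∉ Λ.E m → S.P q x ≤ S.P q (S.σ 1 x)) ∧
      ∫ x, (S.avg (Λ.Z m) (S.P q) x - S.tr p) ^ 2 ∂S.μ ≤ e ^ 2 ∧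
      ∫ x, S.D (Λ.Z m) x * S.P q x ∂S.μ ≤ e * Λ.B m ∧
      S.lk q (fun y => if 0 < y.2 ∧ y.2 ≤ S.tp (Λ.Z m) y.1 then 1 else 0) ≤ e := by
  obtain ⟨ε, hε, hε1, hε2, hε3⟩ : ∃ ε : ℝ, 0 < ε ∧ ε ≤ 1 ∧ 16 * ε ≤ e ^ 2 ∧ 8 * ε ≤ e :=
    ⟨min 1 (min (e ^ 2 / 16) (e / 8)), by positivity, min_le_left _ _,
      by linarith [(min_le_right 1 _).trans (min_le_left (e ^ 2 / 16) (e / 8))],
      by linarith [(min_le_right 1 _).trans (min_le_right (e ^ 2 / 16) (e / 8))]⟩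
  obtain ⟨δ, hδ, C, hC⟩ := Sys.erg_small Λ.zero Λ.erg (S.bdd_P p) (ε := ε / 3) (by positivity)
  refine ⟨⌈5 / ε + 4 / δ + |C| / ε + 24 / e⌉₊, fun m hm => ?_⟩
  have c := Λ.cut m
  have hK : 5 / ε + 4 / δ + |C| / ε + 24 / e ≤ (m : ℝ) + 1 := by
    linarith [Nat.ceil_le.1 hm]
  have k1 : (0 : ℝ) < 5 / ε := by positivity
  have k2 : (0 : ℝ) < 4 / δ := by positivity
  have k3 : (0 : ℝ) ≤ |C| / ε := by positivity
  have k4 : (0 : ℝ) < 24 / e := by positivity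
  have m1 : 5 ≤ ((m : ℝ) + 1) * ε := (div_le_iff₀ hε).1 (by linarith)
  have m2 : 4 ≤ ((m : ℝ) + 1) * δ := (div_le_iff₀ hδ).1 (by linarith)
  have m3 : |C| ≤ ((m : ℝ) + 1) * ε := (div_le_iff₀ hε).1 (by linarith)
  have m4 : 24 ≤ ((m : ℝ) + 1) * e := (div_le_iff₀ he).1 (by linarith)
  have h2 : (m : ℝ) + 1 ≤ 2 ^ m := by exact_mod_cast Nat.lt_two_pow_self (n := m)
  have hB2 : (2 : ℝ) ^ m ≤ Λ.B m := by
    have e1 := Λ.B_pow_le (Nat.zero_le m)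
    have e2 : (1 : ℝ) ≤ Λ.B 0 := by exact_mod_cast Λ.B_pos 0
    rw [Nat.sub_zero] at e1
    exact (le_mul_of_one_le_right (by positivity) e2).trans e1
  have hm0 : (0 : ℝ) < m + 1 := by positivity
  have hB0 : (0 : ℝ) < Λ.B m := by linarith
  have hZ : S.μ.real (Λ.Z m) ≤ δ := by
    have e1 : S.μ.real (Λ.Z m) ≤ S.μ.real {x | S.tp (Λ.Z m) x < 1} :=
      measureReal_mono fun x hx => by simp [c.tp_eq_zero hx]
    have e2 := Λ.short m 1
    have e3 : (2 : ℝ) * (1 : ℕ) / Λ.B m ≤ δ / 2 := by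
      rw [div_le_iff₀ hB0]
      push_cast
      nlinarith
    have e4 : (2 : ℝ) / 2 ^ m ≤ δ / 2 := by
      rw [div_le_iff₀ (by positivity)]
      nlinarith
    linarith
  obtain ⟨hC1, hC2⟩ := hC _ _ c hZ
  rw [hp.integral_P] at hC1
  obtain ⟨n₀, hn₁, hn₂, hn₃⟩ : ∃ n₀ : ℕ, (n₀ : ℝ) ≤ 4 * (m + 1) * (Λ.s m + Λ.B m + 1) ∧
      (m + 1) * (3 * Λ.s m) ≤ n₀ ∧ ((m : ℝ) + 1) * Λ.B m ≤ n₀ := by
    have e1 := Nat.le_ceil (Λ.s m)
    have e2 := (Nat.ceil_lt_add_one (Λ.s_nonneg m)).le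
    have e3 := Λ.s_nonneg m
    refine ⟨(m + 1) * (3 * ⌈Λ.s m⌉₊ + Λ.B m + 1), ?_, ?_, ?_⟩ <;> push_cast <;> nlinarith
  have hn0 : (0 : ℝ) < n₀ := lt_of_lt_of_le (by positivity) hn₃
  obtain ⟨V, hV⟩ : ∃ V : ℝ, V = n₀ * Λ.B m := ⟨_, rfl⟩
  have hV0 : 0 < V := by rw [hV]; positivity
  have hVW : V ≤ 4 * Λ.W m := by
    rw [hV, W]
    nlinarith
  have hv₁ : ∀ k : ℕ, V ≤ V + k * Λ.B m := fun k => le_add_of_nonneg_right (by positivity)
  have hv₂ : ∀ k : ℕ, k ≤ n₀ → V + k * Λ.B m ≤ 2 * V := fun k hk => by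
    have : (k : ℝ) ≤ n₀ := by exact_mod_cast hk
    rw [hV]
    nlinarith
  obtain ⟨ε', hε', hε'1, hε'2⟩ : ∃ ε' : ℝ, 0 < ε' ∧ ε' ≤ ε ∧ ε' * V ≤ ε :=
    ⟨min ε (ε / V), by positivity, min_le_left _ _, (le_div_iff₀ hV0).1 (min_le_right _ _)⟩
  have hs := fun (k : ℕ) (hk : k ≤ n₀) => Λ.slope hp hinv m hε hε1 hε' hε'1 hV0 hVW (hv₁ k)
    (hv₂ k hk) (by
      have e1 := Λ.s_nonneg m
      have e2 := mul_le_mul_of_nonneg_left hn₂ (mul_pos hε hB0).le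
      have e3 := mul_le_mul_of_nonneg_right m1 (mul_nonneg hB0.le e1)
      rw [hV]
      nlinarith [mul_nonneg hB0.le e1])
    (by
      rw [div_le_iff₀ (by positivity)]
      nlinarith)
    (fun g h1 h2 => (hC1 g h1 h2).trans (mul_le_mul_of_nonneg_right (by linarith)
      (Real.sqrt_nonneg _)))
    (hC2.trans (by
      push_cast
      nlinarith [le_abs_self C]))
  choose! g q hgb hBC hgV ht hR hA hD using hs
  have hd : ∀ k, |∫ x, S.D (Λ.Z m) x * S.P (q k) x ∂S.μ| ≤ 3 * Λ.B m := fun k => by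
    have e1 := norm_integral_le_of_norm_le_const (μ := S.μ) (C := 3 * Λ.B m)
      (f := fun x => S.D (Λ.Z m) x * S.P (q k) x) (Eventually.of_forall fun x => by
        have e2 := c.abs_D_le x
        push_cast at e2
        rw [Real.norm_eq_abs, abs_mul, abs_of_nonneg (S.P_nonneg _ x)]
        exact (mul_le_of_le_one_right (abs_nonneg _) (S.P_le_one _ x)).trans e2)
    simpa using e1
  obtain ⟨k, hk, hdk⟩ : ∃ k ∈ Finset.range n₀, ∫ x, S.D (Λ.Z m) x * S.P (q k) x ∂S.μ -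
      ∫ x, S.D (Λ.Z m) x * S.P (q (k + 1)) x ∂S.μ ≤ 6 * Λ.B m / n₀ := by
    refine Finset.exists_le_of_sum_le ⟨0, Finset.mem_range.2 (by exact_mod_cast hn0)⟩ ?_
    rw [Finset.sum_range_sub' fun k => ∫ x, S.D (Λ.Z m) x * S.P (q k) x ∂S.μ, Finset.sum_const,
      Finset.card_range, nsmul_eq_mul, mul_div_cancel₀ _ hn0.ne']
    linarith [(abs_le.1 (hd 0)).2, (abs_le.1 (hd n₀)).1]
  have hk1 : k + 1 ≤ n₀ := Finset.mem_range.1 hk
  have hk0 : k ≤ n₀ := by omega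
  have hv0 := hV0.le.trans (hv₁ k)
  have hψ := (Λ.bdd_base m (V + k * Λ.B m)).add (hgb k hk0)
  refine ⟨_, q k, hψ, Λ.abs_base_add_le m hv0 (hv₂ k hk0) hVW (hgV k hk0), ht k hk0,
    Λ.P_mono hp hinv m hv0 (hv₂ k hk0) hVW (hgb k hk0) (hBC k hk0) (hgV k hk0) (ht k hk0),
    (hA k hk0).trans hε2, (hD k hk0).trans (mul_le_mul_of_nonneg_right hε3 hB0.le), ?_⟩
  have hrel := Sys.Tilt.rel hψ ((Λ.bdd_base m _).add (hgb _ hk1)) (ht k hk0) (ht _ hk1)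
  have e1 : ∀ x, Λ.base m (V + (k + 1 : ℕ) * Λ.B m) x + g (k + 1) x -
      (Λ.base m (V + k * Λ.B m) x + g k x) =
      g (k + 1) x - g k x + 1 / 2 * S.D (Λ.Z m) x := fun x => by
    simp only [base]
    push_cast
    field_simp
    ring
  simp only [e1] at hrel
  have hΔ := (hgb _ hk1).sub (hgb k hk0)
  have hΔ' : S.BC (Λ.Z m) fun x => g (k + 1) x - g k x := fun x hx => by
    simp only [hBC _ hk1 x hx, hBC _ hk0 x hx]
  have hχ := hΔ.add (c.bdd_D.const_mul (1 / 2))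
  have h3 := hrel.mono_links hχ (ht k hk0).1 (ht _ hk1).1 ((ht _ hk1).2.1.trans (ht k hk0).2.1.symm)
  refine le_trans (S.lk_mono _ ?_ ?_ fun y => ?_) (h3.trans ?_)
  · have m5 : MeasurableSet {y : X × ℤ | 0 < y.2} :=
      measurableSet_lt measurable_const measurable_snd
    have m6 : MeasurableSet {y : X × ℤ | y.2 ≤ S.tp (Λ.Z m) y.1} :=
      measurableSet_le measurable_snd ((measurable_of_countable (fun n : ℕ => (n : ℤ))).comp
        (c.meas_tp.comp measurable_fst))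
    exact Bdd.ite (p := fun y : X × ℤ => 0 < y.2 ∧ y.2 ≤ S.tp (Λ.Z m) y.1) (m5.inter m6)
      (Bdd.const (1 : ℝ)) (Bdd.const (0 : ℝ))
  · exact Bdd.ite (measurableSet_le ((hχ.1.comp measurable_fst).add_const 1)
      (hχ.1.comp S.meas_pt)) (Bdd.const _) (Bdd.const _)
  · obtain ⟨x, a⟩ := y
    split_ifs with h1 h2 h2
    · exact le_rfl
    · refine absurd ?_ h2
      obtain ⟨j, rfl⟩ := Int.eq_ofNat_of_zero_le h1.1.le
      have hj : j ≤ S.tp (Λ.Z m) x := Int.ofNat_le.1 h1.2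
      have hj' : (1 : ℝ) ≤ j := Nat.one_le_cast.2 (Int.natCast_pos.1 h1.1)
      simp only [c.BC_shift (hBC _ hk1) hj, c.BC_shift (hBC _ hk0) hj, c.D_shift hj]
      linarith
    · exact zero_le_one
    · exact le_rfl
  have hP := S.bdd_P (q k)
  have hP' := S.bdd_P (q (k + 1))
  have e2 : ∀ x, (g (k + 1) x - g k x + 1 / 2 * S.D (Λ.Z m) x) * (S.P (q k) x - S.P (q (k + 1)) x) =
      (g (k + 1) x - g k x) * (S.P (q k) x - S.P (q (k + 1)) x) +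
        1 / 2 * (S.D (Λ.Z m) x * S.P (q k) x - S.D (Λ.Z m) x * S.P (q (k + 1)) x) := fun x => by
    ring
  have i1 := (c.bdd_D.mul hP).integrable S.μ
  have i2 := (c.bdd_D.mul hP').integrable S.μ
  have iR := fun k hk => ((((hgb k hk).div_const V).sub ((c.bdd_avg (S.bdd_P (q k))).sub
    (Bdd.const (S.tr p)))).pow 2).integrable S.μ
  simp only [e2]
  rw [integral_add ((hΔ.mul (hP.sub hP')).integrable S.μ) ((i1.sub' i2).const_mul _),
    integral_const_mul, integral_sub i1 i2, c.integral_BC_mul hΔ hΔ' (hP.sub hP')]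
  have b1 : ∫ x, (g (k + 1) x - g k x) *
      S.avg (Λ.Z m) (fun x => S.P (q k) x - S.P (q (k + 1)) x) x ∂S.μ ≤ V * ε' ^ 2 := by
    refine (integral_mono ((hΔ.mul (c.bdd_avg (hP.sub hP'))).integrable S.μ)
      (((iR k hk0).const_mul (V / 2)).fun_add ((iR _ hk1).const_mul (V / 2))) fun x => ?_).trans ?_
    · have e3 : g k x = V * (g k x / V) := by field_simp
      have e4 : g (k + 1) x = V * (g (k + 1) x / V) := by field_simp
      simp only [Sys.Cut.avg_sub]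
      generalize g k x / V = G at e3
      generalize g (k + 1) x / V = G' at e4
      generalize S.avg (Λ.Z m) (S.P (q k)) x = A
      generalize S.avg (Λ.Z m) (S.P (q (k + 1))) x = A'
      rw [e3, e4, ← sub_nonneg, show V / 2 * (G - (A - S.tr p)) ^ 2 +
        V / 2 * (G' - (A' - S.tr p)) ^ 2 - (V * G' - V * G) * (A - A') =
        V * ((G' - G - (G' - A' - (G - A)) / 2) ^ 2 +
          (G - (A - S.tr p) + (G' - (A' - S.tr p))) ^ 2 / 4) by ring]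
      positivity
    · rw [integral_add ((iR k hk0).const_mul _) ((iR _ hk1).const_mul _), integral_const_mul,
        integral_const_mul]
      nlinarith [hR k hk0, hR _ hk1]
  have b2 : 6 * Λ.B m / n₀ ≤ e / 4 := by
    rw [div_le_iff₀ hn0]
    nlinarith
  have b3 : V * ε' ^ 2 ≤ ε := by nlinarith
  linarith

end Lev

end

end Crest.Agent.R113
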