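import Crest.Agent.R113.Link

/-!
# Row 113: tilting a projection by a positive function
-/

open MeasureTheory Filter Topology
open scoped InnerProductSpace BigOperators ENNReal

set_option linter.unusedSectionVars false

namespace Crest.Agent.R113

noncomputable section

open Classical

namespace Sys
variable {X : Type*} [MeasurableSpace X] {S : Sys X}

theorem Rel.eq_mul {R : X → ℝ} {q r : S.Op} (h : S.Rel R q r) : r * (S.L R * q) = S.L R * q := by
  unfold Rel at h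
  rw [mul_assoc, sub_mul, one_mul, sub_eq_zero] at h
  exact h.symm

theorem tilt_U_neg_mul (n : ℤ) : S.U (-n) * S.U n = 1 := by
  rw [← S.U_add, neg_add_cancel, S.U_zero]

theorem tilt_U_mul_neg (n : ℤ) : S.U n * S.U (-n) = 1 := by
  rw [← S.U_add, add_neg_cancel, S.U_zero]

theorem tilt_bdd_sqrt {h : X → ℝ} (hh : Bdd h) : Bdd fun x => Real.sqrt (h x) := by
  obtain ⟨C, -, hC⟩ := hh.exists_pos
  exact Bdd.of_mem_Icc hh.meas.sqrt (a := 0) (b := Real.sqrt C) (fun _ => Real.sqrt_nonneg _)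
    fun x => Real.sqrt_le_sqrt ((le_abs_self _).trans (hC x))

/-- `R q = r R q`, so `(1 - s) R' R q = (1 - s) R' r R q = 0` -/
theorem Rel.trans {R R' : X → ℝ} (hR : Bdd R) (hR' : Bdd R') {q r s : S.Op} (h₁ : S.Rel R q r)
    (h₂ : S.Rel R' r s) : S.Rel (fun x => R' x * R x) q s := by
  unfold Rel at h₂ ⊢
  rw [S.L_mul hR' hR, mul_assoc, mul_assoc, ← h₁.eq_mul, ← mul_assoc, ← mul_assoc, h₂, zero_mul]

theorem Rel.const_mul {R : X → ℝ} (hR : Bdd R) {q r : S.Op} (h : S.Rel R q r) (c : ℝ) :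
    S.Rel (fun x => c * R x) q r := by
  unfold Rel at h ⊢
  rw [S.L_mul (Bdd.const c) hR, S.L_const, smul_mul_assoc, one_mul, mul_smul_comm, smul_mul_assoc,
    h, smul_zero]

/-- take adjoints -/
theorem Rel.compl {R : X → ℝ} (hR : Bdd R) {q r : S.Op} (hq : S.IsP q) (hr : S.IsP r)
    (h : S.Rel R q r) : S.Rel R (1 - r) (1 - q) := by
  unfold Rel at h ⊢
  have := congrArg star h
  rw [star_mul, star_mul, hq.star_eq, hr.one_sub.star_eq, S.star_L hR, star_zero] at this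
  rw [sub_sub_cancel, mul_assoc, this]

theorem Rel.cj {R : X → ℝ} (hR : Bdd R) {q r : S.Op} (h : S.Rel R q r) (n : ℤ) :
    S.Rel (fun x => R (S.σ n x)) (S.cj n q) (S.cj n r) := by
  unfold Rel at h ⊢
  have h1 : S.L (fun x => R (S.σ n x)) = S.U (-n) * S.L R * S.U n := by
    rw [mul_assoc, S.L_mul_U hR, ← mul_assoc, tilt_U_neg_mul, one_mul]
  have h2 : 1 - S.cj n r = S.U (-n) * (1 - r) * S.U n := by
    rw [mul_sub, sub_mul, mul_one, tilt_U_neg_mul, Sys.cj]
  have h3 : ∀ A : S.Op, S.U n * (S.U (-n) * A) = A := fun A => by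
    rw [← mul_assoc, tilt_U_mul_neg, one_mul]
  rw [h1, h2, Sys.cj]
  simp only [mul_assoc, h3]
  rw [← mul_assoc (1 - r), ← mul_assoc ((1 - r) * S.L R), h, zero_mul, mul_zero]

/-- an invariant projection is invariant under the powers `U n * L (wt f n)` -/
theorem rel_wt {f : X → ℝ} (hf : Bdd f) {p : S.Op} (hp : (1 - p) * (S.U 1 * S.L f) * p = 0)
    (n : ℕ) (hn : 1 ≤ n) : S.Rel (S.wt f n) p (S.cj n p) := by
  have h1 : p * (S.U 1 * S.L f * p) = S.U 1 * S.L f * p := by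
    rw [mul_assoc (1 - p), sub_mul, one_mul, sub_eq_zero] at hp
    exact hp.symm
  have h2 : (1 - p) * (S.U 1 * S.L f) ^ n * p = 0 := by
    induction n, hn using Nat.le_induction with
    | base => rwa [pow_one]
    | succ n _ ih =>
      rw [pow_succ, ← mul_assoc, mul_assoc _ _ p, ← h1, ← mul_assoc, ih, zero_mul]
  rw [S.T_pow hf] at h2
  have h3 : 1 - S.cj n p = S.U (-n) * (1 - p) * S.U n := by
    rw [mul_sub, sub_mul, mul_one, tilt_U_neg_mul, Sys.cj]
  unfold Rel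
  rw [h3]
  simp only [mul_assoc] at h2 ⊢
  rw [h2, mul_zero]

theorem tilt_proj {e : S.Op} (he : e ∈ S.alg) (hee : e * e = e) :
    ∃ q', S.IsP q' ∧ q' * e = e ∧ e * q' = q' := by
  set K : Submodule ℂ S.H := (1 - e : S.Op).ker with hK
  have : CompleteSpace K := (ContinuousLinearMap.isClosed_ker (1 - e : S.Op)).completeSpace_coe
  have mem : ∀ ξ, ξ ∈ K ↔ e ξ = ξ := fun ξ => by
    rw [hK, LinearMap.mem_ker]
    change (1 - e : S.Op) ξ = 0 ↔ _
    rw [sub_apply, one_apply_eq_self, sub_eq_zero, eq_comm]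
  have hsp : IsStarProjection K.starProjection := isStarProjection_starProjection
  have inv : ∀ A : S.Op, A * e = e * A →
      K.starProjection * (A * K.starProjection) = A * K.starProjection := by
    intro A hA
    ext1 ξ
    simp only [mul_apply_eq_comp]
    rw [Submodule.starProjection_eq_self_iff, mem, ← mul_apply_eq_comp, ← hA,
      mul_apply_eq_comp, (mem _).1 (K.starProjection_apply_mem ξ)]
  have comm : ∀ A : S.Op, A * e = e * A → A * star e = star e * A →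
      A * K.starProjection = K.starProjection * A := by
    intro A h1 h2
    have h3 : star A * e = e * star A := by
      have := congrArg star h2
      rw [star_mul, star_mul, star_star] at this
      exact this.symm
    have h4 := congrArg star (inv _ h3)
    rw [star_mul, star_mul, star_star, hsp.isSelfAdjoint.star_eq] at h4
    rw [← inv A h1, ← mul_assoc, h4]
  have he1 := S.mem_alg.1 he
  have he2 := S.mem_alg.1 (star_mem he)
  refine ⟨K.starProjection, ⟨S.mem_alg.2 ⟨fun h hh => comm _ (he1.1 h hh) (he2.1 h hh),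
    fun k => comm _ (he1.2 k) (he2.2 k)⟩, hsp⟩, ?_, ?_⟩
  · ext1 ξ
    rw [mul_apply_eq_comp, Submodule.starProjection_eq_self_iff, mem,
      ← mul_apply_eq_comp, hee]
  · ext1 ξ
    rw [mul_apply_eq_comp, (mem _).1 (K.starProjection_apply_mem ξ)]

/-- Existence of the tilt.  With `a = L (exp (-ψ))`, `a⁻¹ = L (exp ψ)`, the idempotent
`e = a q a⁻¹ ∈ alg` has closed range `K = ker (1 - e)`; let `q'` be the orthogonal projection onto `K`.
`K` is invariant under the (adjoint closed) generators of the right action, so `q'` commutes with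
them.  `q' e = e`, `e q' = q'` give the two relations and `τ q' = τ (e q') = τ (q' e) = τ e = τ q`. -/
theorem exists_tilt {ψ : X → ℝ} (hψ : Bdd ψ) {q : S.Op} (hq : S.IsP q) : ∃ q', S.Tilt ψ q q' := by
  have ha : Bdd fun x => Real.exp (-ψ x) := hψ.neg.exp
  have hb : Bdd fun x => Real.exp (ψ x) := hψ.exp
  have hba : S.L (fun x => Real.exp (ψ x)) * S.L (fun x => Real.exp (-ψ x)) = 1 := by
    rw [← S.L_mul hb ha, ← S.L_one]
    congr 1
    funext x
    rw [← Real.exp_add, add_neg_cancel, Real.exp_zero]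
  have ham := S.L_mem ha
  have hbm := S.L_mem hb
  unfold Tilt Rel
  set a := S.L fun x => Real.exp (-ψ x)
  set b := S.L fun x => Real.exp (ψ x)
  have hba' : ∀ A : S.Op, b * (a * A) = A := fun A => by rw [← mul_assoc, hba, one_mul]
  have hqq : ∀ A : S.Op, q * (q * A) = q * A := fun A => by rw [← mul_assoc, hq.mul_self]
  have he : a * (q * b) ∈ S.alg := mul_mem ham (mul_mem hq.1 hbm)
  obtain ⟨q', h1, h2, h3⟩ := tilt_proj he (by simp only [mul_assoc, hba', hqq])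
  refine ⟨q', h1, ?_, ?_, ?_⟩
  · rw [← h3, S.tr_mul_comm he h1.1, h2, S.tr_mul_comm ham (mul_mem hq.1 hbm), mul_assoc, hba,
      mul_one]
  · have : a * q = a * (q * b) * a := by simp only [mul_assoc, hba, mul_one]
    rw [mul_assoc, this, ← mul_assoc, sub_mul, one_mul, h2, sub_self, zero_mul]
  · rw [← h3]
    simp only [mul_assoc, hba']
    rw [sub_mul, one_mul, hqq, sub_self]

theorem Tilt.rel {ψ ψ' : X → ℝ} (hψ : Bdd ψ) (hψ' : Bdd ψ') {p q q' : S.Op} (h : S.Tilt ψ p q)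
    (h' : S.Tilt ψ' p q') : S.Rel (fun x => Real.exp (-(ψ' x - ψ x))) q q' := by
  have := Rel.trans hψ.exp hψ'.neg.exp h.2.2.2 h'.2.2.1
  convert this using 2 with x
  rw [← Real.exp_add]
  congr 1
  ring

/-- covariance of a tilted invariant projection -/
theorem Tilt.rel_cj {f ψ : X → ℝ} (hf : Bdd f) (hψ : Bdd ψ) {p q : S.Op}
    (hp : (1 - p) * (S.U 1 * S.L f) * p = 0) (h : S.Tilt ψ p q) (n : ℕ) :
    S.Rel (fun x => Real.exp (-ψ (S.σ n x)) * (S.wt f n x * Real.exp (ψ x))) q (S.cj n q) := by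
  have h1 := Rel.cj hψ.neg.exp h.2.2.1 (n : ℤ)
  have hb : Bdd fun x => Real.exp (-ψ (S.σ n x)) := hψ.neg.exp.comp (S.meas_σ n)
  rcases Nat.eq_zero_or_pos n with rfl | hn
  · have e : S.cj ((0 : ℕ) : ℤ) p = p := by simp [Sys.cj, S.U_zero]
    rw [e] at h1
    have := Rel.trans hψ.exp hb h.2.2.2 h1
    simpa [wt] using this
  · exact Rel.trans ((S.bdd_wt hf n).mul hψ.exp) hb
      (Rel.trans hψ.exp (S.bdd_wt hf n) h.2.2.2 (rel_wt hf hp n hn)) h1

/-- With `Y = w q w` one has `r Y = Y = Y r`; expand `0 ≤ ‖(r - Y) (L √h) Ω‖²`: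
`τ (h r) ≥ 2 τ (h Y) - τ (h Y²) = τ (h w q w) + τ (h w q (1 - w²) q w)`, and the last term is
`‖L √(1 - w²) q L (w √h) Ω‖²` (`norm_sq_eq_lk`). -/
theorem Rel.contr {w h : X → ℝ} (hw : Bdd w) (hw0 : ∀ x, 0 ≤ w x) (hw1 : ∀ x, w x ≤ 1)
    (hh : Bdd h) (hh0 : ∀ x, 0 ≤ h x) {q r : S.Op} (hq : S.IsP q) (hr : S.IsP r)
    (hrel : S.Rel w q r) :
    ∫ x, h x * w x ^ 2 * S.P q x ∂S.μ +
        S.lk q (fun p => (1 - w (S.σ p.2 p.1) ^ 2) * (w p.1 ^ 2 * h p.1)) ≤
      ∫ x, h x * S.P r x ∂S.μ := by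
  have hs : Bdd fun x => Real.sqrt (h x) := tilt_bdd_sqrt hh
  have hv0 : Bdd fun x => 1 - w x ^ 2 := (Bdd.const 1).sub (hw.pow 2)
  have hv : Bdd fun x => Real.sqrt (1 - w x ^ 2) := tilt_bdd_sqrt hv0
  have hw2 : ∀ x, 0 ≤ 1 - w x ^ 2 := fun x => by nlinarith [hw0 x, hw1 x]
  have hlk := norm_sq_eq_lk hq.1 hv (hw.mul hs)
  have e0 : (fun p : X × ℤ => Real.sqrt (1 - w (S.σ p.2 p.1) ^ 2) ^ 2 *
      (w p.1 * Real.sqrt (h p.1)) ^ 2) =
      fun p => (1 - w (S.σ p.2 p.1) ^ 2) * (w p.1 ^ 2 * h p.1) := by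
    funext p
    rw [Real.sq_sqrt (hw2 _), mul_pow, Real.sq_sqrt (hh0 _)]
  rw [e0] at hlk
  have eHH : S.L (fun x => Real.sqrt (h x)) * S.L (fun x => Real.sqrt (h x)) = S.L h := by
    rw [← S.L_mul hs hs]; congr 1; funext x; exact Real.mul_self_sqrt (hh0 x)
  have eVV : S.L (fun x => Real.sqrt (1 - w x ^ 2)) * S.L (fun x => Real.sqrt (1 - w x ^ 2)) =
      1 - S.L w * S.L w := by
    rw [← S.L_mul hv hv, ← S.L_mul hw hw, ← S.L_one, ← S.L_sub (Bdd.const 1) (hw.mul hw)]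
    congr 1; funext x; rw [Real.mul_self_sqrt (hw2 x)]; ring
  have eP : S.L (fun x => h x * w x ^ 2) =
      S.L w * S.L (fun x => Real.sqrt (h x)) * (S.L (fun x => Real.sqrt (h x)) * S.L w) := by
    rw [← S.L_mul hw hs, ← S.L_mul hs hw, ← S.L_mul (hw.mul hs) (hs.mul hw)]
    congr 1; funext x
    have := Real.mul_self_sqrt (hh0 x)
    linear_combination (-w x ^ 2) * this
  rw [← hlk, ← hq.tr_L_mul (hh.mul (hw.pow 2)), ← hr.tr_L_mul hh, ← S.tr_star_mul_self,
    S.L_mul hw hs, eP, ← eHH]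
  have sW := S.star_L hw
  have sH := S.star_L hs
  have sV := S.star_L hv
  have mW := S.L_mem hw
  have mH := S.L_mem hs
  have hrW := hrel.eq_mul
  set W := S.L w
  set H := S.L fun x => Real.sqrt (h x)
  set V := S.L fun x => Real.sqrt (1 - w x ^ 2)
  have hWr : q * W * r = q * W := by
    have := congrArg star hrW
    rwa [star_mul, star_mul, hq.star_eq, hr.star_eq, sW] at this
  have a1 : ∀ A : S.Op, r * (W * (q * A)) = W * (q * A) := fun A => by
    rw [← mul_assoc W, ← mul_assoc, hrW]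
  have a2 : ∀ A : S.Op, q * (W * (r * A)) = q * (W * A) := fun A => by
    rw [← mul_assoc, ← mul_assoc, hWr, mul_assoc]
  have a3 : ∀ A : S.Op, r * (r * A) = r * A := fun A => by rw [← mul_assoc, hr.mul_self]
  have a4 : ∀ A : S.Op, q * (q * A) = q * A := fun A => by rw [← mul_assoc, hq.mul_self]
  have a5 : ∀ A : S.Op, V * (V * A) = A - W * (W * A) := fun A => by
    rw [← mul_assoc, eVV, sub_mul, one_mul, mul_assoc]
  have t1 : S.tr (W * H * (H * W) * q) = S.tr (H * (W * (q * (W * H)))) := by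
    rw [mul_assoc, S.tr_mul_comm (mul_mem mW mH) (mul_mem (mul_mem mH mW) hq.1)]
    simp only [mul_assoc]
  have t2 : S.tr (H * H * r) = S.tr (H * (r * H)) := by
    rw [mul_assoc, S.tr_mul_comm mH (mul_mem mH hr.1), mul_assoc]
  have t3 : star (V * q * (W * H)) * (V * q * (W * H)) =
      H * (W * (q * (W * H))) - H * (W * (q * (W * (W * (q * (W * H)))))) := by
    simp only [star_mul, sW, sH, sV, hq.star_eq, mul_assoc, a5, mul_sub, a4]
  have t4 : star ((r - W * q * W) * H) * ((r - W * q * W) * H) =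
      H * (r * H) - H * (W * (q * (W * H))) - (H * (W * (q * (W * H))) -
        H * (W * (q * (W * (W * (q * (W * H))))))) := by
    simp only [star_mul, star_sub, sW, sH, hq.star_eq, hr.star_eq, mul_assoc, mul_sub, sub_mul,
      a1, a2, a3]
  have t5 := S.tr_star_mul_self ((r - W * q * W) * H)
  rw [t4, S.tr_sub, S.tr_sub] at t5
  rw [t1, t2, t3]
  nlinarith [sq_nonneg ‖((r - W * q * W) * H) S.Ω‖]

/-- `(1 - q') q = (1 - q') (1 - a) q` has 2-norm at most `‖1 - a‖₂` and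
`‖q - q'‖₂² = 2 τ q - 2 τ (q' q) = 2 ‖(1 - q') q‖₂²`. -/
theorem Rel.lip {a : X → ℝ} (ha : Bdd a) {q q' : S.Op} (hq : S.IsP q) (hq' : S.IsP q')
    (ht : S.tr q' = S.tr q) (hrel : S.Rel a q q') :
    ∫ x, (S.P q x - S.P q' x) ^ 2 ∂S.μ ≤ 2 * ∫ x, (1 - a x) ^ 2 ∂S.μ := by
  refine (hq.integral_P_sub_sq_le hq').trans ?_
  have hb : Bdd fun x => 1 - a x := (Bdd.const 1).sub ha
  have e1 : (1 - q') * q = (1 - q') * S.L (fun x => 1 - a x) * q := by
    unfold Rel at hrel
    rw [S.L_sub (Bdd.const 1) ha, S.L_one, mul_sub, mul_one, sub_mul (1 - q'), hrel, sub_zero]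
  have n1 : ‖((1 - q') * q) S.Ω‖ ≤ ‖S.L (fun x => 1 - a x) S.Ω‖ := by
    rw [e1]
    refine (S.norm_mul_Ω_le (mul_mem hq'.one_sub.1 (S.L_mem hb)) hq.1).trans ?_
    refine (mul_le_of_le_one_left (norm_nonneg _) hq.norm_le).trans ?_
    rw [mul_apply_eq_comp]
    refine (ContinuousLinearMap.le_opNorm _ _).trans ?_
    exact mul_le_of_le_one_left (norm_nonneg _) hq'.one_sub.norm_le
  have n2 : ‖((1 - q') * q) S.Ω‖ ^ 2 ≤ ‖S.L (fun x => 1 - a x) S.Ω‖ ^ 2 := by gcongr
  rw [S.norm_L_Ω_sq hb, ← S.tr_star_mul_self] at n2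
  have e2 : star ((1 - q') * q) * ((1 - q') * q) = q - q * (q' * q) := by
    rw [star_mul, hq.star_eq, hq'.one_sub.star_eq, mul_assoc, ← mul_assoc (1 - q'),
      hq'.one_sub.mul_self, sub_mul, one_mul, mul_sub, hq.mul_self]
  have e3 : star (q - q') * (q - q') = q - q' * q - (q * q' - q') := by
    rw [star_sub, hq.star_eq, hq'.star_eq, mul_sub, sub_mul, sub_mul, hq.mul_self, hq'.mul_self]
  have e4 : S.tr (q * (q' * q)) = S.tr (q' * q) := by
    rw [S.tr_mul_comm hq.1 (mul_mem hq'.1 hq.1), mul_assoc, hq.mul_self]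
  rw [e2, S.tr_sub, e4] at n2
  rw [← S.tr_star_mul_self, e3, S.tr_sub, S.tr_sub, S.tr_sub, S.tr_mul_comm hq.1 hq'.1, ht]
  linarith

/-- `|1 - exp (-y)| ≤ exp M * |y|` for `|y| ≤ M` -/
theorem Rel.lip_exp {χ : X → ℝ} (hχ : Measurable χ) {M : ℝ} (hM : ∀ x, |χ x| ≤ M) {q q' : S.Op}
    (hq : S.IsP q) (hq' : S.IsP q') (ht : S.tr q' = S.tr q)
    (hrel : S.Rel (fun x => Real.exp (-χ x)) q q') :
    ∫ x, (S.P q x - S.P q' x) ^ 2 ∂S.μ ≤ 2 * Real.exp M ^ 2 * ∫ x, χ x ^ 2 ∂S.μ := by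
  have hb : Bdd χ := Bdd.of_abs_le hχ hM
  refine (Rel.lip hb.neg.exp hq hq' ht hrel).trans ?_
  rw [mul_assoc, ← integral_const_mul (Real.exp M ^ 2)]
  refine mul_le_mul_of_nonneg_left ?_ (by norm_num : (0 : ℝ) ≤ 2)
  refine integral_mono ((((Bdd.const 1).sub hb.neg.exp).pow 2).integrable _)
    (((hb.pow 2).const_mul _).integrable _) fun x => ?_
  have h1 : |1 - Real.exp (-χ x)| ≤ Real.exp M * |χ x| := by
    have hM0 : 0 ≤ M := (abs_nonneg _).trans (hM x)
    have hE : 1 ≤ Real.exp M := Real.one_le_exp hM0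
    rcases le_total 0 (χ x) with h0 | h0
    · have a1 := Real.add_one_le_exp (-χ x)
      have a2 : Real.exp (-χ x) ≤ 1 := Real.exp_le_one_iff.2 (by linarith)
      rw [abs_of_nonneg h0, abs_of_nonneg (sub_nonneg.2 a2)]
      nlinarith
    · have a1 := Real.add_one_le_exp (χ x)
      have a2 : 1 ≤ Real.exp (-χ x) := Real.one_le_exp (by linarith)
      have a3 : Real.exp (-χ x) ≤ Real.exp M :=
        Real.exp_le_exp.2 ((neg_le_abs _).trans (hM x))
      have a4 : Real.exp (χ x) * Real.exp (-χ x) = 1 := by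
        rw [← Real.exp_add, add_neg_cancel, Real.exp_zero]
      rw [abs_of_nonpos h0, abs_of_nonpos (sub_nonpos.2 a2)]
      nlinarith
  have h2 := pow_le_pow_left₀ (abs_nonneg _) h1 2
  rw [sq_abs, mul_pow, sq_abs] at h2
  exact h2

end Sys

end

end Crest.Agent.R113
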